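/-
S0453 library, common definitions (helper23). See notes topic S0453 for the blueprint.
Everything here is plain Finset sums; no measure theory.
-/
import Crest.Prelude.Def_SwitchChain

set_option autoImplicit false

namespace Crest.Agent.Lib.Switch

open Finset Crest.SwitchChain

/-! ### Generic conditional averaging over the fibres of a key function -/

section Avg
variable {α β : Type*} [DecidableEq β]

/-- Average of `f` over the `κ`-fibre of `a` inside `Ω` (uniform conditional expectation). -/
noncomputable def avg (Ω : Finset α) (κ : α → β) (f : α → ℝ) (a : α) : ℝ :=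
  (∑ b ∈ Ω.filter (fun b => κ b = κ a), f b) / ((Ω.filter (fun b => κ b = κ a)).card : ℝ)

/-- `A = I - E`, the complementary projection of `avg`. -/
noncomputable def comp (Ω : Finset α) (κ : α → β) (f : α → ℝ) (a : α) : ℝ :=
  f a - avg Ω κ f a

end Avg

/-! ### Graph level definitions -/

variable {n : ℕ}

/-- The vertex pairs. -/
def pairs (n : ℕ) : Finset (Finset (Fin n)) := (univ : Finset (Fin n)).powersetCard 2

/-- The vertex triples. -/
def triples (n : ℕ) : Finset (Finset (Fin n)) := (univ : Finset (Fin n)).powersetCard 3

/-- `keyOf p G` = the edges of `G` not touching the vertex set `p` ("G - p"). -/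
def keyOf (p : Finset (Fin n)) (G : Finset (Edge n)) : Finset (Edge n) :=
  G.filter fun e => ∀ v ∈ p, v ∉ e.1

/-- All edges between `p` and `q`. -/
def cross (p q : Finset (Fin n)) : Finset (Edge n) :=
  univ.filter fun e => ∃ a ∈ p, ∃ b ∈ q, e.1 = s(a, b)

/-- Toggle all the edges between `p` and `q`. On a centre graph this is the switch of `(p,q)`. -/
def flip (p q : Finset (Fin n)) (G : Finset (Edge n)) : Finset (Edge n) :=
  symmDiff G (cross p q)

/-- `G` restricted to `cross p q` is a perfect matching of `p ∪ q`
(every vertex of `p ∪ q` lies on exactly one edge of `G` between `p` and `q`). -/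
def IsCentre (p q : Finset (Fin n)) (G : Finset (Edge n)) : Prop :=
  ∀ v ∈ p ∪ q, ((G ∩ cross p q).filter fun e => v ∈ e.1).card = 1

instance (p q : Finset (Fin n)) (G : Finset (Edge n)) : Decidable (IsCentre p q G) := by
  unfold IsCentre; infer_instance

/-- The `(p,q)` switch energy: sum over centre graphs of the squared gradient along the switch
(each unordered `{G, flip G}` appears twice). -/
noncomputable def eTerm (d : Fin n → ℕ) (p q : Finset (Fin n))
    (f : Finset (Edge n) → ℝ) : ℝ :=
  ∑ G ∈ (realizations d).filter (IsCentre p q), (f G - f (flip p q G)) ^ 2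

/-- `A_p f` on realizations. -/
noncomputable def Ap (d : Fin n → ℕ) (p : Finset (Fin n)) (f : Finset (Edge n) → ℝ)
    (G : Finset (Edge n)) : ℝ :=
  comp (realizations d) (keyOf p) f G

/-- The overlap term: over the blocks `K` of `p`, `(∑_{G ∈ K, G centre for (p,q)} A_p f G)² / #`. -/
noncomputable def zTerm (d : Fin n → ℕ) (p q : Finset (Fin n))
    (f : Finset (Edge n) → ℝ) : ℝ :=
  ∑ K ∈ (realizations d).image (keyOf p),
    (∑ G ∈ (realizations d).filter (fun G => keyOf p G = K ∧ IsCentre p q G), Ap d p f G) ^ 2 /
      (((realizations d).filter (fun G => keyOf p G = K ∧ IsCentre p q G)).card : ℝ)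

/-- The full switch energy `⟨f, L f⟩`, each unordered edge `{G, G'}` of the switch graph counted
once: `(1/4) ∑_{ordered disjoint (p,q)} eTerm`. -/
noncomputable def energy (d : Fin n → ℕ) (f : Finset (Edge n) → ℝ) : ℝ :=
  (1 / 4) * ∑ p ∈ pairs n, ∑ q ∈ (pairs n).filter (fun q => Disjoint p q), eTerm d p q f

end Crest.Agent.Lib.Switch
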