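/-
S0453 library: generic API of `avg`/`comp` (T1, helper25).
-/
import Crest.Agent.Lib.Switch.Defs

set_option autoImplicit false

namespace Crest.Agent.Lib.Switch

open Finset Crest.SwitchChain

section
variable {α β γ : Type*} [DecidableEq β] [DecidableEq γ] (Ω : Finset α) (κ : α → β)

theorem avg_congr_key {f : α → ℝ} {a a' : α} (h : κ a = κ a') : avg Ω κ f a = avg Ω κ f a' := by
  unfold avg; rw [h]

/-- The value of `avg` on the fibre `b`: explicit form. -/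
theorem avg_eq_of_key {f : α → ℝ} {a : α} {b : β} (h : κ a = b) :
    avg Ω κ f a = (∑ c ∈ Ω.filter (fun c => κ c = b), f c) /
      ((Ω.filter (fun c => κ c = b)).card : ℝ) := by
  subst h; rfl

/-- Summing `avg f * g` along a fibre. -/
theorem sum_fibre_avg_mul (f g : α → ℝ) (b : β) :
    ∑ a ∈ Ω.filter (fun a => κ a = b), avg Ω κ f a * g a =
      (∑ a ∈ Ω.filter (fun a => κ a = b), f a) * (∑ a ∈ Ω.filter (fun a => κ a = b), g a) /
        ((Ω.filter (fun a => κ a = b)).card : ℝ) := by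
  have : ∀ a ∈ Ω.filter (fun a => κ a = b), avg Ω κ f a * g a =
      ((∑ c ∈ Ω.filter (fun c => κ c = b), f c) /
        ((Ω.filter (fun c => κ c = b)).card : ℝ)) * g a := by
    intro a ha
    rw [avg_eq_of_key Ω κ (mem_filter.mp ha).2]
  rw [sum_congr rfl this, ← mul_sum]
  ring

/-- Splitting a sum over `Ω` along the fibres of `κ`. -/
theorem sum_eq_sum_fibres (F : α → ℝ) :
    ∑ a ∈ Ω, F a = ∑ b ∈ Ω.image κ, ∑ a ∈ Ω.filter (fun a => κ a = b), F a :=
  (sum_fiberwise_of_maps_to (g := κ) (fun a ha => mem_image_of_mem κ ha) F).symm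

/-- self-adjointness -/
theorem sum_avg_mul (f g : α → ℝ) :
    ∑ a ∈ Ω, avg Ω κ f a * g a = ∑ a ∈ Ω, f a * avg Ω κ g a := by
  rw [sum_eq_sum_fibres Ω κ, sum_eq_sum_fibres Ω κ (fun a => f a * avg Ω κ g a)]
  refine sum_congr rfl fun b _ => ?_
  rw [sum_fibre_avg_mul]
  have : ∑ a ∈ Ω.filter (fun a => κ a = b), f a * avg Ω κ g a =
      ∑ a ∈ Ω.filter (fun a => κ a = b), avg Ω κ g a * f a :=
    sum_congr rfl fun _ _ => mul_comm _ _
  rw [this, sum_fibre_avg_mul]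
  ring

theorem avg_avg (f : α → ℝ) {a : α} : avg Ω κ (avg Ω κ f) a = avg Ω κ f a := by
  by_cases h : (Ω.filter (fun c => κ c = κ a)).card = 0
  · unfold avg; rw [h]; simp
  · have hc : ((Ω.filter (fun c => κ c = κ a)).card : ℝ) ≠ 0 := by exact_mod_cast h
    rw [avg_eq_of_key Ω κ (f := avg Ω κ f) (rfl : κ a = κ a)]
    have : ∀ c ∈ Ω.filter (fun c => κ c = κ a), avg Ω κ f c = avg Ω κ f a :=
      fun c hc' => avg_congr_key Ω κ (mem_filter.mp hc').2
    rw [sum_congr rfl this, sum_const, nsmul_eq_mul]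
    field_simp

/-- sum of `comp` over a block is zero. -/
theorem sum_comp_fibre (f : α → ℝ) (b : β) :
    ∑ a ∈ Ω.filter (fun a => κ a = b), comp Ω κ f a = 0 := by
  unfold comp
  rw [sum_sub_distrib]
  have : ∀ a ∈ Ω.filter (fun a => κ a = b), avg Ω κ f a =
      (∑ c ∈ Ω.filter (fun c => κ c = b), f c) / ((Ω.filter (fun c => κ c = b)).card : ℝ) :=
    fun a ha => avg_eq_of_key Ω κ (mem_filter.mp ha).2
  rw [sum_congr rfl this, sum_const, nsmul_eq_mul]
  by_cases h : (Ω.filter (fun c => κ c = b)).card = 0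
  · rw [card_eq_zero] at h
    simp [h]
  · have hc : ((Ω.filter (fun c => κ c = b)).card : ℝ) ≠ 0 := by exact_mod_cast h
    field_simp
    ring

/-- `avg` of `comp` vanishes. -/
theorem avg_comp (f : α → ℝ) (a : α) : avg Ω κ (comp Ω κ f) a = 0 := by
  rw [avg_eq_of_key Ω κ (rfl : κ a = κ a), sum_comp_fibre]
  simp

/-- `∑ comp f * (function of the key)` vanishes. -/
theorem sum_comp_mul_key (f : α → ℝ) (h : β → ℝ) :
    ∑ a ∈ Ω, comp Ω κ f a * h (κ a) = 0 := by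
  rw [sum_eq_sum_fibres Ω κ]
  refine sum_eq_zero fun b _ => ?_
  have : ∀ a ∈ Ω.filter (fun a => κ a = b), comp Ω κ f a * h (κ a) = comp Ω κ f a * h b := by
    intro a ha
    rw [(mem_filter.mp ha).2]
  rw [sum_congr rfl this, ← sum_mul, sum_comp_fibre]
  simp

/-- `⟨A f, E g⟩ = 0`. -/
theorem sum_comp_mul_avg (f g : α → ℝ) :
    ∑ a ∈ Ω, comp Ω κ f a * avg Ω κ g a = 0 := by
  rw [sum_eq_sum_fibres Ω κ]
  refine sum_eq_zero fun b _ => ?_
  have : ∀ a ∈ Ω.filter (fun a => κ a = b), comp Ω κ f a * avg Ω κ g a =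
      comp Ω κ f a * ((∑ c ∈ Ω.filter (fun c => κ c = b), g c) /
        ((Ω.filter (fun c => κ c = b)).card : ℝ)) := by
    intro a ha
    rw [avg_eq_of_key Ω κ (mem_filter.mp ha).2]
  rw [sum_congr rfl this, ← sum_mul, sum_comp_fibre]
  simp

/-- `‖A f‖² = ⟨f, A f⟩` -/
theorem sum_comp_sq (f : α → ℝ) :
    ∑ a ∈ Ω, comp Ω κ f a ^ 2 = ∑ a ∈ Ω, f a * comp Ω κ f a := by
  have h := sum_comp_mul_avg Ω κ f f
  have : ∑ a ∈ Ω, f a * comp Ω κ f a - ∑ a ∈ Ω, comp Ω κ f a ^ 2 =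
      ∑ a ∈ Ω, comp Ω κ f a * avg Ω κ f a := by
    rw [← sum_sub_distrib]
    refine sum_congr rfl fun a _ => ?_
    unfold comp
    ring
  linarith

/-- `‖E f‖² = ⟨f, E f⟩` -/
theorem sum_avg_sq (f : α → ℝ) :
    ∑ a ∈ Ω, avg Ω κ f a ^ 2 = ∑ a ∈ Ω, f a * avg Ω κ f a := by
  have h := sum_comp_mul_avg Ω κ f f
  have : ∑ a ∈ Ω, f a * avg Ω κ f a - ∑ a ∈ Ω, avg Ω κ f a ^ 2 =
      ∑ a ∈ Ω, comp Ω κ f a * avg Ω κ f a := by
    rw [← sum_sub_distrib]
    refine sum_congr rfl fun a _ => ?_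
    unfold comp
    ring
  linarith

/-- The fibres of `avg` exist: `avg` of a function on a point of `Ω`: `E` preserves the mean. -/
theorem sum_avg (f : α → ℝ) : ∑ a ∈ Ω, avg Ω κ f a = ∑ a ∈ Ω, f a := by
  have h := sum_avg_mul Ω κ f (fun _ => 1)
  simp only [mul_one] at h
  rw [h]
  rw [sum_eq_sum_fibres Ω κ (fun a => f a * avg Ω κ (fun _ => 1) a),
    sum_eq_sum_fibres Ω κ f]
  refine sum_congr rfl fun b hb => ?_
  refine sum_congr rfl fun a ha => ?_
  have hne : (Ω.filter (fun c => κ c = κ a)).card ≠ 0 := by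
    rw [card_ne_zero]
    exact ⟨a, mem_filter.mpr ⟨(mem_filter.mp ha).1, rfl⟩⟩
  have hc : ((Ω.filter (fun c => κ c = κ a)).card : ℝ) ≠ 0 := by exact_mod_cast hne
  unfold avg
  simp only [sum_const, nsmul_eq_mul, mul_one]
  rw [div_self hc, mul_one]

/-- restriction: if the `κ`-fibres of points of `F ⊆ Ω` stay in `F`, averages agree. -/
theorem avg_restrict {F : Finset α} (hF : F ⊆ Ω)
    (hcl : ∀ a ∈ F, ∀ b ∈ Ω, κ b = κ a → b ∈ F) (f : α → ℝ) {a : α} (ha : a ∈ F) :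
    avg F κ f a = avg Ω κ f a := by
  have : F.filter (fun b => κ b = κ a) = Ω.filter (fun b => κ b = κ a) := by
    ext b
    simp only [mem_filter]
    exact ⟨fun h => ⟨hF h.1, h.2⟩, fun h => ⟨hcl a ha b h.1 h.2, h.2⟩⟩
  unfold avg
  rw [this]

/-- transport along a bijection. -/
theorem avg_bij {T : Finset γ} {κ' : γ → β} (φ : γ → α)
    (hφ : Set.BijOn φ T Ω) (hκ : ∀ t ∈ T, κ (φ t) = κ' t) (f : α → ℝ) {t : γ} (ht : t ∈ T) :
    avg Ω κ f (φ t) = avg T κ' (f ∘ φ) t := by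
  have hcard_sum : ∀ (b : β), ∑ c ∈ Ω.filter (fun c => κ c = b), f c =
      ∑ s ∈ T.filter (fun s => κ' s = b), (f ∘ φ) s := by
    intro b
    symm
    refine sum_bij (fun s _ => φ s) ?_ ?_ ?_ ?_
    · intro s hs
      rw [mem_filter] at hs ⊢
      refine ⟨hφ.mapsTo hs.1, ?_⟩
      rw [hκ s hs.1, hs.2]
    · intro s hs s' hs' h
      exact hφ.injOn (mem_filter.mp hs).1 (mem_filter.mp hs').1 h
    · intro c hc
      rw [mem_filter] at hc
      obtain ⟨s, hs, rfl⟩ := hφ.surjOn hc.1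
      refine ⟨s, mem_filter.mpr ⟨hs, ?_⟩, rfl⟩
      rw [← hκ s hs, hc.2]
    · intro s _
      rfl
  have hcard : ∀ (b : β), (Ω.filter (fun c => κ c = b)).card =
      (T.filter (fun s => κ' s = b)).card := by
    intro b
    symm
    refine card_bij (fun s _ => φ s) ?_ ?_ ?_
    · intro s hs
      rw [mem_filter] at hs ⊢
      refine ⟨hφ.mapsTo hs.1, ?_⟩
      rw [hκ s hs.1, hs.2]
    · intro s hs s' hs' h
      exact hφ.injOn (mem_filter.mp hs).1 (mem_filter.mp hs').1 h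
    · intro c hc
      rw [mem_filter] at hc
      obtain ⟨s, hs, rfl⟩ := hφ.surjOn hc.1
      exact ⟨s, mem_filter.mpr ⟨hs, by rw [← hκ s hs, hc.2]⟩, rfl⟩
  unfold avg
  rw [hκ t ht, hcard_sum, hcard]

end

end Crest.Agent.Lib.Switch
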