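import Crest.Prelude.Def_SwitchChain

/-!
# Connectivity of the switch graph (Taylor's theorem)

Any two graphs on `Fin n` with the same labeled degrees are connected by switches.
The proof processes vertices one at a time; at each vertex `x` it decreases the number of edges at
`x` where the two graphs disagree, by one switch in one of the two graphs (the one in which the
residual degree comparison permits it).
-/

set_option autoImplicit false

namespace Crest.Agent.SwitchConn

open Crest.SwitchChain Finset

variable {n : ℕ}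

/-- The edge with endpoints `x ≠ y`. -/
def edg (x y : Fin n) (h : x ≠ y) : Edge n := ⟨s(x, y), by simpa using h⟩

lemma edg_comm (x y : Fin n) (h : x ≠ y) : edg x y h = edg y x h.symm :=
  Subtype.ext Sym2.eq_swap

lemma edg_eq_iff {a b c d : Fin n} {h : a ≠ b} {h' : c ≠ d} :
    edg a b h = edg c d h' ↔ (a = c ∧ b = d) ∨ (a = d ∧ b = c) := by
  simp [edg, Subtype.ext_iff]

lemma mem_edg {a b v : Fin n} {h : a ≠ b} : v ∈ (edg a b h).1 ↔ v = a ∨ v = b := by
  simp [edg]

/-- Every edge containing `x` is `edg x u` for some `u ≠ x`. -/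
lemma exists_edg_of_mem {e : Edge n} {x : Fin n} (hx : x ∈ e.1) :
    ∃ (u : Fin n) (h : x ≠ u), e = edg x u h := by
  obtain ⟨u, hu⟩ := Sym2.mem_iff_exists.mp hx
  have hne : x ≠ u := by
    intro hxu
    apply e.2
    rw [hu, hxu]
    simp
  exact ⟨u, hne, Subtype.ext hu⟩

/-- One switch: pick four vertices, two perfect matchings on them, and replace the first (present)
by the second (absent). -/
def SwitchStep (G G' : Finset (Edge n)) : Prop :=
  ∃ S ∈ (univ : Finset (Fin n)).powersetCard 4, ∃ F ∈ pmSet S, ∃ F' ∈ (pmSet S).erase F,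
    F ⊆ G ∧ Disjoint F' G ∧ G' = G \ F ∪ F'

/-- The number of edges of `F` at `v` for `F` a perfect matching on `S`. -/
lemma card_filter_pm {S : Finset (Fin n)} {F : Finset (Edge n)} (hF : F ∈ pmSet S) (v : Fin n) :
    (F.filter fun e => v ∈ e.1).card = if v ∈ S then 1 else 0 := by
  rw [pmSet, mem_filter] at hF
  split_ifs with hv
  · exact hF.2.2 v hv
  · rw [card_eq_zero, filter_eq_empty_iff]
    intro e he hve
    exact hv (hF.2.1 e he v hve)

/-- A switch preserves all degrees. -/
lemma deg_of_switch {S : Finset (Fin n)} {F F' G : Finset (Edge n)}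
    (hF : F ∈ pmSet S) (hF' : F' ∈ pmSet S) (hsub : F ⊆ G) (hdisj : Disjoint F' G) (v : Fin n) :
    deg (G \ F ∪ F') v = deg G v := by
  unfold deg
  have hd : Disjoint (G \ F) F' := (hdisj.mono_right sdiff_subset).symm
  rw [filter_union, card_union_of_disjoint (disjoint_filter_filter hd), card_filter_pm hF' v,
    ← card_filter_pm hF v]
  rw [← card_union_of_disjoint (disjoint_filter_filter sdiff_disjoint), ← filter_union,
    sdiff_union_of_subset hsub]

lemma SwitchStep.deg_eq {G G' : Finset (Edge n)} (h : SwitchStep G G') (v : Fin n) :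
    deg G' v = deg G v := by
  obtain ⟨S, _, F, hF, F', hF', hsub, hdisj, rfl⟩ := h
  exact deg_of_switch hF (mem_of_mem_erase hF') hsub hdisj v

/-- An explicit matching of four distinct vertices is a perfect matching on them. -/
lemma pm_mem {a b c d : Fin n} (hab : a ≠ b) (hac : a ≠ c) (had : a ≠ d) (hbc : b ≠ c) (hbd : b ≠ d)
    (hcd : c ≠ d) : ({edg a b hab, edg c d hcd} : Finset (Edge n)) ∈ pmSet {a, b, c, d} := by
  classical
  rw [pmSet, mem_filter, mem_powersetCard]
  refine ⟨⟨subset_univ _, ?_⟩, ?_, ?_⟩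
  · apply card_pair
    rw [Ne, edg_eq_iff]
    tauto
  · intro e he v hv
    simp only [mem_insert, mem_singleton] at he ⊢
    rcases he with rfl | rfl <;> rw [mem_edg] at hv <;> tauto
  · intro v hv
    simp only [mem_insert, mem_singleton] at hv
    rw [card_eq_one]
    rcases hv with rfl | rfl | rfl | rfl
    · refine ⟨edg v b hab, ?_⟩
      ext e
      simp only [mem_filter, mem_insert, mem_singleton]
      constructor
      · rintro ⟨rfl | rfl, h⟩
        · rfl
        · rw [mem_edg] at h; exfalso; tauto
      · rintro rfl; exact ⟨Or.inl rfl, mem_edg.mpr (Or.inl rfl)⟩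
    · refine ⟨edg a v hab, ?_⟩
      ext e
      simp only [mem_filter, mem_insert, mem_singleton]
      constructor
      · rintro ⟨rfl | rfl, h⟩
        · rfl
        · rw [mem_edg] at h; exfalso; tauto
      · rintro rfl; exact ⟨Or.inl rfl, mem_edg.mpr (Or.inr rfl)⟩
    · refine ⟨edg v d hcd, ?_⟩
      ext e
      simp only [mem_filter, mem_insert, mem_singleton]
      constructor
      · rintro ⟨rfl | rfl, h⟩
        · rw [mem_edg] at h; exfalso; tauto
        · rfl
      · rintro rfl; exact ⟨Or.inr rfl, mem_edg.mpr (Or.inl rfl)⟩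
    · refine ⟨edg c v hcd, ?_⟩
      ext e
      simp only [mem_filter, mem_insert, mem_singleton]
      constructor
      · rintro ⟨rfl | rfl, h⟩
        · rw [mem_edg] at h; exfalso; tauto
        · rfl
      · rintro rfl; exact ⟨Or.inr rfl, mem_edg.mpr (Or.inr rfl)⟩

/-- The explicit switch. -/
lemma switchStep_mk {G : Finset (Edge n)} {a b c d : Fin n} (hab : a ≠ b) (hac : a ≠ c) (had : a ≠ d)
    (hbc : b ≠ c) (hbd : b ≠ d) (hcd : c ≠ d)
    (h1 : edg a b hab ∈ G) (h2 : edg c d hcd ∈ G) (h3 : edg a c hac ∉ G) (h4 : edg b d hbd ∉ G) :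
    SwitchStep G (G \ {edg a b hab, edg c d hcd} ∪ {edg a c hac, edg b d hbd}) := by
  classical
  have hS : ({a, c, b, d} : Finset (Fin n)) = {a, b, c, d} := by
    ext v; simp only [mem_insert, mem_singleton]; tauto
  refine ⟨{a, b, c, d}, ?_, _, pm_mem hab hac had hbc hbd hcd, _, ?_, ?_, ?_, rfl⟩
  · rw [mem_powersetCard]
    refine ⟨subset_univ _, ?_⟩
    rw [card_eq_succ]
    refine ⟨a, {b, c, d}, ?_, rfl, ?_⟩
    · simp [hab, hac, had]
    · rw [card_eq_succ]
      refine ⟨b, {c, d}, ?_, rfl, ?_⟩
      · simp [hbc, hbd]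
      · exact card_pair hcd
  · rw [mem_erase]
    refine ⟨?_, ?_⟩
    · intro hEq
      have : edg a c hac ∈ ({edg a b hab, edg c d hcd} : Finset (Edge n)) := by
        rw [← hEq]; simp
      simp only [mem_insert, mem_singleton, edg_eq_iff] at this
      tauto
    · rw [← hS]
      exact pm_mem hac hab had hbc.symm hcd hbd
  · intro e he
    simp only [mem_insert, mem_singleton] at he
    rcases he with rfl | rfl <;> assumption
  · rw [disjoint_left]
    intro e he
    simp only [mem_insert, mem_singleton] at he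
    rcases he with rfl | rfl <;> assumption

/-- The edges of `G` at `x`. -/
def atV (G : Finset (Edge n)) (x : Fin n) : Finset (Edge n) := G.filter fun e => x ∈ e.1

/-- Neighbours of `x` in `G`. -/
def nbr (G : Finset (Edge n)) (x : Fin n) : Finset (Fin n) :=
  univ.filter fun u => ∃ h : x ≠ u, edg x u h ∈ G

lemma mem_nbr {G : Finset (Edge n)} {x u : Fin n} : u ∈ nbr G x ↔ ∃ h : x ≠ u, edg x u h ∈ G := by
  simp [nbr]

lemma mem_nbr_comm {G : Finset (Edge n)} {x u : Fin n} : u ∈ nbr G x ↔ x ∈ nbr G u := by
  rw [mem_nbr, mem_nbr]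
  constructor
  · rintro ⟨h, he⟩; exact ⟨h.symm, by rwa [edg_comm]⟩
  · rintro ⟨h, he⟩; exact ⟨h.symm, by rwa [edg_comm]⟩

lemma card_nbr (G : Finset (Edge n)) (x : Fin n) : (nbr G x).card = deg G x := by
  unfold deg
  refine card_bij (fun u hu => edg x u (mem_nbr.mp hu).1) ?_ ?_ ?_
  · intro u hu
    obtain ⟨h, he⟩ := mem_nbr.mp hu
    rw [mem_filter]
    exact ⟨he, mem_edg.mpr (Or.inl rfl)⟩
  · intro u hu u' hu' hEq
    obtain ⟨h, he⟩ := mem_nbr.mp hu
    obtain ⟨h', he'⟩ := mem_nbr.mp hu'
    rw [edg_eq_iff] at hEq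
    rcases hEq with ⟨_, h2⟩ | ⟨h1, h2⟩
    · exact h2
    · exact h2.trans h1
  · intro e he
    rw [mem_filter] at he
    obtain ⟨u, h, rfl⟩ := exists_edg_of_mem he.2
    exact ⟨u, mem_nbr.mpr ⟨h, he.1⟩, rfl⟩

/-- `G` and `H` agree on all edges touching a vertex outside `R`. -/
def Agree (R : Finset (Fin n)) (G H : Finset (Edge n)) : Prop :=
  ∀ e : Edge n, (∃ v ∈ e.1, v ∉ R) → (e ∈ G ↔ e ∈ H)

lemma Agree.symm {R : Finset (Fin n)} {G H : Finset (Edge n)} (h : Agree R G H) : Agree R H G :=
  fun e he => (h e he).symm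

/-- Residual degrees coincide. -/
lemma card_nbr_inter {R : Finset (Fin n)} {G H : Finset (Edge n)} (hag : Agree R G H)
    (hdeg : ∀ v, deg G v = deg H v) (v : Fin n) :
    (nbr G v ∩ R).card = (nbr H v ∩ R).card := by
  have h1 := card_inter_add_card_sdiff (nbr G v) R
  have h2 := card_inter_add_card_sdiff (nbr H v) R
  have h3 : nbr G v \ R = nbr H v \ R := by
    ext u
    simp only [mem_sdiff, mem_nbr]
    constructor
    · rintro ⟨⟨h, he⟩, hu⟩
      exact ⟨⟨h, (hag _ ⟨u, mem_edg.mpr (Or.inr rfl), hu⟩).mp he⟩, hu⟩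
    · rintro ⟨⟨h, he⟩, hu⟩
      exact ⟨⟨h, (hag _ ⟨u, mem_edg.mpr (Or.inr rfl), hu⟩).mpr he⟩, hu⟩
  rw [card_nbr, h3] at h1
  rw [card_nbr] at h2
  have := hdeg v
  omega

/-- The number of edges at `x` where `G, H` disagree. -/
def dis (x : Fin n) (G H : Finset (Edge n)) : ℕ :=
  (univ.filter fun e : Edge n => x ∈ e.1 ∧ ¬ (e ∈ G ↔ e ∈ H)).card

/-- The key step: a switch in `H` improving agreement with `G` at `x`. -/
lemma exists_switch {R : Finset (Fin n)} {G H : Finset (Edge n)} {x y z : Fin n}
    (hag : Agree R G H) (hx : x ∈ R) (hy : y ∈ R) (hz : z ∈ R)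
    (hxy : x ≠ y) (hxz : x ≠ z) (hyz : y ≠ z)
    (hyG : edg x y hxy ∈ G) (hyH : edg x y hxy ∉ H) (hzH : edg x z hxz ∈ H) (hzG : edg x z hxz ∉ G)
    (hle : (nbr H z ∩ R).card ≤ (nbr H y ∩ R).card) :
    ∃ H', SwitchStep H H' ∧ Agree R G H' ∧ dis x G H' < dis x G H := by
  classical
  -- find `w`
  have hA : ∃ w, w ∈ (nbr H y ∩ R).erase z ∧ w ∉ (nbr H z ∩ R).erase y := by
    by_contra hcon
    push Not at hcon
    have hsub : (nbr H y ∩ R).erase z ⊆ ((nbr H z ∩ R).erase y).erase x := by
      intro w hw
      rw [mem_erase]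
      refine ⟨?_, hcon w hw⟩
      rintro rfl
      simp only [mem_erase, mem_inter, mem_nbr] at hw
      obtain ⟨_, ⟨h, he⟩, _⟩ := hw
      apply hyH
      rwa [edg_comm]
    have hxB : x ∈ (nbr H z ∩ R).erase y := by
      simp only [mem_erase, mem_inter, mem_nbr]
      refine ⟨hxy, ⟨hxz.symm, ?_⟩, hx⟩
      rwa [edg_comm]
    have hc := card_le_card hsub
    rw [card_erase_of_mem hxB] at hc
    by_cases hyz' : z ∈ nbr H y
    · have h1 : z ∈ nbr H y ∩ R := mem_inter.mpr ⟨hyz', hz⟩
      have h2 : y ∈ nbr H z ∩ R := mem_inter.mpr ⟨mem_nbr_comm.mp hyz', hy⟩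
      rw [card_erase_of_mem h1, card_erase_of_mem h2] at hc
      have h3 : 0 < (nbr H y ∩ R).card := card_pos.mpr ⟨z, h1⟩
      have h4 : 0 < ((nbr H z ∩ R).erase y).card := card_pos.mpr ⟨x, hxB⟩
      rw [card_erase_of_mem h2] at h4
      omega
    · have h1 : z ∉ nbr H y ∩ R := fun h => hyz' (mem_inter.mp h).1
      have h2 : y ∉ nbr H z ∩ R := fun h => hyz' (mem_nbr_comm.mp (mem_inter.mp h).1)
      rw [erase_eq_of_notMem h1, erase_eq_of_notMem h2] at hc
      have h4 : 0 < ((nbr H z ∩ R).erase y).card := card_pos.mpr ⟨x, hxB⟩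
      rw [erase_eq_of_notMem h2] at h4
      omega
  obtain ⟨w, hwA, hwB⟩ := hA
  simp only [mem_erase, mem_inter, mem_nbr, not_and] at hwA hwB
  obtain ⟨hwz, ⟨hyw, hyw'⟩, hwR⟩ := hwA
  have hzw : z ≠ w := hwz.symm
  have hzwH : edg z w hzw ∉ H := by
    intro hmem
    exact hwB (fun h => hyw h.symm) ⟨hzw, hmem⟩ hwR
  have hxw : x ≠ w := by
    rintro rfl
    apply hyH
    rwa [edg_comm]
  refine ⟨_, switchStep_mk (a := x) (b := z) (c := y) (d := w) hxz hxy hxw hyz.symm hzw hyw hzH hyw'
    hyH hzwH, ?_, ?_⟩
  · -- agreement outside R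
    intro e ⟨v, hve, hvR⟩
    have hne : ∀ (a b : Fin n) (hab : a ≠ b), a ∈ R → b ∈ R → e ≠ edg a b hab := by
      rintro a b hab ha hb rfl
      rw [mem_edg] at hve
      rcases hve with rfl | rfl
      · exact hvR ha
      · exact hvR hb
    rw [hag e ⟨v, hve, hvR⟩]
    simp only [mem_union, mem_sdiff, mem_insert, mem_singleton]
    have h1 := hne x z hxz hx hz
    have h2 := hne y w hyw hy hwR
    have h3 := hne x y hxy hx hy
    have h4 := hne z w hzw hz hwR
    tauto
  · -- decrease at x
    unfold dis
    apply card_lt_card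
    rw [ssubset_iff_of_subset]
    · refine ⟨edg x y hxy, ?_, ?_⟩
      · rw [mem_filter]
        exact ⟨mem_univ _, mem_edg.mpr (Or.inl rfl), fun h => hyH (h.mp hyG)⟩
      · rw [mem_filter]
        rintro ⟨_, _, h⟩
        apply h
        simp [hyG]
    · intro e he
      rw [mem_filter] at he ⊢
      refine ⟨mem_univ _, he.2.1, ?_⟩
      obtain ⟨_, hxe, hdis⟩ := he
      intro hiff
      apply hdis
      rw [hiff]
      simp only [mem_union, mem_sdiff, mem_insert, mem_singleton]
      by_cases h1 : e = edg x z hxz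
      · subst h1
        exfalso
        exact hzG (hiff.mpr hzH)
      by_cases h2 : e = edg x y hxy
      · subst h2
        exfalso
        exact hyH (hiff.mp hyG)
      have h3 : e ≠ edg y w hyw := by
        rintro rfl
        rw [mem_edg] at hxe
        rcases hxe with h | h
        · exact hxy h
        · exact hxw h
      have h4 : e ≠ edg z w hzw := by
        rintro rfl
        rw [mem_edg] at hxe
        rcases hxe with h | h
        · exact hxz h
        · exact hxw h
      tauto

/-- The connectivity relation on graphs with the degrees of `d`. -/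
def Conn (d : Fin n → ℕ) : Finset (Edge n) → Finset (Edge n) → Prop :=
  Relation.EqvGen fun A B => A ∈ realizations d ∧ B ∈ realizations d ∧ SwitchStep A B

lemma mem_realizations {d : Fin n → ℕ} {G : Finset (Edge n)} :
    G ∈ realizations d ↔ ∀ v, deg G v = d v := by
  simp [realizations]

/-- Inner induction: fix `x ∈ R`; either agreement at `x` or a switch reduces disagreement at `x`. -/
lemma conn_at_vertex (d : Fin n → ℕ) {R : Finset (Fin n)} {x : Fin n} (hx : x ∈ R)
    (hout : ∀ {G H : Finset (Edge n)}, G ∈ realizations d → H ∈ realizations d →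
      Agree (R.erase x) G H → Conn d G H) :
    ∀ (k : ℕ) (G H : Finset (Edge n)), G ∈ realizations d → H ∈ realizations d → Agree R G H →
      dis x G H = k → Conn d G H := by
  classical
  intro k
  induction k using Nat.strong_induction_on with
  | _ k ih =>
    intro G H hG hH hag hk
    by_cases h0 : k = 0
    · apply hout hG hH
      intro e ⟨v, hve, hvR⟩
      by_cases hvx : v = x
      · subst hvx
        by_contra hne
        have : e ∈ univ.filter fun e : Edge n => v ∈ e.1 ∧ ¬ (e ∈ G ↔ e ∈ H) := by
          rw [mem_filter]; exact ⟨mem_univ _, hve, hne⟩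
        have hpos : 0 < dis v G H := card_pos.mpr ⟨e, this⟩
        omega
      · exact hag e ⟨v, hve, fun hvR' => hvR (mem_erase.mpr ⟨hvx, hvR'⟩)⟩
    · -- find y, z
      have hdeg : ∀ v, deg G v = deg H v := fun v => by
        rw [mem_realizations.mp hG v, mem_realizations.mp hH v]
      have hne : atV G x ≠ atV H x := by
        intro hEq
        apply h0
        rw [← hk]
        unfold dis
        rw [card_eq_zero, filter_eq_empty_iff]
        rintro e - ⟨hxe, hdis⟩
        apply hdis
        have h1 : e ∈ atV G x ↔ e ∈ atV H x := by rw [hEq]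
        simp only [atV, mem_filter, hxe, and_true] at h1
        exact h1
      have hcard : (atV G x).card = (atV H x).card := hdeg x
      have hex1 : ∃ e, e ∈ atV G x ∧ e ∉ atV H x := by
        by_contra hcon
        push Not at hcon
        exact hne (eq_of_subset_of_card_le (fun e he => hcon e he) hcard.ge)
      have hex2 : ∃ e, e ∈ atV H x ∧ e ∉ atV G x := by
        by_contra hcon
        push Not at hcon
        exact hne (eq_of_subset_of_card_le (fun e he => hcon e he) hcard.le).symm
      obtain ⟨e1, he1, he1'⟩ := hex1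
      obtain ⟨e2, he2, he2'⟩ := hex2
      simp only [atV, mem_filter, not_and] at he1 he2 he1' he2'
      obtain ⟨y, hxy, rfl⟩ := exists_edg_of_mem he1.2
      obtain ⟨z, hxz, rfl⟩ := exists_edg_of_mem he2.2
      have hyG := he1.1
      have hzH := he2.1
      have hyH : edg x y hxy ∉ H := fun h => he1' h he1.2
      have hzG : edg x z hxz ∉ G := fun h => he2' h he2.2
      have hyz : y ≠ z := by
        rintro rfl
        exact hyH hzH
      have hyR : y ∈ R := by
        by_contra hyR
        exact hyH ((hag _ ⟨y, mem_edg.mpr (Or.inr rfl), hyR⟩).mp hyG)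
      have hzR : z ∈ R := by
        by_contra hzR
        exact hzG ((hag _ ⟨z, mem_edg.mpr (Or.inr rfl), hzR⟩).mpr hzH)
      rcases le_total (nbr H z ∩ R).card (nbr H y ∩ R).card with hle | hle
      · obtain ⟨H', hstep, hag', hlt⟩ :=
          exists_switch hag hx hyR hzR hxy hxz hyz hyG hyH hzH hzG hle
        have hH' : H' ∈ realizations d := by
          rw [mem_realizations] at hH ⊢
          intro v
          rw [hstep.deg_eq v, hH v]
        have h1 : Conn d G H' := ih (dis x G H') (by omega) G H' hG hH' hag' rfl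
        have h2 : Conn d H H' := Relation.EqvGen.rel _ _ ⟨hH, hH', hstep⟩
        exact Relation.EqvGen.trans _ _ _ h1 (Relation.EqvGen.symm _ _ h2)
      · have hle' : (nbr G y ∩ R).card ≤ (nbr G z ∩ R).card := by
          rw [card_nbr_inter hag hdeg y, card_nbr_inter hag hdeg z]
          exact hle
        obtain ⟨G', hstep, hag', hlt⟩ :=
          exists_switch hag.symm hx hzR hyR hxz hxy hyz.symm hzH hzG hyG hyH hle'
        have hG' : G' ∈ realizations d := by
          rw [mem_realizations] at hG ⊢
          intro v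
          rw [hstep.deg_eq v, hG v]
        have hdis_symm : ∀ A B : Finset (Edge n), dis x A B = dis x B A := by
          intro A B
          unfold dis
          congr 1
          ext e
          simp only [mem_filter, iff_comm]
        rw [hdis_symm] at hlt
        rw [hdis_symm H G] at hlt
        have h1 : Conn d G' H := ih (dis x G' H) (by omega) G' H hG' hH hag'.symm rfl
        have h2 : Conn d G G' := Relation.EqvGen.rel _ _ ⟨hG, hG', hstep⟩
        exact Relation.EqvGen.trans _ _ _ h2 h1

/-- Outer induction on the set of free vertices. -/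
lemma conn_of_agree (d : Fin n → ℕ) :
    ∀ (m : ℕ) (R : Finset (Fin n)), R.card = m → ∀ {G H : Finset (Edge n)},
      G ∈ realizations d → H ∈ realizations d → Agree R G H → Conn d G H := by
  classical
  intro m
  induction m with
  | zero =>
    intro R hR G H hG hH hag
    have hR' : R = ∅ := card_eq_zero.mp hR
    subst hR'
    have : G = H := by
      ext e
      obtain ⟨v, hv⟩ : ∃ v, v ∈ e.1 := by
        induction' h : e.1 using Sym2.ind with a b
        exact ⟨a, by simp⟩
      exact hag e ⟨v, hv, by simp⟩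
    subst this
    exact Relation.EqvGen.refl _
  | succ m ih =>
    intro R hR G H hG hH hag
    obtain ⟨x, hx⟩ : R.Nonempty := card_pos.mp (by omega)
    refine conn_at_vertex d hx (fun hG hH hag => ?_) _ G H hG hH hag rfl
    exact ih (R.erase x) (by rw [card_erase_of_mem hx]; omega) hG hH hag

/-- **Taylor's theorem**: any two realizations of `d` are connected by switches inside the
realizations. -/
theorem switch_connected (d : Fin n → ℕ) {G H : Finset (Edge n)} (hG : G ∈ realizations d)
    (hH : H ∈ realizations d) : Conn d G H := by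
  classical
  refine conn_of_agree d _ univ rfl hG hH ?_
  rintro e ⟨v, _, hv⟩
  exact absurd (mem_univ v) hv

/-- A function invariant under every switch between realizations is constant on realizations. -/
theorem const_of_switch_inv {α : Type*} (d : Fin n → ℕ) (f : Finset (Edge n) → α)
    (hf : ∀ A B, A ∈ realizations d → B ∈ realizations d → SwitchStep A B → f A = f B)
    {G H : Finset (Edge n)} (hG : G ∈ realizations d) (hH : H ∈ realizations d) : f G = f H := by
  have h := switch_connected d hG hH
  unfold Conn at h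
  clear hG hH
  induction h with
  | rel A B hAB => exact hf A B hAB.1 hAB.2.1 hAB.2.2
  | refl A => rfl
  | symm A B _ ih => exact ih.symm
  | trans A B C _ _ ihAB ihBC => exact ihAB.trans ihBC

end Crest.Agent.SwitchConn
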