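/-
S0453 library: graph API (helper23). Use `adj`, not raw `Edge`s, whenever possible.
-/
import Crest.Agent.Lib.Switch.Defs
import Crest.Agent.Lib.Switch.Conn

set_option autoImplicit false

namespace Crest.Agent.Lib.Switch

open Finset Crest.SwitchChain Crest.Agent.SwitchConn

variable {n : ℕ}

/-- Adjacency in the graph `G`. -/
def adj (G : Finset (Edge n)) (a b : Fin n) : Prop := b ∈ nbr G a

instance (G : Finset (Edge n)) (a b : Fin n) : Decidable (adj G a b) := by
  unfold adj; infer_instance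

theorem adj_comm {G : Finset (Edge n)} {a b : Fin n} : adj G a b ↔ adj G b a := mem_nbr_comm

theorem adj_ne {G : Finset (Edge n)} {a b : Fin n} (h : adj G a b) : a ≠ b :=
  (mem_nbr.mp h).1

theorem adj_iff_mem {G : Finset (Edge n)} {a b : Fin n} (h : a ≠ b) :
    adj G a b ↔ edg a b h ∈ G := by
  unfold adj
  rw [mem_nbr]
  exact ⟨fun ⟨_, he⟩ => he, fun he => ⟨h, he⟩⟩

theorem edge_eq_edg (e : Edge n) : ∃ (a b : Fin n) (h : a ≠ b), e = edg a b h := by
  obtain ⟨e, he⟩ := e
  induction e using Sym2.ind with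
  | _ a b =>
    have hab : a ≠ b := by simpa using he
    exact ⟨a, b, hab, Subtype.ext rfl⟩

theorem graph_ext {G H : Finset (Edge n)} (h : ∀ a b, adj G a b ↔ adj H a b) : G = H := by
  ext e
  obtain ⟨a, b, hab, rfl⟩ := edge_eq_edg e
  rw [← adj_iff_mem hab, ← adj_iff_mem hab]
  exact h a b

/-- The degree counted through `adj`. -/
theorem deg_eq_card (G : Finset (Edge n)) (v : Fin n) :
    deg G v = (univ.filter (fun w => adj G v w)).card := by
  rw [← card_nbr]
  congr 1
  ext w
  simp [adj]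

theorem deg_eq_sum (G : Finset (Edge n)) (v : Fin n) :
    deg G v = ∑ w, if adj G v w then 1 else 0 := by
  rw [deg_eq_card, Finset.card_filter]

theorem deg_split (G : Finset (Edge n)) (v : Fin n) (A : Finset (Fin n)) :
    deg G v = (A.filter (fun w => adj G v w)).card + (Aᶜ.filter (fun w => adj G v w)).card := by
  rw [deg_eq_card, ← Finset.card_union_of_disjoint]
  · congr 1
    ext w
    simp only [mem_filter, mem_univ, true_and, mem_union, mem_compl]
    tauto
  · rw [Finset.disjoint_left]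
    intro w hw hw'
    exact (mem_compl.mp (mem_filter.mp hw').1) (mem_filter.mp hw).1

theorem mem_realizations_iff {d : Fin n → ℕ} {G : Finset (Edge n)} :
    G ∈ realizations d ↔ ∀ v, deg G v = d v := mem_realizations

/-! ### Graphs from a symmetric relation -/

open Classical in
/-- The graph with edges `{a,b}`, `a ≠ b`, `r a b`. Meant for symmetric `r`. -/
noncomputable def ofRel (r : Fin n → Fin n → Prop) : Finset (Edge n) :=
  univ.filter fun e => ∃ a b, e.1 = s(a, b) ∧ r a b

theorem adj_ofRel {r : Fin n → Fin n → Prop} (hr : ∀ a b, r a b → r b a) {a b : Fin n} :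
    adj (ofRel r) a b ↔ a ≠ b ∧ r a b := by
  classical
  constructor
  · intro h
    have hab := adj_ne h
    refine ⟨hab, ?_⟩
    rw [adj_iff_mem hab] at h
    have h2 := (mem_filter.mp h).2
    obtain ⟨a', b', he, hr'⟩ := h2
    have he' : s(a, b) = s(a', b') := he
    rw [Sym2.eq_iff] at he'
    rcases he' with ⟨rfl, rfl⟩ | ⟨rfl, rfl⟩
    · exact hr'
    · exact hr _ _ hr'
  · rintro ⟨hab, hrab⟩
    rw [adj_iff_mem hab]
    exact mem_filter.mpr ⟨mem_univ _, a, b, rfl, hrab⟩

theorem ofRel_adj (G : Finset (Edge n)) : ofRel (adj G) = G := by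
  apply graph_ext
  intro a b
  rw [adj_ofRel (fun _ _ h => adj_comm.mp h)]
  exact ⟨fun h => h.2, fun h => ⟨adj_ne h, h⟩⟩

/-! ### keyOf, cross, flip through `adj` -/

theorem adj_keyOf {p : Finset (Fin n)} {G : Finset (Edge n)} {a b : Fin n} :
    adj (keyOf p G) a b ↔ adj G a b ∧ a ∉ p ∧ b ∉ p := by
  constructor
  · intro h
    have hab := adj_ne h
    rw [adj_iff_mem hab] at h
    obtain ⟨h1, h2⟩ := mem_filter.mp h
    refine ⟨(adj_iff_mem hab).mpr h1, ?_, ?_⟩
    · intro ha; exact h2 a ha (mem_edg.mpr (Or.inl rfl))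
    · intro hb; exact h2 b hb (mem_edg.mpr (Or.inr rfl))
  · rintro ⟨h, ha, hb⟩
    have hab := adj_ne h
    rw [adj_iff_mem hab] at h ⊢
    refine mem_filter.mpr ⟨h, ?_⟩
    intro v hv hve
    rcases mem_edg.mp hve with rfl | rfl
    · exact ha hv
    · exact hb hv

/-- The cross relation. -/
def crossRel (p q : Finset (Fin n)) (a b : Fin n) : Prop := (a ∈ p ∧ b ∈ q) ∨ (a ∈ q ∧ b ∈ p)

instance (p q : Finset (Fin n)) (a b : Fin n) : Decidable (crossRel p q a b) := by
  unfold crossRel; infer_instance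

theorem crossRel_symm {p q : Finset (Fin n)} {a b : Fin n} :
    crossRel p q a b ↔ crossRel p q b a := by
  unfold crossRel; tauto

theorem crossRel_comm {p q : Finset (Fin n)} {a b : Fin n} :
    crossRel p q a b ↔ crossRel q p a b := by
  unfold crossRel; tauto

theorem edg_mem_cross {p q : Finset (Fin n)} {a b : Fin n} (h : a ≠ b) :
    edg a b h ∈ cross p q ↔ crossRel p q a b := by
  unfold cross crossRel
  rw [mem_filter]
  simp only [mem_univ, true_and]
  constructor
  · rintro ⟨a', ha', b', hb', he⟩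
    have he' : s(a, b) = s(a', b') := he
    rw [Sym2.eq_iff] at he'
    rcases he' with ⟨rfl, rfl⟩ | ⟨rfl, rfl⟩
    · exact Or.inl ⟨ha', hb'⟩
    · exact Or.inr ⟨hb', ha'⟩
  · rintro (⟨ha, hb⟩ | ⟨ha, hb⟩)
    · exact ⟨a, ha, b, hb, rfl⟩
    · exact ⟨b, hb, a, ha, Sym2.eq_swap⟩

theorem cross_comm (p q : Finset (Fin n)) : cross p q = cross q p := by
  ext e
  obtain ⟨a, b, hab, rfl⟩ := edge_eq_edg e
  rw [edg_mem_cross, edg_mem_cross, crossRel_comm]

theorem flip_comm (p q : Finset (Fin n)) (G : Finset (Edge n)) : flip p q G = flip q p G := by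
  unfold flip; rw [cross_comm]

theorem adj_flip {p q : Finset (Fin n)} {G : Finset (Edge n)} {a b : Fin n} :
    adj (flip p q G) a b ↔ a ≠ b ∧ ¬ (adj G a b ↔ crossRel p q a b) := by
  by_cases hab : a = b
  · subst hab
    constructor
    · intro h; exact absurd rfl (adj_ne h)
    · intro h; exact absurd rfl h.1
  · rw [adj_iff_mem hab]
    unfold flip
    rw [Finset.mem_symmDiff, adj_iff_mem hab, edg_mem_cross hab]
    constructor
    · rintro (⟨h1, h2⟩ | ⟨h1, h2⟩)
      · exact ⟨hab, fun h => h2 (h.mp h1)⟩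
      · exact ⟨hab, fun h => h2 (h.mpr h1)⟩
    · rintro ⟨_, h⟩
      by_cases h1 : edg a b hab ∈ G
      · left; exact ⟨h1, fun h2 => h ⟨fun _ => h2, fun _ => h1⟩⟩
      · right
        refine ⟨?_, h1⟩
        by_contra h2
        exact h ⟨fun h3 => absurd h3 h1, fun h3 => absurd h3 h2⟩

theorem flip_flip (p q : Finset (Fin n)) (G : Finset (Edge n)) : flip p q (flip p q G) = G := by
  unfold flip
  rw [symmDiff_assoc, symmDiff_self, symmDiff_bot]

/-- Counting the edges between `v ∈ p` and `q`. -/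
theorem card_inter_cross_filter {p q : Finset (Fin n)} (hpq : Disjoint p q) {v : Fin n}
    (hv : v ∈ p) (G : Finset (Edge n)) :
    ((G ∩ cross p q).filter fun e => v ∈ e.1).card = (q.filter (fun w => adj G v w)).card := by
  symm
  refine Finset.card_bij (fun w hw => edg v w (adj_ne (mem_filter.mp hw).2)) ?_ ?_ ?_
  · intro w hw
    obtain ⟨hw1, hw2⟩ := mem_filter.mp hw
    have hne := adj_ne hw2
    refine mem_filter.mpr ⟨mem_inter.mpr ⟨(adj_iff_mem hne).mp hw2, ?_⟩, mem_edg.mpr (Or.inl rfl)⟩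
    exact (edg_mem_cross hne).mpr (Or.inl ⟨hv, hw1⟩)
  · intro w hw w' hw' he
    have := edg_eq_iff.mp he
    rcases this with ⟨_, h⟩ | ⟨h1, h2⟩
    · exact h
    · exact h2.trans h1
  · intro e he
    obtain ⟨he1, he2⟩ := mem_filter.mp he
    obtain ⟨he3, he4⟩ := mem_inter.mp he1
    obtain ⟨u, hu, rfl⟩ := exists_edg_of_mem he2
    refine ⟨u, mem_filter.mpr ⟨?_, (adj_iff_mem hu).mpr he3⟩, rfl⟩
    rcases (edg_mem_cross hu).mp he4 with ⟨_, h⟩ | ⟨h, _⟩
    · exact h
    · exact absurd hv (Finset.disjoint_right.mp hpq h)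

/-- For explicit pairs. -/
theorem isCentre_iff {x y u v : Fin n} (hxy : x ≠ y) (huv : u ≠ v) (hxu : x ≠ u) (hxv : x ≠ v)
    (hyu : y ≠ u) (hyv : y ≠ v) (G : Finset (Edge n)) :
    IsCentre {x, y} {u, v} G ↔
      (adj G x u ∧ adj G y v ∧ ¬ adj G x v ∧ ¬ adj G y u) ∨
      (adj G x v ∧ adj G y u ∧ ¬ adj G x u ∧ ¬ adj G y v) := by
  have hpq : Disjoint ({x, y} : Finset (Fin n)) {u, v} := by
    simp [Finset.disjoint_left]
    exact ⟨⟨hxu, hxv⟩, ⟨hyu, hyv⟩⟩
  have hfil : ∀ (a : Fin n) (b c : Fin n), b ≠ c →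
      (({b, c} : Finset (Fin n)).filter (fun w => adj G a w)).card =
        (if adj G a b then 1 else 0) + (if adj G a c then 1 else 0) := by
    intro a b c hbc
    rw [Finset.filter_insert, Finset.filter_singleton]
    by_cases h1 : adj G a b <;> by_cases h2 : adj G a c <;> simp [h1, h2, hbc]
  have hx := card_inter_cross_filter hpq (v := x) (by simp) G
  have hy := card_inter_cross_filter hpq (v := y) (by simp) G
  have hu := card_inter_cross_filter hpq.symm (v := u) (by simp) G
  have hv := card_inter_cross_filter hpq.symm (v := v) (by simp) G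
  rw [cross_comm] at hu hv
  rw [hfil _ _ _ huv] at hx hy
  rw [hfil _ _ _ hxy] at hu hv
  unfold IsCentre
  have hmem : ∀ w, w ∈ ({x, y} : Finset (Fin n)) ∪ {u, v} ↔ w = x ∨ w = y ∨ w = u ∨ w = v := by
    intro w; simp only [mem_union, mem_insert, mem_singleton]; tauto
  constructor
  · intro h
    have h1 := h x ((hmem x).mpr (by simp))
    have h2 := h y ((hmem y).mpr (by simp))
    have h3 := h u ((hmem u).mpr (by simp))
    have h4 := h v ((hmem v).mpr (by simp))
    rw [hx] at h1; rw [hy] at h2; rw [hu] at h3; rw [hv] at h4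
    have e1 : adj G u x ↔ adj G x u := adj_comm
    have e2 : adj G u y ↔ adj G y u := adj_comm
    have e3 : adj G v x ↔ adj G x v := adj_comm
    have e4 : adj G v y ↔ adj G y v := adj_comm
    simp only [e1, e2, e3, e4] at h3 h4
    by_cases a1 : adj G x u <;> by_cases a2 : adj G x v <;> by_cases a3 : adj G y u <;>
      by_cases a4 : adj G y v <;> simp only [a1, a2, a3, a4, if_true, if_false] at h1 h2 h3 h4 <;>
      first
        | (exfalso; omega)
        | simp [a1, a2, a3, a4]
  · intro h w hw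
    rcases (hmem w).mp hw with rfl | rfl | rfl | rfl
    · rw [hx]
      rcases h with ⟨a1, a2, a3, a4⟩ | ⟨a1, a2, a3, a4⟩ <;> simp [*]
    · rw [hy]
      rcases h with ⟨a1, a2, a3, a4⟩ | ⟨a1, a2, a3, a4⟩ <;> simp [*]
    · rw [hu]
      have e1 : adj G w x ↔ adj G x w := adj_comm
      have e2 : adj G w y ↔ adj G y w := adj_comm
      simp only [e1, e2]
      rcases h with ⟨a1, a2, a3, a4⟩ | ⟨a1, a2, a3, a4⟩ <;> simp [*]
    · rw [hv]
      have e1 : adj G w x ↔ adj G x w := adj_comm
      have e2 : adj G w y ↔ adj G y w := adj_comm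
      simp only [e1, e2]
      rcases h with ⟨a1, a2, a3, a4⟩ | ⟨a1, a2, a3, a4⟩ <;> simp [*]

/-- A pair is `{x, y}`. -/
theorem pairs_eq {p : Finset (Fin n)} (hp : p ∈ pairs n) :
    ∃ x y, x ≠ y ∧ p = {x, y} := by
  have h := (Finset.mem_powersetCard.mp hp).2
  obtain ⟨x, y, hxy, rfl⟩ := Finset.card_eq_two.mp h
  exact ⟨x, y, hxy, rfl⟩

theorem deg_flip_aux {p q : Finset (Fin n)} {G : Finset (Edge n)} {w b c : Fin n} (hbc : b ≠ c)
    (hwb : w ≠ b) (hwc : w ≠ c) (hcr : ∀ t, crossRel p q w t ↔ t = b ∨ t = c)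
    (hx : (adj G w b ∧ ¬ adj G w c) ∨ (adj G w c ∧ ¬ adj G w b)) :
    (univ.filter (fun t => adj (flip p q G) w t)).card = (univ.filter (fun t => adj G w t)).card := by
  refine Finset.card_equiv (Equiv.swap b c) ?_
  intro t
  simp only [mem_filter, mem_univ, true_and, adj_flip]
  by_cases htb : t = b
  · subst htb
    rw [Equiv.swap_apply_left]
    have h1 : crossRel p q w t := (hcr t).mpr (Or.inl rfl)
    constructor
    · rintro ⟨_, h⟩
      rcases hx with ⟨h2, h3⟩ | ⟨h2, h3⟩
      · exact absurd ⟨fun _ => h1, fun _ => h2⟩ h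
      · exact h2
    · intro h
      rcases hx with ⟨_, h3⟩ | ⟨_, h3⟩
      · exact absurd h h3
      · exact ⟨hwb, fun h2 => h3 (h2.mpr h1)⟩
  by_cases htc : t = c
  · subst htc
    rw [Equiv.swap_apply_right]
    have h1 : crossRel p q w t := (hcr t).mpr (Or.inr rfl)
    constructor
    · rintro ⟨_, h⟩
      rcases hx with ⟨h2, h3⟩ | ⟨h2, h3⟩
      · exact h2
      · exact absurd ⟨fun _ => h1, fun _ => h2⟩ h
    · intro h
      rcases hx with ⟨_, h3⟩ | ⟨_, h3⟩
      · exact ⟨hwc, fun h2 => h3 (h2.mpr h1)⟩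
      · exact absurd h h3
  · rw [Equiv.swap_apply_of_ne_of_ne htb htc]
    have hcr' : ¬ crossRel p q w t := fun h => by
      rcases (hcr t).mp h with h | h
      · exact htb h
      · exact htc h
    constructor
    · rintro ⟨_, h⟩
      by_contra h2
      exact h ⟨fun h3 => absurd h3 h2, fun h3 => absurd h3 hcr'⟩
    · intro h
      exact ⟨adj_ne h, fun h2 => hcr' (h2.mp h)⟩

/-- A flip of a centre graph is a realization (degrees preserved). -/
theorem flip_mem_realizations {d : Fin n → ℕ} {x y u v : Fin n} (hxy : x ≠ y) (huv : u ≠ v)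
    (hxu : x ≠ u) (hxv : x ≠ v) (hyu : y ≠ u) (hyv : y ≠ v) {G : Finset (Edge n)}
    (hG : G ∈ realizations d) (hc : IsCentre {x, y} {u, v} G) :
    flip {x, y} {u, v} G ∈ realizations d := by
  rw [mem_realizations_iff] at hG ⊢
  rw [isCentre_iff hxy huv hxu hxv hyu hyv] at hc
  intro w
  rw [← hG w, deg_eq_card, deg_eq_card]
  -- the set of neighbours of `w` changes by swapping inside a two-element set
  by_cases hwp : w = x ∨ w = y ∨ w = u ∨ w = v
  · have hcrx : ∀ t, crossRel {x, y} {u, v} x t ↔ t = u ∨ t = v := by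
      intro t; unfold crossRel; simp only [mem_insert, mem_singleton]
      constructor
      · rintro (⟨_, h⟩ | ⟨h, _⟩)
        · exact h
        · rcases h with h | h
          · exact absurd h hxu
          · exact absurd h hxv
      · intro h; exact Or.inl ⟨Or.inl trivial, h⟩
    have hcry : ∀ t, crossRel {x, y} {u, v} y t ↔ t = u ∨ t = v := by
      intro t; unfold crossRel; simp only [mem_insert, mem_singleton]
      constructor
      · rintro (⟨_, h⟩ | ⟨h, _⟩)
        · exact h
        · rcases h with h | h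
          · exact absurd h hyu
          · exact absurd h hyv
      · intro h; exact Or.inl ⟨Or.inr trivial, h⟩
    have hcru : ∀ t, crossRel {x, y} {u, v} u t ↔ t = x ∨ t = y := by
      intro t; unfold crossRel; simp only [mem_insert, mem_singleton]
      constructor
      · rintro (⟨h, _⟩ | ⟨_, h⟩)
        · rcases h with h | h
          · exact absurd h.symm hxu
          · exact absurd h.symm hyu
        · exact h
      · intro h; exact Or.inr ⟨Or.inl trivial, h⟩
    have hcrv : ∀ t, crossRel {x, y} {u, v} v t ↔ t = x ∨ t = y := by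
      intro t; unfold crossRel; simp only [mem_insert, mem_singleton]
      constructor
      · rintro (⟨h, _⟩ | ⟨_, h⟩)
        · rcases h with h | h
          · exact absurd h.symm hxv
          · exact absurd h.symm hyv
        · exact h
      · intro h; exact Or.inr ⟨Or.inr trivial, h⟩
    rcases hwp with rfl | rfl | rfl | rfl
    · refine deg_flip_aux huv hxu hxv hcrx ?_
      rcases hc with ⟨h1, _, h3, _⟩ | ⟨h1, _, h3, _⟩
      · exact Or.inl ⟨h1, h3⟩
      · exact Or.inr ⟨h1, h3⟩
    · refine deg_flip_aux huv hyu hyv hcry ?_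
      rcases hc with ⟨_, h2, _, h4⟩ | ⟨_, h2, _, h4⟩
      · exact Or.inr ⟨h2, h4⟩
      · exact Or.inl ⟨h2, h4⟩
    · refine deg_flip_aux hxy hxu.symm hyu.symm hcru ?_
      rcases hc with ⟨h1, _, _, h4⟩ | ⟨_, h2, h3, _⟩
      · exact Or.inl ⟨adj_comm.mp h1, fun h => h4 (adj_comm.mp h)⟩
      · exact Or.inr ⟨adj_comm.mp h2, fun h => h3 (adj_comm.mp h)⟩
    · refine deg_flip_aux hxy hxv.symm hyv.symm hcrv ?_
      rcases hc with ⟨_, h2, h3, _⟩ | ⟨h1, _, _, h4⟩
      · exact Or.inr ⟨adj_comm.mp h2, fun h => h3 (adj_comm.mp h)⟩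
      · exact Or.inl ⟨adj_comm.mp h1, fun h => h4 (adj_comm.mp h)⟩
  · congr 1
    ext b
    simp only [mem_filter, mem_univ, true_and, adj_flip]
    have hcr : ¬ crossRel {x, y} {u, v} w b := by
      unfold crossRel
      simp only [mem_insert, mem_singleton]
      tauto
    constructor
    · rintro ⟨_, h⟩
      by_contra h2
      exact h ⟨fun h3 => absurd h3 h2, fun h3 => absurd h3 hcr⟩
    · intro h
      exact ⟨adj_ne h, fun h2 => hcr (h2.mp h)⟩

/-- `flip` does not change the edges away from `p`. -/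
theorem keyOf_flip_left {p q : Finset (Fin n)} {G : Finset (Edge n)} :
    keyOf p (flip p q G) = keyOf p G := by
  apply graph_ext
  intro a b
  rw [adj_keyOf, adj_keyOf, adj_flip]
  constructor
  · rintro ⟨⟨_, h⟩, ha, hb⟩
    refine ⟨?_, ha, hb⟩
    by_contra h2
    refine h ⟨fun h3 => absurd h3 h2, fun h3 => ?_⟩
    rcases h3 with ⟨h4, _⟩ | ⟨_, h4⟩
    · exact absurd h4 ha
    · exact absurd h4 hb
  · rintro ⟨h, ha, hb⟩
    refine ⟨⟨adj_ne h, fun h2 => ?_⟩, ha, hb⟩
    rcases h2.mp h with ⟨h4, _⟩ | ⟨_, h4⟩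
    · exact absurd h4 ha
    · exact absurd h4 hb

theorem keyOf_flip_right {p q : Finset (Fin n)} {G : Finset (Edge n)} :
    keyOf q (flip p q G) = keyOf q G := by
  rw [flip_comm]; exact keyOf_flip_left

/-- The other matching. -/
theorem isCentre_flip {x y u v : Fin n} (hxy : x ≠ y) (huv : u ≠ v) (hxu : x ≠ u) (hxv : x ≠ v)
    (hyu : y ≠ u) (hyv : y ≠ v) {G : Finset (Edge n)} (hc : IsCentre {x, y} {u, v} G) :
    IsCentre {x, y} {u, v} (flip {x, y} {u, v} G) := by
  rw [isCentre_iff hxy huv hxu hxv hyu hyv] at hc ⊢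
  have hcr : ∀ a b, a ∈ ({x, y} : Finset (Fin n)) → b ∈ ({u, v} : Finset (Fin n)) →
      crossRel {x, y} {u, v} a b := fun a b ha hb => Or.inl ⟨ha, hb⟩
  have key : ∀ a b, a ∈ ({x, y} : Finset (Fin n)) → b ∈ ({u, v} : Finset (Fin n)) → a ≠ b →
      (adj (flip {x, y} {u, v} G) a b ↔ ¬ adj G a b) := by
    intro a b ha hb hab
    rw [adj_flip]
    have := hcr a b ha hb
    constructor
    · rintro ⟨_, h⟩ h2
      exact h ⟨fun _ => this, fun _ => h2⟩
    · intro h
      exact ⟨hab, fun h2 => h (h2.mpr this)⟩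
  have k1 := key x u (by simp) (by simp) hxu
  have k2 := key x v (by simp) (by simp) hxv
  have k3 := key y u (by simp) (by simp) hyu
  have k4 := key y v (by simp) (by simp) hyv
  rw [k1, k2, k3, k4]
  rcases hc with ⟨h1, h2, h3, h4⟩ | ⟨h1, h2, h3, h4⟩
  · right; exact ⟨h3, h4, not_not.mpr h1, not_not.mpr h2⟩
  · left; exact ⟨h3, h4, not_not.mpr h1, not_not.mpr h2⟩

end Crest.Agent.Lib.Switch
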