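/-
S0453 T7, part 1 (helper14): the Johnson block of a vertex pair.
Toggling `cross {x,y} T` gives the bijection between `k`-subsets of `W'` and the block of `G₀`.
-/
import Crest.Agent.Lib.Switch.Defs
import Crest.Agent.Lib.Switch.Conn

set_option autoImplicit false

namespace Crest.Agent.Lib.Switch.BlockT7

open Finset Crest.SwitchChain Crest.Agent.SwitchConn Crest.Agent.Lib.Switch

variable {n : ℕ}

lemma exists_edg (e : Edge n) : ∃ (a b : Fin n) (h : a ≠ b), e = edg a b h := by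
  obtain ⟨s, hs⟩ := e
  induction s using Sym2.ind with
  | _ a b =>
    have hab : a ≠ b := by simpa using hs
    exact ⟨a, b, hab, rfl⟩

lemma edg_mem_cross {p T : Finset (Fin n)} {a b : Fin n} {h : a ≠ b} :
    edg a b h ∈ cross p T ↔ (a ∈ p ∧ b ∈ T) ∨ (b ∈ p ∧ a ∈ T) := by
  unfold cross
  simp only [mem_filter, mem_univ, true_and, edg, Sym2.eq_iff]
  constructor
  · rintro ⟨c, hc, d, hd, ⟨rfl, rfl⟩ | ⟨rfl, rfl⟩⟩
    · exact Or.inl ⟨hc, hd⟩
    · exact Or.inr ⟨hc, hd⟩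
  · rintro (⟨h1, h2⟩ | ⟨h1, h2⟩)
    · exact ⟨a, h1, b, h2, Or.inl ⟨rfl, rfl⟩⟩
    · exact ⟨b, h1, a, h2, Or.inr ⟨rfl, rfl⟩⟩

lemma edg_mem_keyOf {p : Finset (Fin n)} {G : Finset (Edge n)} {a b : Fin n} {h : a ≠ b} :
    edg a b h ∈ keyOf p G ↔ edg a b h ∈ G ∧ a ∉ p ∧ b ∉ p := by
  unfold keyOf
  simp only [mem_filter, mem_edg]
  constructor
  · rintro ⟨h1, h2⟩
    exact ⟨h1, fun ha => h2 a ha (Or.inl rfl), fun hb => h2 b hb (Or.inr rfl)⟩
  · rintro ⟨h1, h2, h3⟩
    refine ⟨h1, fun v hv hv' => ?_⟩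
    rcases hv' with rfl | rfl
    · exact h2 hv
    · exact h3 hv

lemma keyOf_eq_iff {p : Finset (Fin n)} {G G' : Finset (Edge n)} :
    keyOf p G = keyOf p G' ↔ ∀ (a b : Fin n) (h : a ≠ b), a ∉ p → b ∉ p →
      (edg a b h ∈ G ↔ edg a b h ∈ G') := by
  constructor
  · intro hk a b h ha hb
    have := congrArg (fun S => edg a b h ∈ S) hk
    simp only [eq_iff_iff, edg_mem_keyOf] at this
    tauto
  · intro hk
    ext e
    obtain ⟨a, b, h, rfl⟩ := exists_edg e
    simp only [edg_mem_keyOf]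
    constructor
    · rintro ⟨h1, h2, h3⟩; exact ⟨(hk a b h h2 h3).mp h1, h2, h3⟩
    · rintro ⟨h1, h2, h3⟩; exact ⟨(hk a b h h2 h3).mpr h1, h2, h3⟩

lemma edg_mem_toggle {G : Finset (Edge n)} {p T : Finset (Fin n)} {a b : Fin n} {h : a ≠ b} :
    edg a b h ∈ symmDiff G (cross p T) ↔
      ¬ (edg a b h ∈ G ↔ ((a ∈ p ∧ b ∈ T) ∨ (b ∈ p ∧ a ∈ T))) := by
  rw [mem_symmDiff, edg_mem_cross]
  tauto

lemma mem_nbr_of_ne {G : Finset (Edge n)} {v u : Fin n} (h : v ≠ u) :
    u ∈ nbr G v ↔ edg v u h ∈ G := by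
  rw [mem_nbr]
  exact ⟨fun ⟨_, h2⟩ => h2, fun h2 => ⟨h, h2⟩⟩

lemma nbr_toggle_mem {G : Finset (Edge n)} {p T : Finset (Fin n)} (hT : Disjoint p T) {v : Fin n}
    (hv : v ∈ p) : nbr (symmDiff G (cross p T)) v = symmDiff (nbr G v) T := by
  have hvT : v ∉ T := disjoint_left.mp hT hv
  ext u
  rw [mem_symmDiff]
  by_cases huv : v = u
  · subst huv
    simp [mem_nbr, hvT]
  · rw [mem_nbr_of_ne huv, mem_nbr_of_ne huv, edg_mem_toggle]
    simp only [hv, true_and, hvT, and_false, or_false]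
    tauto

lemma nbr_toggle_T {G : Finset (Edge n)} {p T : Finset (Fin n)} (hT : Disjoint p T) {v : Fin n}
    (hv : v ∈ T) : nbr (symmDiff G (cross p T)) v = symmDiff (nbr G v) p := by
  have hvp : v ∉ p := disjoint_right.mp hT hv
  ext u
  rw [mem_symmDiff]
  by_cases huv : v = u
  · subst huv
    simp [mem_nbr, hvp]
  · rw [mem_nbr_of_ne huv, mem_nbr_of_ne huv, edg_mem_toggle]
    simp only [hv, hvp, false_and, false_or, and_true]
    tauto

lemma nbr_toggle_out {G : Finset (Edge n)} {p T : Finset (Fin n)} {v : Fin n}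
    (hv : v ∉ p) (hv' : v ∉ T) : nbr (symmDiff G (cross p T)) v = nbr G v := by
  ext u
  by_cases huv : v = u
  · subst huv
    simp [mem_nbr]
  · rw [mem_nbr_of_ne huv, mem_nbr_of_ne huv, edg_mem_toggle]
    simp only [hv, hv', false_and, and_false, or_self, iff_false, not_not]

lemma card_symmDiff_eq {A B : Finset (Fin n)} (h : (B \ A).card = (A ∩ B).card) :
    (symmDiff A B).card = A.card := by
  have h1 : (symmDiff A B).card = (A \ B).card + (B \ A).card := by
    rw [symmDiff_def, sup_eq_union, card_union_of_disjoint]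
    exact disjoint_sdiff_sdiff
  have h2 := card_sdiff_add_card_inter A B
  omega

lemma card_eq_of_symmDiff {A B : Finset (Fin n)} (h : (symmDiff A B).card = A.card) :
    (B \ A).card = (A ∩ B).card := by
  have h1 : (symmDiff A B).card = (A \ B).card + (B \ A).card := by
    rw [symmDiff_def, sup_eq_union, card_union_of_disjoint]
    exact disjoint_sdiff_sdiff
  have h2 := card_sdiff_add_card_inter A B
  omega

lemma cross_symmDiff {p T T' : Finset (Fin n)} (hT : Disjoint p T) (hT' : Disjoint p T') :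
    symmDiff (cross p T) (cross p T') = cross p (symmDiff T T') := by
  ext e
  obtain ⟨a, b, h, rfl⟩ := exists_edg e
  have h1 : ∀ v, v ∈ p → v ∉ T := fun v hv => disjoint_left.mp hT hv
  have h2 : ∀ v, v ∈ p → v ∉ T' := fun v hv => disjoint_left.mp hT' hv
  have := h1 a
  have := h2 a
  have := h1 b
  have := h2 b
  simp only [mem_symmDiff, edg_mem_cross]
  tauto

/-- The active columns of `{x,y}` in `G₀`: vertices outside `{x,y}` with exactly one neighbour in
`{x,y}`. -/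
def Wp (G₀ : Finset (Edge n)) (x y : Fin n) : Finset (Fin n) :=
  univ.filter fun w => w ≠ x ∧ w ≠ y ∧
    ((w ∈ nbr G₀ x ∧ w ∉ nbr G₀ y) ∨ (w ∉ nbr G₀ x ∧ w ∈ nbr G₀ y))

/-- selected part: neighbours of `x` among `W'` -/
def Sel (G₀ : Finset (Edge n)) (x y : Fin n) (G : Finset (Edge n)) : Finset (Fin n) :=
  Wp G₀ x y ∩ nbr G x

/-- `Φ S`. -/
def Phi (G₀ : Finset (Edge n)) (x y : Fin n) (S : Finset (Fin n)) : Finset (Edge n) :=
  symmDiff G₀ (cross {x, y} (symmDiff S (Sel G₀ x y G₀)))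

section
variable {G₀ : Finset (Edge n)} {x y : Fin n}

lemma disjoint_Wp : Disjoint ({x, y} : Finset (Fin n)) (Wp G₀ x y) := by
  rw [disjoint_left]
  intro v hv hv'
  simp only [mem_insert, mem_singleton] at hv
  simp only [Wp, mem_filter] at hv'
  rcases hv with rfl | rfl
  · exact hv'.2.1 rfl
  · exact hv'.2.2.1 rfl

lemma Sel_subset (G : Finset (Edge n)) : Sel G₀ x y G ⊆ Wp G₀ x y := inter_subset_left

lemma symmDiff_subset_of {A B W : Finset (Fin n)} (hA : A ⊆ W) (hB : B ⊆ W) : symmDiff A B ⊆ W := by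
  intro v hv
  rw [mem_symmDiff] at hv
  rcases hv with hv | hv
  · exact hA hv.1
  · exact hB hv.1

lemma disjoint_T {S : Finset (Fin n)} (hS : S ⊆ Wp G₀ x y) :
    Disjoint ({x, y} : Finset (Fin n)) (symmDiff S (Sel G₀ x y G₀)) :=
  disjoint_of_subset_right (symmDiff_subset_of hS (Sel_subset _)) disjoint_Wp

lemma mem_Wp_iff {w : Fin n} : w ∈ Wp G₀ x y ↔ w ≠ x ∧ w ≠ y ∧
    ((w ∈ nbr G₀ x ∧ w ∉ nbr G₀ y) ∨ (w ∉ nbr G₀ x ∧ w ∈ nbr G₀ y)) := by
  simp [Wp]

/-- Neighbourhood of `x` in `Φ S`. -/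
lemma nbr_Phi_x {S : Finset (Fin n)} (hS : S ⊆ Wp G₀ x y) :
    nbr (Phi G₀ x y S) x = symmDiff (nbr G₀ x) (symmDiff S (Sel G₀ x y G₀)) :=
  nbr_toggle_mem (disjoint_T hS) (by simp)

lemma nbr_Phi_y {S : Finset (Fin n)} (hS : S ⊆ Wp G₀ x y) :
    nbr (Phi G₀ x y S) y = symmDiff (nbr G₀ y) (symmDiff S (Sel G₀ x y G₀)) :=
  nbr_toggle_mem (disjoint_T hS) (by simp)

/-- On `W'`, `x` is adjacent in `Φ S` exactly to `S`. -/
lemma mem_nbr_Phi_x {S : Finset (Fin n)} (hS : S ⊆ Wp G₀ x y) {w : Fin n} (hw : w ∈ Wp G₀ x y) :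
    w ∈ nbr (Phi G₀ x y S) x ↔ w ∈ S := by
  rw [nbr_Phi_x hS]
  simp only [mem_symmDiff, Sel, mem_inter, hw, true_and]
  tauto

lemma mem_nbr_Phi_y {S : Finset (Fin n)} (hS : S ⊆ Wp G₀ x y) {w : Fin n} (hw : w ∈ Wp G₀ x y) :
    w ∈ nbr (Phi G₀ x y S) y ↔ w ∉ S := by
  rw [nbr_Phi_y hS]
  have h := (mem_Wp_iff.mp hw).2.2
  simp only [mem_symmDiff, Sel, mem_inter, hw, true_and]
  tauto

lemma Sel_Phi {S : Finset (Fin n)} (hS : S ⊆ Wp G₀ x y) : Sel G₀ x y (Phi G₀ x y S) = S := by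
  ext w
  simp only [Sel, mem_inter]
  constructor
  · rintro ⟨h1, h2⟩
    exact (mem_nbr_Phi_x hS h1).mp h2
  · intro h
    exact ⟨hS h, (mem_nbr_Phi_x hS (hS h)).mpr h⟩

lemma keyOf_Phi (S : Finset (Fin n)) : keyOf {x, y} (Phi G₀ x y S) = keyOf {x, y} G₀ := by
  rw [keyOf_eq_iff]
  intro a b h ha hb
  unfold Phi
  rw [edg_mem_toggle]
  simp only [ha, hb, false_and, or_self, iff_false, not_not]

/-- Degrees of `Φ S` for `|S| = |S₀|`. -/
lemma deg_Phi {S : Finset (Fin n)} (hS : S ⊆ Wp G₀ x y) (hxy : x ≠ y)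
    (hc : S.card = (Sel G₀ x y G₀).card) (v : Fin n) : deg (Phi G₀ x y S) v = deg G₀ v := by
  have hT := disjoint_T (G₀ := G₀) (x := x) (y := y) hS
  set S₀ := Sel G₀ x y G₀ with hS₀
  have hsd : (S \ S₀).card = (S₀ \ S).card := by
    have h1 := card_sdiff_add_card_inter S S₀
    have h2 := card_sdiff_add_card_inter S₀ S
    rw [inter_comm] at h2
    omega
  by_cases hvx : v = x
  · subst hvx
    rw [← card_nbr, ← card_nbr, nbr_Phi_x hS]
    apply card_symmDiff_eq
    -- `T \ N(x) = S \ S₀`, `N(x) ∩ T = S₀ \ S`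
    have e1 : symmDiff S S₀ \ nbr G₀ v = S \ S₀ := by
      ext w
      simp only [mem_sdiff, mem_symmDiff, hS₀, Sel, mem_inter]
      constructor
      · rintro ⟨h1 | h1, h2⟩
        · exact h1
        · exact absurd h1.1.2 h2
      · rintro ⟨h1, h2⟩
        refine ⟨Or.inl ⟨h1, h2⟩, fun h3 => h2 ⟨hS h1, h3⟩⟩
    have e2 : nbr G₀ v ∩ symmDiff S S₀ = S₀ \ S := by
      ext w
      simp only [mem_sdiff, mem_symmDiff, hS₀, Sel, mem_inter]
      constructor
      · rintro ⟨h0, h1 | h1⟩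
        · exact absurd ⟨hS h1.1, h0⟩ h1.2
        · exact h1
      · rintro ⟨⟨h1, h2⟩, h3⟩
        exact ⟨h2, Or.inr ⟨⟨h1, h2⟩, h3⟩⟩
    rw [e1, e2, hsd]
  by_cases hvy : v = y
  · subst hvy
    rw [← card_nbr, ← card_nbr, nbr_Phi_y hS]
    apply card_symmDiff_eq
    have e1 : symmDiff S S₀ \ nbr G₀ v = S₀ \ S := by
      ext w
      simp only [mem_sdiff, mem_symmDiff, hS₀, Sel, mem_inter]
      constructor
      · rintro ⟨h1 | h1, h2⟩
        · have := (mem_Wp_iff.mp (hS h1.1)).2.2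
          exfalso
          apply h1.2
          refine ⟨hS h1.1, ?_⟩
          tauto
        · exact h1
      · rintro ⟨⟨h1, h2⟩, h3⟩
        have := (mem_Wp_iff.mp h1).2.2
        refine ⟨Or.inr ⟨⟨h1, h2⟩, h3⟩, ?_⟩
        tauto
    have e2 : nbr G₀ v ∩ symmDiff S S₀ = S \ S₀ := by
      ext w
      simp only [mem_sdiff, mem_symmDiff, hS₀, Sel, mem_inter]
      constructor
      · rintro ⟨h0, h1 | h1⟩
        · exact h1
        · have := (mem_Wp_iff.mp h1.1.1).2.2
          exfalso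
          tauto
      · rintro ⟨h1, h2⟩
        have := (mem_Wp_iff.mp (hS h1)).2.2
        refine ⟨?_, Or.inl ⟨h1, h2⟩⟩
        by_contra h3
        apply h2
        refine ⟨hS h1, ?_⟩
        tauto
    rw [e1, e2, hsd]
  by_cases hvT : v ∈ symmDiff S S₀
  · rw [← card_nbr, ← card_nbr]
    unfold Phi
    rw [← hS₀, nbr_toggle_T hT hvT]
    apply card_symmDiff_eq
    have hvW : v ∈ Wp G₀ x y := symmDiff_subset_of hS (Sel_subset _) hvT
    have hW := (mem_Wp_iff.mp hvW).2.2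
    have hx1 : v ∈ nbr G₀ x ↔ x ∈ nbr G₀ v := mem_nbr_comm
    have hy1 : v ∈ nbr G₀ y ↔ y ∈ nbr G₀ v := mem_nbr_comm
    rcases hW with ⟨h1, h2⟩ | ⟨h1, h2⟩
    · have e1 : ({x, y} : Finset (Fin n)) \ nbr G₀ v = {y} := by
        ext w
        simp only [mem_sdiff, mem_insert, mem_singleton]
        constructor
        · rintro ⟨rfl | rfl, h3⟩
          · exact absurd (hx1.mp h1) h3
          · rfl
        · rintro rfl
          exact ⟨Or.inr rfl, fun h3 => h2 (hy1.mpr h3)⟩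
      have e2 : nbr G₀ v ∩ ({x, y} : Finset (Fin n)) = {x} := by
        ext w
        simp only [mem_inter, mem_insert, mem_singleton]
        constructor
        · rintro ⟨h3, rfl | rfl⟩
          · rfl
          · exact absurd (hy1.mpr h3) h2
        · rintro rfl
          exact ⟨hx1.mp h1, Or.inl rfl⟩
      rw [e1, e2, card_singleton, card_singleton]
    · have e1 : ({x, y} : Finset (Fin n)) \ nbr G₀ v = {x} := by
        ext w
        simp only [mem_sdiff, mem_insert, mem_singleton]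
        constructor
        · rintro ⟨rfl | rfl, h3⟩
          · rfl
          · exact absurd (hy1.mp h2) h3
        · rintro rfl
          exact ⟨Or.inl rfl, fun h3 => h1 (hx1.mpr h3)⟩
      have e2 : nbr G₀ v ∩ ({x, y} : Finset (Fin n)) = {y} := by
        ext w
        simp only [mem_inter, mem_insert, mem_singleton]
        constructor
        · rintro ⟨h3, rfl | rfl⟩
          · exact absurd (hx1.mpr h3) h1
          · rfl
        · rintro rfl
          exact ⟨hy1.mp h2, Or.inr rfl⟩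
      rw [e1, e2, card_singleton, card_singleton]
  · rw [← card_nbr, ← card_nbr]
    unfold Phi
    rw [← hS₀, nbr_toggle_out (by simp [hvx, hvy]) hvT]

lemma Phi_mem_realizations {d : Fin n → ℕ} (hG₀ : G₀ ∈ realizations d) {S : Finset (Fin n)}
    (hS : S ⊆ Wp G₀ x y) (hxy : x ≠ y) (hc : S.card = (Sel G₀ x y G₀).card) :
    Phi G₀ x y S ∈ realizations d := by
  simp only [realizations, mem_filter, mem_univ, true_and] at hG₀ ⊢
  intro v
  rw [deg_Phi hS hxy hc, hG₀]

/-- flip on `Φ`. -/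
lemma flip_Phi {q S : Finset (Fin n)} (hS : S ⊆ Wp G₀ x y)
    (hq : Disjoint ({x, y} : Finset (Fin n)) q) :
    flip {x, y} q (Phi G₀ x y S) = Phi G₀ x y (symmDiff S q) := by
  unfold flip Phi
  rw [symmDiff_assoc, cross_symmDiff (disjoint_T hS) hq]
  congr 2
  rw [symmDiff_comm S, symmDiff_assoc, symmDiff_comm (Sel G₀ x y G₀)]


/-! ### The converse: every graph of the block is a `Φ S` -/

lemma card_inter_pair (A : Finset (Fin n)) (hxy : x ≠ y) :
    (A ∩ {x, y}).card = (if x ∈ A then 1 else 0) + (if y ∈ A then 1 else 0) := by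
  by_cases h1 : x ∈ A <;> by_cases h2 : y ∈ A
  · have : A ∩ {x, y} = {x, y} := by
      ext w; simp only [mem_inter, mem_insert, mem_singleton]
      constructor
      · exact fun h => h.2
      · rintro (rfl | rfl)
        · exact ⟨h1, Or.inl rfl⟩
        · exact ⟨h2, Or.inr rfl⟩
    rw [this, card_pair hxy]; simp [h1, h2]
  · have : A ∩ {x, y} = {x} := by
      ext w; simp only [mem_inter, mem_insert, mem_singleton]
      constructor
      · rintro ⟨h, rfl | rfl⟩
        · rfl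
        · exact absurd h h2
      · rintro rfl; exact ⟨h1, Or.inl rfl⟩
    rw [this]; simp [h1, h2]
  · have : A ∩ {x, y} = {y} := by
      ext w; simp only [mem_inter, mem_insert, mem_singleton]
      constructor
      · rintro ⟨h, rfl | rfl⟩
        · exact absurd h h1
        · rfl
      · rintro rfl; exact ⟨h2, Or.inr rfl⟩
    rw [this]; simp [h1, h2]
  · have : A ∩ {x, y} = ∅ := by
      ext w; simp only [mem_inter, mem_insert, mem_singleton, notMem_empty, iff_false]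
      rintro ⟨h, rfl | rfl⟩
      · exact h1 h
      · exact h2 h
    rw [this]; simp [h1, h2]

/-- Same key and same degrees: same number of neighbours in `p`. -/
lemma card_inter_of_key {p : Finset (Fin n)} {G G' : Finset (Edge n)}
    (hk : keyOf p G = keyOf p G') (hdeg : ∀ v, deg G v = deg G' v) {w : Fin n} (hw : w ∉ p) :
    (nbr G w ∩ p).card = (nbr G' w ∩ p).card := by
  have h1 := card_sdiff_add_card_inter (nbr G w) p
  have h2 := card_sdiff_add_card_inter (nbr G' w) p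
  have h3 : nbr G w \ p = nbr G' w \ p := by
    ext u
    simp only [mem_sdiff]
    by_cases huw : w = u
    · subst huw
      simp [mem_nbr]
    · rw [mem_nbr_of_ne huw, mem_nbr_of_ne huw]
      constructor
      · rintro ⟨h4, h5⟩
        exact ⟨(keyOf_eq_iff.mp hk w u huw hw h5).mp h4, h5⟩
      · rintro ⟨h4, h5⟩
        exact ⟨(keyOf_eq_iff.mp hk w u huw hw h5).mpr h4, h5⟩
  rw [card_nbr] at h1 h2
  rw [h3] at h1
  have := hdeg w
  omega

/-- The four-bit comparison at a column `w`. -/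
lemma column_cases {G G' : Finset (Edge n)} (hxy : x ≠ y)
    (hk : keyOf {x, y} G = keyOf {x, y} G') (hdeg : ∀ v, deg G v = deg G' v) {w : Fin n}
    (hwx : w ≠ x) (hwy : w ≠ y) :
    ((if w ∈ nbr G x then 1 else 0) + (if w ∈ nbr G y then 1 else 0) : ℕ) =
      (if w ∈ nbr G' x then 1 else 0) + (if w ∈ nbr G' y then 1 else 0) := by
  have h := card_inter_of_key hk hdeg (w := w) (by simp [hwx, hwy])
  rw [card_inter_pair _ hxy, card_inter_pair _ hxy] at h
  simpa only [mem_nbr_comm (x := w) (u := x), mem_nbr_comm (x := w) (u := y)] using h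

lemma edge_xy_eq {G G' : Finset (Edge n)} (hxy : x ≠ y)
    (hk : keyOf {x, y} G = keyOf {x, y} G') (hdeg : ∀ v, deg G v = deg G' v) :
    y ∈ nbr G x ↔ y ∈ nbr G' x := by
  classical
  set p : Finset (Fin n) := {x, y} with hp
  have hsplit : ∀ (A : Finset (Fin n)), A.card = ∑ w ∈ univ \ p, (if w ∈ A then 1 else 0) +
      (A ∩ p).card := by
    intro A
    have h := card_sdiff_add_card_inter A p
    have h2 : (A \ p).card = ∑ w ∈ univ \ p, (if w ∈ A then 1 else 0) := by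
      rw [← card_filter]
      congr 1
      ext w
      simp only [mem_sdiff, mem_filter, mem_univ, true_and]
      tauto
    omega
  have hx := hsplit (nbr G x)
  have hy := hsplit (nbr G y)
  have hx' := hsplit (nbr G' x)
  have hy' := hsplit (nbr G' y)
  rw [hp, card_inter_pair _ hxy] at hx hy hx' hy'
  rw [← hp] at hx hy hx' hy'
  have hsum : ∑ w ∈ univ \ p, (if w ∈ nbr G x then 1 else 0) +
      ∑ w ∈ univ \ p, (if w ∈ nbr G y then 1 else 0) =
      ∑ w ∈ univ \ p, (if w ∈ nbr G' x then 1 else 0) +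
      ∑ w ∈ univ \ p, (if w ∈ nbr G' y then 1 else 0) := by
    rw [← sum_add_distrib, ← sum_add_distrib]
    refine sum_congr rfl fun w hw => ?_
    have hw' : w ∉ p := (mem_sdiff.mp hw).2
    rw [hp] at hw'
    simp only [mem_insert, mem_singleton, not_or] at hw'
    exact column_cases hxy hk hdeg hw'.1 hw'.2
  have e1 := hdeg x
  have e2 := hdeg y
  rw [← card_nbr, ← card_nbr] at e1 e2
  have n1 : x ∉ nbr G x := by simp [mem_nbr]
  have n2 : y ∉ nbr G y := by simp [mem_nbr]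
  have n3 : x ∉ nbr G' x := by simp [mem_nbr]
  have n4 : y ∉ nbr G' y := by simp [mem_nbr]
  have c1 : x ∈ nbr G y ↔ y ∈ nbr G x := mem_nbr_comm
  have c2 : x ∈ nbr G' y ↔ y ∈ nbr G' x := mem_nbr_comm
  simp only [n1, n2, n3, n4, c1, c2, if_false] at hx hy hx' hy'
  by_cases h1 : y ∈ nbr G x <;> by_cases h2 : y ∈ nbr G' x <;>
    simp only [h1, h2, if_true, if_false] at hx hy hx' hy' ⊢ <;> omega

/-- The structure theorem: any `G` in the block of `G₀` is `Φ (Sel G)`. -/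
lemma Phi_Sel {G : Finset (Edge n)} (hxy : x ≠ y)
    (hk : keyOf {x, y} G = keyOf {x, y} G₀) (hdeg : ∀ v, deg G v = deg G₀ v) :
    Phi G₀ x y (Sel G₀ x y G) = G := by
  classical
  -- column facts
  have hcol : ∀ w, w ≠ x → w ≠ y →
      ((if w ∈ nbr G x then 1 else 0) + (if w ∈ nbr G y then 1 else 0) : ℕ) =
      (if w ∈ nbr G₀ x then 1 else 0) + (if w ∈ nbr G₀ y then 1 else 0) :=
    fun w h1 h2 => column_cases hxy hk hdeg h1 h2
  have hx : ∀ w, w ≠ x → w ≠ y → (w ∈ nbr G x ↔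
      ¬ (w ∈ nbr G₀ x ↔ w ∈ symmDiff (Sel G₀ x y G) (Sel G₀ x y G₀))) := by
    intro w h1 h2
    have hc := hcol w h1 h2
    simp only [mem_symmDiff, Sel, mem_inter, mem_Wp_iff, h1, h2, ne_eq, not_false_eq_true, true_and]
    by_cases a1 : w ∈ nbr G x <;> by_cases a2 : w ∈ nbr G y <;> by_cases a3 : w ∈ nbr G₀ x <;>
      by_cases a4 : w ∈ nbr G₀ y <;> simp only [a1, a2, a3, a4, if_true, if_false] at hc ⊢ <;>
      simp_all
  have hy : ∀ w, w ≠ x → w ≠ y → (w ∈ nbr G y ↔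
      ¬ (w ∈ nbr G₀ y ↔ w ∈ symmDiff (Sel G₀ x y G) (Sel G₀ x y G₀))) := by
    intro w h1 h2
    have hc := hcol w h1 h2
    simp only [mem_symmDiff, Sel, mem_inter, mem_Wp_iff, h1, h2, ne_eq, not_false_eq_true, true_and]
    by_cases a1 : w ∈ nbr G x <;> by_cases a2 : w ∈ nbr G y <;> by_cases a3 : w ∈ nbr G₀ x <;>
      by_cases a4 : w ∈ nbr G₀ y <;> simp only [a1, a2, a3, a4, if_true, if_false] at hc ⊢ <;>
      simp_all
  have hT : Disjoint ({x, y} : Finset (Fin n)) (symmDiff (Sel G₀ x y G) (Sel G₀ x y G₀)) :=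
    disjoint_T (Sel_subset G)
  have hT1 : x ∉ symmDiff (Sel G₀ x y G) (Sel G₀ x y G₀) :=
    disjoint_left.mp hT (by simp)
  have hT2 : y ∉ symmDiff (Sel G₀ x y G) (Sel G₀ x y G₀) :=
    disjoint_left.mp hT (by simp)
  have hxye : y ∈ nbr G x ↔ y ∈ nbr G₀ x := edge_xy_eq hxy hk hdeg
  have hkey := keyOf_eq_iff.mp hk
  ext e
  obtain ⟨a, b, h, rfl⟩ := exists_edg e
  unfold Phi
  rw [edg_mem_toggle]
  set T := symmDiff (Sel G₀ x y G) (Sel G₀ x y G₀) with hTdef
  have e1 : edg a b h ∈ G ↔ b ∈ nbr G a := (mem_nbr_of_ne h).symm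
  have e2 : edg a b h ∈ G₀ ↔ b ∈ nbr G₀ a := (mem_nbr_of_ne h).symm
  have e3 : edg a b h ∈ G ↔ a ∈ nbr G b := by rw [e1]; exact mem_nbr_comm
  have e4 : edg a b h ∈ G₀ ↔ a ∈ nbr G₀ b := by rw [e2]; exact mem_nbr_comm
  simp only [mem_insert, mem_singleton]
  by_cases ha : a = x ∨ a = y <;> by_cases hb : b = x ∨ b = y
  · -- the edge `xy`
    have hex : edg a b h ∈ G ↔ edg a b h ∈ G₀ := by
      rcases ha with rfl | rfl <;> rcases hb with rfl | rfl
      · exact absurd rfl h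
      · rw [e1, e2]; exact hxye
      · rw [e3, e4]; exact hxye
      · exact absurd rfl h
    have ht1 : b ∉ T := by
      rcases hb with rfl | rfl
      · exact hT1
      · exact hT2
    have ht2 : a ∉ T := by
      rcases ha with rfl | rfl
      · exact hT1
      · exact hT2
    simp only [ht1, ht2, and_false, or_self, iff_false, not_not]
    exact hex.symm
  · have hb' : b ≠ x ∧ b ≠ y := by
      simpa only [not_or] using hb
    simp only [ha, true_and, hb, false_and, or_false]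
    rcases ha with rfl | rfl
    · rw [e1, e2, hx b hb'.1 hb'.2]
    · rw [e1, e2, hy b hb'.1 hb'.2]
  · have ha' : a ≠ x ∧ a ≠ y := by
      simpa only [not_or] using ha
    simp only [ha, false_and, hb, true_and, false_or]
    rcases hb with rfl | rfl
    · rw [e3, e4, hx a ha'.1 ha'.2]
    · rw [e3, e4, hy a ha'.1 ha'.2]
  · simp only [ha, false_and, hb, or_self, iff_false, not_not]
    have hap : a ∉ ({x, y} : Finset (Fin n)) := by simpa using ha
    have hbp : b ∉ ({x, y} : Finset (Fin n)) := by simpa using hb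
    exact (hkey a b h hap hbp).symm

lemma card_Sel {G : Finset (Edge n)} (hxy : x ≠ y)
    (hk : keyOf {x, y} G = keyOf {x, y} G₀) (hdeg : ∀ v, deg G v = deg G₀ v) :
    (Sel G₀ x y G).card = (Sel G₀ x y G₀).card := by
  have hP := Phi_Sel hxy hk hdeg
  have hN : nbr G x = symmDiff (nbr G₀ x) (symmDiff (Sel G₀ x y G) (Sel G₀ x y G₀)) := by
    conv_lhs => rw [← hP]
    exact nbr_Phi_x (Sel_subset G)
  have hc : (symmDiff (nbr G₀ x) (symmDiff (Sel G₀ x y G) (Sel G₀ x y G₀))).card =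
      (nbr G₀ x).card := by
    rw [← hN, card_nbr, card_nbr, hdeg]
  have h := card_eq_of_symmDiff hc
  have e1 : symmDiff (Sel G₀ x y G) (Sel G₀ x y G₀) \ nbr G₀ x =
      Sel G₀ x y G \ Sel G₀ x y G₀ := by
    ext w
    simp only [mem_sdiff, mem_symmDiff, Sel, mem_inter]
    constructor
    · rintro ⟨h1 | h1, h2⟩
      · exact h1
      · exact absurd h1.1.2 h2
    · rintro ⟨h1, h2⟩
      exact ⟨Or.inl ⟨h1, h2⟩, fun h3 => h2 ⟨h1.1, h3⟩⟩
  have e2 : nbr G₀ x ∩ symmDiff (Sel G₀ x y G) (Sel G₀ x y G₀) =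
      Sel G₀ x y G₀ \ Sel G₀ x y G := by
    ext w
    simp only [mem_sdiff, mem_symmDiff, Sel, mem_inter]
    constructor
    · rintro ⟨h0, h1 | h1⟩
      · exact absurd ⟨h1.1.1, h0⟩ h1.2
      · exact h1
    · rintro ⟨⟨h1, h2⟩, h3⟩
      exact ⟨h2, Or.inr ⟨⟨h1, h2⟩, h3⟩⟩
  rw [e1, e2] at h
  have h1 := card_sdiff_add_card_inter (Sel G₀ x y G) (Sel G₀ x y G₀)
  have h2 := card_sdiff_add_card_inter (Sel G₀ x y G₀) (Sel G₀ x y G)
  rw [inter_comm] at h2
  omega

/-! ### Centre graphs -/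

lemma card_filter_cross {p q : Finset (Fin n)} {G : Finset (Edge n)} {v : Fin n}
    (hv : v ∈ p) (hpq : Disjoint p q) :
    ((G ∩ cross p q).filter fun e => v ∈ e.1).card = (nbr G v ∩ q).card := by
  symm
  refine card_bij (fun u hu => edg v u (mem_nbr.mp (mem_inter.mp hu).1).1) ?_ ?_ ?_
  · intro u hu
    obtain ⟨h1, h2⟩ := mem_inter.mp hu
    obtain ⟨h, he⟩ := mem_nbr.mp h1
    simp only [mem_filter, mem_inter]
    exact ⟨⟨he, edg_mem_cross.mpr (Or.inl ⟨hv, h2⟩)⟩, mem_edg.mpr (Or.inl rfl)⟩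
  · intro u hu u' hu' hEq
    rw [edg_eq_iff] at hEq
    rcases hEq with ⟨_, h2⟩ | ⟨h1, h2⟩
    · exact h2
    · exact h2.trans h1
  · intro e he
    simp only [mem_filter, mem_inter] at he
    obtain ⟨⟨h1, h2⟩, h3⟩ := he
    obtain ⟨u, h, rfl⟩ := exists_edg_of_mem h3
    refine ⟨u, ?_, rfl⟩
    rw [edg_mem_cross] at h2
    rcases h2 with ⟨_, h2⟩ | ⟨_, h2⟩
    · exact mem_inter.mpr ⟨mem_nbr.mpr ⟨h, h1⟩, h2⟩
    · exact absurd h2 (disjoint_left.mp hpq hv)

lemma cross_comm (p q : Finset (Fin n)) : cross p q = cross q p := by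
  ext e
  obtain ⟨a, b, h, rfl⟩ := exists_edg e
  simp only [edg_mem_cross]
  tauto

lemma isCentre_iff {p q : Finset (Fin n)} {G : Finset (Edge n)} (hpq : Disjoint p q) :
    IsCentre p q G ↔ (∀ v ∈ p, (nbr G v ∩ q).card = 1) ∧ (∀ w ∈ q, (nbr G w ∩ p).card = 1) := by
  unfold IsCentre
  constructor
  · intro h
    refine ⟨fun v hv => ?_, fun w hw => ?_⟩
    · rw [← card_filter_cross hv hpq]
      exact h v (mem_union_left _ hv)
    · rw [← card_filter_cross hw hpq.symm, ← cross_comm]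
      exact h w (mem_union_right _ hw)
  · rintro ⟨h1, h2⟩ v hv
    rcases mem_union.mp hv with hv | hv
    · rw [card_filter_cross hv hpq]
      exact h1 v hv
    · rw [cross_comm, card_filter_cross hv hpq.symm]
      exact h2 v hv

lemma mem_Wp_of_card {w : Fin n} (hxy : x ≠ y) (hwx : w ≠ x) (hwy : w ≠ y) :
    w ∈ Wp G₀ x y ↔ (nbr G₀ w ∩ {x, y}).card = 1 := by
  rw [card_inter_pair _ hxy, mem_Wp_iff]
  simp only [mem_nbr_comm (x := w) (u := x), mem_nbr_comm (x := w) (u := y), hwx, hwy]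
  by_cases a1 : w ∈ nbr G₀ x <;> by_cases a2 : w ∈ nbr G₀ y <;> simp [a1, a2, hwx, hwy]

lemma isCentre_Phi {q S : Finset (Fin n)} (hxy : x ≠ y) (hS : S ⊆ Wp G₀ x y)
    (hc : S.card = (Sel G₀ x y G₀).card) (hq : Disjoint ({x, y} : Finset (Fin n)) q)
    (hq2 : q.card = 2) :
    IsCentre {x, y} q (Phi G₀ x y S) ↔ q ⊆ Wp G₀ x y ∧ (S ∩ q).card = 1 := by
  rw [isCentre_iff hq]
  have hdeg : ∀ v, deg (Phi G₀ x y S) v = deg G₀ v := deg_Phi hS hxy hc
  have hk : keyOf {x, y} (Phi G₀ x y S) = keyOf {x, y} G₀ := keyOf_Phi S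
  have hz : ∀ w ∈ q, ((nbr (Phi G₀ x y S) w ∩ {x, y}).card = 1 ↔ w ∈ Wp G₀ x y) := by
    intro w hw
    have hwp : w ∉ ({x, y} : Finset (Fin n)) := disjoint_right.mp hq hw
    have hwx : w ≠ x := by
      rintro rfl
      simp at hwp
    have hwy : w ≠ y := by
      rintro rfl
      simp at hwp
    rw [card_inter_of_key hk hdeg hwp, mem_Wp_of_card hxy hwx hwy]
  have hqx : ∀ hq' : q ⊆ Wp G₀ x y, nbr (Phi G₀ x y S) x ∩ q = S ∩ q := by
    intro hq'
    ext w
    simp only [mem_inter]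
    constructor
    · rintro ⟨h1, h2⟩
      exact ⟨(mem_nbr_Phi_x hS (hq' h2)).mp h1, h2⟩
    · rintro ⟨h1, h2⟩
      exact ⟨(mem_nbr_Phi_x hS (hq' h2)).mpr h1, h2⟩
  have hqy : ∀ hq' : q ⊆ Wp G₀ x y, nbr (Phi G₀ x y S) y ∩ q = q \ S := by
    intro hq'
    ext w
    simp only [mem_inter, mem_sdiff]
    constructor
    · rintro ⟨h1, h2⟩
      exact ⟨h2, (mem_nbr_Phi_y hS (hq' h2)).mp h1⟩
    · rintro ⟨h1, h2⟩
      exact ⟨(mem_nbr_Phi_y hS (hq' h1)).mpr h2, h1⟩
  have hqc : (q \ S).card + (S ∩ q).card = 2 := by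
    have := card_sdiff_add_card_inter q S
    rw [inter_comm] at this
    omega
  constructor
  · rintro ⟨h1, h2⟩
    have hq' : q ⊆ Wp G₀ x y := fun w hw => (hz w hw).mp (h2 w hw)
    refine ⟨hq', ?_⟩
    rw [← hqx hq']
    exact h1 x (by simp)
  · rintro ⟨hq', h1⟩
    refine ⟨fun v hv => ?_, fun w hw => (hz w hw).mpr (hq' hw)⟩
    simp only [mem_insert, mem_singleton] at hv
    rcases hv with rfl | rfl
    · rw [hqx hq']; exact h1
    · rw [hqy hq']; omega

end

end Crest.Agent.Lib.Switch.BlockT7
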