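/-
S0453 T5a (helper19): the Johnson graph spectral gap, by up/down operators, induction on k.
No spectral theorem.
-/
import Mathlib

set_option autoImplicit false

namespace Crest.Agent.Lib.Switch

open Finset

section
variable {α : Type*} [DecidableEq α]

/-- Double counting of flags `(R, u)`, `u ∉ R` against `(S, u)`, `u ∈ S`. -/
theorem sum_up_eq_sum_down (W : Finset α) (k : ℕ) (F : Finset α → α → ℝ) :
    ∑ R ∈ W.powersetCard k, ∑ u ∈ W \ R, F (insert u R) u =
      ∑ S ∈ W.powersetCard (k + 1), ∑ u ∈ S, F S u := by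
  rw [Finset.sum_sigma', Finset.sum_sigma']
  refine Finset.sum_bij' (fun p _ => ⟨insert p.2 p.1, p.2⟩) (fun p _ => ⟨p.1.erase p.2, p.2⟩)
    ?_ ?_ ?_ ?_ ?_
  · rintro ⟨R, u⟩ h
    simp only [mem_sigma, mem_powersetCard, mem_sdiff] at h ⊢
    obtain ⟨⟨hRW, hRk⟩, huW, huR⟩ := h
    refine ⟨⟨insert_subset huW hRW, ?_⟩, mem_insert_self _ _⟩
    rw [card_insert_of_notMem huR, hRk]
  · rintro ⟨S, u⟩ h
    simp only [mem_sigma, mem_powersetCard, mem_sdiff] at h ⊢
    obtain ⟨⟨hSW, hSk⟩, huS⟩ := h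
    refine ⟨⟨(erase_subset _ _).trans hSW, ?_⟩, hSW huS, notMem_erase _ _⟩
    rw [card_erase_of_mem huS, hSk]; rfl
  · rintro ⟨R, u⟩ h
    simp only [mem_sigma, mem_powersetCard, mem_sdiff] at h
    simp only [erase_insert h.2.2]
  · rintro ⟨S, u⟩ h
    simp only [mem_sigma, mem_powersetCard] at h
    simp only [insert_erase h.2]
  · rintro ⟨R, u⟩ _
    rfl

/-- The down operator on `g` (defined on `(k+1)`-sets), a function on `k`-sets. -/
noncomputable def upSum (W : Finset α) (g : Finset α → ℝ) (R : Finset α) : ℝ :=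
  ∑ u ∈ W \ R, g (insert u R)

/-- The up operator. -/
noncomputable def downSum (h : Finset α → ℝ) (S : Finset α) : ℝ :=
  ∑ u ∈ S, h (S.erase u)

/-- Adjacency form on `k`-sets. -/
noncomputable def adjForm (W : Finset α) (k : ℕ) (g : Finset α → ℝ) : ℝ :=
  ∑ S ∈ W.powersetCard k, ∑ u ∈ S, ∑ v ∈ W \ S, g S * g (insert v (S.erase u))

theorem adjoint_up (W : Finset α) (k : ℕ) (g h : Finset α → ℝ) :
    ∑ R ∈ W.powersetCard k, upSum W g R * h R =
      ∑ S ∈ W.powersetCard (k + 1), g S * downSum h S := by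
  unfold upSum downSum
  have := sum_up_eq_sum_down W k (fun S u => g S * h (S.erase u))
  simp only [Finset.sum_mul, Finset.mul_sum]
  rw [← this]
  refine Finset.sum_congr rfl fun R hR => Finset.sum_congr rfl fun u hu => ?_
  rw [erase_insert (mem_sdiff.mp hu).2]

theorem norm_up (W : Finset α) (k : ℕ) (g : Finset α → ℝ) :
    ∑ R ∈ W.powersetCard k, upSum W g R ^ 2 =
      ((k : ℝ) + 1) * ∑ S ∈ W.powersetCard (k + 1), g S ^ 2 + adjForm W (k + 1) g := by
  unfold upSum adjForm
  have key := sum_up_eq_sum_down W k (fun S u => g S ^ 2 + ∑ v ∈ W \ S, g S * g (insert v (S.erase u)))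
  have h1 : ∑ S ∈ W.powersetCard (k + 1), ∑ u ∈ S, (g S ^ 2 + ∑ v ∈ W \ S, g S * g (insert v (S.erase u))) =
      ((k : ℝ) + 1) * ∑ S ∈ W.powersetCard (k + 1), g S ^ 2 +
        ∑ S ∈ W.powersetCard (k + 1), ∑ u ∈ S, ∑ v ∈ W \ S, g S * g (insert v (S.erase u)) := by
    rw [Finset.mul_sum, ← Finset.sum_add_distrib]
    refine Finset.sum_congr rfl fun S hS => ?_
    rw [Finset.sum_add_distrib, Finset.sum_const, (mem_powersetCard.mp hS).2]
    simp [nsmul_eq_mul]
  rw [← h1, ← key]
  refine Finset.sum_congr rfl fun R hR => ?_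
  rw [sq, Finset.sum_mul_sum]
  refine Finset.sum_congr rfl fun u hu => ?_
  have huR := (mem_sdiff.mp hu).2
  have hs : W \ R = insert u (W \ insert u R) := by
    ext a
    simp only [mem_sdiff, mem_insert]
    constructor
    · rintro ⟨ha, haR⟩
      by_cases hau : a = u
      · exact Or.inl hau
      · exact Or.inr ⟨ha, fun h => h.elim hau haR⟩
    · rintro (rfl | ⟨ha, hn⟩)
      · exact ⟨(mem_sdiff.mp hu).1, huR⟩
      · exact ⟨ha, fun h => hn (Or.inr h)⟩
  have hnot : u ∉ W \ insert u R := by simp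
  rw [hs, Finset.sum_insert hnot, sq]
  congr 1
  refine Finset.sum_congr rfl fun v _ => ?_
  rw [erase_insert huR]

theorem norm_down (W : Finset α) (k : ℕ) (g : Finset α → ℝ) (hk : k ≤ W.card) :
    ∑ T ∈ W.powersetCard (k + 1), downSum g T ^ 2 =
      ((W.card : ℝ) - k) * ∑ S ∈ W.powersetCard k, g S ^ 2 + adjForm W k g := by
  unfold downSum adjForm
  have key := sum_up_eq_sum_down W k
    (fun T u => g (T.erase u) ^ 2 + ∑ v ∈ T.erase u, g (T.erase u) * g (T.erase v))
  have h0 : ∑ T ∈ W.powersetCard (k + 1), (∑ u ∈ T, g (T.erase u)) ^ 2 =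
      ∑ T ∈ W.powersetCard (k + 1), ∑ u ∈ T,
        (g (T.erase u) ^ 2 + ∑ v ∈ T.erase u, g (T.erase u) * g (T.erase v)) := by
    refine Finset.sum_congr rfl fun T _ => ?_
    rw [sq, Finset.sum_mul_sum]
    refine Finset.sum_congr rfl fun u hu => ?_
    conv_lhs => rw [← insert_erase hu]
    rw [Finset.sum_insert (notMem_erase _ _), sq]
    simp only [insert_erase hu]
  rw [h0, ← key]
  have h2 : ∀ R ∈ W.powersetCard k, ∑ u ∈ W \ R,
      (g ((insert u R).erase u) ^ 2 +
        ∑ v ∈ (insert u R).erase u, g ((insert u R).erase u) * g ((insert u R).erase v)) =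
      ((W.card : ℝ) - k) * g R ^ 2 + ∑ u ∈ W \ R, ∑ v ∈ R, g R * g (insert u (R.erase v)) := by
    intro R hR
    obtain ⟨hRW, hRk⟩ := mem_powersetCard.mp hR
    rw [Finset.sum_add_distrib]
    congr 1
    · have : ∀ u ∈ W \ R, g ((insert u R).erase u) ^ 2 = g R ^ 2 := by
        intro u hu
        rw [erase_insert (mem_sdiff.mp hu).2]
      rw [Finset.sum_congr rfl this, Finset.sum_const, nsmul_eq_mul,
        card_sdiff_of_subset hRW, hRk, Nat.cast_sub hk]
    · refine Finset.sum_congr rfl fun u hu => ?_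
      have huR := (mem_sdiff.mp hu).2
      rw [erase_insert huR]
      refine Finset.sum_congr rfl fun v hv => ?_
      have huv : v ≠ u := fun h => huR (h ▸ hv)
      rw [erase_insert_of_ne huv.symm]
  rw [Finset.sum_congr rfl h2, Finset.sum_add_distrib, ← Finset.mul_sum]
  congr 1
  refine Finset.sum_congr rfl fun R _ => ?_
  rw [Finset.sum_comm]


/-- mean-zero propagates along the up operator. -/
theorem sum_up (W : Finset α) (k : ℕ) (g : Finset α → ℝ) :
    ∑ R ∈ W.powersetCard k, upSum W g R = ((k : ℝ) + 1) * ∑ S ∈ W.powersetCard (k + 1), g S := by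
  unfold upSum
  have := sum_up_eq_sum_down W k (fun S _ => g S)
  rw [this, Finset.mul_sum]
  refine Finset.sum_congr rfl fun S hS => ?_
  rw [Finset.sum_const, (mem_powersetCard.mp hS).2]
  simp [nsmul_eq_mul]

/-- `H(k)`: the norm of the up operator on mean-zero functions on `(k+1)`-sets. -/
theorem up_bound (W : Finset α) (k : ℕ) :
    ∀ g : Finset α → ℝ, ∑ S ∈ W.powersetCard (k + 1), g S = 0 → k + 1 ≤ W.card →
      ∑ R ∈ W.powersetCard k, upSum W g R ^ 2 ≤
        (k : ℝ) * ((W.card : ℝ) - k - 1) * ∑ S ∈ W.powersetCard (k + 1), g S ^ 2 := by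
  induction k with
  | zero =>
    intro g h0 _
    have h1 := sum_up W 0 g
    rw [h0] at h1
    simp only [powersetCard_zero, sum_singleton, mul_zero] at h1
    simp [h1]
  | succ k ih =>
    intro g h0 hk
    set h : Finset α → ℝ := upSum W g with hh
    have hm : ∑ R ∈ W.powersetCard (k + 1), h R = 0 := by
      rw [hh, sum_up, h0, mul_zero]
    have hI := ih h hm (by omega)
    have hkD : (k : ℝ) + 2 ≤ W.card := by
      have : ((k + 1 + 1 : ℕ) : ℝ) ≤ W.card := by exact_mod_cast hk
      push_cast at this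
      linarith
    -- norm of `down h`
    have hd := norm_down W (k + 1) h (by omega)
    have hu := norm_up W k h
    set N := ∑ R ∈ W.powersetCard (k + 1), h R ^ 2 with hN
    set M := ∑ S ∈ W.powersetCard (k + 1 + 1), g S ^ 2 with hMdef
    set Dn := ∑ T ∈ W.powersetCard (k + 1 + 1), downSum h T ^ 2 with hDn
    have hN0 : 0 ≤ N := Finset.sum_nonneg fun _ _ => sq_nonneg _
    have hM0 : 0 ≤ M := Finset.sum_nonneg fun _ _ => sq_nonneg _
    have hDbound : Dn ≤ ((k : ℝ) + 1) * ((W.card : ℝ) - k - 2) * N := by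
      push_cast at hd
      nlinarith
    -- adjointness
    have hadj : N = ∑ S ∈ W.powersetCard (k + 1 + 1), g S * downSum h S := by
      rw [← adjoint_up, hN]
      refine Finset.sum_congr rfl fun R _ => ?_
      rw [hh, sq]
    have hCS : N ^ 2 ≤ M * Dn := by
      rw [hadj]
      exact Finset.sum_mul_sq_le_sq_mul_sq _ _ _
    have hprod : N ^ 2 ≤ M * (((k : ℝ) + 1) * ((W.card : ℝ) - k - 2) * N) :=
      hCS.trans (mul_le_mul_of_nonneg_left hDbound hM0)
    have hgoal : N ≤ ((k : ℝ) + 1) * ((W.card : ℝ) - k - 2) * M := by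
      rcases hN0.eq_or_lt with hz | hpos
      · rw [← hz]
        have : 0 ≤ (W.card : ℝ) - k - 2 := by linarith
        positivity
      · have : N * N ≤ (((k : ℝ) + 1) * ((W.card : ℝ) - k - 2) * M) * N := by nlinarith
        exact le_of_mul_le_mul_right this hpos
    show N ≤ _
    push_cast
    calc N ≤ ((k : ℝ) + 1) * ((W.card : ℝ) - k - 2) * M := hgoal
      _ = ((k : ℝ) + 1) * ((W.card : ℝ) - (k + 1) - 1) * M := by ring

/-- The flag sum of `G (S - u + v)`. -/
theorem sum_flag_swap (W : Finset α) (k : ℕ) (G : Finset α → ℝ) (hk : k + 1 ≤ W.card) :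
    ∑ S ∈ W.powersetCard (k + 1), ∑ u ∈ S, ∑ v ∈ W \ S, G (insert v (S.erase u)) =
      ((W.card : ℝ) - k - 1) * ((k : ℝ) + 1) * ∑ S ∈ W.powersetCard (k + 1), G S := by
  have key := sum_up_eq_sum_down W k (fun S u => ∑ v ∈ W \ S, G (insert v (S.erase u)))
  rw [← key]
  have h1 : ∀ R ∈ W.powersetCard k, ∑ u ∈ W \ R, ∑ v ∈ W \ insert u R, G (insert v ((insert u R).erase u)) =
      ((W.card : ℝ) - k - 1) * ∑ v ∈ W \ R, G (insert v R) := by
    intro R hR
    obtain ⟨hRW, hRk⟩ := mem_powersetCard.mp hR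
    have hc : ((W \ R).card : ℝ) = (W.card : ℝ) - k := by
      rw [card_sdiff_of_subset hRW, hRk, Nat.cast_sub (by omega)]
    have h2 : ∑ u ∈ W \ R, ∑ v ∈ W \ insert u R, G (insert v ((insert u R).erase u)) =
        ∑ u ∈ W \ R, ∑ v ∈ (W \ R).erase u, G (insert v R) := by
      refine Finset.sum_congr rfl fun u hu => ?_
      have huR := (mem_sdiff.mp hu).2
      have : W \ insert u R = (W \ R).erase u := by
        ext a
        simp only [mem_sdiff, mem_insert, mem_erase, not_or]
        tauto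
      rw [this]
      refine Finset.sum_congr rfl fun v _ => ?_
      rw [erase_insert huR]
    rw [h2]
    have h3 : ∑ u ∈ W \ R, ∑ v ∈ (W \ R).erase u, G (insert v R) =
        ∑ v ∈ W \ R, ∑ u ∈ (W \ R).erase v, G (insert v R) := by
      apply Finset.sum_comm'
      intro a b
      simp only [mem_erase, mem_sdiff]
      constructor
      · rintro ⟨h1, h2, h3⟩
        exact ⟨⟨fun h => h2 h.symm, h1⟩, h3⟩
      · rintro ⟨⟨h1, h2⟩, h3⟩
        exact ⟨h2, fun h => h1 h.symm, h3⟩
    rw [h3, Finset.mul_sum]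
    refine Finset.sum_congr rfl fun v hv => ?_
    rw [Finset.sum_const, card_erase_of_mem hv, nsmul_eq_mul, Nat.cast_sub (card_pos.mpr ⟨v, hv⟩), hc]
    simp
  rw [Finset.sum_congr rfl h1, ← Finset.mul_sum]
  have h4 := sum_up_eq_sum_down W k (fun S _ => G S)
  rw [h4, mul_assoc]
  congr 1
  rw [Finset.mul_sum]
  refine Finset.sum_congr rfl fun S hS => ?_
  rw [Finset.sum_const, (mem_powersetCard.mp hS).2]
  simp [nsmul_eq_mul]

/-- Flag form of the gap. -/
theorem flag_gap (W : Finset α) (k : ℕ) (g : Finset α → ℝ)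
    (h0 : ∑ S ∈ W.powersetCard (k + 1), g S = 0) (hk : k + 1 ≤ W.card) :
    2 * (W.card : ℝ) * ∑ S ∈ W.powersetCard (k + 1), g S ^ 2 ≤
      ∑ S ∈ W.powersetCard (k + 1), ∑ u ∈ S, ∑ v ∈ W \ S, (g S - g (insert v (S.erase u))) ^ 2 := by
  have hexp : ∑ S ∈ W.powersetCard (k + 1), ∑ u ∈ S, ∑ v ∈ W \ S, (g S - g (insert v (S.erase u))) ^ 2 =
      2 * (((W.card : ℝ) - k - 1) * ((k : ℝ) + 1) * ∑ S ∈ W.powersetCard (k + 1), g S ^ 2) -
        2 * adjForm W (k + 1) g := by
    have h1 := sum_flag_swap W k (fun S => g S ^ 2) hk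
    have h2 : ∑ S ∈ W.powersetCard (k + 1), ∑ u ∈ S, ∑ v ∈ W \ S, g S ^ 2 =
        ((W.card : ℝ) - k - 1) * ((k : ℝ) + 1) * ∑ S ∈ W.powersetCard (k + 1), g S ^ 2 := by
      rw [Finset.mul_sum]
      refine Finset.sum_congr rfl fun S hS => ?_
      obtain ⟨hSW, hSk⟩ := mem_powersetCard.mp hS
      rw [Finset.sum_const, Finset.sum_const, card_sdiff_of_subset hSW, hSk, nsmul_eq_mul,
        nsmul_eq_mul, Nat.cast_sub hk]
      push_cast
      ring
    unfold adjForm
    rw [two_mul (((W.card : ℝ) - k - 1) * ((k : ℝ) + 1) * ∑ S ∈ W.powersetCard (k + 1), g S ^ 2)]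
    nth_rewrite 1 [← h1]
    rw [← h2, Finset.mul_sum, ← Finset.sum_add_distrib, ← Finset.sum_sub_distrib]
    refine Finset.sum_congr rfl fun S _ => ?_
    rw [Finset.mul_sum, ← Finset.sum_add_distrib, ← Finset.sum_sub_distrib]
    refine Finset.sum_congr rfl fun u _ => ?_
    rw [Finset.mul_sum, ← Finset.sum_add_distrib, ← Finset.sum_sub_distrib]
    refine Finset.sum_congr rfl fun v _ => ?_
    ring
  rw [hexp]
  have hup := up_bound W k g h0 hk
  have hnu := norm_up W k g
  have hM0 : 0 ≤ ∑ S ∈ W.powersetCard (k + 1), g S ^ 2 := Finset.sum_nonneg fun _ _ => sq_nonneg _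
  nlinarith


/-- Pairs cut by `S` against `S × (W \ S)`. -/
theorem sum_pairs_cut (W S : Finset α) (hS : S ⊆ W) (F : Finset α → ℝ) :
    ∑ q ∈ (W.powersetCard 2).filter (fun q => (S ∩ q).card = 1), F q =
      ∑ u ∈ S, ∑ v ∈ W \ S, F {u, v} := by
  rw [← Finset.sum_product']
  symm
  refine Finset.sum_bij (fun p _ => ({p.1, p.2} : Finset α)) ?_ ?_ ?_ ?_
  · rintro ⟨u, v⟩ hp
    simp only [mem_product, mem_sdiff] at hp
    obtain ⟨hu, hvW, hvS⟩ := hp
    have huv : u ≠ v := fun h => hvS (h ▸ hu)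
    simp only [mem_filter, mem_powersetCard]
    refine ⟨⟨?_, card_pair huv⟩, ?_⟩
    · intro a ha
      simp only [mem_insert, mem_singleton] at ha
      rcases ha with rfl | rfl
      · exact hS hu
      · exact hvW
    · have : S ∩ {u, v} = {u} := by
        ext a
        simp only [mem_inter, mem_insert, mem_singleton]
        constructor
        · rintro ⟨ha, rfl | rfl⟩
          · rfl
          · exact absurd ha hvS
        · rintro rfl
          exact ⟨hu, Or.inl rfl⟩
      rw [this, card_singleton]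
  · rintro ⟨u, v⟩ hp ⟨u', v'⟩ hp' h
    simp only [mem_product, mem_sdiff] at hp hp'
    obtain ⟨hu, hvW, hvS⟩ := hp
    obtain ⟨hu', hvW', hvS'⟩ := hp'
    simp only at h
    have h1 : u ∈ ({u', v'} : Finset α) := by rw [← h]; simp
    have h2 : v ∈ ({u', v'} : Finset α) := by rw [← h]; simp
    simp only [mem_insert, mem_singleton] at h1 h2
    have e1 : u = u' := by
      rcases h1 with h1 | h1
      · exact h1
      · exact absurd (h1 ▸ hu) hvS'
    have e2 : v = v' := by
      rcases h2 with h2 | h2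
      · exact absurd (h2 ▸ hu') hvS
      · exact h2
    rw [e1, e2]
  · intro q hq
    simp only [mem_filter, mem_powersetCard] at hq
    obtain ⟨⟨hqW, hq2⟩, hc⟩ := hq
    obtain ⟨a, b, hab, rfl⟩ := card_eq_two.mp hq2
    have haW : a ∈ W := hqW (by simp)
    have hbW : b ∈ W := hqW (by simp)
    by_cases ha : a ∈ S <;> by_cases hb : b ∈ S
    · exfalso
      have : S ∩ {a, b} = {a, b} := by
        apply inter_eq_right.mpr
        intro c hc
        simp only [mem_insert, mem_singleton] at hc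
        rcases hc with rfl | rfl <;> assumption
      rw [this, card_pair hab] at hc
      omega
    · exact ⟨(a, b), by simp [ha, hbW, hb], rfl⟩
    · exact ⟨(b, a), by simp [ha, haW, hb], by simp [pair_comm]⟩
    · exfalso
      have : S ∩ {a, b} = ∅ := by
        ext c
        simp only [mem_inter, mem_insert, mem_singleton, notMem_empty, iff_false, not_and]
        rintro hcS (rfl | rfl)
        · exact ha hcS
        · exact hb hcS
      rw [this, card_empty] at hc
      omega
  · intro _ _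
    rfl

theorem symmDiff_pair {S : Finset α} {u v : α} (hu : u ∈ S) (hv : v ∉ S) :
    symmDiff S {u, v} = insert v (S.erase u) := by
  ext a
  simp only [mem_symmDiff, mem_insert, mem_singleton, mem_erase]
  by_cases h1 : a = u
  · subst h1
    have : a ≠ v := fun h => hv (h ▸ hu)
    simp [hu, this]
  · by_cases h2 : a = v
    · subst h2
      simp [hv, h1]
    · simp [h1, h2]

/-- Swap the sums in the `(q, S)` form and pass to flags. -/
theorem sum_q_eq_flags (W : Finset α) (k : ℕ) (Φ : Finset α → Finset α → ℝ) :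
    ∑ q ∈ W.powersetCard 2, ∑ S ∈ (W.powersetCard k).filter (fun S => (S ∩ q).card = 1),
        Φ S (symmDiff S q) =
      ∑ S ∈ W.powersetCard k, ∑ u ∈ S, ∑ v ∈ W \ S, Φ S (insert v (S.erase u)) := by
  have h1 : ∑ q ∈ W.powersetCard 2, ∑ S ∈ (W.powersetCard k).filter (fun S => (S ∩ q).card = 1),
        Φ S (symmDiff S q) =
      ∑ S ∈ W.powersetCard k, ∑ q ∈ (W.powersetCard 2).filter (fun q => (S ∩ q).card = 1),
        Φ S (symmDiff S q) := by
    simp only [Finset.sum_filter]
    rw [Finset.sum_comm]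
  rw [h1]
  refine Finset.sum_congr rfl fun S hS => ?_
  have hSW := (mem_powersetCard.mp hS).1
  rw [sum_pairs_cut W S hSW (fun q => Φ S (symmDiff S q))]
  refine Finset.sum_congr rfl fun u hu => Finset.sum_congr rfl fun v hv => ?_
  rw [symmDiff_pair hu (mem_sdiff.mp hv).2]

/-- **Johnson gap.** -/
theorem johnson_gap (W : Finset α) (k : ℕ) (g : Finset α → ℝ)
    (h0 : ∑ S ∈ W.powersetCard k, g S = 0) :
    (W.card : ℝ) * ∑ S ∈ W.powersetCard k, g S ^ 2 ≤
      (1 / 2) * ∑ q ∈ W.powersetCard 2,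
        ∑ S ∈ (W.powersetCard k).filter (fun S => (S ∩ q).card = 1),
          (g S - g (symmDiff S q)) ^ 2 := by
  have hRHS : 0 ≤ ∑ q ∈ W.powersetCard 2,
        ∑ S ∈ (W.powersetCard k).filter (fun S => (S ∩ q).card = 1),
          (g S - g (symmDiff S q)) ^ 2 :=
    Finset.sum_nonneg fun _ _ => Finset.sum_nonneg fun _ _ => sq_nonneg _
  cases k with
  | zero =>
    simp only [powersetCard_zero, sum_singleton] at h0
    have : ∑ S ∈ W.powersetCard 0, g S ^ 2 = 0 := by simp [h0]
    rw [this, mul_zero]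
    linarith
  | succ k =>
    by_cases hk : k + 1 ≤ W.card
    · have := flag_gap W k g h0 hk
      have h2 := sum_q_eq_flags W (k + 1) (fun S T => (g S - g T) ^ 2)
      rw [h2]
      linarith
    · have : W.powersetCard (k + 1) = ∅ := powersetCard_eq_empty.mpr (by omega)
      have h3 : ∑ S ∈ W.powersetCard (k + 1), g S ^ 2 = 0 := by rw [this, sum_empty]
      rw [h3, mul_zero]
      linarith

end

end Crest.Agent.Lib.Switch
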