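/-
S0453 T5 + T5b (helper19): the Johnson block lemma, following helper25 (note 475 (A)):
pure Cauchy-Schwarz along coordinate swaps, plus the Johnson gap of `JohnsonGap.lean`.
-/
import Crest.Agent.Lib.Switch.JohnsonGap

set_option autoImplicit false

namespace Crest.Agent.Lib.Switch

open Finset

section Johnson
variable {α : Type*} [DecidableEq α]

/-- Indicator of `u ∈ S`. -/
noncomputable def xx (u : α) (S : Finset α) : ℝ := if u ∈ S then 1 else 0

theorem xx_sq (u : α) (S : Finset α) : xx u S ^ 2 = xx u S := by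
  unfold xx; split_ifs <;> simp

theorem xx_cases (u : α) (S : Finset α) : xx u S = 0 ∨ xx u S = 1 := by
  unfold xx; split_ifs <;> simp

theorem sum_xx (W S : Finset α) (hS : S ⊆ W) : ∑ v ∈ W, xx v S = S.card := by
  unfold xx
  rw [Finset.sum_ite_mem, inter_eq_right.mpr hS]
  simp

/-- The coordinate swap on subsets. -/
def swapS (v w : α) (S : Finset α) : Finset α := S.image (Equiv.swap v w)

theorem mem_swapS {v w a : α} {S : Finset α} : a ∈ swapS v w S ↔ Equiv.swap v w a ∈ S := by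
  unfold swapS
  simp only [mem_image]
  constructor
  · rintro ⟨b, hb, rfl⟩
    simpa using hb
  · intro h
    exact ⟨_, h, by simp⟩

theorem swapS_swapS (v w : α) (S : Finset α) : swapS v w (swapS v w S) = S := by
  ext a
  rw [mem_swapS, mem_swapS]
  simp

theorem card_swapS (v w : α) (S : Finset α) : (swapS v w S).card = S.card := by
  unfold swapS
  exact card_image_of_injective _ (Equiv.injective _)

theorem swapS_mem {W : Finset α} {k : ℕ} {v w : α} (hv : v ∈ W) (hw : w ∈ W) {S : Finset α}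
    (hS : S ∈ W.powersetCard k) : swapS v w S ∈ W.powersetCard k := by
  obtain ⟨hSW, hSk⟩ := mem_powersetCard.mp hS
  refine mem_powersetCard.mpr ⟨?_, by rw [card_swapS, hSk]⟩
  intro a ha
  rw [mem_swapS] at ha
  have h := hSW ha
  by_cases h1 : a = v
  · exact h1 ▸ hv
  · by_cases h2 : a = w
    · exact h2 ▸ hw
    · rwa [Equiv.swap_apply_of_ne_of_ne h1 h2] at h

theorem xx_swapS (a v w : α) (S : Finset α) : xx a (swapS v w S) = xx (Equiv.swap v w a) S := by
  unfold xx
  by_cases h : Equiv.swap v w a ∈ S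
  · rw [if_pos h, if_pos (mem_swapS.mpr h)]
  · rw [if_neg h, if_neg (fun h' => h (mem_swapS.mp h'))]

theorem sum_swapS {W : Finset α} {k : ℕ} {v w : α} (hv : v ∈ W) (hw : w ∈ W)
    (F : Finset α → ℝ) :
    ∑ S ∈ W.powersetCard k, F (swapS v w S) = ∑ S ∈ W.powersetCard k, F S := by
  refine Finset.sum_bij' (fun S _ => swapS v w S) (fun S _ => swapS v w S) ?_ ?_ ?_ ?_ ?_
  · intro S hS; exact swapS_mem hv hw hS
  · intro S hS; exact swapS_mem hv hw hS
  · intro S _; exact swapS_swapS v w S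
  · intro S _; exact swapS_swapS v w S
  · intro S _; rfl

/-- `∑ (x_v - x_w)²`. -/
noncomputable def ee (W : Finset α) (k : ℕ) (v w : α) : ℝ :=
  ∑ S ∈ W.powersetCard k, (xx v S - xx w S) ^ 2

/-- The swap energy. -/
noncomputable def YY (W : Finset α) (k : ℕ) (g : Finset α → ℝ) (v w : α) : ℝ :=
  ∑ S ∈ W.powersetCard k, (xx v S - xx w S) ^ 2 * (g S - g (swapS v w S)) ^ 2

noncomputable def bb (W : Finset α) (k : ℕ) (g : Finset α → ℝ) (u : α) : ℝ :=
  ∑ S ∈ W.powersetCard k, xx u S * g S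

noncomputable def cc (W : Finset α) (k : ℕ) (g : Finset α → ℝ) (u v : α) : ℝ :=
  ∑ S ∈ W.powersetCard k, (xx u S - xx v S) ^ 2 * g S

theorem YY_nonneg (W : Finset α) (k : ℕ) (g : Finset α → ℝ) (v w : α) : 0 ≤ YY W k g v w :=
  Finset.sum_nonneg fun _ _ => by positivity

theorem YY_self (W : Finset α) (k : ℕ) (g : Finset α → ℝ) (v : α) : YY W k g v v = 0 := by
  unfold YY; simp

theorem ee_nonneg (W : Finset α) (k : ℕ) (v w : α) : 0 ≤ ee W k v w :=
  Finset.sum_nonneg fun _ _ => by positivity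

theorem ee_self (W : Finset α) (k : ℕ) (v : α) : ee W k v v = 0 := by
  unfold ee; simp

theorem cc_self (W : Finset α) (k : ℕ) (g : Finset α → ℝ) (v : α) : cc W k g v v = 0 := by
  unfold cc; simp

theorem chi_cases (v w : α) (S : Finset α) :
    (xx v S - xx w S) ^ 2 = 0 ∨ (xx v S - xx w S) ^ 2 = 1 := by
  rcases xx_cases v S with h1 | h1 <;> rcases xx_cases w S with h2 | h2 <;> simp [h1, h2]

/-- The basic Cauchy-Schwarz along a swap. -/
theorem swap_cs {W : Finset α} {k : ℕ} (g : Finset α → ℝ) {v w : α} (hv : v ∈ W) (hw : w ∈ W)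
    (ξ : Finset α → ℝ) (hanti : ∀ S ∈ W.powersetCard k, ξ (swapS v w S) = - ξ S)
    (hsq : ∀ S ∈ W.powersetCard k, ξ S ^ 2 = (xx v S - xx w S) ^ 2) :
    (∑ S ∈ W.powersetCard k, ξ S * g S) ^ 2 ≤ (1 / 4) * ee W k v w * YY W k g v w := by
  set B := W.powersetCard k with hB
  have h1 : ∑ S ∈ B, ξ S * g (swapS v w S) = - ∑ S ∈ B, ξ S * g S := by
    have := sum_swapS (W := W) (k := k) hv hw (fun S => ξ (swapS v w S) * g S)
    simp only [swapS_swapS] at this
    rw [hB, this, ← Finset.sum_neg_distrib]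
    refine Finset.sum_congr rfl fun S hS => ?_
    rw [hanti S hS]; ring
  have h2 : ∑ S ∈ B, ξ S * g S = (1 / 2) * ∑ S ∈ B, ξ S * (g S - g (swapS v w S)) := by
    have : ∑ S ∈ B, ξ S * (g S - g (swapS v w S)) =
        ∑ S ∈ B, ξ S * g S - ∑ S ∈ B, ξ S * g (swapS v w S) := by
      rw [← Finset.sum_sub_distrib]
      exact Finset.sum_congr rfl fun S _ => by ring
    rw [this, h1]; ring
  have h3 : ∀ S ∈ B, ξ S * (g S - g (swapS v w S)) =
      ξ S * ((xx v S - xx w S) ^ 2 * (g S - g (swapS v w S))) := by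
    intro S hS
    rcases chi_cases v w S with h | h
    · have : ξ S = 0 := by
        have := hsq S hS
        rw [h] at this
        exact pow_eq_zero_iff (two_ne_zero) |>.mp this
      rw [this]; ring
    · rw [h]; ring
  have h4 : (∑ S ∈ B, ξ S * ((xx v S - xx w S) ^ 2 * (g S - g (swapS v w S)))) ^ 2 ≤
      (∑ S ∈ B, ξ S ^ 2) * ∑ S ∈ B, ((xx v S - xx w S) ^ 2 * (g S - g (swapS v w S))) ^ 2 :=
    Finset.sum_mul_sq_le_sq_mul_sq _ _ _
  have h5 : ∑ S ∈ B, ξ S ^ 2 = ee W k v w := Finset.sum_congr rfl hsq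
  have h6 : ∑ S ∈ B, ((xx v S - xx w S) ^ 2 * (g S - g (swapS v w S))) ^ 2 = YY W k g v w := by
    refine Finset.sum_congr rfl fun S _ => ?_
    rcases chi_cases v w S with h | h <;> rw [h] <;> ring
  rw [h2, Finset.sum_congr rfl h3, mul_pow]
  rw [h5, h6] at h4
  nlinarith

/-- (i) -/
theorem bb_sub_sq {W : Finset α} {k : ℕ} (g : Finset α → ℝ) {u v : α} (hu : u ∈ W) (hv : v ∈ W) :
    (bb W k g u - bb W k g v) ^ 2 ≤ (1 / 4) * ee W k u v * YY W k g u v := by
  have h := swap_cs (W := W) (k := k) g hu hv (fun S => xx u S - xx v S) ?_ ?_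
  · have e : bb W k g u - bb W k g v = ∑ S ∈ W.powersetCard k, (xx u S - xx v S) * g S := by
      unfold bb
      rw [← Finset.sum_sub_distrib]
      exact Finset.sum_congr rfl fun S _ => by ring
    rw [e]; exact h
  · intro S _
    simp only [xx_swapS, Equiv.swap_apply_left, Equiv.swap_apply_right]
    ring
  · intro S _
    rfl

theorem xi_sq (a b c : ℝ) (ha : a = 0 ∨ a = 1) (hb : b = 0 ∨ b = 1) (hc : c = 0 ∨ c = 1) :
    ((a - b) ^ 2 - (a - c) ^ 2) ^ 2 = (b - c) ^ 2 := by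
  rcases ha with rfl | rfl <;> rcases hb with rfl | rfl <;> rcases hc with rfl | rfl <;> norm_num

/-- (ii) -/
theorem cc_sub_sq {W : Finset α} {k : ℕ} (g : Finset α → ℝ) {u v w : α} (hv : v ∈ W) (hw : w ∈ W)
    (huv : u ≠ v) (huw : u ≠ w) :
    (cc W k g u v - cc W k g u w) ^ 2 ≤ (1 / 4) * ee W k v w * YY W k g v w := by
  have h := swap_cs (W := W) (k := k) g hv hw
    (fun S => (xx u S - xx v S) ^ 2 - (xx u S - xx w S) ^ 2) ?_ ?_
  · have e : cc W k g u v - cc W k g u w =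
        ∑ S ∈ W.powersetCard k, ((xx u S - xx v S) ^ 2 - (xx u S - xx w S) ^ 2) * g S := by
      unfold cc
      rw [← Finset.sum_sub_distrib]
      exact Finset.sum_congr rfl fun S _ => by ring
    rw [e]; exact h
  · intro S _
    simp only [xx_swapS, Equiv.swap_apply_left, Equiv.swap_apply_right,
      Equiv.swap_apply_of_ne_of_ne huv huw]
    ring
  · intro S _
    exact xi_sq _ _ _ (xx_cases _ _) (xx_cases _ _) (xx_cases _ _)

/-- the Lagrange identity -/
theorem lagrange_sum {ι : Type*} (I : Finset ι) (a : ι → ℝ) :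
    ∑ i ∈ I, ∑ j ∈ I, (a i - a j) ^ 2 =
      2 * (I.card : ℝ) * ∑ i ∈ I, a i ^ 2 - 2 * (∑ i ∈ I, a i) ^ 2 := by
  have h : ∀ i ∈ I, ∑ j ∈ I, (a i - a j) ^ 2 =
      (I.card : ℝ) * a i ^ 2 - 2 * a i * ∑ j ∈ I, a j + ∑ j ∈ I, a j ^ 2 := by
    intro i _
    have : ∀ j ∈ I, (a i - a j) ^ 2 = a i ^ 2 - 2 * a i * a j + a j ^ 2 := fun j _ => by ring
    rw [Finset.sum_congr rfl this, Finset.sum_add_distrib, Finset.sum_sub_distrib,
      Finset.sum_const, nsmul_eq_mul, ← Finset.mul_sum]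
  rw [Finset.sum_congr rfl h, Finset.sum_add_distrib, Finset.sum_sub_distrib, Finset.sum_const,
    nsmul_eq_mul, ← Finset.mul_sum, ← Finset.sum_mul, ← Finset.mul_sum]
  ring

theorem sum_bb (W : Finset α) (k : ℕ) (g : Finset α → ℝ)
    (h0 : ∑ S ∈ W.powersetCard k, g S = 0) : ∑ u ∈ W, bb W k g u = 0 := by
  unfold bb
  rw [Finset.sum_comm]
  have : ∀ S ∈ W.powersetCard k, ∑ u ∈ W, xx u S * g S = (k : ℝ) * g S := by
    intro S hS
    obtain ⟨hSW, hSk⟩ := mem_powersetCard.mp hS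
    rw [← Finset.sum_mul, sum_xx W S hSW, hSk]
  rw [Finset.sum_congr rfl this, ← Finset.mul_sum, h0, mul_zero]

/-- row sums of `cc` -/
theorem sum_cc (W : Finset α) (k : ℕ) (g : Finset α → ℝ)
    (h0 : ∑ S ∈ W.powersetCard k, g S = 0) (u : α) :
    ∑ v ∈ W, cc W k g u v = ((W.card : ℝ) - 2 * k) * bb W k g u := by
  unfold cc bb
  rw [Finset.sum_comm]
  have : ∀ S ∈ W.powersetCard k, ∑ v ∈ W, (xx u S - xx v S) ^ 2 * g S =
      ((W.card : ℝ) - 2 * k) * (xx u S * g S) + k * g S := by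
    intro S hS
    obtain ⟨hSW, hSk⟩ := mem_powersetCard.mp hS
    have h1 : ∀ v ∈ W, (xx u S - xx v S) ^ 2 = xx u S - 2 * xx u S * xx v S + xx v S := by
      intro v _
      have e1 := xx_sq u S
      have e2 := xx_sq v S
      nlinarith
    rw [← Finset.sum_mul, Finset.sum_congr rfl h1, Finset.sum_add_distrib, Finset.sum_sub_distrib,
      Finset.sum_const, nsmul_eq_mul, ← Finset.mul_sum, sum_xx W S hSW, hSk]
    ring
  rw [Finset.sum_congr rfl this, Finset.sum_add_distrib, ← Finset.mul_sum, ← Finset.mul_sum, h0]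
  ring

theorem sum_cc_erase (W : Finset α) (k : ℕ) (g : Finset α → ℝ)
    (h0 : ∑ S ∈ W.powersetCard k, g S = 0) {u : α} (hu : u ∈ W) :
    ∑ v ∈ W.erase u, cc W k g u v = ((W.card : ℝ) - 2 * k) * bb W k g u := by
  rw [← sum_cc W k g h0 u, ← Finset.add_sum_erase W _ hu, cc_self, zero_add]

/-- `ee` only depends on the fact that the pair is proper. -/
theorem ee_step {W : Finset α} {k : ℕ} {v w w' : α} (hw : w ∈ W) (hw' : w' ∈ W)
    (hvw : v ≠ w) (hvw' : v ≠ w') : ee W k v w = ee W k v w' := by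
  unfold ee
  rw [← sum_swapS (W := W) (k := k) hw hw' (fun S => (xx v S - xx w' S) ^ 2)]
  refine Finset.sum_congr rfl fun S _ => ?_
  simp only [xx_swapS, Equiv.swap_apply_of_ne_of_ne hvw hvw', Equiv.swap_apply_right]

theorem ee_comm (W : Finset α) (k : ℕ) (v w : α) : ee W k v w = ee W k w v := by
  unfold ee
  exact Finset.sum_congr rfl fun S _ => by ring

theorem ee_const {W : Finset α} {k : ℕ} {v w v' w' : α} (hv : v ∈ W) (hw : w ∈ W)
    (hv' : v' ∈ W) (hw' : w' ∈ W) (h : v ≠ w) (h' : v' ≠ w') : ee W k v w = ee W k v' w' := by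
  by_cases hc : w' = v
  · subst hc
    rw [ee_step hw hv' h (Ne.symm h'), ee_comm]
  · rw [ee_step hw hw' h (Ne.symm hc), ee_comm, ee_step hv hv' hc (Ne.symm h'), ee_comm]


/-- The real algebra at the end of the cut bound. -/
theorem cut_algebra (D E B2 Cord Yt K : ℝ) (hD : 2 ≤ D) (hE : 0 ≤ E) (hY : 0 ≤ Yt) (hB2 : 0 ≤ B2)
    (hK : K ^ 2 ≤ (D - 2) ^ 2)
    (h1 : 2 * D * B2 ≤ (E / 4) * Yt)
    (h2 : 2 * (D - 1) * Cord - 2 * (K ^ 2 * B2) ≤ (E / 4) * (D - 2) * Yt) :
    D * Cord ≤ (E / 4) * (D - 2) * Yt := by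
  have hD0 : 0 < D := by linarith
  have h3 : K ^ 2 * B2 ≤ (D - 2) ^ 2 * B2 := mul_le_mul_of_nonneg_right hK hB2
  have h4 : 2 * (D - 1) * Cord ≤ (E / 4) * (D - 2) * Yt + 2 * ((D - 2) ^ 2 * B2) := by linarith
  have h5 : (D - 2) ^ 2 * (2 * D * B2) ≤ (D - 2) ^ 2 * ((E / 4) * Yt) :=
    mul_le_mul_of_nonneg_left h1 (sq_nonneg _)
  have h6 : D * (2 * (D - 1) * Cord) ≤ D * ((E / 4) * (D - 2) * Yt + 2 * ((D - 2) ^ 2 * B2)) :=
    mul_le_mul_of_nonneg_left h4 hD0.le
  have h7 : 2 * (D - 1) * (D * Cord) ≤ 2 * (D - 1) * ((E / 4) * (D - 2) * Yt) := by nlinarith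
  have hD1 : 0 < 2 * (D - 1) := by linarith
  exact le_of_mul_le_mul_left h7 hD1

/-- The cut bound in ordered form. -/
theorem cut_ordered (W : Finset α) (k : ℕ) (g : Finset α → ℝ)
    (h0 : ∑ S ∈ W.powersetCard k, g S = 0) (E : ℝ) (hE0 : 0 ≤ E)
    (hE : ∀ v ∈ W, ∀ w ∈ W, v ≠ w → ee W k v w = E)
    (hk1 : 1 ≤ k) (hk2 : k + 1 ≤ W.card) :
    (W.card : ℝ) * ∑ u ∈ W, ∑ v ∈ W.erase u, cc W k g u v ^ 2 ≤
      (E / 4) * ((W.card : ℝ) - 2) * ∑ v ∈ W, ∑ w ∈ W, YY W k g v w := by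
  set D : ℝ := (W.card : ℝ) with hD
  have hD2 : 2 ≤ D := by
    have : (2 : ℕ) ≤ W.card := by omega
    rw [hD]; exact_mod_cast this
  set Yt := ∑ v ∈ W, ∑ w ∈ W, YY W k g v w with hYt
  have hY0 : 0 ≤ Yt := Finset.sum_nonneg fun _ _ => Finset.sum_nonneg fun _ _ => YY_nonneg _ _ _ _ _
  set B2 := ∑ u ∈ W, bb W k g u ^ 2 with hB2
  have hB20 : 0 ≤ B2 := Finset.sum_nonneg fun _ _ => sq_nonneg _
  -- (iv)
  have h1 : 2 * D * B2 ≤ (E / 4) * Yt := by
    have hl := lagrange_sum W (bb W k g)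
    rw [sum_bb W k g h0] at hl
    have hle : ∑ u ∈ W, ∑ v ∈ W, (bb W k g u - bb W k g v) ^ 2 ≤
        ∑ u ∈ W, ∑ v ∈ W, (E / 4) * YY W k g u v := by
      refine Finset.sum_le_sum fun u hu => Finset.sum_le_sum fun v hv => ?_
      by_cases huv : u = v
      · subst huv
        rw [YY_self]; simp
      · have := bb_sub_sq (k := k) g hu hv
        rw [hE u hu v hv huv] at this
        linarith
    have hr : ∑ u ∈ W, ∑ v ∈ W, (E / 4) * YY W k g u v = (E / 4) * Yt := by
      rw [hYt, Finset.mul_sum]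
      exact Finset.sum_congr rfl fun u _ => by rw [Finset.mul_sum]
    rw [hl, hr] at hle
    have : (0 : ℝ) ^ 2 = 0 := by norm_num
    rw [this] at hle
    linarith
  -- (iii) + (ii)
  have h2 : 2 * (D - 1) * (∑ u ∈ W, ∑ v ∈ W.erase u, cc W k g u v ^ 2) -
      2 * ((D - 2 * k) ^ 2 * B2) ≤ (E / 4) * (D - 2) * Yt := by
    have hrow : ∀ u ∈ W, ∑ v ∈ W.erase u, ∑ w ∈ W.erase u, (cc W k g u v - cc W k g u w) ^ 2 =
        2 * (D - 1) * ∑ v ∈ W.erase u, cc W k g u v ^ 2 -
          2 * ((D - 2 * k) ^ 2 * bb W k g u ^ 2) := by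
      intro u hu
      rw [lagrange_sum (W.erase u) (cc W k g u), sum_cc_erase W k g h0 hu, card_erase_of_mem hu,
        Nat.cast_sub (card_pos.mpr ⟨u, hu⟩)]
      simp only [Nat.cast_one]
      rw [← hD]
      ring
    have hsumrow : ∑ u ∈ W, ∑ v ∈ W.erase u, ∑ w ∈ W.erase u, (cc W k g u v - cc W k g u w) ^ 2 =
        2 * (D - 1) * (∑ u ∈ W, ∑ v ∈ W.erase u, cc W k g u v ^ 2) -
          2 * ((D - 2 * k) ^ 2 * B2) := by
      rw [Finset.sum_congr rfl hrow, Finset.sum_sub_distrib, ← Finset.mul_sum, ← Finset.mul_sum,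
        ← Finset.mul_sum]
    rw [← hsumrow]
    -- bound termwise
    have hterm : ∑ u ∈ W, ∑ v ∈ W.erase u, ∑ w ∈ W.erase u, (cc W k g u v - cc W k g u w) ^ 2 ≤
        ∑ u ∈ W, ∑ v ∈ W.erase u, ∑ w ∈ W.erase u, (E / 4) * YY W k g v w := by
      refine Finset.sum_le_sum fun u _ => Finset.sum_le_sum fun v hv => Finset.sum_le_sum fun w hw => ?_
      obtain ⟨huv, hvW⟩ := mem_erase.mp hv
      obtain ⟨huw, hwW⟩ := mem_erase.mp hw
      by_cases hvw : v = w
      · subst hvw
        rw [YY_self]; simp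
      · have := cc_sub_sq (k := k) g hvW hwW (Ne.symm huv) (Ne.symm huw)
        rw [hE v hvW w hwW hvw] at this
        linarith
    refine hterm.trans (le_of_eq ?_)
    -- swap the sums: every ordered pair `v ≠ w` has `D - 2` values of `u`
    have hswap : ∑ u ∈ W, ∑ v ∈ W.erase u, ∑ w ∈ W.erase u, (E / 4) * YY W k g v w =
        ∑ v ∈ W, ∑ w ∈ W, ∑ u ∈ (W.erase v).erase w, (E / 4) * YY W k g v w := by
      have a1 : ∑ u ∈ W, ∑ v ∈ W.erase u, ∑ w ∈ W.erase u, (E / 4) * YY W k g v w =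
          ∑ v ∈ W, ∑ u ∈ W.erase v, ∑ w ∈ W.erase u, (E / 4) * YY W k g v w := by
        apply Finset.sum_comm'
        intro a b
        simp only [mem_erase]
        constructor
        · rintro ⟨h1, h2, h3⟩; exact ⟨⟨fun h => h2 h.symm, h1⟩, h3⟩
        · rintro ⟨⟨h1, h2⟩, h3⟩; exact ⟨h2, fun h => h1 h.symm, h3⟩
      rw [a1]
      refine Finset.sum_congr rfl fun v _ => ?_
      apply Finset.sum_comm'
      intro a b
      simp only [mem_erase]
      constructor
      · rintro ⟨⟨h1, h2⟩, h3, h4⟩; exact ⟨⟨fun h => h3 h.symm, h1, h2⟩, h4⟩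
      · rintro ⟨⟨h1, h2, h3⟩, h4⟩; exact ⟨⟨h2, h3⟩, fun h => h1 h.symm, h4⟩
    rw [hswap, hYt, Finset.mul_sum]
    refine Finset.sum_congr rfl fun v hv => ?_
    rw [Finset.mul_sum]
    refine Finset.sum_congr rfl fun w hw => ?_
    by_cases hvw : v = w
    · subst hvw
      rw [YY_self]; simp
    · rw [Finset.sum_const, nsmul_eq_mul, card_erase_of_mem (mem_erase.mpr ⟨Ne.symm hvw, hw⟩),
        card_erase_of_mem hv]
      have : ((W.card - 1 - 1 : ℕ) : ℝ) = D - 2 := by
        have h2 : 2 ≤ W.card := by omega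
        have : W.card - 1 - 1 = W.card - 2 := by omega
        rw [this, Nat.cast_sub h2]
        simp [hD]
      rw [this]
      ring
  have hK : (D - 2 * k) ^ 2 ≤ (D - 2) ^ 2 := by
    have hk1' : (1 : ℝ) ≤ k := by exact_mod_cast hk1
    have hk2' : (k : ℝ) + 1 ≤ D := by
      rw [hD]; exact_mod_cast hk2
    nlinarith
  exact cut_algebra D E B2 _ Yt (D - 2 * k) hD2 hE0 hY0 hB20 hK h1 h2


/-- Ordered pairs against unordered pairs. -/
theorem sum_ordered_pairs (W : Finset α) (F : Finset α → ℝ) :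
    ∑ u ∈ W, ∑ v ∈ W.erase u, F {u, v} = 2 * ∑ q ∈ W.powersetCard 2, F q := by
  have hoff : ∑ u ∈ W, ∑ v ∈ W.erase u, F {u, v} = ∑ p ∈ W.offDiag, F {p.1, p.2} := by
    rw [Finset.sum_sigma']
    refine Finset.sum_bij' (fun p _ => (p.1, p.2)) (fun p _ => ⟨p.1, p.2⟩) ?_ ?_ ?_ ?_ ?_
    · rintro ⟨u, v⟩ h
      simp only [mem_sigma, mem_erase] at h
      simp only [mem_offDiag]
      exact ⟨h.1, h.2.2, Ne.symm h.2.1⟩
    · rintro ⟨u, v⟩ h
      simp only [mem_offDiag] at h
      simp only [mem_sigma, mem_erase]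
      exact ⟨h.1, Ne.symm h.2.2, h.2.1⟩
    · intro _ _; rfl
    · intro _ _; rfl
    · intro _ _; rfl
  rw [hoff]
  have hmaps : ∀ p ∈ W.offDiag, ({p.1, p.2} : Finset α) ∈ W.powersetCard 2 := by
    intro p hp
    obtain ⟨h1, h2, h3⟩ := mem_offDiag.mp hp
    refine mem_powersetCard.mpr ⟨?_, card_pair h3⟩
    intro a ha
    simp only [mem_insert, mem_singleton] at ha
    rcases ha with rfl | rfl <;> assumption
  rw [← Finset.sum_fiberwise_of_maps_to hmaps, Finset.mul_sum]
  refine Finset.sum_congr rfl fun q hq => ?_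
  obtain ⟨hqW, hq2⟩ := mem_powersetCard.mp hq
  obtain ⟨a, b, hab, rfl⟩ := card_eq_two.mp hq2
  have haW : a ∈ W := hqW (by simp)
  have hbW : b ∈ W := hqW (by simp)
  have hfib : W.offDiag.filter (fun p => ({p.1, p.2} : Finset α) = {a, b}) = {(a, b), (b, a)} := by
    ext ⟨x, y⟩
    simp only [mem_filter, mem_offDiag, mem_insert, mem_singleton, Prod.mk.injEq]
    constructor
    · rintro ⟨⟨_, _, hxy⟩, h⟩
      have h1 : x ∈ ({a, b} : Finset α) := by rw [← h]; simp
      have h2 : y ∈ ({a, b} : Finset α) := by rw [← h]; simp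
      simp only [mem_insert, mem_singleton] at h1 h2
      rcases h1 with rfl | rfl <;> rcases h2 with rfl | rfl
      · exact absurd rfl hxy
      · exact Or.inl ⟨rfl, rfl⟩
      · exact Or.inr ⟨rfl, rfl⟩
      · exact absurd rfl hxy
    · rintro (⟨rfl, rfl⟩ | ⟨rfl, rfl⟩)
      · exact ⟨⟨haW, hbW, hab⟩, rfl⟩
      · exact ⟨⟨hbW, haW, Ne.symm hab⟩, pair_comm _ _⟩
  rw [hfib, Finset.sum_pair (by
    intro h
    simp only [Prod.mk.injEq] at h
    exact hab h.1)]
  simp only [pair_comm b a]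
  ring

theorem chi_of_card_one {u v : α} (huv : u ≠ v) (S : Finset α) :
    ((S ∩ {u, v}).card = 1 ∧ (xx u S - xx v S) ^ 2 = 1) ∨
      ((S ∩ {u, v}).card ≠ 1 ∧ (xx u S - xx v S) ^ 2 = 0) := by
  by_cases h1 : u ∈ S <;> by_cases h2 : v ∈ S
  · right
    have : S ∩ {u, v} = {u, v} := by
      apply inter_eq_right.mpr
      intro c hc
      simp only [mem_insert, mem_singleton] at hc
      rcases hc with rfl | rfl <;> assumption
    rw [this, card_pair huv]
    simp [xx, h1, h2]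
  · left
    have : S ∩ {u, v} = {u} := by
      ext a
      simp only [mem_inter, mem_insert, mem_singleton]
      constructor
      · rintro ⟨ha, rfl | rfl⟩
        · rfl
        · exact absurd ha h2
      · rintro rfl
        exact ⟨h1, Or.inl rfl⟩
    rw [this, card_singleton]
    simp [xx, h1, h2]
  · left
    have : S ∩ {u, v} = {v} := by
      ext a
      simp only [mem_inter, mem_insert, mem_singleton]
      constructor
      · rintro ⟨ha, rfl | rfl⟩
        · exact absurd ha h1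
        · rfl
      · rintro rfl
        exact ⟨h2, Or.inr rfl⟩
    rw [this, card_singleton]
    simp [xx, h1, h2]
  · right
    have : S ∩ {u, v} = ∅ := by
      ext c
      simp only [mem_inter, mem_insert, mem_singleton, notMem_empty, iff_false, not_and]
      rintro hcS (rfl | rfl)
      · exact h1 hcS
      · exact h2 hcS
    rw [this, card_empty]
    simp [xx, h1, h2]

theorem sum_filter_pair (W : Finset α) (k : ℕ) {u v : α} (huv : u ≠ v) (Z : Finset α → ℝ) :
    ∑ S ∈ (W.powersetCard k).filter (fun S => (S ∩ {u, v}).card = 1), Z S =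
      ∑ S ∈ W.powersetCard k, (xx u S - xx v S) ^ 2 * Z S := by
  rw [Finset.sum_filter]
  refine Finset.sum_congr rfl fun S _ => ?_
  rcases chi_of_card_one huv S with ⟨h1, h2⟩ | ⟨h1, h2⟩
  · rw [if_pos h1, h2, one_mul]
  · rw [if_neg h1, h2, zero_mul]

theorem symmDiff_eq_swapS {u v : α} (huv : u ≠ v) {S : Finset α}
    (h : (xx u S - xx v S) ^ 2 = 1) : symmDiff S {u, v} = swapS u v S := by
  have hcase : (u ∈ S ∧ v ∉ S) ∨ (u ∉ S ∧ v ∈ S) := by
    by_cases h1 : u ∈ S <;> by_cases h2 : v ∈ S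
    · simp [xx, h1, h2] at h
    · exact Or.inl ⟨h1, h2⟩
    · exact Or.inr ⟨h1, h2⟩
    · simp [xx, h1, h2] at h
  ext a
  rw [mem_swapS]
  simp only [mem_symmDiff, mem_insert, mem_singleton]
  by_cases h1 : a = u
  · subst h1
    rw [Equiv.swap_apply_left]
    rcases hcase with ⟨h2, h3⟩ | ⟨h2, h3⟩
    · simp [h2, h3]
    · simp [h2, h3]
  · by_cases h2 : a = v
    · subst h2
      rw [Equiv.swap_apply_right]
      rcases hcase with ⟨h3, h4⟩ | ⟨h3, h4⟩
      · simp [h3, h4]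
      · simp [h3, h4]
    · rw [Equiv.swap_apply_of_ne_of_ne h1 h2]
      simp [h1, h2]

theorem sum_filter_pair' (W : Finset α) (k : ℕ) {u v : α} (huv : u ≠ v) :
    ∑ S ∈ (W.powersetCard k).filter (fun S => (S ∩ {u, v}).card = 1), ((1 : ℕ) : ℝ) =
      ∑ S ∈ W.powersetCard k, (xx u S - xx v S) ^ 2 * ((1 : ℕ) : ℝ) :=
  sum_filter_pair W k huv (fun _ => ((1 : ℕ) : ℝ))

/-- **The Johnson block lemma.** -/
theorem johnson_block (W : Finset α) (k : ℕ) (g : Finset α → ℝ)
    (h0 : ∑ S ∈ W.powersetCard k, g S = 0) :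
    ∑ q ∈ W.powersetCard 2,
        (∑ S ∈ (W.powersetCard k).filter (fun S => (S ∩ q).card = 1), g S) ^ 2 /
          (((W.powersetCard k).filter (fun S => (S ∩ q).card = 1)).card : ℝ) +
      ∑ S ∈ W.powersetCard k, g S ^ 2 ≤
    (1 / 4) * ∑ q ∈ W.powersetCard 2,
      ∑ S ∈ (W.powersetCard k).filter (fun S => (S ∩ q).card = 1), (g S - g (symmDiff S q)) ^ 2 := by
  set Fc : Finset α → ℝ := fun q =>
    ∑ S ∈ (W.powersetCard k).filter (fun S => (S ∩ q).card = 1), g S with hFc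
  set Fy : Finset α → ℝ := fun q =>
    ∑ S ∈ (W.powersetCard k).filter (fun S => (S ∩ q).card = 1), (g S - g (symmDiff S q)) ^ 2 with hFy
  have hFy0 : ∀ q, 0 ≤ Fy q := fun q => Finset.sum_nonneg fun _ _ => sq_nonneg _
  have hY0 : 0 ≤ ∑ q ∈ W.powersetCard 2, Fy q := Finset.sum_nonneg fun q _ => hFy0 q
  by_cases hk : 1 ≤ k ∧ k + 1 ≤ W.card
  · obtain ⟨hk1, hk2⟩ := hk
    have hcard : 1 < W.card := by omega
    obtain ⟨v0, hv0, w0, hw0, hne0⟩ := one_lt_card.mp hcard
    set E := ee W k v0 w0 with hEdef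
    have hE0 : 0 ≤ E := ee_nonneg _ _ _ _
    have hE : ∀ v ∈ W, ∀ w ∈ W, v ≠ w → ee W k v w = E := fun v hv w hw hvw =>
      ee_const hv hw hv0 hw0 hvw hne0
    have hcut := cut_ordered W k g h0 E hE0 hE hk1 hk2
    have hgap := johnson_gap W k g h0
    -- conversions
    have hCord : ∑ u ∈ W, ∑ v ∈ W.erase u, cc W k g u v ^ 2 =
        2 * ∑ q ∈ W.powersetCard 2, Fc q ^ 2 := by
      rw [← sum_ordered_pairs W (fun q => Fc q ^ 2)]
      refine Finset.sum_congr rfl fun u _ => Finset.sum_congr rfl fun v hv => ?_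
      have huv : u ≠ v := Ne.symm (mem_erase.mp hv).1
      simp only [hFc]
      rw [sum_filter_pair W k huv g]
      rfl
    have hYt : ∑ v ∈ W, ∑ w ∈ W, YY W k g v w = 2 * ∑ q ∈ W.powersetCard 2, Fy q := by
      rw [← sum_ordered_pairs W Fy]
      refine Finset.sum_congr rfl fun u hu => ?_
      rw [← Finset.add_sum_erase W _ hu, YY_self, zero_add]
      refine Finset.sum_congr rfl fun v hv => ?_
      have huv : u ≠ v := Ne.symm (mem_erase.mp hv).1
      simp only [hFy]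
      rw [sum_filter_pair W k huv]
      unfold YY
      refine Finset.sum_congr rfl fun S _ => ?_
      rcases chi_cases u v S with h | h
      · rw [h]; ring
      · rw [symmDiff_eq_swapS huv h]
    have hEq : ∀ q ∈ W.powersetCard 2,
        (((W.powersetCard k).filter (fun S => (S ∩ q).card = 1)).card : ℝ) = E := by
      intro q hq
      obtain ⟨hqW, hq2⟩ := mem_powersetCard.mp hq
      obtain ⟨a, b, hab, rfl⟩ := card_eq_two.mp hq2
      have haW : a ∈ W := hqW (by simp)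
      have hbW : b ∈ W := hqW (by simp)
      rw [← hE a haW b hbW hab]
      rw [Finset.card_eq_sum_ones, Nat.cast_sum, sum_filter_pair' W k hab]
      unfold ee
      refine Finset.sum_congr rfl fun S _ => ?_
      simp
    have hLHS : ∑ q ∈ W.powersetCard 2,
        (∑ S ∈ (W.powersetCard k).filter (fun S => (S ∩ q).card = 1), g S) ^ 2 /
          (((W.powersetCard k).filter (fun S => (S ∩ q).card = 1)).card : ℝ) =
        (∑ q ∈ W.powersetCard 2, Fc q ^ 2) / E := by
      rw [Finset.sum_div]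
      refine Finset.sum_congr rfl fun q hq => ?_
      rw [hEq q hq]
    rw [hLHS]
    set X := ∑ q ∈ W.powersetCard 2, Fc q ^ 2 with hX
    set Y := ∑ q ∈ W.powersetCard 2, Fy q with hY
    set Nrm := ∑ S ∈ W.powersetCard k, g S ^ 2 with hNrm
    set D : ℝ := (W.card : ℝ) with hD
    have hD2 : 2 ≤ D := by
      have : (2 : ℕ) ≤ W.card := by omega
      rw [hD]; exact_mod_cast this
    rw [hCord, hYt] at hcut
    have hgap' : D * Nrm ≤ (1 / 2) * Y := hgap
    have hD0 : 0 < D := by linarith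
    rcases hE0.eq_or_lt with hz | hpos
    · rw [← hz, div_zero, zero_add]
      have hN0 : 0 ≤ Nrm := Finset.sum_nonneg fun _ _ => sq_nonneg _
      nlinarith
    · -- `E > 0`
      have h1 : X / E ≤ (1 / 4) * ((D - 2) / D) * Y := by
        rw [div_le_iff₀ hpos]
        have h3 : D * X ≤ E * ((1 / 4) * (D - 2) * Y) := by nlinarith
        have h4 : (1 / 4) * ((D - 2) / D) * Y * E = E * ((1 / 4) * (D - 2) * Y) / D := by
          field_simp
        rw [h4, le_div_iff₀ hD0]
        linarith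
      have h2 : Nrm ≤ (1 / (2 * D)) * Y := by
        rw [show (1 / (2 * D)) * Y = ((1 / 2) * Y) / D by field_simp, le_div_iff₀ hD0]
        linarith
      have h5 : (1 / 4) * ((D - 2) / D) * Y + (1 / (2 * D)) * Y = (1 / 4) * Y := by
        field_simp
        ring
      linarith
  · -- degenerate: `g` vanishes on the block
    have hzero : ∀ S ∈ W.powersetCard k, g S = 0 := by
      intro S hS
      have hsub : W.powersetCard k = {S} := by
        obtain ⟨hSW, hSk⟩ := mem_powersetCard.mp hS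
        by_cases hk0 : k = 0
        · subst hk0
          rw [powersetCard_zero, card_eq_zero.mp hSk]
        · have hkD : k = W.card := by
            have := card_le_card hSW
            omega
          have hSeq : S = W := eq_of_subset_of_card_le hSW (by omega)
          rw [hSeq, hkD, powersetCard_self]
      rw [hsub, sum_singleton] at h0
      exact h0
    have h1 : ∑ q ∈ W.powersetCard 2,
        (∑ S ∈ (W.powersetCard k).filter (fun S => (S ∩ q).card = 1), g S) ^ 2 /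
          (((W.powersetCard k).filter (fun S => (S ∩ q).card = 1)).card : ℝ) = 0 := by
      refine Finset.sum_eq_zero fun q _ => ?_
      have : ∑ S ∈ (W.powersetCard k).filter (fun S => (S ∩ q).card = 1), g S = 0 :=
        Finset.sum_eq_zero fun S hS => hzero S (mem_filter.mp hS).1
      rw [this]; simp
    have h2 : ∑ S ∈ W.powersetCard k, g S ^ 2 = 0 :=
      Finset.sum_eq_zero fun S hS => by rw [hzero S hS]; simp
    rw [h1, h2, add_zero]
    have := hY0
    simp only [hFy] at this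
    linarith

end Johnson

end Crest.Agent.Lib.Switch
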