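/-
S0453 T7 (helper14): `block_bound`, the Johnson lemma on each block of `p`, summed.
-/
import Crest.Agent.Lib.Switch.BlockToggle
import Crest.Agent.Lib.Switch.Johnson

set_option autoImplicit false

namespace Crest.Agent.Lib.Switch.BlockT7

open Finset Crest.SwitchChain Crest.Agent.SwitchConn Crest.Agent.Lib.Switch

variable {n : ℕ}

section Block

variable {d : Fin n → ℕ} {G₀ : Finset (Edge n)} {x y : Fin n}

lemma deg_of_mem {G : Finset (Edge n)} (hG : G ∈ realizations d) (v : Fin n) : deg G v = d v := by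
  simp only [realizations, mem_filter, mem_univ, true_and] at hG
  exact hG v

/-- Sum over the block = sum over the slice. -/
lemma sum_block (hG₀ : G₀ ∈ realizations d) (hxy : x ≠ y) (F : Finset (Edge n) → ℝ) :
    ∑ G ∈ (realizations d).filter (fun G => keyOf {x, y} G = keyOf {x, y} G₀), F G =
      ∑ S ∈ (Wp G₀ x y).powersetCard (Sel G₀ x y G₀).card, F (Phi G₀ x y S) := by
  refine sum_nbij' (Sel G₀ x y) (Phi G₀ x y) ?_ ?_ ?_ ?_ ?_
  · intro G hG
    obtain ⟨h1, h2⟩ := mem_filter.mp hG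
    exact mem_powersetCard.mpr ⟨Sel_subset G, card_Sel hxy h2 fun v => by
      rw [deg_of_mem h1, deg_of_mem hG₀]⟩
  · intro S hS
    obtain ⟨h1, h2⟩ := mem_powersetCard.mp hS
    exact mem_filter.mpr ⟨Phi_mem_realizations hG₀ h1 hxy h2, keyOf_Phi S⟩
  · intro G hG
    obtain ⟨h1, h2⟩ := mem_filter.mp hG
    exact Phi_Sel hxy h2 fun v => by rw [deg_of_mem h1, deg_of_mem hG₀]
  · intro S hS
    exact Sel_Phi (mem_powersetCard.mp hS).1
  · intro G hG
    obtain ⟨h1, h2⟩ := mem_filter.mp hG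
    rw [Phi_Sel hxy h2 fun v => by rw [deg_of_mem h1, deg_of_mem hG₀]]

/-- Sum over the centre part of the block = sum over the splitting part of the slice. -/
lemma sum_block_centre (hG₀ : G₀ ∈ realizations d) (hxy : x ≠ y) {q : Finset (Fin n)}
    (hq : Disjoint ({x, y} : Finset (Fin n)) q) (hq2 : q.card = 2) (hqW : q ⊆ Wp G₀ x y)
    (F : Finset (Edge n) → ℝ) :
    ∑ G ∈ (realizations d).filter (fun G => keyOf {x, y} G = keyOf {x, y} G₀ ∧
        IsCentre {x, y} q G), F G =
      ∑ S ∈ ((Wp G₀ x y).powersetCard (Sel G₀ x y G₀).card).filter (fun S => (S ∩ q).card = 1),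
        F (Phi G₀ x y S) := by
  refine sum_nbij' (Sel G₀ x y) (Phi G₀ x y) ?_ ?_ ?_ ?_ ?_
  · intro G hG
    obtain ⟨h1, h2, h3⟩ := mem_filter.mp hG
    have hdeg : ∀ v, deg G v = deg G₀ v := fun v => by rw [deg_of_mem h1, deg_of_mem hG₀]
    have hc := card_Sel hxy h2 hdeg
    refine mem_filter.mpr ⟨mem_powersetCard.mpr ⟨Sel_subset G, hc⟩, ?_⟩
    rw [← Phi_Sel hxy h2 hdeg] at h3
    exact ((isCentre_Phi hxy (Sel_subset G) hc hq hq2).mp h3).2
  · intro S hS
    obtain ⟨h0, h3⟩ := mem_filter.mp hS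
    obtain ⟨h1, h2⟩ := mem_powersetCard.mp h0
    exact mem_filter.mpr ⟨Phi_mem_realizations hG₀ h1 hxy h2, keyOf_Phi S,
      (isCentre_Phi hxy h1 h2 hq hq2).mpr ⟨hqW, h3⟩⟩
  · intro G hG
    obtain ⟨h1, h2, h3⟩ := mem_filter.mp hG
    exact Phi_Sel hxy h2 fun v => by rw [deg_of_mem h1, deg_of_mem hG₀]
  · intro S hS
    exact Sel_Phi (mem_powersetCard.mp (mem_filter.mp hS).1).1
  · intro G hG
    obtain ⟨h1, h2, h3⟩ := mem_filter.mp hG
    rw [Phi_Sel hxy h2 fun v => by rw [deg_of_mem h1, deg_of_mem hG₀]]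

lemma card_block_centre (hG₀ : G₀ ∈ realizations d) (hxy : x ≠ y) {q : Finset (Fin n)}
    (hq : Disjoint ({x, y} : Finset (Fin n)) q) (hq2 : q.card = 2) (hqW : q ⊆ Wp G₀ x y) :
    (((realizations d).filter (fun G => keyOf {x, y} G = keyOf {x, y} G₀ ∧
        IsCentre {x, y} q G)).card : ℝ) =
      ((((Wp G₀ x y).powersetCard (Sel G₀ x y G₀).card).filter
        (fun S => (S ∩ q).card = 1)).card : ℝ) := by
  have := sum_block_centre (d := d) hG₀ hxy hq hq2 hqW (fun _ => (1 : ℝ))
  simpa using this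

/-- If `q` is not inside `W'`, the centre part of the block is empty. -/
lemma block_centre_empty (hG₀ : G₀ ∈ realizations d) (hxy : x ≠ y) {q : Finset (Fin n)}
    (hq : Disjoint ({x, y} : Finset (Fin n)) q) (hq2 : q.card = 2) (hqW : ¬ q ⊆ Wp G₀ x y) :
    (realizations d).filter (fun G => keyOf {x, y} G = keyOf {x, y} G₀ ∧
        IsCentre {x, y} q G) = ∅ := by
  rw [filter_eq_empty_iff]
  rintro G hG ⟨h2, h3⟩
  have hdeg : ∀ v, deg G v = deg G₀ v := fun v => by rw [deg_of_mem hG, deg_of_mem hG₀]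
  have hc := card_Sel hxy h2 hdeg
  rw [← Phi_Sel hxy h2 hdeg] at h3
  exact hqW ((isCentre_Phi hxy (Sel_subset G) hc hq hq2).mp h3).1

lemma avg_congr_key' {α β : Type*} [DecidableEq β] (Ω : Finset α) (κ : α → β) (f : α → ℝ) {a a' : α}
    (h : κ a = κ a') : avg Ω κ f a = avg Ω κ f a' := by
  unfold avg
  rw [h]

lemma sum_comp_fibre' {α β : Type*} [DecidableEq β] (Ω : Finset α) (κ : α → β) (f : α → ℝ) (b : β) :
    ∑ a ∈ Ω.filter (fun a => κ a = b), comp Ω κ f a = 0 := by
  classical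
  unfold comp
  rw [sum_sub_distrib]
  have h : ∀ a ∈ Ω.filter (fun a => κ a = b), avg Ω κ f a =
      (∑ c ∈ Ω.filter (fun c => κ c = b), f c) / ((Ω.filter (fun c => κ c = b)).card : ℝ) := by
    intro a ha
    unfold avg
    rw [(mem_filter.mp ha).2]
  rw [sum_congr rfl h, sum_const, nsmul_eq_mul]
  by_cases hc : (Ω.filter (fun c => κ c = b)).card = 0
  · rw [card_eq_zero] at hc
    simp [hc]
  · have : ((Ω.filter (fun c => κ c = b)).card : ℝ) ≠ 0 := by exact_mod_cast hc
    field_simp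
    ring

/-- The per-block inequality. -/
theorem block_K (hG₀ : G₀ ∈ realizations d) (hxy : x ≠ y) (f : Finset (Edge n) → ℝ) :
    ∑ q ∈ (pairs n).filter (fun q => Disjoint ({x, y} : Finset (Fin n)) q),
        (∑ G ∈ (realizations d).filter (fun G => keyOf {x, y} G = keyOf {x, y} G₀ ∧
            IsCentre {x, y} q G), Ap d {x, y} f G) ^ 2 /
          (((realizations d).filter (fun G => keyOf {x, y} G = keyOf {x, y} G₀ ∧
            IsCentre {x, y} q G)).card : ℝ) +
      ∑ G ∈ (realizations d).filter (fun G => keyOf {x, y} G = keyOf {x, y} G₀),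
        Ap d {x, y} f G ^ 2 ≤
    (1 / 4) * ∑ q ∈ (pairs n).filter (fun q => Disjoint ({x, y} : Finset (Fin n)) q),
      ∑ G ∈ (realizations d).filter (fun G => keyOf {x, y} G = keyOf {x, y} G₀ ∧
            IsCentre {x, y} q G), (f G - f (flip {x, y} q G)) ^ 2 := by
  classical
  set p : Finset (Fin n) := {x, y} with hp
  set W := Wp G₀ x y with hW
  set k := (Sel G₀ x y G₀).card with hk
  set g : Finset (Fin n) → ℝ := fun S => Ap d p f (Phi G₀ x y S) with hg
  have h0 : ∑ S ∈ W.powersetCard k, g S = 0 := by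
    rw [hW, hk, hg, ← sum_block (d := d) hG₀ hxy (fun G => Ap d p f G)]
    exact sum_comp_fibre' _ _ _ _
  have J := johnson_block W k g h0
  -- subset of pairs
  have hsub : W.powersetCard 2 ⊆ (pairs n).filter (fun q => Disjoint p q) := by
    intro q hq
    obtain ⟨h1, h2⟩ := mem_powersetCard.mp hq
    refine mem_filter.mpr ⟨mem_powersetCard.mpr ⟨subset_univ _, h2⟩, ?_⟩
    exact disjoint_of_subset_right h1 disjoint_Wp
  have hout : ∀ q ∈ (pairs n).filter (fun q => Disjoint p q), q ∉ W.powersetCard 2 →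
      (realizations d).filter (fun G => keyOf p G = keyOf p G₀ ∧ IsCentre p q G) = ∅ := by
    intro q hq hq'
    obtain ⟨h1, h2⟩ := mem_filter.mp hq
    have h3 : q.card = 2 := (mem_powersetCard.mp h1).2
    refine block_centre_empty hG₀ hxy h2 h3 ?_
    intro h4
    exact hq' (mem_powersetCard.mpr ⟨h4, h3⟩)
  have e1 : ∑ q ∈ (pairs n).filter (fun q => Disjoint p q),
      (∑ G ∈ (realizations d).filter (fun G => keyOf p G = keyOf p G₀ ∧
          IsCentre p q G), Ap d p f G) ^ 2 /
        (((realizations d).filter (fun G => keyOf p G = keyOf p G₀ ∧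
          IsCentre p q G)).card : ℝ) =
      ∑ q ∈ W.powersetCard 2,
        (∑ S ∈ (W.powersetCard k).filter (fun S => (S ∩ q).card = 1), g S) ^ 2 /
          (((W.powersetCard k).filter (fun S => (S ∩ q).card = 1)).card : ℝ) := by
    rw [← sum_subset hsub]
    · refine sum_congr rfl fun q hq => ?_
      obtain ⟨h1, h2⟩ := mem_powersetCard.mp hq
      have hd := (mem_filter.mp (hsub hq)).2
      rw [card_block_centre hG₀ hxy hd h2 h1, sum_block_centre hG₀ hxy hd h2 h1]
    · intro q hq hq'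
      rw [hout q hq hq']
      simp
  have e2 : ∑ G ∈ (realizations d).filter (fun G => keyOf p G = keyOf p G₀), Ap d p f G ^ 2 =
      ∑ S ∈ W.powersetCard k, g S ^ 2 :=
    sum_block hG₀ hxy (fun G => Ap d p f G ^ 2)
  have e3 : ∑ q ∈ (pairs n).filter (fun q => Disjoint p q),
      ∑ G ∈ (realizations d).filter (fun G => keyOf p G = keyOf p G₀ ∧
          IsCentre p q G), (f G - f (flip p q G)) ^ 2 =
      ∑ q ∈ W.powersetCard 2,
        ∑ S ∈ (W.powersetCard k).filter (fun S => (S ∩ q).card = 1),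
          (g S - g (symmDiff S q)) ^ 2 := by
    rw [← sum_subset hsub]
    · refine sum_congr rfl fun q hq => ?_
      obtain ⟨h1, h2⟩ := mem_powersetCard.mp hq
      have hd := (mem_filter.mp (hsub hq)).2
      rw [sum_block_centre hG₀ hxy hd h2 h1 (fun G => (f G - f (flip p q G)) ^ 2)]
      refine sum_congr rfl fun S hS => ?_
      have hS' := (mem_powersetCard.mp (mem_filter.mp hS).1).1
      rw [flip_Phi hS' hd]
      have hgS : g S - g (symmDiff S q) = f (Phi G₀ x y S) - f (Phi G₀ x y (symmDiff S q)) := by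
        simp only [hg, Ap, comp]
        have : avg (realizations d) (keyOf p) f (Phi G₀ x y S) =
            avg (realizations d) (keyOf p) f (Phi G₀ x y (symmDiff S q)) :=
          avg_congr_key' _ _ _ (by rw [hp, keyOf_Phi, keyOf_Phi])
        rw [this]
        ring
      rw [hgS]
    · intro q hq hq'
      rw [hout q hq hq']
      simp
  rw [e1, e2, e3]
  exact J

end Block

end Crest.Agent.Lib.Switch.BlockT7

namespace Crest.Agent.Lib.Switch

open Finset Crest.SwitchChain Crest.Agent.SwitchConn Crest.Agent.Lib.Switch.BlockT7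

variable {n : ℕ}

/-- T7. The Johnson lemma on each block of `p`, summed. -/
theorem block_bound (d : Fin n → ℕ) (p : Finset (Fin n)) (hp : p ∈ pairs n)
    (f : Finset (Edge n) → ℝ) :
    ∑ q ∈ (pairs n).filter (fun q => Disjoint p q), zTerm d p q f +
        ∑ G ∈ realizations d, Ap d p f G ^ 2 ≤
      (1 / 4) * ∑ q ∈ (pairs n).filter (fun q => Disjoint p q), eTerm d p q f := by
  classical
  obtain ⟨x, y, hxy, rfl⟩ := card_eq_two.mp (mem_powersetCard.mp hp).2
  set p : Finset (Fin n) := {x, y} with hpdef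
  set Ω := realizations d with hΩ
  -- split the sums over blocks
  have hmaps : ∀ G ∈ Ω, keyOf p G ∈ Ω.image (keyOf p) := fun G hG => mem_image_of_mem _ hG
  have e1 : ∑ G ∈ Ω, Ap d p f G ^ 2 = ∑ K ∈ Ω.image (keyOf p),
      ∑ G ∈ Ω.filter (fun G => keyOf p G = K), Ap d p f G ^ 2 :=
    (sum_fiberwise_of_maps_to hmaps _).symm
  have e2 : ∀ q, eTerm d p q f = ∑ K ∈ Ω.image (keyOf p),
      ∑ G ∈ Ω.filter (fun G => keyOf p G = K ∧ IsCentre p q G), (f G - f (flip p q G)) ^ 2 := by
    intro q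
    unfold eTerm
    rw [← hΩ, ← sum_fiberwise_of_maps_to (s := Ω.filter (IsCentre p q)) (t := Ω.image (keyOf p))
      (g := keyOf p) (fun G hG => hmaps G (mem_filter.mp hG).1)]
    refine sum_congr rfl fun K _ => ?_
    rw [filter_filter]
    refine sum_congr ?_ fun _ _ => rfl
    ext G
    simp only [mem_filter]
    tauto
  have e3 : ∀ q, zTerm d p q f = ∑ K ∈ Ω.image (keyOf p),
      (∑ G ∈ Ω.filter (fun G => keyOf p G = K ∧ IsCentre p q G), Ap d p f G) ^ 2 /
        ((Ω.filter (fun G => keyOf p G = K ∧ IsCentre p q G)).card : ℝ) := fun q => rfl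
  simp only [e2, e3]
  rw [e1, sum_comm (s := (pairs n).filter (fun q => Disjoint p q)), sum_comm
    (s := (pairs n).filter (fun q => Disjoint p q)), ← sum_add_distrib, mul_sum]
  refine sum_le_sum fun K hK => ?_
  obtain ⟨G₀, hG₀, rfl⟩ := mem_image.mp hK
  exact block_K hG₀ hxy f

end Crest.Agent.Lib.Switch
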