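import Crest.Agent.Lib.Switch.Kernel

/-!
There are exactly three perfect matchings on a four-element vertex set, hence the row sums of the
switch kernel.
-/

set_option autoImplicit false

namespace Crest.Agent.Lib.Switch

open Finset Crest.SwitchChain
open scoped Matrix

variable {n : ℕ}

/-- The edge with endpoints `u ≠ v`. -/
def mkE (u v : Fin n) (h : u ≠ v) : Edge n := ⟨s(u, v), by simpa using h⟩

theorem mem_mkE {u v w : Fin n} {h : u ≠ v} : w ∈ (mkE u v h).1 ↔ w = u ∨ w = v := by
  simp [mkE]

theorem pm_of_edge {S : Finset (Fin n)} {F : Finset (Edge n)} (hF : F ∈ pmSet S)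
    {a x y z : Fin n} (hax : a ≠ x) (hay : a ≠ y) (haz : a ≠ z) (hxy : x ≠ y) (hxz : x ≠ z)
    (hyz : y ≠ z) (hyS : y ∈ S) (hzS : z ∈ S) (he0 : mkE a x hax ∈ F) :
    F = {mkE a x hax, mkE y z hyz} := by
  classical
  simp only [pmSet, Finset.mem_filter, Finset.mem_powersetCard, Finset.subset_univ, true_and]
    at hF
  obtain ⟨hcard, -, hcov⟩ := hF
  have hcard' : (F.erase (mkE a x hax)).card = 1 := by
    rw [Finset.card_erase_of_mem he0, hcard]
  obtain ⟨e', he'⟩ := Finset.card_eq_one.mp hcard'
  have hFeq : F = insert (mkE a x hax) {e'} := by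
    rw [← he', Finset.insert_erase he0]
  have honF : ∀ w, w ∈ S → w ≠ a → w ≠ x → w ∈ e'.1 := by
    intro w hw hwa hwx
    have hpos : 0 < (F.filter fun e => w ∈ e.1).card := by rw [hcov w hw]; norm_num
    obtain ⟨g, hg⟩ := Finset.card_pos.mp hpos
    rw [Finset.mem_filter] at hg
    have hg' : g ∈ insert (mkE a x hax) ({e'} : Finset (Edge n)) := hFeq ▸ hg.1
    rw [Finset.mem_insert, Finset.mem_singleton] at hg'
    rcases hg' with rfl | rfl
    · rw [mem_mkE] at hg
      rcases hg.2 with h | h
      · exact absurd h hwa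
      · exact absurd h hwx
    · exact hg.2
  have hy' := honF y hyS hay.symm hxy.symm
  have hz' := honF z hzS haz.symm hxz.symm
  have : e' = mkE y z hyz := by
    apply Subtype.ext
    exact (Sym2.mem_and_mem_iff hyz).mp ⟨hy', hz'⟩
  rw [hFeq, this]

theorem pm_mem {S : Finset (Fin n)} {p q r t : Fin n} (hpq : p ≠ q) (hpr : p ≠ r) (hpt : p ≠ t)
    (hqr : q ≠ r) (hqt : q ≠ t) (hrt : r ≠ t)
    (hS : ∀ v, v ∈ S ↔ v = p ∨ v = q ∨ v = r ∨ v = t) :
    ({mkE p q hpq, mkE r t hrt} : Finset (Edge n)) ∈ pmSet S := by
  classical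
  have hne : mkE p q hpq ≠ mkE r t hrt := by
    intro h
    have : p ∈ (mkE r t hrt).1 := by rw [← h, mem_mkE]; exact Or.inl rfl
    rw [mem_mkE] at this
    rcases this with h | h
    · exact hpr h
    · exact hpt h
  simp only [pmSet, Finset.mem_filter, Finset.mem_powersetCard, Finset.subset_univ, true_and]
  refine ⟨Finset.card_pair hne, ?_, ?_⟩
  · intro e he v hv
    rw [Finset.mem_insert, Finset.mem_singleton] at he
    rw [hS]
    rcases he with rfl | rfl
    · rw [mem_mkE] at hv; tauto
    · rw [mem_mkE] at hv; tauto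
  · intro v hv
    rw [hS] at hv
    rw [Finset.filter_insert, Finset.filter_singleton]
    simp only [mem_mkE]
    rcases hv with rfl | rfl | rfl | rfl
    · simp [hpq, hpr, hpt]
    · simp [hpq.symm, hqr, hqt]
    · simp [hpr.symm, hqr.symm, hrt, hne]
    · simp [hpt.symm, hqt.symm, hrt.symm, hne]

/-- There are exactly three perfect matchings on a 4-set. -/
theorem pmSet_card {S : Finset (Fin n)} (hS : S.card = 4) : (pmSet S).card = 3 := by
  classical
  have hpos : 0 < S.card := by omega
  obtain ⟨a, ha⟩ := Finset.card_pos.mp hpos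
  have h3 : (S.erase a).card = 3 := by rw [Finset.card_erase_of_mem ha, hS]
  obtain ⟨b, c, d, hbc, hbd, hcd, heq⟩ := Finset.card_eq_three.mp h3
  have hb : b ∈ S.erase a := by rw [heq]; simp
  have hc : c ∈ S.erase a := by rw [heq]; simp
  have hd : d ∈ S.erase a := by rw [heq]; simp
  have hab : a ≠ b := (Finset.ne_of_mem_erase hb).symm
  have hac : a ≠ c := (Finset.ne_of_mem_erase hc).symm
  have had : a ≠ d := (Finset.ne_of_mem_erase hd).symm
  have hbS := Finset.mem_of_mem_erase hb
  have hcS := Finset.mem_of_mem_erase hc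
  have hdS := Finset.mem_of_mem_erase hd
  have hmem : ∀ v, v ∈ S ↔ v = a ∨ v = b ∨ v = c ∨ v = d := by
    intro v
    constructor
    · intro hv
      by_cases hva : v = a
      · exact Or.inl hva
      · have : v ∈ S.erase a := Finset.mem_erase.mpr ⟨hva, hv⟩
        rw [heq] at this
        simp at this
        exact Or.inr this
    · rintro (rfl | rfl | rfl | rfl) <;> assumption
  set M1 : Finset (Edge n) := {mkE a b hab, mkE c d hcd} with hM1
  set M2 : Finset (Edge n) := {mkE a c hac, mkE b d hbd} with hM2
  set M3 : Finset (Edge n) := {mkE a d had, mkE b c hbc} with hM3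
  have h1 : M1 ∈ pmSet S := pm_mem hab hac had hbc hbd hcd hmem
  have h2 : M2 ∈ pmSet S := pm_mem hac hab had hbc.symm hcd hbd (by
    intro v; rw [hmem]; tauto)
  have h3' : M3 ∈ pmSet S := pm_mem had hab hac hbd.symm hcd.symm hbc (by
    intro v; rw [hmem]; tauto)
  have hne_edge : ∀ {p q r t : Fin n} {h1 : p ≠ q} {h2 : r ≠ t}, mkE p q h1 = mkE r t h2 →
      (p = r ∨ p = t) := by
    intro p q r t h1 h2 h
    have : p ∈ (mkE r t h2).1 := by rw [← h, mem_mkE]; exact Or.inl rfl
    rwa [mem_mkE] at this
  have hsub : ∀ {E1 E2 : Finset (Edge n)} {e : Edge n}, e ∈ E1 → e ∉ E2 → E1 ≠ E2 := by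
    intro E1 E2 e h1 h2 h; exact h2 (h ▸ h1)
  have hkey12 : M1 ≠ M2 := by
    refine hsub (e := mkE a b hab) (by simp [hM1]) ?_
    simp only [hM2, Finset.mem_insert, Finset.mem_singleton, not_or]
    constructor
    · intro h
      have := congrArg Subtype.val h
      simp only [mkE, Sym2.eq_iff] at this
      rcases this with ⟨-, h⟩ | ⟨h, -⟩
      · exact hbc h
      · exact hac h
    · intro h
      rcases hne_edge h with h | h
      · exact hab h
      · exact had h
  have hkey13 : M1 ≠ M3 := by
    refine hsub (e := mkE a b hab) (by simp [hM1]) ?_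
    simp only [hM3, Finset.mem_insert, Finset.mem_singleton, not_or]
    constructor
    · intro h
      have := congrArg Subtype.val h
      simp only [mkE, Sym2.eq_iff] at this
      rcases this with ⟨-, h⟩ | ⟨h, -⟩
      · exact hbd h
      · exact had h
    · intro h
      rcases hne_edge h with h | h
      · exact hab h
      · exact hac h
  have hkey23 : M2 ≠ M3 := by
    refine hsub (e := mkE a c hac) (by simp [hM2]) ?_
    simp only [hM3, Finset.mem_insert, Finset.mem_singleton, not_or]
    constructor
    · intro h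
      have := congrArg Subtype.val h
      simp only [mkE, Sym2.eq_iff] at this
      rcases this with ⟨-, h⟩ | ⟨h, -⟩
      · exact hcd h
      · exact had h
    · intro h
      rcases hne_edge h with h | h
      · exact hab h
      · exact hac h
  have heqS : pmSet S = {M1, M2, M3} := by
    ext F
    simp only [Finset.mem_insert, Finset.mem_singleton]
    constructor
    · intro hF
      -- the edge at `a`
      have hF' := hF
      simp only [pmSet, Finset.mem_filter, Finset.mem_powersetCard, Finset.subset_univ, true_and]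
        at hF'
      obtain ⟨-, hin, hcov⟩ := hF'
      have hpos : 0 < (F.filter fun e => a ∈ e.1).card := by rw [hcov a ha]; norm_num
      obtain ⟨g, hg⟩ := Finset.card_pos.mp hpos
      rw [Finset.mem_filter] at hg
      obtain ⟨w, hw⟩ := hg.2
      have hwne : a ≠ w := by
        intro h
        apply g.2
        rw [hw, ← h]
        simp
      have hwS : w ∈ S := hin g hg.1 w (by rw [hw]; simp)
      rw [hmem] at hwS
      rcases hwS with h | rfl | rfl | rfl
      · exact absurd h.symm hwne
      · left
        have hgE : g = mkE a w hab := Subtype.ext hw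
        exact pm_of_edge hF hab hac had hbc hbd hcd hcS hdS (hgE ▸ hg.1)
      · right; left
        have hgE : g = mkE a w hac := Subtype.ext hw
        exact pm_of_edge hF hac hab had hbc.symm hcd hbd hbS hdS (hgE ▸ hg.1)
      · right; right
        have hgE : g = mkE a w had := Subtype.ext hw
        exact pm_of_edge hF had hab hac hbd.symm hcd.symm hbc hbS hcS (hgE ▸ hg.1)
    · rintro (rfl | rfl | rfl)
      · exact h1
      · exact h2
      · exact h3'
  rw [heqS]
  exact Finset.card_eq_three.mpr ⟨M1, M2, M3, hkey12, hkey13, hkey23, rfl⟩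

/-- The total number of proposals. -/
theorem sum_proposalCount (E : Finset (Edge n)) :
    ∑ E', proposalCount E E' = 6 * n.choose 4 := by
  classical
  unfold proposalCount
  rw [Finset.sum_comm]
  have hS : ∀ S ∈ (univ : Finset (Fin n)).powersetCard 4,
      ∑ E', ∑ F ∈ pmSet S, ∑ F' ∈ (pmSet S).erase F, (if switchResult E F F' = E' then 1 else 0)
        = 6 := by
    intro S hS
    have hc : (pmSet S).card = 3 := pmSet_card (Finset.mem_powersetCard.mp hS).2
    rw [Finset.sum_comm]
    have : ∀ F ∈ pmSet S, ∑ E', ∑ F' ∈ (pmSet S).erase F,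
        (if switchResult E F F' = E' then 1 else 0) = 2 := by
      intro F hF
      rw [Finset.sum_comm]
      have h2 : ((pmSet S).erase F).card = 2 := by rw [Finset.card_erase_of_mem hF, hc]
      simp [h2]
    rw [Finset.sum_congr rfl this]
    simp [hc]
  rw [Finset.sum_congr rfl hS]
  simp [Finset.card_powersetCard]
  ring

theorem choose_pos_of_four (hn : 4 ≤ n) : (0 : ℝ) < (n.choose 4 : ℝ) := by
  exact_mod_cast Nat.choose_pos hn

theorem offDiag_row (hn : 4 ≤ n) (E : Finset (Edge n)) : ∑ E', offDiag n E E' = 1 / 2 := by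
  have hC := choose_pos_of_four hn
  unfold offDiag
  rw [← Finset.sum_div, ← Nat.cast_sum, sum_proposalCount]
  push_cast
  field_simp
  norm_num

end Crest.Agent.Lib.Switch
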