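/-
S0453 library: T11: `Ap = 0` for all pairs implies constant (helper23).
-/
import Crest.Agent.Lib.Switch.Basic
import Crest.Agent.Lib.Switch.Matchings

set_option autoImplicit false

namespace Crest.Agent.Lib.Switch

open Finset Crest.SwitchChain Crest.Agent.SwitchConn

variable {n : ℕ}

/-- Each switch stays in a block of some pair. -/
theorem switchStep_key {A B : Finset (Edge n)} (h : SwitchStep A B) :
    ∃ p ∈ pairs n, keyOf p A = keyOf p B := by
  classical
  obtain ⟨S, hS, F, hF, F', hF', hsub, hdis, rfl⟩ := h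
  have hS4 : S.card = 4 := (mem_powersetCard.mp hS).2
  obtain ⟨hne, hF'S⟩ := mem_erase.mp hF'
  have hpos : 0 < S.card := by omega
  obtain ⟨a, ha⟩ := Finset.card_pos.mp hpos
  -- the edges at `a`
  have hcov : ∀ {F₀ : Finset (Edge n)}, F₀ ∈ pmSet S → ∃ (x : Fin n) (h : a ≠ x), x ∈ S ∧ mkE a x h ∈ F₀ := by
    intro F₀ hF₀
    simp only [pmSet, mem_filter, mem_powersetCard, subset_univ, true_and] at hF₀
    have h1 := hF₀.2.2 a ha
    have h2 : 0 < (F₀.filter fun e => a ∈ e.1).card := by omega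
    obtain ⟨e, he⟩ := Finset.card_pos.mp h2
    obtain ⟨he1, he2⟩ := mem_filter.mp he
    obtain ⟨x, hx, rfl⟩ := exists_edg_of_mem he2
    refine ⟨x, hx, hF₀.2.1 _ he1 x (mem_edg.mpr (Or.inr rfl)), he1⟩
  obtain ⟨x, hax, hxS, hxF⟩ := hcov hF
  obtain ⟨y, hay, hyS, hyF⟩ := hcov hF'S
  -- a fourth element
  have hxy : x ≠ y := by
    rintro rfl
    apply hne
    have hsm : (({a, x} : Finset (Fin n))).card ≤ 2 := Finset.card_le_two
    have h3 : 0 < (S \ {a, x}).card := by
      have := Finset.card_sdiff_add_card_eq_card (s := ({a, x} : Finset (Fin n))) (t := S)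
        (by intro v hv; simp only [mem_insert, mem_singleton] at hv; rcases hv with rfl | rfl <;> assumption)
      omega
    obtain ⟨y₁, hy₁⟩ := Finset.card_pos.mp h3
    obtain ⟨hy₁S, hy₁n⟩ := mem_sdiff.mp hy₁
    simp only [mem_insert, mem_singleton, not_or] at hy₁n
    have h4 : 0 < (S \ {a, x, y₁}).card := by
      have hsm : (({a, x, y₁} : Finset (Fin n))).card ≤ 3 := Finset.card_le_three
      have := Finset.card_sdiff_add_card_eq_card (s := ({a, x, y₁} : Finset (Fin n))) (t := S)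
        (by intro v hv; simp only [mem_insert, mem_singleton] at hv; rcases hv with rfl | rfl | rfl <;> assumption)
      omega
    obtain ⟨z, hz⟩ := Finset.card_pos.mp h4
    obtain ⟨hzS, hzn⟩ := mem_sdiff.mp hz
    simp only [mem_insert, mem_singleton, not_or] at hzn
    have e1 := pm_of_edge hF hax (Ne.symm hy₁n.1) (Ne.symm hzn.1) (Ne.symm hy₁n.2) (Ne.symm hzn.2.1)
      (Ne.symm hzn.2.2) hy₁S hzS hxF
    have e2 := pm_of_edge hF'S hax (Ne.symm hy₁n.1) (Ne.symm hzn.1) (Ne.symm hy₁n.2) (Ne.symm hzn.2.1)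
      (Ne.symm hzn.2.2) hy₁S hzS hyF
    rw [e1, e2]
  have h4 : 0 < (S \ {a, x, y}).card := by
    have hsm : (({a, x, y} : Finset (Fin n))).card ≤ 3 := Finset.card_le_three
    have := Finset.card_sdiff_add_card_eq_card (s := ({a, x, y} : Finset (Fin n))) (t := S)
      (by intro v hv; simp only [mem_insert, mem_singleton] at hv; rcases hv with rfl | rfl | rfl <;> assumption)
    omega
  obtain ⟨z, hz⟩ := Finset.card_pos.mp h4
  obtain ⟨hzS, hzn⟩ := mem_sdiff.mp hz
  simp only [mem_insert, mem_singleton, not_or] at hzn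
  have hFe := pm_of_edge hF hax hay (Ne.symm hzn.1) hxy (Ne.symm hzn.2.1) (Ne.symm hzn.2.2) hyS hzS hxF
  have hF'e := pm_of_edge hF'S hay hax (Ne.symm hzn.1) hxy.symm (Ne.symm hzn.2.2) (Ne.symm hzn.2.1) hxS hzS hyF
  have haz : a ≠ z := Ne.symm hzn.1
  refine ⟨{a, z}, mem_powersetCard.mpr ⟨subset_univ _, card_pair haz⟩, ?_⟩
  -- all edges of `F, F'` touch `{a, z}`
  have htF : ∀ e ∈ F, ¬ ∀ v ∈ ({a, z} : Finset (Fin n)), v ∉ e.1 := by
    intro e he hall
    rw [hFe, mem_insert, mem_singleton] at he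
    rcases he with rfl | rfl
    · exact hall a (by simp) (mem_mkE.mpr (Or.inl rfl))
    · exact hall z (by simp) (mem_mkE.mpr (Or.inr rfl))
  have htF' : ∀ e ∈ F', ¬ ∀ v ∈ ({a, z} : Finset (Fin n)), v ∉ e.1 := by
    intro e he hall
    rw [hF'e, mem_insert, mem_singleton] at he
    rcases he with rfl | rfl
    · exact hall a (by simp) (mem_mkE.mpr (Or.inl rfl))
    · exact hall z (by simp) (mem_mkE.mpr (Or.inr rfl))
  ext e
  simp only [keyOf, mem_filter, mem_union, mem_sdiff]
  constructor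
  · rintro ⟨h1, h2⟩
    exact ⟨Or.inl ⟨h1, fun h3 => htF e h3 h2⟩, h2⟩
  · rintro ⟨h1 | h1, h2⟩
    · exact ⟨h1.1, h2⟩
    · exact absurd h2 (htF' e h1)

/-- T11. -/
theorem const_of_Ap_zero (d : Fin n → ℕ) (f : Finset (Edge n) → ℝ)
    (h : ∀ p ∈ pairs n, ∀ G ∈ realizations d, Ap d p f G = 0) :
    ∀ G ∈ realizations d, ∀ G' ∈ realizations d, f G = f G' := by
  intro G hG G' hG'
  refine const_of_switch_inv d f ?_ hG hG'
  intro A B hA hB hs
  obtain ⟨p, hp, hk⟩ := switchStep_key hs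
  have h1 := h p hp A hA
  have h2 := h p hp B hB
  unfold Ap comp at h1 h2
  have h3 : avg (realizations d) (keyOf p) f A = avg (realizations d) (keyOf p) f B := by
    unfold avg
    rw [hk]
  linarith

end Crest.Agent.Lib.Switch
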