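import Crest.Agent.Lib.Switch.TVAbstract

/-!
Elementary facts on the switch kernel: symmetry, row sums (three perfect matchings on a 4-set),
preservation of the realization class.
-/

set_option autoImplicit false

namespace Crest.Agent.Lib.Switch

open Finset Crest.SwitchChain
open scoped Matrix

variable {n : ℕ}

/-- Unfolding of a proper switch. -/
theorem switchResult_ne {E E' F F' : Finset (Edge n)} (h : switchResult E F F' = E') (hne : E ≠ E') :
    F ⊆ E ∧ Disjoint F' E ∧ E' = E \ F ∪ F' := by
  unfold switchResult at h
  split_ifs at h with hc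
  · exact ⟨hc.1, hc.2, h.symm⟩
  · exact absurd h hne

theorem switchResult_swap {E E' F F' : Finset (Edge n)} (hne : E ≠ E') :
    switchResult E F F' = E' ↔ switchResult E' F' F = E := by
  have key : ∀ {E E' F F' : Finset (Edge n)}, E ≠ E' →
      switchResult E F F' = E' → switchResult E' F' F = E := by
    intro E E' F F' hne h
    obtain ⟨h1, h2, h3⟩ := switchResult_ne h hne
    have hc : F' ⊆ E' ∧ Disjoint F E' := by
      subst h3
      refine ⟨subset_union_right, ?_⟩
      rw [Finset.disjoint_union_right]
      refine ⟨Finset.disjoint_sdiff, ?_⟩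
      exact (Finset.disjoint_of_subset_right h1 h2).symm
    unfold switchResult
    rw [if_pos hc]
    subst h3
    ext e
    simp only [mem_union, mem_sdiff]
    by_cases he : e ∈ F
    · simp [he, h1 he]
    · by_cases he' : e ∈ F'
      · have : e ∉ E := fun hE => (Finset.disjoint_left.mp h2 he') hE
        simp [he, he', this]
      · simp [he, he']
  exact ⟨key hne, key hne.symm⟩

/-- Symmetry of the proposal count off the diagonal. -/
theorem proposalCount_symm {E E' : Finset (Edge n)} (hne : E ≠ E') :
    proposalCount E E' = proposalCount E' E := by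
  classical
  unfold proposalCount
  refine Finset.sum_congr rfl fun S _ => ?_
  rw [Finset.sum_comm' (s' := fun F' => (pmSet S).erase F') (t' := pmSet S)]
  · refine Finset.sum_congr rfl fun F _ => Finset.sum_congr rfl fun F' _ => ?_
    simp only [switchResult_swap (E := E) (E' := E') (F := F') (F' := F) hne]
  · intro F F'
    simp only [Finset.mem_erase]
    constructor
    · rintro ⟨h1, h2, h3⟩
      exact ⟨⟨Ne.symm h2, h1⟩, h3⟩
    · rintro ⟨⟨h1, h2⟩, h3⟩
      exact ⟨h2, Ne.symm h1, h3⟩

/-- The off-diagonal part of the kernel. -/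
noncomputable def offDiag (n : ℕ) (E E' : Finset (Edge n)) : ℝ :=
  (proposalCount E E' : ℝ) / (12 * (n.choose 4 : ℝ))

theorem kernel_eq (E E' : Finset (Edge n)) :
    kernel n E E' = (if E = E' then 1 / 2 else 0) + offDiag n E E' := rfl

theorem offDiag_nonneg (E E' : Finset (Edge n)) : 0 ≤ offDiag n E E' := by
  unfold offDiag; positivity

theorem offDiag_symm (E E' : Finset (Edge n)) : offDiag n E E' = offDiag n E' E := by
  by_cases h : E = E'
  · rw [h]
  · unfold offDiag; rw [proposalCount_symm h]

/-- A degree computation: a switch preserves degrees. -/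
theorem deg_switch {S : Finset (Fin n)} {E F F' : Finset (Edge n)}
    (hF : F ∈ pmSet S) (hF' : F' ∈ pmSet S) (h1 : F ⊆ E) (h2 : Disjoint F' E) (v : Fin n) :
    deg (E \ F ∪ F') v = deg E v := by
  classical
  have hcount : ∀ {M : Finset (Edge n)}, M ∈ pmSet S →
      (M.filter fun e => v ∈ e.1).card = if v ∈ S then 1 else 0 := by
    intro M hM
    simp only [pmSet, Finset.mem_filter] at hM
    by_cases hv : v ∈ S
    · rw [if_pos hv]; exact hM.2.2 v hv
    · rw [if_neg hv, Finset.card_eq_zero, Finset.filter_eq_empty_iff]
      intro e he hve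
      exact hv (hM.2.1 e he v hve)
  unfold deg
  have hdisj : Disjoint (E \ F) F' :=
    Finset.disjoint_of_subset_left Finset.sdiff_subset h2.symm
  rw [Finset.filter_union, Finset.card_union_of_disjoint
    (Finset.disjoint_filter_filter hdisj), hcount hF']
  have hfF : (F.filter fun e => v ∈ e.1) ⊆ (E.filter fun e => v ∈ e.1) :=
    Finset.filter_subset_filter _ h1
  have hsd : ((E \ F).filter fun e => v ∈ e.1)
      = (E.filter fun e => v ∈ e.1) \ (F.filter fun e => v ∈ e.1) := by
    ext e; simp only [mem_filter, mem_sdiff]; tauto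
  rw [hsd, Finset.card_sdiff_of_subset hfF, hcount hF]
  have : (if v ∈ S then 1 else 0) ≤ (E.filter fun e => v ∈ e.1).card := by
    rw [← hcount hF]; exact Finset.card_le_card hfF
  omega

/-- Off-diagonal entries from a realization to a non-realization vanish. -/
theorem offDiag_closed (d : Fin n → ℕ) :
    ∀ E ∈ realizations d, ∀ E', E' ∉ realizations d → offDiag n E E' = 0 := by
  classical
  intro E hE E' hE'
  have hne : E ≠ E' := fun h => hE' (h ▸ hE)
  have : proposalCount E E' = 0 := by
    unfold proposalCount
    refine Finset.sum_eq_zero fun S _ => Finset.sum_eq_zero fun F hF =>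
      Finset.sum_eq_zero fun F' hF' => ?_
    rw [if_neg]
    intro h
    obtain ⟨h1, h2, h3⟩ := switchResult_ne h hne
    apply hE'
    simp only [realizations, Finset.mem_filter, Finset.mem_univ, true_and] at hE ⊢
    intro v
    rw [h3, deg_switch hF (Finset.mem_of_mem_erase hF') h1 h2, hE]
  unfold offDiag
  simp [this]

end Crest.Agent.Lib.Switch
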