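/-
S0453 library: T12, the switch energy is bounded by the proposal Dirichlet form (helper21).
-/
import Crest.Agent.Lib.Switch.Basic
import Crest.Agent.Lib.Switch.Kernel

set_option autoImplicit false

namespace Crest.Agent.Lib.Switch

open Finset Crest.SwitchChain Crest.Agent.SwitchConn

variable {n : ℕ}

/-- Two disjoint pairs with the same `cross` are the same unordered pair. -/
theorem cross_inj {p q p' q' : Finset (Fin n)} (hp : p.card = 2) (hq : q.card = 2)
    (hp' : p'.card = 2) (hq' : q'.card = 2) (hpq : Disjoint p q) (hpq' : Disjoint p' q')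
    (h : cross p q = cross p' q') : (p' = p ∧ q' = q) ∨ (p' = q ∧ q' = p) := by
  classical
  obtain ⟨x, y, hxy, rfl⟩ := Finset.card_eq_two.mp hp
  obtain ⟨u, v, huv, rfl⟩ := Finset.card_eq_two.mp hq
  have hdj : ∀ a ∈ ({x, y} : Finset (Fin n)), ∀ b ∈ ({u, v} : Finset (Fin n)), a ≠ b :=
    fun a ha b hb => Finset.disjoint_iff_ne.mp hpq a ha b hb
  have hxu : x ≠ u := hdj x (by simp) u (by simp)
  have hxv : x ≠ v := hdj x (by simp) v (by simp)
  have hyu : y ≠ u := hdj y (by simp) u (by simp)
  have hyv : y ≠ v := hdj y (by simp) v (by simp)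
  have hrel : ∀ a b : Fin n, a ≠ b →
      (crossRel {x, y} {u, v} a b ↔ crossRel p' q' a b) := by
    intro a b hab
    rw [← edg_mem_cross hab, ← edg_mem_cross hab, h]
  have hdj' : ∀ a, a ∈ p' → a ∈ q' → False := fun a ha hb =>
    Finset.disjoint_left.mp hpq' ha hb
  have e1 := (hrel x u hxu).mp (Or.inl ⟨by simp, by simp⟩)
  have e2 := (hrel x v hxv).mp (Or.inl ⟨by simp, by simp⟩)
  have e3 := (hrel y u hyu).mp (Or.inl ⟨by simp, by simp⟩)
  have e4 := (hrel y v hyv).mp (Or.inl ⟨by simp, by simp⟩)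
  unfold crossRel at e1 e2 e3 e4
  have hsub : ∀ {a b : Fin n} {s : Finset (Fin n)}, a ≠ b → s.card = 2 → a ∈ s → b ∈ s →
      ({a, b} : Finset (Fin n)) = s := by
    intro a b s hab hs ha hb
    apply Finset.eq_of_subset_of_card_le
    · intro w hw
      simp only [Finset.mem_insert, Finset.mem_singleton] at hw
      rcases hw with rfl | rfl <;> assumption
    · rw [hs, Finset.card_pair hab]
  rcases e1 with ⟨a1, a2⟩ | ⟨a1, a2⟩
  · left
    have b1 : v ∈ q' := by
      rcases e2 with ⟨_, h⟩ | ⟨h, _⟩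
      · exact h
      · exact (hdj' x a1 h).elim
    have b2 : y ∈ p' := by
      rcases e3 with ⟨h, _⟩ | ⟨_, h⟩
      · exact h
      · exact (hdj' u h a2).elim
    exact ⟨(hsub hxy hp' a1 b2).symm, (hsub huv hq' a2 b1).symm⟩
  · right
    have b1 : v ∈ p' := by
      rcases e2 with ⟨h, _⟩ | ⟨_, h⟩
      · exact (hdj' x h a1).elim
      · exact h
    have b2 : y ∈ q' := by
      rcases e3 with ⟨_, h⟩ | ⟨h, _⟩
      · exact (hdj' u a2 h).elim
      · exact h
    exact ⟨(hsub huv hp' a2 b1).symm, (hsub hxy hq' a1 b2).symm⟩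

/-- If `flip` agree, the crosses agree. -/
theorem cross_eq_of_flip_eq {p q p' q' : Finset (Fin n)} {G : Finset (Edge n)}
    (h : flip p q G = flip p' q' G) : cross p q = cross p' q' := by
  unfold flip at h
  have := congrArg (symmDiff G) h
  rwa [← symmDiff_assoc, ← symmDiff_assoc, symmDiff_self, bot_symmDiff, bot_symmDiff] at this

/-- The explicit form of `cross` on explicit pairs. -/
theorem mem_cross_explicit {x y u v : Fin n} (hxu : x ≠ u) (hxv : x ≠ v) (hyu : y ≠ u)
    (hyv : y ≠ v) {e : Edge n} :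
    e ∈ cross {x, y} {u, v} ↔
      e = edg x u hxu ∨ e = edg x v hxv ∨ e = edg y u hyu ∨ e = edg y v hyv := by
  obtain ⟨a, b, hab, rfl⟩ := edge_eq_edg e
  rw [edg_mem_cross hab]
  unfold crossRel
  simp only [edg_eq_iff, Finset.mem_insert, Finset.mem_singleton]
  constructor
  · rintro (⟨rfl | rfl, rfl | rfl⟩ | ⟨rfl | rfl, rfl | rfl⟩) <;> simp
  · rintro (h | h | h | h) <;> rcases h with ⟨rfl, rfl⟩ | ⟨rfl, rfl⟩ <;> simp

/-- Each centre gives a proposal. -/
theorem proposalCount_flip_pos {p q : Finset (Fin n)} (hp : p ∈ pairs n) (hq : q ∈ pairs n)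
    (hpq : Disjoint p q) {G : Finset (Edge n)} (hc : IsCentre p q G) :
    1 ≤ proposalCount G (flip p q G) := by
  classical
  obtain ⟨x, y, hxy, rfl⟩ := pairs_eq hp
  obtain ⟨u, v, huv, rfl⟩ := pairs_eq hq
  have hdj : ∀ a ∈ ({x, y} : Finset (Fin n)), ∀ b ∈ ({u, v} : Finset (Fin n)), a ≠ b :=
    fun a ha b hb => Finset.disjoint_iff_ne.mp hpq a ha b hb
  have hxu : x ≠ u := hdj x (by simp) u (by simp)
  have hxv : x ≠ v := hdj x (by simp) v (by simp)
  have hyu : y ≠ u := hdj y (by simp) u (by simp)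
  have hyv : y ≠ v := hdj y (by simp) v (by simp)
  set C := cross ({x, y} : Finset (Fin n)) {u, v} with hC
  have hCmem : ∀ e, e ∈ C ↔ e = edg x u hxu ∨ e = edg x v hxv ∨ e = edg y u hyu ∨ e = edg y v hyv :=
    fun e => mem_cross_explicit hxu hxv hyu hyv
  set S : Finset (Fin n) := {x, y, u, v} with hS
  have hScard : S.card = 4 := by
    rw [hS, Finset.card_insert_of_notMem (by simp [hxy, hxu, hxv]),
      Finset.card_insert_of_notMem (by simp [hyu, hyv]), Finset.card_pair huv]
  have hSmem : S ∈ (univ : Finset (Fin n)).powersetCard 4 :=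
    Finset.mem_powersetCard.mpr ⟨Finset.subset_univ _, hScard⟩
  have hM1 : ({edg x u hxu, edg y v hyv} : Finset (Edge n)) ∈ pmSet S := by
    have := pm_mem (a := x) (b := u) (c := y) (d := v) hxu hxy hxv hyu.symm huv hyv
    convert this using 2
    ext w; simp only [hS, Finset.mem_insert, Finset.mem_singleton]; tauto
  have hM2 : ({edg x v hxv, edg y u hyu} : Finset (Edge n)) ∈ pmSet S := by
    have := pm_mem (a := x) (b := v) (c := y) (d := u) hxv hxy hxu hyv.symm huv.symm hyu
    convert this using 2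
    ext w; simp only [hS, Finset.mem_insert, Finset.mem_singleton]; tauto
  have hne12 : ({edg x u hxu, edg y v hyv} : Finset (Edge n)) ≠ {edg x v hxv, edg y u hyu} := by
    intro h
    have : edg x u hxu ∈ ({edg x v hxv, edg y u hyu} : Finset (Edge n)) := by
      rw [← h]; simp
    simp only [Finset.mem_insert, Finset.mem_singleton, edg_eq_iff] at this
    rcases this with (⟨_, h⟩ | ⟨h, _⟩) | (⟨h, _⟩ | ⟨_, h⟩)
    · exact huv h
    · exact hxv h
    · exact hxy h
    · exact hyu.symm h |>.elim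
  have hadj : ∀ {a b : Fin n} (h : a ≠ b), edg a b h ∈ G ↔ adj G a b := fun h => (adj_iff_mem h).symm
  have hF : ∃ F F' : Finset (Edge n), F ∈ pmSet S ∧ F' ∈ pmSet S ∧ F ≠ F' ∧ F = G ∩ C ∧ F' = C \ G := by
    rcases (isCentre_iff hxy huv hxu hxv hyu hyv G).mp hc with ⟨a1, a2, a3, a4⟩ | ⟨a1, a2, a3, a4⟩
    · refine ⟨_, _, hM1, hM2, hne12, ?_, ?_⟩
      · ext e
        simp only [Finset.mem_insert, Finset.mem_singleton, Finset.mem_inter, hCmem]
        constructor
        · rintro (rfl | rfl)
          · exact ⟨(hadj _).mpr a1, by simp⟩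
          · exact ⟨(hadj _).mpr a2, by simp⟩
        · rintro ⟨h, rfl | rfl | rfl | rfl⟩
          · simp
          · exact absurd ((hadj _).mp h) a3
          · exact absurd ((hadj _).mp h) a4
          · simp
      · ext e
        simp only [Finset.mem_insert, Finset.mem_singleton, Finset.mem_sdiff, hCmem]
        constructor
        · rintro (rfl | rfl)
          · exact ⟨by simp, fun h => a3 ((hadj _).mp h)⟩
          · exact ⟨by simp, fun h => a4 ((hadj _).mp h)⟩
        · rintro ⟨rfl | rfl | rfl | rfl, h⟩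
          · exact absurd ((hadj _).mpr a1) h
          · simp
          · simp
          · exact absurd ((hadj _).mpr a2) h
    · refine ⟨_, _, hM2, hM1, hne12.symm, ?_, ?_⟩
      · ext e
        simp only [Finset.mem_insert, Finset.mem_singleton, Finset.mem_inter, hCmem]
        constructor
        · rintro (rfl | rfl)
          · exact ⟨(hadj _).mpr a1, by simp⟩
          · exact ⟨(hadj _).mpr a2, by simp⟩
        · rintro ⟨h, rfl | rfl | rfl | rfl⟩
          · exact absurd ((hadj _).mp h) a3
          · simp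
          · simp
          · exact absurd ((hadj _).mp h) a4
      · ext e
        simp only [Finset.mem_insert, Finset.mem_singleton, Finset.mem_sdiff, hCmem]
        constructor
        · rintro (rfl | rfl)
          · exact ⟨by simp, fun h => a3 ((hadj _).mp h)⟩
          · exact ⟨by simp, fun h => a4 ((hadj _).mp h)⟩
        · rintro ⟨rfl | rfl | rfl | rfl, h⟩
          · simp
          · exact absurd ((hadj _).mpr a1) h
          · exact absurd ((hadj _).mpr a2) h
          · simp
  obtain ⟨F, F', hFm, hF'm, hFF', hFeq, hF'eq⟩ := hF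
  have hres : switchResult G F F' = flip {x, y} {u, v} G := by
    unfold switchResult
    have hcond : F ⊆ G ∧ Disjoint F' G := by
      refine ⟨hFeq ▸ Finset.inter_subset_left, ?_⟩
      rw [hF'eq]; exact Finset.sdiff_disjoint
    rw [if_pos hcond]
    unfold flip
    rw [← hC, hFeq, hF'eq]
    ext e
    simp only [Finset.mem_union, Finset.mem_sdiff, Finset.mem_inter, Finset.mem_symmDiff]
    tauto
  unfold proposalCount
  calc 1 = (if switchResult G F F' = flip {x, y} {u, v} G then 1 else 0) := by rw [if_pos hres]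
    _ ≤ ∑ F' ∈ (pmSet S).erase F, (if switchResult G F F' = flip {x, y} {u, v} G then 1 else 0) :=
        Finset.single_le_sum (f := fun F' => if switchResult G F F' = flip {x, y} {u, v} G then 1 else 0)
          (fun _ _ => Nat.zero_le _) (Finset.mem_erase.mpr ⟨hFF'.symm, hF'm⟩)
    _ ≤ ∑ F ∈ pmSet S, ∑ F' ∈ (pmSet S).erase F,
          (if switchResult G F F' = flip {x, y} {u, v} G then 1 else 0) :=
        Finset.single_le_sum (f := fun F => ∑ F' ∈ (pmSet S).erase F,
          (if switchResult G F F' = flip {x, y} {u, v} G then 1 else 0))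
          (fun _ _ => Nat.zero_le _) hFm
    _ ≤ _ :=
        Finset.single_le_sum (f := fun S => ∑ F ∈ pmSet S, ∑ F' ∈ (pmSet S).erase F,
          (if switchResult G F F' = flip {x, y} {u, v} G then 1 else 0))
          (fun _ _ => Nat.zero_le _) hSmem

/-- The disjoint ordered pairs. -/
def dpairs (n : ℕ) : Finset (Finset (Fin n) × Finset (Fin n)) :=
  (pairs n ×ˢ pairs n).filter fun x => Disjoint x.1 x.2

/-- Local bound at a graph `G`. -/
theorem local_bound (d : Fin n → ℕ) (f : Finset (Edge n) → ℝ) {G : Finset (Edge n)}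
    (hG : G ∈ realizations d) :
    ∑ x ∈ (dpairs n).filter (fun x => IsCentre x.1 x.2 G), (f G - f (flip x.1 x.2 G)) ^ 2 ≤
      2 * ∑ G' ∈ realizations d, (proposalCount G G' : ℝ) * (f G - f G') ^ 2 := by
  classical
  set A := (dpairs n).filter (fun x => IsCentre x.1 x.2 G) with hA
  have hmaps : ∀ x ∈ A, flip x.1 x.2 G ∈ realizations d := by
    intro x hx
    obtain ⟨hx1, hx2⟩ := Finset.mem_filter.mp hx
    obtain ⟨hx3, hx4⟩ := Finset.mem_filter.mp hx1
    obtain ⟨hx5, hx6⟩ := Finset.mem_product.mp hx3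
    obtain ⟨x1, y1, h1, e1⟩ := pairs_eq hx5
    obtain ⟨u1, v1, h2, e2⟩ := pairs_eq hx6
    rw [e1, e2] at hx4 hx2 ⊢
    have hdj : ∀ a ∈ ({x1, y1} : Finset (Fin n)), ∀ b ∈ ({u1, v1} : Finset (Fin n)), a ≠ b :=
      fun a ha b hb => Finset.disjoint_iff_ne.mp hx4 a ha b hb
    exact flip_mem_realizations h1 h2 (hdj _ (by simp) _ (by simp)) (hdj _ (by simp) _ (by simp))
      (hdj _ (by simp) _ (by simp)) (hdj _ (by simp) _ (by simp)) hG hx2
  rw [← Finset.sum_fiberwise_of_maps_to hmaps, Finset.mul_sum]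
  refine Finset.sum_le_sum fun G' _ => ?_
  have hval : ∑ x ∈ A.filter (fun x => flip x.1 x.2 G = G'), (f G - f (flip x.1 x.2 G)) ^ 2 =
      ((A.filter (fun x => flip x.1 x.2 G = G')).card : ℝ) * (f G - f G') ^ 2 := by
    rw [Finset.sum_congr rfl (g := fun _ => (f G - f G') ^ 2) (fun x hx => by
      rw [(Finset.mem_filter.mp hx).2]), Finset.sum_const, nsmul_eq_mul]
  rw [hval]
  rcases (A.filter (fun x => flip x.1 x.2 G = G')).eq_empty_or_nonempty with he | ⟨x0, hx0⟩
  · rw [he]
    simp only [Finset.card_empty, Nat.cast_zero, zero_mul]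
    positivity
  · obtain ⟨hx01, hx02⟩ := Finset.mem_filter.mp hx0
    obtain ⟨hx03, hx04⟩ := Finset.mem_filter.mp hx01
    obtain ⟨hx05, hx06⟩ := Finset.mem_filter.mp hx03
    obtain ⟨hx07, hx08⟩ := Finset.mem_product.mp hx05
    have hpos : 1 ≤ proposalCount G G' := by
      rw [← hx02]; exact proposalCount_flip_pos hx07 hx08 hx06 hx04
    have hcard : (A.filter (fun x => flip x.1 x.2 G = G')).card ≤ 2 := by
      have hsub : A.filter (fun x => flip x.1 x.2 G = G') ⊆ {x0, (x0.2, x0.1)} := by
        intro y hy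
        obtain ⟨hy1, hy2⟩ := Finset.mem_filter.mp hy
        obtain ⟨hy3, hy4⟩ := Finset.mem_filter.mp hy1
        obtain ⟨hy5, hy6⟩ := Finset.mem_filter.mp hy3
        obtain ⟨hy7, hy8⟩ := Finset.mem_product.mp hy5
        have hcr : cross x0.1 x0.2 = cross y.1 y.2 :=
          cross_eq_of_flip_eq (hx02.trans hy2.symm)
        simp only [Finset.mem_insert, Finset.mem_singleton]
        rcases cross_inj (Finset.mem_powersetCard.mp hx07).2 (Finset.mem_powersetCard.mp hx08).2
          (Finset.mem_powersetCard.mp hy7).2 (Finset.mem_powersetCard.mp hy8).2 hx06 hy6 hcr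
          with ⟨h1, h2⟩ | ⟨h1, h2⟩
        · left; exact Prod.ext h1 h2
        · right; exact Prod.ext h1 h2
      calc _ ≤ ({x0, (x0.2, x0.1)} : Finset _).card := Finset.card_le_card hsub
        _ ≤ 2 := Finset.card_le_two
    have h1 : ((A.filter (fun x => flip x.1 x.2 G = G')).card : ℝ) ≤ 2 := by exact_mod_cast hcard
    have h2 : (1 : ℝ) ≤ (proposalCount G G' : ℝ) := by exact_mod_cast hpos
    have h3 : 0 ≤ (f G - f G') ^ 2 := by positivity
    nlinarith [mul_le_mul_of_nonneg_right h1 h3, mul_le_mul_of_nonneg_right h2 h3]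

/-- T12. The true statement has constant 1/2 instead of `2 n²`. -/
theorem energy_le_proposal (d : Fin n → ℕ) (f : Finset (Edge n) → ℝ) :
    energy d f ≤ 2 * (n : ℝ) ^ 2 * ∑ G ∈ realizations d, ∑ G' ∈ realizations d,
        (proposalCount G G' : ℝ) * (f G - f G') ^ 2 := by
  classical
  set X := ∑ G ∈ realizations d, ∑ G' ∈ realizations d,
        (proposalCount G G' : ℝ) * (f G - f G') ^ 2 with hX
  have hX0 : 0 ≤ X := Finset.sum_nonneg fun _ _ => Finset.sum_nonneg fun _ _ => by positivity
  have hrew : ∑ p ∈ pairs n, ∑ q ∈ (pairs n).filter (fun q => Disjoint p q), eTerm d p q f =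
      ∑ G ∈ realizations d,
        ∑ x ∈ (dpairs n).filter (fun x => IsCentre x.1 x.2 G), (f G - f (flip x.1 x.2 G)) ^ 2 := by
    have h1 : ∀ p ∈ pairs n, ∑ q ∈ (pairs n).filter (fun q => Disjoint p q), eTerm d p q f =
        ∑ q ∈ pairs n, if Disjoint p q then eTerm d p q f else 0 := fun p _ => Finset.sum_filter _ _
    rw [Finset.sum_congr rfl h1, ← Finset.sum_product' (f := fun p q =>
      if Disjoint p q then eTerm d p q f else 0)]
    have h2 : ∑ x ∈ pairs n ×ˢ pairs n, (if Disjoint x.1 x.2 then eTerm d x.1 x.2 f else 0) =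
        ∑ x ∈ dpairs n, eTerm d x.1 x.2 f := by
      unfold dpairs; rw [Finset.sum_filter]
    rw [h2]
    unfold eTerm
    simp only [Finset.sum_filter]
    rw [Finset.sum_comm]
  have hbound : ∑ p ∈ pairs n, ∑ q ∈ (pairs n).filter (fun q => Disjoint p q), eTerm d p q f ≤
      2 * X := by
    rw [hrew, hX, Finset.mul_sum]
    exact Finset.sum_le_sum fun G hG => local_bound d f hG
  unfold energy
  rcases Nat.eq_zero_or_pos n with rfl | hn
  · have : pairs 0 = ∅ := by
      unfold pairs
      apply Finset.powersetCard_eq_empty.mpr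
      simp
    rw [this]
    simp only [Finset.sum_empty, mul_zero]
    positivity
  · have hn1 : (1 : ℝ) ≤ (n : ℝ) := by exact_mod_cast hn
    have hn2 : (1 : ℝ) ≤ (n : ℝ) ^ 2 := by nlinarith
    nlinarith [mul_le_mul_of_nonneg_right hn2 hX0]

end Crest.Agent.Lib.Switch
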