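/-
S0453 library: the L-shape algebra behind the disjoint pair lemma (helper23).
-/
import Crest.Agent.Lib.Switch.Defs

set_option autoImplicit false

namespace Crest.Agent.Lib.Switch

open Finset

variable {A B : Type*}

section Moments
variable (X : Finset A) (Y : Finset B) (w : A → B → ℝ) (a : B → ℝ) (b : A → ℝ) (c : ℝ)

/-- Expansion of the bilinear term on one rectangle. -/
theorem rect_bilin :
    ∑ x ∈ X, ∑ y ∈ Y, (w x y - a y) * (w x y - b x) =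
      ∑ x ∈ X, ∑ y ∈ Y, w x y ^ 2 - ∑ y ∈ Y, a y * ∑ x ∈ X, w x y
        - ∑ x ∈ X, b x * ∑ y ∈ Y, w x y + (∑ y ∈ Y, a y) * ∑ x ∈ X, b x := by
  have h1 : ∑ y ∈ Y, a y * ∑ x ∈ X, w x y = ∑ x ∈ X, ∑ y ∈ Y, a y * w x y := by
    simp only [Finset.mul_sum]
    exact Finset.sum_comm
  have h2 : ∑ x ∈ X, b x * ∑ y ∈ Y, w x y = ∑ x ∈ X, ∑ y ∈ Y, b x * w x y := by
    simp only [Finset.mul_sum]
  have h3 : (∑ y ∈ Y, a y) * ∑ x ∈ X, b x = ∑ x ∈ X, ∑ y ∈ Y, a y * b x := by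
    rw [Finset.mul_sum]
    refine Finset.sum_congr rfl fun x _ => ?_
    rw [Finset.sum_mul]
  rw [h1, h2, h3, ← Finset.sum_sub_distrib, ← Finset.sum_sub_distrib, ← Finset.sum_add_distrib]
  refine Finset.sum_congr rfl fun x _ => ?_
  rw [← Finset.sum_sub_distrib, ← Finset.sum_sub_distrib, ← Finset.sum_add_distrib]
  exact Finset.sum_congr rfl fun y _ => by ring

/-- Expansion of the residual square on one rectangle. -/
theorem rect_sq :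
    ∑ x ∈ X, ∑ y ∈ Y, (w x y - a y - b x + c) ^ 2 =
      ∑ x ∈ X, ∑ y ∈ Y, w x y ^ 2 + (X.card : ℝ) * ∑ y ∈ Y, a y ^ 2
        + (Y.card : ℝ) * ∑ x ∈ X, b x ^ 2 + (X.card : ℝ) * (Y.card : ℝ) * c ^ 2
        - 2 * ∑ y ∈ Y, a y * ∑ x ∈ X, w x y - 2 * ∑ x ∈ X, b x * ∑ y ∈ Y, w x y
        + 2 * c * ∑ x ∈ X, ∑ y ∈ Y, w x y + 2 * (∑ y ∈ Y, a y) * ∑ x ∈ X, b x
        - 2 * c * (X.card : ℝ) * ∑ y ∈ Y, a y - 2 * c * (Y.card : ℝ) * ∑ x ∈ X, b x := by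
  have h1 : ∑ y ∈ Y, a y * ∑ x ∈ X, w x y = ∑ x ∈ X, ∑ y ∈ Y, a y * w x y := by
    simp only [Finset.mul_sum]
    exact Finset.sum_comm
  have h2 : ∑ x ∈ X, b x * ∑ y ∈ Y, w x y = ∑ x ∈ X, ∑ y ∈ Y, b x * w x y := by
    simp only [Finset.mul_sum]
  have h3 : (∑ y ∈ Y, a y) * ∑ x ∈ X, b x = ∑ x ∈ X, ∑ y ∈ Y, a y * b x := by
    rw [Finset.mul_sum]
    refine Finset.sum_congr rfl fun x _ => ?_
    rw [Finset.sum_mul]
  have hX : (X.card : ℝ) * ∑ y ∈ Y, a y ^ 2 = ∑ x ∈ X, ∑ y ∈ Y, a y ^ 2 := by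
    rw [Finset.sum_const, nsmul_eq_mul]
  have hY : (Y.card : ℝ) * ∑ x ∈ X, b x ^ 2 = ∑ x ∈ X, ∑ y ∈ Y, b x ^ 2 := by
    rw [Finset.mul_sum]
    refine Finset.sum_congr rfl fun x _ => ?_
    rw [Finset.sum_const, nsmul_eq_mul]
  have hXY : (X.card : ℝ) * (Y.card : ℝ) * c ^ 2 = ∑ x ∈ X, ∑ y ∈ Y, c ^ 2 := by
    simp only [Finset.sum_const, nsmul_eq_mul]
    ring
  have hXa : (X.card : ℝ) * ∑ y ∈ Y, a y = ∑ x ∈ X, ∑ y ∈ Y, a y := by
    rw [Finset.sum_const, nsmul_eq_mul]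
  have hYb : (Y.card : ℝ) * ∑ x ∈ X, b x = ∑ x ∈ X, ∑ y ∈ Y, b x := by
    rw [Finset.mul_sum]
    refine Finset.sum_congr rfl fun x _ => ?_
    rw [Finset.sum_const, nsmul_eq_mul]
  have e1 : 2 * (∑ y ∈ Y, a y) * ∑ x ∈ X, b x = 2 * ∑ x ∈ X, ∑ y ∈ Y, a y * b x := by
    rw [mul_assoc, h3]
  have e2 : 2 * c * (X.card : ℝ) * ∑ y ∈ Y, a y = 2 * c * ∑ x ∈ X, ∑ y ∈ Y, a y := by
    rw [mul_assoc (2 * c), hXa]
  have e3 : 2 * c * (Y.card : ℝ) * ∑ x ∈ X, b x = 2 * c * ∑ x ∈ X, ∑ y ∈ Y, b x := by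
    rw [mul_assoc (2 * c), hYb]
  rw [hX, hY, hXY, h1, h2, e1, e2, e3]
  simp only [Finset.mul_sum, ← Finset.sum_add_distrib, ← Finset.sum_sub_distrib]
  refine Finset.sum_congr rfl fun x _ => Finset.sum_congr rfl fun y _ => ?_
  ring

end Moments

/-- Product case: `⟨A₁ u, A₂ u⟩ ≥ 0` for the two conditional expectations of a product space. -/
theorem prod_nonneg (X : Finset A) (Y : Finset B) (u : A → B → ℝ) (α : B → ℝ) (η : A → ℝ)
    (hα : ∀ y ∈ Y, (X.card : ℝ) * α y = ∑ x ∈ X, u x y)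
    (hη : ∀ x ∈ X, (Y.card : ℝ) * η x = ∑ y ∈ Y, u x y) :
    0 ≤ ∑ x ∈ X, ∑ y ∈ Y, (u x y - α y) * (u x y - η x) := by
  rcases X.eq_empty_or_nonempty with rfl | hX
  · simp
  rcases Y.eq_empty_or_nonempty with rfl | hY
  · simp
  have hXc : (0 : ℝ) < X.card := by exact_mod_cast hX.card_pos
  have hYc : (0 : ℝ) < Y.card := by exact_mod_cast hY.card_pos
  set n : ℝ := (X.card : ℝ) with hn
  set m : ℝ := (Y.card : ℝ) with hm
  set W := ∑ x ∈ X, ∑ y ∈ Y, u x y with hW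
  set c : ℝ := W / (n * m) with hc
  have hcW : c * (n * m) = W := by rw [hc]; field_simp
  -- aggregated normal equations
  have h1 : ∑ y ∈ Y, α y * ∑ x ∈ X, u x y = n * ∑ y ∈ Y, α y ^ 2 := by
    rw [Finset.mul_sum]
    refine Finset.sum_congr rfl fun y hy => ?_
    rw [← hα y hy]; ring
  have h2 : ∑ x ∈ X, η x * ∑ y ∈ Y, u x y = m * ∑ x ∈ X, η x ^ 2 := by
    rw [Finset.mul_sum]
    refine Finset.sum_congr rfl fun x hx => ?_
    rw [← hη x hx]; ring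
  have h3 : n * ∑ y ∈ Y, α y = W := by
    rw [hW, Finset.sum_comm, Finset.mul_sum]
    exact Finset.sum_congr rfl fun y hy => hα y hy
  have h4 : m * ∑ x ∈ X, η x = W := by
    rw [hW, Finset.mul_sum]
    exact Finset.sum_congr rfl fun x hx => hη x hx
  have hB := rect_bilin X Y u α η
  have hS := rect_sq X Y u α η c
  have hnn : 0 ≤ ∑ x ∈ X, ∑ y ∈ Y, (u x y - α y - η x + c) ^ 2 :=
    Finset.sum_nonneg fun x _ => Finset.sum_nonneg fun y _ => sq_nonneg _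
  rw [h1, h2] at hB hS
  rw [← hn, ← hm] at hS
  -- the two expressions coincide
  set Sa := ∑ y ∈ Y, α y with hSa
  set Sb := ∑ x ∈ X, η x with hSb
  have hSa' : Sa = m * c := by
    have : n * Sa = n * (m * c) := by rw [h3, ← hcW]; ring
    exact mul_left_cancel₀ hXc.ne' this
  have hSb' : Sb = n * c := by
    have : m * Sb = m * (n * c) := by rw [h4, ← hcW]; ring
    exact mul_left_cancel₀ hYc.ne' this
  have key : ∑ x ∈ X, ∑ y ∈ Y, (u x y - α y) * (u x y - η x) =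
      ∑ x ∈ X, ∑ y ∈ Y, (u x y - α y - η x + c) ^ 2 := by
    rw [hB, hS, hSa', hSb', ← hW, ← hcW]
    ring
  rw [key]
  exact hnn

/-- The L-shape inequality, with abstract block means satisfying the normal equations. -/
theorem lshape (X0 X1 : Finset A) (Y0 Y1 : Finset B) (t u v : A → B → ℝ) (α β : B → ℝ) (γ η : A → ℝ)
    (hα : ∀ y ∈ Y0, (2 * (X0.card : ℝ) + (X1.card : ℝ)) * α y =
      2 * ∑ x ∈ X0, t x y + ∑ x ∈ X1, u x y)
    (hβ : ∀ y ∈ Y1, (X0.card : ℝ) * β y = ∑ x ∈ X0, v x y)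
    (hγ : ∀ x ∈ X0, (2 * (Y0.card : ℝ) + (Y1.card : ℝ)) * γ x =
      2 * ∑ y ∈ Y0, t x y + ∑ y ∈ Y1, v x y)
    (hη : ∀ x ∈ X1, (Y0.card : ℝ) * η x = ∑ y ∈ Y0, u x y) :
    (2 * ∑ x ∈ X0, ∑ y ∈ Y0, (t x y - α y)) * (2 * ∑ x ∈ X0, ∑ y ∈ Y0, (t x y - γ x)) /
        (2 * ((X0.card : ℝ) * (Y0.card : ℝ))) ≤
      2 * ∑ x ∈ X0, ∑ y ∈ Y0, (t x y - α y) * (t x y - γ x)
        + ∑ x ∈ X1, ∑ y ∈ Y0, (u x y - α y) * (u x y - η x)
        + ∑ x ∈ X0, ∑ y ∈ Y1, (v x y - β y) * (v x y - γ x) := by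
  rcases X0.eq_empty_or_nonempty with rfl | hX
  · simp only [Finset.card_empty, Nat.cast_zero, Finset.sum_empty, mul_zero, zero_mul, zero_add,
      zero_div, add_zero] at hα ⊢
    refine prod_nonneg X1 Y0 u α η (fun y hy => ?_) hη
    rw [hα y hy]
  rcases Y0.eq_empty_or_nonempty with rfl | hY
  · simp only [Finset.card_empty, Nat.cast_zero, Finset.sum_empty, mul_zero, zero_mul, zero_add,
      zero_div, add_zero, Finset.sum_const_zero] at hγ ⊢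
    exact prod_nonneg X0 Y1 v β γ hβ (fun x hx => by rw [hγ x hx])
  have hn0 : (0 : ℝ) < X0.card := by exact_mod_cast hX.card_pos
  have hm0 : (0 : ℝ) < Y0.card := by exact_mod_cast hY.card_pos
  have b0 := rect_bilin X0 Y0 t α γ
  have b1 := rect_bilin X1 Y0 u α η
  have b2 := rect_bilin X0 Y1 v β γ
  have s0 := fun c => rect_sq X0 Y0 t α γ c
  have s1 := fun c => rect_sq X1 Y0 u α η c
  have s2 := fun c => rect_sq X0 Y1 v β γ c
  set n0 : ℝ := (X0.card : ℝ) with hn0def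
  set n1 : ℝ := (X1.card : ℝ) with hn1def
  set m0 : ℝ := (Y0.card : ℝ) with hm0def
  set m1 : ℝ := (Y1.card : ℝ) with hm1def
  -- aggregated quantities
  set TT := ∑ x ∈ X0, ∑ y ∈ Y0, t x y with hTT
  set UU := ∑ x ∈ X1, ∑ y ∈ Y0, u x y with hUU
  set VV := ∑ x ∈ X0, ∑ y ∈ Y1, v x y with hVV
  set A1 := ∑ y ∈ Y0, α y with hA1
  set A2 := ∑ y ∈ Y0, α y ^ 2 with hA2
  set B1 := ∑ y ∈ Y1, β y with hB1
  set B2 := ∑ y ∈ Y1, β y ^ 2 with hB2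
  set G1 := ∑ x ∈ X0, γ x with hG1
  set G2 := ∑ x ∈ X0, γ x ^ 2 with hG2
  set H1 := ∑ x ∈ X1, η x with hH1
  set H2 := ∑ x ∈ X1, η x ^ 2 with hH2
  -- first order aggregated normal equations
  have r1 : (2 * n0 + n1) * A1 = 2 * TT + UU := by
    rw [hA1, hTT, hUU, Finset.mul_sum, Finset.sum_comm (s := X0), Finset.sum_comm (s := X1),
      Finset.mul_sum, ← Finset.sum_add_distrib]
    exact Finset.sum_congr rfl fun y hy => hα y hy
  have r2 : n0 * B1 = VV := by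
    rw [hB1, hVV, Finset.mul_sum, Finset.sum_comm]
    exact Finset.sum_congr rfl fun y hy => hβ y hy
  have r3 : (2 * m0 + m1) * G1 = 2 * TT + VV := by
    rw [hG1, hTT, hVV, Finset.mul_sum, Finset.mul_sum, ← Finset.sum_add_distrib]
    exact Finset.sum_congr rfl fun x hx => hγ x hx
  have r4 : m0 * H1 = UU := by
    rw [hH1, hUU, Finset.mul_sum]
    exact Finset.sum_congr rfl fun x hx => hη x hx
  -- second order aggregated normal equations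
  have e1 : 2 * ∑ y ∈ Y0, α y * ∑ x ∈ X0, t x y + ∑ y ∈ Y0, α y * ∑ x ∈ X1, u x y
      = (2 * n0 + n1) * A2 := by
    rw [hA2, Finset.mul_sum (a := (2 * n0 + n1)), Finset.mul_sum (a := (2 : ℝ)), ← Finset.sum_add_distrib]
    refine Finset.sum_congr rfl fun y hy => ?_
    have := hα y hy
    calc 2 * (α y * ∑ x ∈ X0, t x y) + α y * ∑ x ∈ X1, u x y
        = α y * (2 * ∑ x ∈ X0, t x y + ∑ x ∈ X1, u x y) := by ring
      _ = α y * ((2 * n0 + n1) * α y) := by rw [this]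
      _ = (2 * n0 + n1) * α y ^ 2 := by ring
  have e2 : ∑ y ∈ Y1, β y * ∑ x ∈ X0, v x y = n0 * B2 := by
    rw [hB2, Finset.mul_sum]
    refine Finset.sum_congr rfl fun y hy => ?_
    rw [← hβ y hy]; ring
  have e3 : 2 * ∑ x ∈ X0, γ x * ∑ y ∈ Y0, t x y + ∑ x ∈ X0, γ x * ∑ y ∈ Y1, v x y
      = (2 * m0 + m1) * G2 := by
    rw [hG2, Finset.mul_sum (a := (2 * m0 + m1)), Finset.mul_sum (a := (2 : ℝ)), ← Finset.sum_add_distrib]
    refine Finset.sum_congr rfl fun x hx => ?_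
    have := hγ x hx
    calc 2 * (γ x * ∑ y ∈ Y0, t x y) + γ x * ∑ y ∈ Y1, v x y
        = γ x * (2 * ∑ y ∈ Y0, t x y + ∑ y ∈ Y1, v x y) := by ring
      _ = γ x * ((2 * m0 + m1) * γ x) := by rw [this]
      _ = (2 * m0 + m1) * γ x ^ 2 := by ring
  have e4 : ∑ x ∈ X1, η x * ∑ y ∈ Y0, u x y = m0 * H2 := by
    rw [hH2, Finset.mul_sum]
    refine Finset.sum_congr rfl fun x hx => ?_
    rw [← hη x hx]; ring
  -- the means
  set τ : ℝ := TT / (n0 * m0) with hτ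
  set ab : ℝ := A1 / m0 with hab
  set cb : ℝ := G1 / n0 with hcb
  have hTTτ : TT = n0 * m0 * τ := by rw [hτ]; field_simp
  have hA1ab : A1 = m0 * ab := by rw [hab]; field_simp
  have hG1cb : G1 = n0 * cb := by rw [hcb]; field_simp
  have R1 : (2 * n0 + n1) * ab = 2 * n0 * τ + H1 := by
    have : m0 * ((2 * n0 + n1) * ab) = m0 * (2 * n0 * τ + H1) := by
      have h := r1
      rw [hA1ab, hTTτ, ← r4] at h
      linear_combination h
    exact mul_left_cancel₀ hm0.ne' this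
  have R2 : (2 * m0 + m1) * cb = 2 * m0 * τ + B1 := by
    have : n0 * ((2 * m0 + m1) * cb) = n0 * (2 * m0 * τ + B1) := by
      have h := r3
      rw [hG1cb, hTTτ, ← r2] at h
      linear_combination h
    exact mul_left_cancel₀ hn0.ne' this
  have hq0 : 0 ≤ ∑ x ∈ X0, ∑ y ∈ Y0, (t x y - α y - γ x + (ab + cb - τ)) ^ 2 :=
    Finset.sum_nonneg fun x _ => Finset.sum_nonneg fun y _ => sq_nonneg _
  have hq1 : 0 ≤ ∑ x ∈ X1, ∑ y ∈ Y0, (u x y - α y - η x + ab) ^ 2 :=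
    Finset.sum_nonneg fun x _ => Finset.sum_nonneg fun y _ => sq_nonneg _
  have hq2 : 0 ≤ ∑ x ∈ X0, ∑ y ∈ Y1, (v x y - β y - γ x + cb) ^ 2 :=
    Finset.sum_nonneg fun x _ => Finset.sum_nonneg fun y _ => sq_nonneg _
  -- left-hand side
  have l1 : ∑ x ∈ X0, ∑ y ∈ Y0, (t x y - α y) = n0 * m0 * (τ - ab) := by
    have : ∑ x ∈ X0, ∑ y ∈ Y0, (t x y - α y) = TT - n0 * A1 := by
      simp only [Finset.sum_sub_distrib, Finset.sum_const, nsmul_eq_mul]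
      rfl
    rw [this, hTTτ, hA1ab]; ring
  have l2 : ∑ x ∈ X0, ∑ y ∈ Y0, (t x y - γ x) = n0 * m0 * (τ - cb) := by
    have : ∑ x ∈ X0, ∑ y ∈ Y0, (t x y - γ x) = TT - m0 * G1 := by
      rw [hG1, Finset.mul_sum]
      simp only [Finset.sum_sub_distrib, Finset.sum_const, nsmul_eq_mul]
      rfl
    rw [this, hTTτ, hG1cb]; ring
  have hL : (2 * ∑ x ∈ X0, ∑ y ∈ Y0, (t x y - α y)) * (2 * ∑ x ∈ X0, ∑ y ∈ Y0, (t x y - γ x)) /
        (2 * (n0 * m0)) = 2 * (n0 * m0) * (τ - ab) * (τ - cb) := by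
    rw [l1, l2]; field_simp
  rw [hL]
  have key : 2 * ∑ x ∈ X0, ∑ y ∈ Y0, (t x y - α y) * (t x y - γ x)
        + ∑ x ∈ X1, ∑ y ∈ Y0, (u x y - α y) * (u x y - η x)
        + ∑ x ∈ X0, ∑ y ∈ Y1, (v x y - β y) * (v x y - γ x) =
      2 * ∑ x ∈ X0, ∑ y ∈ Y0, (t x y - α y - γ x + (ab + cb - τ)) ^ 2
        + ∑ x ∈ X1, ∑ y ∈ Y0, (u x y - α y - η x + ab) ^ 2
        + ∑ x ∈ X0, ∑ y ∈ Y1, (v x y - β y - γ x + cb) ^ 2
        + 2 * (n0 * m0) * (τ - ab) * (τ - cb) := by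
    rw [b0, b1, b2, s0, s1, s2, hTTτ, hA1ab, hG1cb, ← r4, ← r2]
    linear_combination e1 + e2 + e3 + e4 + (m0 * ab) * R1 + (n0 * cb) * R2
  rw [key]
  nlinarith

end Crest.Agent.Lib.Switch
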