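/-
S0453, task T8 (helper27): the disjoint pair bound `pq_bound`.

Fix disjoint vertex pairs `p = {x,y}`, `q = {u,v}`.  A realization `G` is glued from
`X = keyOf q G`, `Y = keyOf p G` and the `2 × 2` cross matrix `m = toM G`.  The classes of `clKey`
are closed under both block relations, and each class is (through `glue`) a `stateSet`, so
`pq_abstract` applies on it.
-/
import Crest.Agent.Lib.Switch.Basic
import Crest.Agent.Lib.Switch.Avg
import Crest.Agent.Lib.Switch.PQAbstract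

set_option autoImplicit false
set_option linter.unusedSimpArgs false
set_option linter.unusedSectionVars false
set_option linter.unusedVariables false

namespace Crest.Agent.Lib.Switch

open Finset Crest.SwitchChain Crest.Agent.SwitchConn

variable {n : ℕ}

/-! ### degree splittings -/

theorem adj_filter_keyOf {q : Finset (Fin n)} (G : Finset (Edge n)) {a : Fin n} (ha : a ∉ q) :
    (univ.filter (fun w => adj (keyOf q G) a w)) = qᶜ.filter (fun w => adj G a w) := by
  ext w
  simp only [mem_filter, mem_univ, true_and, mem_compl, adj_keyOf]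
  tauto

theorem deg_eq_keyOf_add {q : Finset (Fin n)} (G : Finset (Edge n)) {a : Fin n} (ha : a ∉ q) :
    deg G a = deg (keyOf q G) a + (q.filter (fun w => adj G a w)).card := by
  rw [deg_split G a q, deg_eq_card (keyOf q G) a, adj_filter_keyOf G ha, add_comm]

theorem keyOf_union (p q : Finset (Fin n)) (G : Finset (Edge n)) :
    keyOf (p ∪ q) G = keyOf p (keyOf q G) := by
  apply graph_ext
  intro a b
  simp only [adj_keyOf, mem_union, not_or]
  tauto

/-- The neighbours of a vertex off `p ∪ q` : each edge misses `p` or misses `q`. -/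
theorem deg_union_split {p q : Finset (Fin n)} (hpq : Disjoint p q) (G : Finset (Edge n))
    {w : Fin n} (hwp : w ∉ p) (hwq : w ∉ q) :
    deg G w + deg (keyOf (p ∪ q) G) w = deg (keyOf q G) w + deg (keyOf p G) w := by
  classical
  simp only [deg_eq_card]
  rw [← Finset.card_union_add_card_inter (univ.filter fun b => adj (keyOf q G) w b)
    (univ.filter fun b => adj (keyOf p G) w b)]
  congr 2
  · ext b
    simp only [mem_union, mem_filter, mem_univ, true_and, adj_keyOf]
    constructor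
    · intro h
      by_cases hb : b ∈ q
      · right
        exact ⟨h, hwp, fun hb' => (Finset.disjoint_left.mp hpq hb' hb)⟩
      · left
        exact ⟨h, hwq, hb⟩
    · rintro (h | h) <;> exact h.1
  · ext b
    simp only [mem_inter, mem_filter, mem_univ, true_and, adj_keyOf, mem_union, not_or]
    tauto

/-! ### The cross matrix -/

section Cell

variable (x y u v : Fin n)

/-- The cross matrix of `G`. -/
def toM (G : Finset (Edge n)) : Mat :=
  (decide (adj G x u), decide (adj G x v), decide (adj G y u), decide (adj G y v))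

/-- The number of ones of a matrix. -/
def totalM (m : Mat) : ℕ := m.1.toNat + m.2.1.toNat + m.2.2.1.toNat + m.2.2.2.toNat

theorem rowM_total (m : Mat) : (rowM m).1 + (rowM m).2 = totalM m := by
  simp [rowM, totalM]; ring

theorem colM_total (m : Mat) : (colM m).1 + (colM m).2 = totalM m := by
  simp [colM, totalM]; ring

/-- The one-sided relation of a matrix. -/
def mBit (m : Mat) (a b : Fin n) : Prop :=
  (a = x ∧ b = u ∧ m.1 = true) ∨ (a = x ∧ b = v ∧ m.2.1 = true) ∨
    (a = y ∧ b = u ∧ m.2.2.1 = true) ∨ (a = y ∧ b = v ∧ m.2.2.2 = true)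

/-- The symmetric relation of a matrix. -/
def mRel (m : Mat) (a b : Fin n) : Prop := mBit x y u v m a b ∨ mBit x y u v m b a

theorem mRel_symm (m : Mat) (a b : Fin n) : mRel x y u v m a b → mRel x y u v m b a := by
  unfold mRel; tauto

/-- Gluing `X`, `Y` and a matrix. -/
noncomputable def glue (τ : Finset (Edge n) × Finset (Edge n) × Mat) : Finset (Edge n) :=
  ofRel (fun a b => adj τ.1 a b ∨ adj τ.2.1 a b ∨ mRel x y u v τ.2.2 a b)

theorem adj_glue (τ : Finset (Edge n) × Finset (Edge n) × Mat) {a b : Fin n} :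
    adj (glue x y u v τ) a b ↔
      a ≠ b ∧ (adj τ.1 a b ∨ adj τ.2.1 a b ∨ mRel x y u v τ.2.2 a b) := by
  unfold glue
  rw [adj_ofRel]
  intro a b h
  rcases h with h | h | h
  · exact Or.inl (adj_comm.mp h)
  · exact Or.inr (Or.inl (adj_comm.mp h))
  · exact Or.inr (Or.inr (mRel_symm x y u v _ _ _ h))

end Cell

section Pairs

variable {x y u v : Fin n}

theorem card_filter_pair (G : Finset (Edge n)) (a : Fin n) {u v : Fin n} (huv : u ≠ v) :
    (({u, v} : Finset (Fin n)).filter (fun w => adj G a w)).card =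
      (decide (adj G a u)).toNat + (decide (adj G a v)).toNat := by
  rw [Finset.filter_insert, Finset.filter_singleton]
  by_cases h1 : adj G a u <;> by_cases h2 : adj G a v <;> simp [h1, h2, huv]

theorem disj_pairs (hxu : x ≠ u) (hxv : x ≠ v) (hyu : y ≠ u) (hyv : y ≠ v) :
    Disjoint ({x, y} : Finset (Fin n)) {u, v} := by
  simp [Finset.disjoint_left]
  exact ⟨⟨hxu, hxv⟩, ⟨hyu, hyv⟩⟩

theorem rowM_toM {d : Fin n → ℕ} {G : Finset (Edge n)} (hG : G ∈ realizations d)
    (huv : u ≠ v) (hxu : x ≠ u) (hxv : x ≠ v) (hyu : y ≠ u) (hyv : y ≠ v) :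
    rowM (toM x y u v G) = (d x - deg (keyOf {u, v} G) x, d y - deg (keyOf {u, v} G) y) := by
  rw [mem_realizations_iff] at hG
  have h1 := deg_eq_keyOf_add (q := {u, v}) G (a := x) (by simp [hxu, hxv])
  have h2 := deg_eq_keyOf_add (q := {u, v}) G (a := y) (by simp [hyu, hyv])
  rw [card_filter_pair G _ huv, hG] at h1 h2
  simp only [rowM, toM]
  ext <;> simp only <;> omega

theorem colM_toM {d : Fin n → ℕ} {G : Finset (Edge n)} (hG : G ∈ realizations d)
    (hxy : x ≠ y) (hxu : x ≠ u) (hxv : x ≠ v) (hyu : y ≠ u) (hyv : y ≠ v) :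
    colM (toM x y u v G) = (d u - deg (keyOf {x, y} G) u, d v - deg (keyOf {x, y} G) v) := by
  rw [mem_realizations_iff] at hG
  have h1 := deg_eq_keyOf_add (q := {x, y}) G (a := u) (by simp [hxu.symm, hyu.symm])
  have h2 := deg_eq_keyOf_add (q := {x, y}) G (a := v) (by simp [hxv.symm, hyv.symm])
  rw [card_filter_pair G _ hxy, hG] at h1 h2
  have e1 : adj G u x ↔ adj G x u := adj_comm
  have e2 : adj G u y ↔ adj G y u := adj_comm
  have e3 : adj G v x ↔ adj G x v := adj_comm
  have e4 : adj G v y ↔ adj G y v := adj_comm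
  simp only [e1, e2, e3, e4] at h1 h2
  simp only [colM, toM]
  ext <;> simp only <;> omega

variable (x y u v) in
/-- The class of a realization. -/
noncomputable def clKey (G : Finset (Edge n)) : Finset (Edge n) × (Fin n → ℕ) × ℕ :=
  (keyOf ({x, y} ∪ {u, v}) G,
    fun w => if w ∈ ({x, y} : Finset (Fin n)) ∪ {u, v} then 0 else deg (keyOf {u, v} G) w,
    totalM (toM x y u v G))

theorem clKey_of_keyOf_q {d : Fin n → ℕ} {G G' : Finset (Edge n)} (hG : G ∈ realizations d)
    (hG' : G' ∈ realizations d) (huv : u ≠ v) (hxu : x ≠ u) (hxv : x ≠ v) (hyu : y ≠ u)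
    (hyv : y ≠ v) (h : keyOf {u, v} G = keyOf {u, v} G') :
    clKey x y u v G = clKey x y u v G' := by
  have h1 : totalM (toM x y u v G) = totalM (toM x y u v G') := by
    rw [← rowM_total, ← rowM_total, rowM_toM hG huv hxu hxv hyu hyv,
      rowM_toM hG' huv hxu hxv hyu hyv, h]
  unfold clKey
  rw [keyOf_union, keyOf_union, h, h1]

theorem clKey_of_keyOf_p {d : Fin n → ℕ} {G G' : Finset (Edge n)} (hG : G ∈ realizations d)
    (hG' : G' ∈ realizations d) (hxy : x ≠ y) (hxu : x ≠ u) (hxv : x ≠ v) (hyu : y ≠ u)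
    (hyv : y ≠ v) (h : keyOf {x, y} G = keyOf {x, y} G') :
    clKey x y u v G = clKey x y u v G' := by
  have h1 : totalM (toM x y u v G) = totalM (toM x y u v G') := by
    rw [← colM_total, ← colM_total, colM_toM hG hxy hxu hxv hyu hyv,
      colM_toM hG' hxy hxu hxv hyu hyv, h]
  have hpq := disj_pairs hxu hxv hyu hyv
  have h2 : keyOf ({x, y} ∪ {u, v}) G = keyOf ({x, y} ∪ {u, v}) G' := by
    rw [Finset.union_comm, keyOf_union, keyOf_union, h]
  have h3 : ∀ w, w ∉ ({x, y} : Finset (Fin n)) ∪ {u, v} →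
      deg (keyOf {u, v} G) w = deg (keyOf {u, v} G') w := by
    intro w hw
    rw [Finset.mem_union, not_or] at hw
    have e1 := deg_union_split hpq G hw.1 hw.2
    have e2 := deg_union_split hpq G' hw.1 hw.2
    rw [h2, h] at e1
    rw [mem_realizations_iff] at hG hG'
    rw [hG] at e1
    rw [hG'] at e2
    omega
  unfold clKey
  rw [h2, h1]
  congr 2
  funext w
  by_cases hw : w ∈ ({x, y} : Finset (Fin n)) ∪ {u, v}
  · rw [if_pos hw, if_pos hw]
  · rw [if_neg hw, if_neg hw]; exact h3 w hw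

theorem mRel_cross (m : Mat) {a b : Fin n} (h : mRel x y u v m a b) :
    crossRel {x, y} {u, v} a b := by
  unfold mRel mBit at h
  unfold crossRel
  simp only [mem_insert, mem_singleton]
  rcases h with (⟨rfl, rfl, _⟩ | ⟨rfl, rfl, _⟩ | ⟨rfl, rfl, _⟩ | ⟨rfl, rfl, _⟩) |
    (⟨rfl, rfl, _⟩ | ⟨rfl, rfl, _⟩ | ⟨rfl, rfl, _⟩ | ⟨rfl, rfl, _⟩) <;> simp

theorem not_cross_of_adj_keyOf_q {G : Finset (Edge n)} {p q : Finset (Fin n)} {a b : Fin n}
    (h : adj (keyOf q G) a b) : ¬ crossRel p q a b := by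
  rw [adj_keyOf] at h
  unfold crossRel
  tauto

theorem not_cross_of_adj_keyOf_p {G : Finset (Edge n)} {p q : Finset (Fin n)} {a b : Fin n}
    (h : adj (keyOf p G) a b) : ¬ crossRel p q a b := by
  rw [adj_keyOf] at h
  unfold crossRel
  tauto

section Cells
variable (hxy : x ≠ y) (huv : u ≠ v) (hxu : x ≠ u) (hxv : x ≠ v) (hyu : y ≠ u) (hyv : y ≠ v)
include hxy huv hxu hxv hyu hyv

theorem mRel_xu (m : Mat) : mRel x y u v m x u ↔ m.1 = true := by
  simp [mRel, mBit, hxy, huv, hxu, hxv, hyu, hyv, hxy.symm, huv.symm, hxu.symm, hxv.symm,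
    hyu.symm, hyv.symm]

theorem mRel_xv (m : Mat) : mRel x y u v m x v ↔ m.2.1 = true := by
  simp [mRel, mBit, hxy, huv, hxu, hxv, hyu, hyv, hxy.symm, huv.symm, hxu.symm, hxv.symm,
    hyu.symm, hyv.symm]

theorem mRel_yu (m : Mat) : mRel x y u v m y u ↔ m.2.2.1 = true := by
  simp [mRel, mBit, hxy, huv, hxu, hxv, hyu, hyv, hxy.symm, huv.symm, hxu.symm, hxv.symm,
    hyu.symm, hyv.symm]

theorem mRel_yv (m : Mat) : mRel x y u v m y v ↔ m.2.2.2 = true := by
  simp [mRel, mBit, hxy, huv, hxu, hxv, hyu, hyv, hxy.symm, huv.symm, hxu.symm, hxv.symm,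
    hyu.symm, hyv.symm]

/-- The adjacency of the glued graph at a cross cell is the matrix bit. -/
theorem adj_glue_cell (τ : Finset (Edge n) × Finset (Edge n) × Mat)
    (hX : ∀ a b, adj τ.1 a b → ¬ crossRel {x, y} {u, v} a b)
    (hY : ∀ a b, adj τ.2.1 a b → ¬ crossRel {x, y} {u, v} a b) {a b : Fin n}
    (hab : crossRel {x, y} {u, v} a b) :
    adj (glue x y u v τ) a b ↔ mRel x y u v τ.2.2 a b := by
  rw [adj_glue]
  constructor
  · rintro ⟨_, h | h | h⟩
    · exact absurd hab (hX _ _ h)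
    · exact absurd hab (hY _ _ h)
    · exact h
  · intro h
    refine ⟨?_, Or.inr (Or.inr h)⟩
    rintro rfl
    unfold crossRel at hab
    have hd := disj_pairs hxu hxv hyu hyv
    rcases hab with ⟨h1, h2⟩ | ⟨h1, h2⟩
    · exact Finset.disjoint_left.mp hd h1 h2
    · exact Finset.disjoint_left.mp hd h2 h1

theorem toM_glue (τ : Finset (Edge n) × Finset (Edge n) × Mat)
    (hX : ∀ a b, adj τ.1 a b → ¬ crossRel {x, y} {u, v} a b)
    (hY : ∀ a b, adj τ.2.1 a b → ¬ crossRel {x, y} {u, v} a b) :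
    toM x y u v (glue x y u v τ) = τ.2.2 := by
  have c1 : crossRel {x, y} {u, v} x u := Or.inl (by simp)
  have c2 : crossRel {x, y} {u, v} x v := Or.inl (by simp)
  have c3 : crossRel {x, y} {u, v} y u := Or.inl (by simp)
  have c4 : crossRel {x, y} {u, v} y v := Or.inl (by simp)
  have a := hxy; have b := huv
  unfold toM
  obtain ⟨X, Y, m1, m2, m3, m4⟩ := τ
  simp only [adj_glue_cell hxy huv hxu hxv hyu hyv _ hX hY c1,
    adj_glue_cell hxy huv hxu hxv hyu hyv _ hX hY c2,
    adj_glue_cell hxy huv hxu hxv hyu hyv _ hX hY c3,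
    adj_glue_cell hxy huv hxu hxv hyu hyv _ hX hY c4,
    mRel_xu hxy huv hxu hxv hyu hyv, mRel_xv hxy huv hxu hxv hyu hyv,
    mRel_yu hxy huv hxu hxv hyu hyv, mRel_yv hxy huv hxu hxv hyu hyv]
  simp

/-- `G` is glued from its parts. -/
theorem glue_parts (G : Finset (Edge n)) :
    glue x y u v (keyOf {u, v} G, keyOf {x, y} G, toM x y u v G) = G := by
  apply graph_ext
  intro a b
  rw [adj_glue]
  simp only [adj_keyOf]
  have hd := disj_pairs hxu hxv hyu hyv
  constructor
  · rintro ⟨_, h | h | h⟩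
    · exact h.1
    · exact h.1
    · unfold mRel mBit toM at h
      simp only [decide_eq_true_eq] at h
      rcases h with (⟨rfl, rfl, h⟩ | ⟨rfl, rfl, h⟩ | ⟨rfl, rfl, h⟩ | ⟨rfl, rfl, h⟩) |
        (⟨rfl, rfl, h⟩ | ⟨rfl, rfl, h⟩ | ⟨rfl, rfl, h⟩ | ⟨rfl, rfl, h⟩)
      iterate 4 exact h
      iterate 4 exact adj_comm.mp h
  · intro h
    refine ⟨adj_ne h, ?_⟩
    by_cases ha : a ∈ ({u, v} : Finset (Fin n))
    · have ha' : a ∉ ({x, y} : Finset (Fin n)) := fun h' => Finset.disjoint_left.mp hd h' ha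
      by_cases hb : b ∈ ({x, y} : Finset (Fin n))
      · right; right
        unfold mRel mBit toM
        simp only [decide_eq_true_eq]
        right
        simp only [mem_insert, mem_singleton] at ha hb
        have h' := adj_comm.mp h
        rcases ha with rfl | rfl <;> rcases hb with rfl | rfl <;> simp [h']
      · right; left; exact ⟨h, ha', hb⟩
    · by_cases hb : b ∈ ({u, v} : Finset (Fin n))
      · by_cases ha2 : a ∈ ({x, y} : Finset (Fin n))
        · right; right
          unfold mRel mBit toM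
          simp only [decide_eq_true_eq]
          left
          simp only [mem_insert, mem_singleton] at ha2 hb
          rcases ha2 with rfl | rfl <;> rcases hb with rfl | rfl <;> simp [h]
        · right; left
          exact ⟨h, ha2, fun hb' => Finset.disjoint_left.mp hd hb' hb⟩
      · left; exact ⟨h, ha, hb⟩

theorem deg_cell_x (H : Finset (Edge n)) :
    deg H x = deg (keyOf {u, v} H) x + (rowM (toM x y u v H)).1 := by
  rw [deg_eq_keyOf_add (q := {u, v}) H (a := x) (by simp [hxu, hxv]), card_filter_pair H _ huv]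
  rfl

theorem deg_cell_y (H : Finset (Edge n)) :
    deg H y = deg (keyOf {u, v} H) y + (rowM (toM x y u v H)).2 := by
  rw [deg_eq_keyOf_add (q := {u, v}) H (a := y) (by simp [hyu, hyv]), card_filter_pair H _ huv]
  rfl

theorem deg_cell_u (H : Finset (Edge n)) :
    deg H u = deg (keyOf {x, y} H) u + (colM (toM x y u v H)).1 := by
  rw [deg_eq_keyOf_add (q := {x, y}) H (a := u) (by simp [hxu.symm, hyu.symm]),
    card_filter_pair H _ hxy]
  have e1 : adj H u x ↔ adj H x u := adj_comm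
  have e2 : adj H u y ↔ adj H y u := adj_comm
  simp only [e1, e2]
  rfl

theorem deg_cell_v (H : Finset (Edge n)) :
    deg H v = deg (keyOf {x, y} H) v + (colM (toM x y u v H)).2 := by
  rw [deg_eq_keyOf_add (q := {x, y}) H (a := v) (by simp [hxv.symm, hyv.symm]),
    card_filter_pair H _ hxy]
  have e1 : adj H v x ↔ adj H x v := adj_comm
  have e2 : adj H v y ↔ adj H y v := adj_comm
  simp only [e1, e2]
  rfl

theorem keyOf_glue_q {G₁ G₂ : Finset (Edge n)}
    (hk : keyOf ({x, y} ∪ {u, v}) G₁ = keyOf ({x, y} ∪ {u, v}) G₂) (m : Mat) :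
    keyOf {u, v} (glue x y u v (keyOf {u, v} G₁, keyOf {x, y} G₂, m)) = keyOf {u, v} G₁ := by
  apply graph_ext
  intro a b
  rw [adj_keyOf (p := {u, v}) (G := glue x y u v _), adj_glue]
  constructor
  · rintro ⟨⟨_, h | h | h⟩, ha, hb⟩
    · exact h
    · have h2 : adj (keyOf ({x, y} ∪ {u, v}) G₂) a b := by
        rw [adj_keyOf] at h ⊢
        simp only [mem_union, not_or]
        exact ⟨h.1, ⟨h.2.1, ha⟩, ⟨h.2.2, hb⟩⟩
      rw [← hk, adj_keyOf] at h2
      rw [adj_keyOf]
      simp only [mem_union, not_or] at h2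
      exact ⟨h2.1, ha, hb⟩
    · have := mRel_cross _ h
      unfold crossRel at this
      exfalso
      tauto
  · intro h
    have h' := h
    rw [adj_keyOf] at h'
    exact ⟨⟨adj_ne h, Or.inl h⟩, h'.2.1, h'.2.2⟩

theorem keyOf_glue_p {G₁ G₂ : Finset (Edge n)}
    (hk : keyOf ({x, y} ∪ {u, v}) G₁ = keyOf ({x, y} ∪ {u, v}) G₂) (m : Mat) :
    keyOf {x, y} (glue x y u v (keyOf {u, v} G₁, keyOf {x, y} G₂, m)) = keyOf {x, y} G₂ := by
  apply graph_ext
  intro a b
  rw [adj_keyOf (p := {x, y}) (G := glue x y u v _), adj_glue]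
  constructor
  · rintro ⟨⟨_, h | h | h⟩, ha, hb⟩
    · have h2 : adj (keyOf ({x, y} ∪ {u, v}) G₁) a b := by
        rw [adj_keyOf] at h ⊢
        simp only [mem_union, not_or]
        exact ⟨h.1, ⟨ha, h.2.1⟩, ⟨hb, h.2.2⟩⟩
      rw [hk, adj_keyOf] at h2
      rw [adj_keyOf]
      simp only [mem_union, not_or] at h2
      exact ⟨h2.1, ha, hb⟩
    · exact h
    · have := mRel_cross _ h
      unfold crossRel at this
      exfalso
      tauto
  · intro h
    have h' := h
    rw [adj_keyOf] at h'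
    exact ⟨⟨adj_ne h, Or.inr (Or.inl h)⟩, h'.2.1, h'.2.2⟩

theorem toM_glue_parts {G₁ G₂ : Finset (Edge n)} (m : Mat) :
    toM x y u v (glue x y u v (keyOf {u, v} G₁, keyOf {x, y} G₂, m)) = m :=
  toM_glue hxy huv hxu hxv hyu hyv _ (fun _ _ h => not_cross_of_adj_keyOf_q h)
    (fun _ _ h => not_cross_of_adj_keyOf_p h)

/-- Mixing: parts of two realizations in one class, with the right margins, glue to a realization
in the same class. -/
theorem glue_mem {d : Fin n → ℕ} {G₁ G₂ : Finset (Edge n)} (h₁ : G₁ ∈ realizations d)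
    (h₂ : G₂ ∈ realizations d) (hc : clKey x y u v G₁ = clKey x y u v G₂) {m : Mat}
    (hr : rowM m = (d x - deg (keyOf {u, v} G₁) x, d y - deg (keyOf {u, v} G₁) y))
    (hb : colM m = (d u - deg (keyOf {x, y} G₂) u, d v - deg (keyOf {x, y} G₂) v)) :
    glue x y u v (keyOf {u, v} G₁, keyOf {x, y} G₂, m) ∈ realizations d ∧
      clKey x y u v (glue x y u v (keyOf {u, v} G₁, keyOf {x, y} G₂, m)) = clKey x y u v G₁ := by
  have hk : keyOf ({x, y} ∪ {u, v}) G₁ = keyOf ({x, y} ∪ {u, v}) G₂ := congrArg Prod.fst hc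
  have hz : ∀ w, w ∉ ({x, y} : Finset (Fin n)) ∪ {u, v} →
      deg (keyOf {u, v} G₁) w = deg (keyOf {u, v} G₂) w := by
    intro w hw
    have := congrFun (congrArg (fun c => c.2.1) hc) w
    simp only [clKey, if_neg hw] at this
    exact this
  set H := glue x y u v (keyOf {u, v} G₁, keyOf {x, y} G₂, m) with hH
  have hq : keyOf {u, v} H = keyOf {u, v} G₁ := keyOf_glue_q hxy huv hxu hxv hyu hyv hk m
  have hp : keyOf {x, y} H = keyOf {x, y} G₂ := keyOf_glue_p hxy huv hxu hxv hyu hyv hk m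
  have hm : toM x y u v H = m := toM_glue_parts hxy huv hxu hxv hyu hyv m
  have hd1 := mem_realizations_iff.mp h₁
  have hd2 := mem_realizations_iff.mp h₂
  have hpq := disj_pairs hxu hxv hyu hyv
  constructor
  · rw [mem_realizations_iff]
    intro w
    by_cases hw : w ∈ ({x, y} : Finset (Fin n)) ∪ {u, v}
    · simp only [mem_union, mem_insert, mem_singleton] at hw
      rcases hw with (rfl | rfl) | (rfl | rfl)
      · have e1 := deg_cell_x hxy huv hxu hxv hyu hyv H
        have e2 := deg_cell_x hxy huv hxu hxv hyu hyv G₁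
        rw [hq, hm, hr] at e1
        rw [hd1] at e2
        simp only at e1
        omega
      · have e1 := deg_cell_y hxy huv hxu hxv hyu hyv H
        have e2 := deg_cell_y hxy huv hxu hxv hyu hyv G₁
        rw [hq, hm, hr] at e1
        rw [hd1] at e2
        simp only at e1
        omega
      · have e1 := deg_cell_u hxy huv hxu hxv hyu hyv H
        have e2 := deg_cell_u hxy huv hxu hxv hyu hyv G₂
        rw [hp, hm, hb] at e1
        rw [hd2] at e2
        simp only at e1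
        omega
      · have e1 := deg_cell_v hxy huv hxu hxv hyu hyv H
        have e2 := deg_cell_v hxy huv hxu hxv hyu hyv G₂
        rw [hp, hm, hb] at e1
        rw [hd2] at e2
        simp only at e1
        omega
    · have hw2 := hw
      rw [Finset.mem_union, not_or] at hw2
      have e1 := deg_union_split hpq H hw2.1 hw2.2
      have e2 := deg_union_split hpq G₂ hw2.1 hw2.2
      have e3 : keyOf ({x, y} ∪ {u, v}) H = keyOf ({x, y} ∪ {u, v}) G₂ := by
        rw [keyOf_union, hq, ← keyOf_union, hk]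
      rw [e3, hq, hp, hz w hw] at e1
      rw [hd2] at e2
      omega
  · unfold clKey
    rw [keyOf_union, hq, ← keyOf_union, hm, ← rowM_total, ← rowM_total,
      rowM_toM h₁ huv hxu hxv hyu hyv, hr]

/-- Membership of the parts when the glued graph has the right degrees: `IsCentre` in terms of
the matrix. -/
theorem isCentre_iff_centreM (H : Finset (Edge n)) :
    IsCentre {x, y} {u, v} H ↔ centreM (toM x y u v H) := by
  rw [isCentre_iff hxy huv hxu hxv hyu hyv]
  unfold centreM rowM colM toM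
  by_cases a1 : adj H x u <;> by_cases a2 : adj H x v <;> by_cases a3 : adj H y u <;>
    by_cases a4 : adj H y v <;> simp [a1, a2, a3, a4]

theorem mRel_flipM {m : Mat} {a b : Fin n} (hab : crossRel {x, y} {u, v} a b) :
    mRel x y u v (flipM m) a b ↔ ¬ mRel x y u v m a b := by
  have key : ∀ a b, (a ∈ ({x, y} : Finset (Fin n)) ∧ b ∈ ({u, v} : Finset (Fin n))) →
      (mRel x y u v (flipM m) a b ↔ ¬ mRel x y u v m a b) := by
    rintro a b ⟨ha, hb⟩
    simp only [mem_insert, mem_singleton] at ha hb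
    obtain ⟨m1, m2, m3, m4⟩ := m
    rcases ha with rfl | rfl <;> rcases hb with rfl | rfl
    · rw [mRel_xu hxy huv hxu hxv hyu hyv, mRel_xu hxy huv hxu hxv hyu hyv]; simp [flipM]
    · rw [mRel_xv hxy huv hxu hxv hyu hyv, mRel_xv hxy huv hxu hxv hyu hyv]; simp [flipM]
    · rw [mRel_yu hxy huv hxu hxv hyu hyv, mRel_yu hxy huv hxu hxv hyu hyv]; simp [flipM]
    · rw [mRel_yv hxy huv hxu hxv hyu hyv, mRel_yv hxy huv hxu hxv hyu hyv]; simp [flipM]
  have hsym : ∀ (m : Mat) a b, mRel x y u v m a b ↔ mRel x y u v m b a :=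
    fun m a b => ⟨mRel_symm x y u v m a b, mRel_symm x y u v m b a⟩
  rcases hab with h | h
  · exact key a b h
  · rw [hsym _ a b, hsym m a b]
    exact key b a ⟨h.2, h.1⟩

theorem glue_flip (τ : Finset (Edge n) × Finset (Edge n) × Mat)
    (hX : ∀ a b, adj τ.1 a b → ¬ crossRel {x, y} {u, v} a b)
    (hY : ∀ a b, adj τ.2.1 a b → ¬ crossRel {x, y} {u, v} a b) :
    glue x y u v (flipS τ) = flip {x, y} {u, v} (glue x y u v τ) := by
  apply graph_ext
  intro a b
  rw [adj_flip]
  by_cases hc : crossRel {x, y} {u, v} a b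
  · have hX' : ∀ a b, adj (flipS τ).1 a b → ¬ crossRel {x, y} {u, v} a b := hX
    have hY' : ∀ a b, adj (flipS τ).2.1 a b → ¬ crossRel {x, y} {u, v} a b := hY
    rw [adj_glue_cell hxy huv hxu hxv hyu hyv _ hX' hY' hc,
      adj_glue_cell hxy huv hxu hxv hyu hyv _ hX hY hc]
    have hm : (flipS τ).2.2 = flipM τ.2.2 := rfl
    rw [hm, mRel_flipM hxy huv hxu hxv hyu hyv hc]
    have hne : a ≠ b := by
      rintro rfl
      have hd := disj_pairs hxu hxv hyu hyv
      rcases hc with h | h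
      · exact Finset.disjoint_left.mp hd h.1 h.2
      · exact Finset.disjoint_left.mp hd h.2 h.1
    simp only [hc, iff_true]
    tauto
  · rw [adj_glue, adj_glue]
    have h1 : ∀ m : Mat, ¬ mRel x y u v m a b := fun m h => hc (mRel_cross m h)
    have e1 : (flipS τ).1 = τ.1 := rfl
    have e2 : (flipS τ).2.1 = τ.2.1 := rfl
    rw [e1, e2]
    simp only [h1, or_false, hc, iff_false, not_not]
    tauto

end Cells

end Pairs

/-! ### One class is a `stateSet` -/

section Class

variable (d : Fin n → ℕ) (x y u v : Fin n) (c : Finset (Edge n) × (Fin n → ℕ) × ℕ)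

/-- The class of the key value `c`. -/
noncomputable def clF : Finset (Finset (Edge n)) :=
  (realizations d).filter (fun G => clKey x y u v G = c)

/-- The row margins forced by `X`. -/
def aM (X : Finset (Edge n)) : ℕ × ℕ := (d x - deg X x, d y - deg X y)

/-- The column margins forced by `Y`. -/
def bM (Y : Finset (Edge n)) : ℕ × ℕ := (d u - deg Y u, d v - deg Y v)

/-- The state set of a class. -/
noncomputable def clT : Finset (Finset (Edge n) × Finset (Edge n) × Mat) :=
  stateSet ((clF d x y u v c).image (keyOf {u, v})) ((clF d x y u v c).image (keyOf {x, y}))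
    (aM d x y) (bM d u v)

variable {d x y u v c}

theorem mem_clT {τ : Finset (Edge n) × Finset (Edge n) × Mat} :
    τ ∈ clT d x y u v c ↔
      (∃ G₁ ∈ clF d x y u v c, keyOf {u, v} G₁ = τ.1) ∧
      (∃ G₂ ∈ clF d x y u v c, keyOf {x, y} G₂ = τ.2.1) ∧
      rowM τ.2.2 = aM d x y τ.1 ∧ colM τ.2.2 = bM d u v τ.2.1 := by
  unfold clT stateSet
  simp only [mem_filter, mem_product, mem_image, mem_univ, and_true]
  tauto

section
variable (hxy : x ≠ y) (huv : u ≠ v) (hxu : x ≠ u) (hxv : x ≠ v) (hyu : y ≠ u) (hyv : y ≠ v)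
include hxy huv hxu hxv hyu hyv

theorem glue_mem_clF {τ : Finset (Edge n) × Finset (Edge n) × Mat} (hτ : τ ∈ clT d x y u v c) :
    glue x y u v τ ∈ clF d x y u v c := by
  obtain ⟨⟨G₁, h₁, e₁⟩, ⟨G₂, h₂, e₂⟩, hr, hb⟩ := mem_clT.mp hτ
  obtain ⟨X, Y, m⟩ := τ
  simp only at e₁ e₂ hr hb
  subst e₁ e₂
  obtain ⟨h₁a, h₁c⟩ := mem_filter.mp h₁
  obtain ⟨h₂a, h₂c⟩ := mem_filter.mp h₂
  obtain ⟨g1, g2⟩ := glue_mem hxy huv hxu hxv hyu hyv h₁a h₂a (h₁c.trans h₂c.symm) hr hb
  exact mem_filter.mpr ⟨g1, g2.trans h₁c⟩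

theorem parts_glue {τ : Finset (Edge n) × Finset (Edge n) × Mat} (hτ : τ ∈ clT d x y u v c) :
    (keyOf {u, v} (glue x y u v τ), keyOf {x, y} (glue x y u v τ), toM x y u v (glue x y u v τ))
      = τ := by
  obtain ⟨⟨G₁, h₁, e₁⟩, ⟨G₂, h₂, e₂⟩, hr, hb⟩ := mem_clT.mp hτ
  obtain ⟨X, Y, m⟩ := τ
  simp only at e₁ e₂ hr hb
  subst e₁ e₂
  have hk : keyOf ({x, y} ∪ {u, v}) G₁ = keyOf ({x, y} ∪ {u, v}) G₂ :=
    congrArg Prod.fst ((mem_filter.mp h₁).2.trans (mem_filter.mp h₂).2.symm)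
  rw [keyOf_glue_q hxy huv hxu hxv hyu hyv hk, keyOf_glue_p hxy huv hxu hxv hyu hyv hk,
    toM_glue_parts hxy huv hxu hxv hyu hyv]

theorem parts_mem_clT {G : Finset (Edge n)} (hG : G ∈ clF d x y u v c) :
    (keyOf {u, v} G, keyOf {x, y} G, toM x y u v G) ∈ clT d x y u v c := by
  have hGa := (mem_filter.mp hG).1
  refine mem_clT.mpr ⟨⟨G, hG, rfl⟩, ⟨G, hG, rfl⟩, ?_, ?_⟩
  · exact rowM_toM hGa huv hxu hxv hyu hyv
  · exact colM_toM hGa hxy hxu hxv hyu hyv

theorem no_cross_of_mem_clT {τ : Finset (Edge n) × Finset (Edge n) × Mat}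
    (hτ : τ ∈ clT d x y u v c) :
    (∀ a b, adj τ.1 a b → ¬ crossRel {x, y} {u, v} a b) ∧
      (∀ a b, adj τ.2.1 a b → ¬ crossRel {x, y} {u, v} a b) := by
  obtain ⟨⟨G₁, h₁, e₁⟩, ⟨G₂, h₂, e₂⟩, hr, hb⟩ := mem_clT.mp hτ
  constructor
  · intro a b; rw [← e₁]; exact fun h => not_cross_of_adj_keyOf_q h
  · intro a b; rw [← e₂]; exact fun h => not_cross_of_adj_keyOf_p h

theorem glue_bijOn : Set.BijOn (glue x y u v) (clT d x y u v c : Set _) (clF d x y u v c : Set _) := by
  refine ⟨fun τ hτ => glue_mem_clF hxy huv hxu hxv hyu hyv hτ, ?_, ?_⟩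
  · intro τ hτ τ' hτ' h
    have h1 := parts_glue hxy huv hxu hxv hyu hyv hτ
    have h2 := parts_glue hxy huv hxu hxv hyu hyv hτ'
    rw [← h1, ← h2, h]
  · intro G hG
    exact ⟨_, parts_mem_clT hxy huv hxu hxv hyu hyv hG, glue_parts hxy huv hxu hxv hyu hyv G⟩

/-- The fibre inequality transported to the class. -/
theorem class_ineq (f : Finset (Edge n) → ℝ) :
    (1 / 4) * ∑ G ∈ (clF d x y u v c).filter (IsCentre {x, y} {u, v}),
        (f G - f (flip {x, y} {u, v} G)) ^ 2 +
      (∑ G ∈ (clF d x y u v c).filter (IsCentre {x, y} {u, v}),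
          comp (clF d x y u v c) (keyOf {x, y}) f G) *
        (∑ G ∈ (clF d x y u v c).filter (IsCentre {x, y} {u, v}),
          comp (clF d x y u v c) (keyOf {u, v}) f G) /
        (((clF d x y u v c).filter (IsCentre {x, y} {u, v})).card : ℝ) ≤
      ∑ G ∈ clF d x y u v c, comp (clF d x y u v c) (keyOf {x, y}) f G *
        comp (clF d x y u v c) (keyOf {u, v}) f G := by
  classical
  set F := clF d x y u v c with hF
  have hbij := glue_bijOn (d := d) (c := c) hxy huv hxu hxv hyu hyv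
  set φ := glue x y u v with hφ
  set T := clT d x y u v c with hT
  have ha : ∀ X ∈ F.image (keyOf {u, v}), ∃ m, rowM m = aM d x y X := by
    intro X hX
    obtain ⟨G, hG, rfl⟩ := mem_image.mp hX
    exact ⟨toM x y u v G, rowM_toM (mem_filter.mp hG).1 huv hxu hxv hyu hyv⟩
  have hb : ∀ Y ∈ F.image (keyOf {x, y}), ∃ m, colM m = bM d u v Y := by
    intro Y hY
    obtain ⟨G, hG, rfl⟩ := mem_image.mp hY
    exact ⟨toM x y u v G, colM_toM (mem_filter.mp hG).1 hxy hxu hxv hyu hyv⟩
  have has : ∀ X ∈ F.image (keyOf {u, v}), (aM d x y X).1 + (aM d x y X).2 = c.2.2 := by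
    intro X hX
    obtain ⟨G, hG, rfl⟩ := mem_image.mp hX
    obtain ⟨h1, h2⟩ := mem_filter.mp hG
    have e : aM d x y (keyOf {u, v} G) = rowM (toM x y u v G) :=
      (rowM_toM h1 huv hxu hxv hyu hyv).symm
    rw [e, rowM_total, ← h2]
    rfl
  have hbs : ∀ Y ∈ F.image (keyOf {x, y}), (bM d u v Y).1 + (bM d u v Y).2 = c.2.2 := by
    intro Y hY
    obtain ⟨G, hG, rfl⟩ := mem_image.mp hY
    obtain ⟨h1, h2⟩ := mem_filter.mp hG
    have e : bM d u v (keyOf {x, y} G) = colM (toM x y u v G) :=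
      (colM_toM h1 hxy hxu hxv hyu hyv).symm
    rw [e, colM_total, ← h2]
    rfl
  have H := pq_abstract (F.image (keyOf {u, v})) (F.image (keyOf {x, y})) (aM d x y) (bM d u v)
    c.2.2 ha hb has hbs (f ∘ φ)
  simp only at H
  change (1 / 4) * ∑ τ ∈ T.filter (fun τ => centreM τ.2.2), ((f ∘ φ) τ - (f ∘ φ) (flipS τ)) ^ 2 +
      (∑ τ ∈ T.filter (fun τ => centreM τ.2.2), comp T (fun τ => τ.2.1) (f ∘ φ) τ) *
        (∑ τ ∈ T.filter (fun τ => centreM τ.2.2), comp T (fun τ => τ.1) (f ∘ φ) τ) /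
        ((T.filter (fun τ => centreM τ.2.2)).card : ℝ) ≤
      ∑ τ ∈ T, comp T (fun τ => τ.2.1) (f ∘ φ) τ * comp T (fun τ => τ.1) (f ∘ φ) τ at H
  -- the parts map
  set ψ : Finset (Edge n) → Finset (Edge n) × Finset (Edge n) × Mat :=
    fun G => (keyOf {u, v} G, keyOf {x, y} G, toM x y u v G) with hψ
  have hφψ : ∀ G, φ (ψ G) = G := fun G => glue_parts hxy huv hxu hxv hyu hyv G
  have hψφ : ∀ τ ∈ T, ψ (φ τ) = τ := fun τ hτ => parts_glue hxy huv hxu hxv hyu hyv hτ
  have hφm : ∀ τ ∈ T, φ τ ∈ F := fun τ hτ => glue_mem_clF hxy huv hxu hxv hyu hyv hτ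
  have hψm : ∀ G ∈ F, ψ G ∈ T := fun G hG => parts_mem_clT hxy huv hxu hxv hyu hyv hG
  have hcomp1 : ∀ τ ∈ T, comp T (fun τ => τ.2.1) (f ∘ φ) τ = comp F (keyOf {x, y}) f (φ τ) := by
    intro τ hτ
    unfold comp
    rw [avg_bij F (keyOf {x, y}) (T := T) (κ' := fun τ => τ.2.1) φ hbij
      (fun t ht => congrArg (fun t => t.2.1) (hψφ t ht)) f hτ]
    rfl
  have hcomp2 : ∀ τ ∈ T, comp T (fun τ => τ.1) (f ∘ φ) τ = comp F (keyOf {u, v}) f (φ τ) := by
    intro τ hτ
    unfold comp
    rw [avg_bij F (keyOf {u, v}) (T := T) (κ' := fun τ => τ.1) φ hbij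
      (fun t ht => congrArg (fun t => t.1) (hψφ t ht)) f hτ]
    rfl
  have hcent : ∀ τ ∈ T, (centreM τ.2.2 ↔ IsCentre {x, y} {u, v} (φ τ)) := by
    intro τ hτ
    rw [isCentre_iff_centreM hxy huv hxu hxv hyu hyv]
    have := congrArg (fun t => t.2.2) (hψφ τ hτ)
    simp only [hψ] at this
    rw [this]
  have hcentF : ∀ G, (IsCentre {x, y} {u, v} G ↔ centreM (ψ G).2.2) := by
    intro G
    exact isCentre_iff_centreM hxy huv hxu hxv hyu hyv G
  have hC : ∀ (g : Finset (Edge n) → ℝ),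
      ∑ τ ∈ T.filter (fun τ => centreM τ.2.2), g (φ τ) =
        ∑ G ∈ F.filter (IsCentre {x, y} {u, v}), g G := by
    intro g
    refine Finset.sum_nbij' φ ψ ?_ ?_ ?_ ?_ ?_
    · intro τ hτ
      obtain ⟨h1, h2⟩ := mem_filter.mp hτ
      exact mem_filter.mpr ⟨hφm τ h1, (hcent τ h1).mp h2⟩
    · intro G hG
      obtain ⟨h1, h2⟩ := mem_filter.mp hG
      exact mem_filter.mpr ⟨hψm G h1, (hcentF G).mp h2⟩
    · intro τ hτ
      exact hψφ τ (mem_filter.mp hτ).1
    · intro G _
      exact hφψ G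
    · intro τ _
      rfl
  have hCcard : (T.filter (fun τ => centreM τ.2.2)).card =
      (F.filter (IsCentre {x, y} {u, v})).card := by
    refine Finset.card_nbij' φ ψ ?_ ?_ ?_ ?_
    · intro τ hτ
      have hτ' := Finset.mem_coe.mp hτ
      obtain ⟨h1, h2⟩ := mem_filter.mp hτ'
      exact Finset.mem_coe.mpr (mem_filter.mpr ⟨hφm τ h1, (hcent τ h1).mp h2⟩)
    · intro G hG
      have hG' := Finset.mem_coe.mp hG
      obtain ⟨h1, h2⟩ := mem_filter.mp hG'
      exact Finset.mem_coe.mpr (mem_filter.mpr ⟨hψm G h1, (hcentF G).mp h2⟩)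
    · intro τ hτ
      exact hψφ τ (mem_filter.mp (Finset.mem_coe.mp hτ)).1
    · intro G _
      exact hφψ G
  have e1 : ∑ τ ∈ T.filter (fun τ => centreM τ.2.2), ((f ∘ φ) τ - (f ∘ φ) (flipS τ)) ^ 2 =
      ∑ G ∈ F.filter (IsCentre {x, y} {u, v}), (f G - f (flip {x, y} {u, v} G)) ^ 2 := by
    rw [← hC (fun G => (f G - f (flip {x, y} {u, v} G)) ^ 2)]
    refine Finset.sum_congr rfl fun τ hτ => ?_
    have h1 := (mem_filter.mp hτ).1
    obtain ⟨hX, hY⟩ := no_cross_of_mem_clT hxy huv hxu hxv hyu hyv h1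
    simp only [Function.comp]
    rw [hφ, glue_flip hxy huv hxu hxv hyu hyv τ hX hY]
  have e2 : ∑ τ ∈ T.filter (fun τ => centreM τ.2.2), comp T (fun τ => τ.2.1) (f ∘ φ) τ =
      ∑ G ∈ F.filter (IsCentre {x, y} {u, v}), comp F (keyOf {x, y}) f G := by
    rw [← hC (comp F (keyOf {x, y}) f)]
    exact Finset.sum_congr rfl fun τ hτ => hcomp1 τ (mem_filter.mp hτ).1
  have e3 : ∑ τ ∈ T.filter (fun τ => centreM τ.2.2), comp T (fun τ => τ.1) (f ∘ φ) τ =
      ∑ G ∈ F.filter (IsCentre {x, y} {u, v}), comp F (keyOf {u, v}) f G := by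
    rw [← hC (comp F (keyOf {u, v}) f)]
    exact Finset.sum_congr rfl fun τ hτ => hcomp2 τ (mem_filter.mp hτ).1
  have e4 : ∑ τ ∈ T, comp T (fun τ => τ.2.1) (f ∘ φ) τ * comp T (fun τ => τ.1) (f ∘ φ) τ =
      ∑ G ∈ F, comp F (keyOf {x, y}) f G * comp F (keyOf {u, v}) f G := by
    refine Finset.sum_nbij' φ ψ hφm hψm hψφ (fun G _ => hφψ G) ?_
    intro τ hτ
    rw [hcomp1 τ hτ, hcomp2 τ hτ]
  rw [e1, e2, e3, e4, hCcard] at H
  exact H

end

end Class

/-! ### Summing over the classes -/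

section Titu

variable {α β γ : Type*} [DecidableEq β] [DecidableEq γ]

/-- Titu over the fibres of `κ`. -/
theorem titu_fibres (S : Finset α) (κ : α → β) (g : α → ℝ) :
    (∑ a ∈ S, g a) ^ 2 / (S.card : ℝ) ≤
      ∑ K ∈ S.image κ, (∑ a ∈ S.filter (fun a => κ a = K), g a) ^ 2 /
        ((S.filter (fun a => κ a = K)).card : ℝ) := by
  have h1 : ∑ K ∈ S.image κ, ∑ a ∈ S.filter (fun a => κ a = K), g a = ∑ a ∈ S, g a :=
    Finset.sum_fiberwise_of_maps_to (fun a ha => mem_image_of_mem κ ha) g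
  have h2 : ∑ K ∈ S.image κ, ((S.filter (fun a => κ a = K)).card : ℝ) = (S.card : ℝ) := by
    have := Finset.card_eq_sum_card_fiberwise (s := S) (t := S.image κ) (f := κ)
      (fun a ha => mem_image_of_mem κ ha)
    rw [this]
    push_cast
    rfl
  have h3 := Finset.sq_sum_div_le_sum_sq_div (S.image κ)
    (fun K => ∑ a ∈ S.filter (fun a => κ a = K), g a)
    (g := fun K => ((S.filter (fun a => κ a = K)).card : ℝ)) (by
      intro K hK
      obtain ⟨a, ha, rfl⟩ := mem_image.mp hK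
      have : 0 < (S.filter (fun b => κ b = κ a)).card :=
        Finset.card_pos.mpr ⟨a, mem_filter.mpr ⟨ha, rfl⟩⟩
      exact_mod_cast this)
  rw [h1, h2] at h3
  exact h3

/-- The blocks of `κ` do not mix the classes of `cl`, so the class-level Titu terms sum to at most
the whole sum. -/
theorem class_titu_sum (Ω : Finset α) (κ : α → β) (cl : α → γ) (Z : α → Prop) [DecidablePred Z]
    (g : α → ℝ) (hcl : ∀ a ∈ Ω, ∀ b ∈ Ω, κ a = κ b → cl a = cl b) :
    ∑ c ∈ Ω.image cl,
        (∑ a ∈ (Ω.filter (fun a => cl a = c)).filter Z, g a) ^ 2 /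
          (((Ω.filter (fun a => cl a = c)).filter Z).card : ℝ) ≤
      ∑ K ∈ Ω.image κ, (∑ a ∈ Ω.filter (fun a => κ a = K ∧ Z a), g a) ^ 2 /
        ((Ω.filter (fun a => κ a = K ∧ Z a)).card : ℝ) := by
  classical
  set T : β → ℝ := fun K => (∑ a ∈ Ω.filter (fun a => κ a = K ∧ Z a), g a) ^ 2 /
    ((Ω.filter (fun a => κ a = K ∧ Z a)).card : ℝ) with hT
  have hT0 : ∀ K, 0 ≤ T K := fun K => by simp only [hT]; positivity
  -- one class
  have h1 : ∀ c ∈ Ω.image cl,
      (∑ a ∈ (Ω.filter (fun a => cl a = c)).filter Z, g a) ^ 2 /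
          (((Ω.filter (fun a => cl a = c)).filter Z).card : ℝ) ≤
        ∑ K ∈ ((Ω.filter (fun a => cl a = c)).filter Z).image κ, T K := by
    intro c _
    refine (titu_fibres _ κ g).trans (le_of_eq ?_)
    refine Finset.sum_congr rfl fun K hK => ?_
    obtain ⟨a₀, ha₀, rfl⟩ := mem_image.mp hK
    have ha₀' := mem_filter.mp (mem_filter.mp ha₀).1
    have hset : ((Ω.filter (fun a => cl a = c)).filter Z).filter (fun a => κ a = κ a₀) =
        Ω.filter (fun a => κ a = κ a₀ ∧ Z a) := by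
      ext a
      simp only [mem_filter]
      constructor
      · rintro ⟨⟨⟨h1, _⟩, h3⟩, h4⟩
        exact ⟨h1, h4, h3⟩
      · rintro ⟨h1, h2, h3⟩
        exact ⟨⟨⟨h1, (hcl a h1 a₀ ha₀'.1 h2).trans ha₀'.2⟩, h3⟩, h2⟩
    simp only [hT]
    rw [hset]
  refine (Finset.sum_le_sum h1).trans ?_
  rw [← Finset.sum_biUnion]
  · refine Finset.sum_le_sum_of_subset_of_nonneg ?_ (fun K _ _ => hT0 K)
    intro K hK
    obtain ⟨c, _, hK⟩ := mem_biUnion.mp hK
    obtain ⟨a, ha, rfl⟩ := mem_image.mp hK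
    exact mem_image_of_mem κ (mem_filter.mp (mem_filter.mp ha).1).1
  · intro c _ c' _ hne
    refine Finset.disjoint_left.mpr fun K hK hK' => hne ?_
    obtain ⟨a, ha, rfl⟩ := mem_image.mp hK
    obtain ⟨b, hb, hab⟩ := mem_image.mp hK'
    have ha' := mem_filter.mp (mem_filter.mp ha).1
    have hb' := mem_filter.mp (mem_filter.mp hb).1
    rw [← ha'.2, ← hb'.2]
    exact hcl a ha'.1 b hb'.1 hab.symm

end Titu

theorem isCentre_comm (p q : Finset (Fin n)) (G : Finset (Edge n)) :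
    IsCentre q p G ↔ IsCentre p q G := by
  unfold IsCentre
  rw [cross_comm, Finset.union_comm]

theorem amgm_div (A B N : ℝ) (hN : 0 ≤ N) :
    -(1 / 2) * (A ^ 2 / N) - (1 / 2) * (B ^ 2 / N) ≤ A * B / N := by
  have hAMGM : 0 ≤ (A + B) ^ 2 / N := by positivity
  have e4 : (A + B) ^ 2 / N = A ^ 2 / N + 2 * (A * B / N) + B ^ 2 / N := by
    rw [add_sq]
    ring
  linarith

section Final

variable {d : Fin n → ℕ} {x y u v : Fin n}

theorem comp_clF_p (hxy : x ≠ y) (hxu : x ≠ u) (hxv : x ≠ v) (hyu : y ≠ u) (hyv : y ≠ v)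
    (c : Finset (Edge n) × (Fin n → ℕ) × ℕ) (f : Finset (Edge n) → ℝ) {G : Finset (Edge n)}
    (hG : G ∈ clF d x y u v c) :
    comp (clF d x y u v c) (keyOf {x, y}) f G = Ap d {x, y} f G := by
  have hsub : clF d x y u v c ⊆ realizations d := Finset.filter_subset _ _
  simp only [comp, Ap]
  rw [avg_restrict (realizations d) (keyOf {x, y}) hsub ?_ f hG]
  intro a ha b hb hk
  have ha' := mem_filter.mp ha
  exact mem_filter.mpr ⟨hb, (clKey_of_keyOf_p hb ha'.1 hxy hxu hxv hyu hyv hk).trans ha'.2⟩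

theorem comp_clF_q (huv : u ≠ v) (hxu : x ≠ u) (hxv : x ≠ v) (hyu : y ≠ u) (hyv : y ≠ v)
    (c : Finset (Edge n) × (Fin n → ℕ) × ℕ) (f : Finset (Edge n) → ℝ) {G : Finset (Edge n)}
    (hG : G ∈ clF d x y u v c) :
    comp (clF d x y u v c) (keyOf {u, v}) f G = Ap d {u, v} f G := by
  have hsub : clF d x y u v c ⊆ realizations d := Finset.filter_subset _ _
  simp only [comp, Ap]
  rw [avg_restrict (realizations d) (keyOf {u, v}) hsub ?_ f hG]
  intro a ha b hb hk
  have ha' := mem_filter.mp ha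
  exact mem_filter.mpr ⟨hb, (clKey_of_keyOf_q hb ha'.1 huv hxu hxv hyu hyv hk).trans ha'.2⟩

/-- The class inequality in terms of `Ap`. -/
theorem class_bound (hxy : x ≠ y) (huv : u ≠ v) (hxu : x ≠ u) (hxv : x ≠ v) (hyu : y ≠ u)
    (hyv : y ≠ v) (c : Finset (Edge n) × (Fin n → ℕ) × ℕ) (f : Finset (Edge n) → ℝ) :
    (1 / 4) * ∑ G ∈ (clF d x y u v c).filter (IsCentre {x, y} {u, v}),
        (f G - f (flip {x, y} {u, v} G)) ^ 2 -
      (1 / 2) * ((∑ G ∈ (clF d x y u v c).filter (IsCentre {x, y} {u, v}), Ap d {x, y} f G) ^ 2 /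
        (((clF d x y u v c).filter (IsCentre {x, y} {u, v})).card : ℝ)) -
      (1 / 2) * ((∑ G ∈ (clF d x y u v c).filter (IsCentre {x, y} {u, v}), Ap d {u, v} f G) ^ 2 /
        (((clF d x y u v c).filter (IsCentre {x, y} {u, v})).card : ℝ)) ≤
    ∑ G ∈ clF d x y u v c, Ap d {x, y} f G * Ap d {u, v} f G := by
  have h := class_ineq (d := d) (c := c) hxy huv hxu hxv hyu hyv f
  have e1 : ∑ G ∈ (clF d x y u v c).filter (IsCentre {x, y} {u, v}),
      comp (clF d x y u v c) (keyOf {x, y}) f G =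
      ∑ G ∈ (clF d x y u v c).filter (IsCentre {x, y} {u, v}), Ap d {x, y} f G :=
    Finset.sum_congr rfl fun G hG => comp_clF_p hxy hxu hxv hyu hyv c f (mem_filter.mp hG).1
  have e2 : ∑ G ∈ (clF d x y u v c).filter (IsCentre {x, y} {u, v}),
      comp (clF d x y u v c) (keyOf {u, v}) f G =
      ∑ G ∈ (clF d x y u v c).filter (IsCentre {x, y} {u, v}), Ap d {u, v} f G :=
    Finset.sum_congr rfl fun G hG => comp_clF_q huv hxu hxv hyu hyv c f (mem_filter.mp hG).1
  have e3 : ∑ G ∈ clF d x y u v c, comp (clF d x y u v c) (keyOf {x, y}) f G *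
      comp (clF d x y u v c) (keyOf {u, v}) f G =
      ∑ G ∈ clF d x y u v c, Ap d {x, y} f G * Ap d {u, v} f G :=
    Finset.sum_congr rfl fun G hG => by
      rw [comp_clF_p hxy hxu hxv hyu hyv c f hG, comp_clF_q huv hxu hxv hyu hyv c f hG]
  rw [e1, e2, e3] at h
  have := amgm_div (∑ G ∈ (clF d x y u v c).filter (IsCentre {x, y} {u, v}), Ap d {x, y} f G)
    (∑ G ∈ (clF d x y u v c).filter (IsCentre {x, y} {u, v}), Ap d {u, v} f G)
    (((clF d x y u v c).filter (IsCentre {x, y} {u, v})).card : ℝ) (Nat.cast_nonneg _)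
  linarith

theorem sum_class_E (f : Finset (Edge n) → ℝ) :
    eTerm d {x, y} {u, v} f = ∑ c ∈ (realizations d).image (clKey x y u v),
      ∑ G ∈ (clF d x y u v c).filter (IsCentre {x, y} {u, v}),
        (f G - f (flip {x, y} {u, v} G)) ^ 2 := by
  unfold eTerm clF
  rw [← Finset.sum_fiberwise_of_maps_to (s := (realizations d).filter (IsCentre {x, y} {u, v}))
    (t := (realizations d).image (clKey x y u v)) (g := clKey x y u v)
    (fun a ha => mem_image_of_mem _ (mem_filter.mp ha).1)]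
  refine Finset.sum_congr rfl fun c _ => ?_
  rw [Finset.filter_comm]

theorem sum_class_R (g : Finset (Edge n) → ℝ) :
    ∑ G ∈ realizations d, g G =
      ∑ c ∈ (realizations d).image (clKey x y u v), ∑ G ∈ clF d x y u v c, g G :=
  (Finset.sum_fiberwise_of_maps_to (fun a ha => mem_image_of_mem _ ha) _).symm

theorem sum_class_zp (hxy : x ≠ y) (hxu : x ≠ u) (hxv : x ≠ v) (hyu : y ≠ u) (hyv : y ≠ v)
    (f : Finset (Edge n) → ℝ) :
    ∑ c ∈ (realizations d).image (clKey x y u v),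
      (∑ G ∈ (clF d x y u v c).filter (IsCentre {x, y} {u, v}), Ap d {x, y} f G) ^ 2 /
        (((clF d x y u v c).filter (IsCentre {x, y} {u, v})).card : ℝ) ≤
    zTerm d {x, y} {u, v} f :=
  class_titu_sum (realizations d) (keyOf {x, y}) (clKey x y u v) (IsCentre {x, y} {u, v})
    (Ap d {x, y} f) (fun _ hG _ hG' h => clKey_of_keyOf_p hG hG' hxy hxu hxv hyu hyv h)

theorem sum_class_zq (huv : u ≠ v) (hxu : x ≠ u) (hxv : x ≠ v) (hyu : y ≠ u) (hyv : y ≠ v)
    (f : Finset (Edge n) → ℝ) :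
    ∑ c ∈ (realizations d).image (clKey x y u v),
      (∑ G ∈ (clF d x y u v c).filter (IsCentre {x, y} {u, v}), Ap d {u, v} f G) ^ 2 /
        (((clF d x y u v c).filter (IsCentre {x, y} {u, v})).card : ℝ) ≤
    zTerm d {u, v} {x, y} f := by
  refine (class_titu_sum (realizations d) (keyOf {u, v}) (clKey x y u v) (IsCentre {x, y} {u, v})
    (Ap d {u, v} f) (fun _ hG _ hG' h => clKey_of_keyOf_q hG hG' huv hxu hxv hyu hyv h)).trans
    (le_of_eq ?_)
  unfold zTerm
  refine Finset.sum_congr rfl fun K _ => ?_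
  have hset : (realizations d).filter (fun a => keyOf {u, v} a = K ∧ IsCentre {x, y} {u, v} a) =
      (realizations d).filter (fun a => keyOf {u, v} a = K ∧ IsCentre {u, v} {x, y} a) := by
    refine Finset.filter_congr fun a _ => ?_
    rw [isCentre_comm]
  rw [hset]

end Final

/-- **T8**: the local lower bound for a disjoint pair. -/
theorem pq_bound (d : Fin n → ℕ) (p q : Finset (Fin n)) (hp : p ∈ pairs n) (hq : q ∈ pairs n)
    (hpq : Disjoint p q) (f : Finset (Edge n) → ℝ) :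
    (1 / 4) * eTerm d p q f - (1 / 2) * zTerm d p q f - (1 / 2) * zTerm d q p f ≤
      ∑ G ∈ realizations d, Ap d p f G * Ap d q f G := by
  classical
  obtain ⟨x, y, hxy, rfl⟩ := pairs_eq hp
  obtain ⟨u, v, huv, rfl⟩ := pairs_eq hq
  have hxu : x ≠ u := by
    rintro rfl
    exact (Finset.disjoint_left.mp hpq) (show x ∈ _ by simp) (by simp)
  have hxv : x ≠ v := by
    rintro rfl
    exact (Finset.disjoint_left.mp hpq) (show x ∈ _ by simp) (by simp)
  have hyu : y ≠ u := by
    rintro rfl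
    exact (Finset.disjoint_left.mp hpq) (show y ∈ _ by simp) (by simp)
  have hyv : y ≠ v := by
    rintro rfl
    exact (Finset.disjoint_left.mp hpq) (show y ∈ _ by simp) (by simp)
  have hfinal := Finset.sum_le_sum
    (fun c (_ : c ∈ (realizations d).image (clKey x y u v)) =>
      class_bound (d := d) hxy huv hxu hxv hyu hyv c f)
  rw [Finset.sum_sub_distrib, Finset.sum_sub_distrib, ← Finset.mul_sum, ← Finset.mul_sum,
    ← Finset.mul_sum, ← sum_class_E, ← sum_class_R] at hfinal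
  have hzp := sum_class_zp (d := d) hxy hxu hxv hyu hyv f
  have hzq := sum_class_zq (d := d) huv hxu hxv hyu hyv f
  linarith

end Crest.Agent.Lib.Switch

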