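/-
S0453 library T2: abstract spectral step (helper12).
From `P² ≥ 2P` and `Ker P = constants` (for `P = ∑ A_p`, `A_p = I - E_p`, conditional expectations on
a finite set given key functions) derive the Poincaré inequality
`2 (N ∑ f² - (∑ f)²) ≤ N ∑_p ‖A_p f‖²`.
-/
import Crest.Agent.Lib.Switch.Defs

set_option autoImplicit false

namespace Crest.Agent.Lib.Switch

open Finset
open scoped RealInnerProductSpace

namespace SpectralAux

section Spectral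

variable {V : Type*} [NormedAddCommGroup V] [InnerProductSpace ℝ V] [FiniteDimensional ℝ V]

/-- If `T` is symmetric, positive semidefinite, `T² ≥ 2T`, then `T ≥ 2` on `(Ker T)^⊥`. -/
theorem spectral_two (T : V →ₗ[ℝ] V) (hT : T.IsSymmetric) (h0 : ∀ x, 0 ≤ ⟪x, T x⟫)
    (h2 : ∀ x, 2 * ⟪x, T x⟫ ≤ ⟪T x, T x⟫) (x : V) (hx : ∀ y, T y = 0 → ⟪x, y⟫ = 0) :
    2 * ⟪x, x⟫ ≤ ⟪x, T x⟫ := by
  classical
  set m := Module.finrank ℝ V with hm
  set b := hT.eigenvectorBasis hm with hb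
  set μ := hT.eigenvalues hm with hμ
  have hTb : ∀ i, T (b i) = μ i • b i := fun i => by
    rw [hb, hT.apply_eigenvectorBasis hm i]
    simp [hμ]
  have hb1 : ∀ i, ⟪b i, b i⟫ = 1 := fun i => by
    rw [real_inner_self_eq_norm_sq, b.norm_eq_one]; norm_num
  have hμ0 : ∀ i, 0 ≤ μ i := fun i => by
    have := h0 (b i)
    rw [hTb, real_inner_smul_right, hb1] at this
    simpa using this
  have hμ2 : ∀ i, 2 * μ i ≤ μ i * μ i := fun i => by
    have := h2 (b i)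
    rw [hTb, real_inner_smul_right, real_inner_smul_left, real_inner_smul_right, hb1] at this
    nlinarith
  have e1 : ⟪x, x⟫ = ∑ i, ⟪x, b i⟫ * ⟪x, b i⟫ := by
    have := b.sum_inner_mul_inner x x
    rw [← this]
    refine sum_congr rfl fun i _ => ?_
    rw [real_inner_comm x (b i)]
  have e2 : ⟪x, T x⟫ = ∑ i, μ i * (⟪x, b i⟫ * ⟪x, b i⟫) := by
    have := b.sum_inner_mul_inner x (T x)
    rw [← this]
    refine sum_congr rfl fun i _ => ?_
    have : ⟪b i, T x⟫ = μ i * ⟪x, b i⟫ := by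
      rw [← hT (b i) x, hTb, real_inner_smul_left, real_inner_comm]
    rw [this]
    ring
  rw [e1, e2, mul_sum]
  refine sum_le_sum fun i _ => ?_
  by_cases hi : μ i = 0
  · have : ⟪x, b i⟫ = 0 := hx _ (by rw [hTb, hi, zero_smul])
    simp [this]
  · have hge : 2 ≤ μ i := by
      have hpos : 0 < μ i := lt_of_le_of_ne (hμ0 i) (Ne.symm hi)
      nlinarith [hμ2 i]
    nlinarith [mul_self_nonneg ⟪x, b i⟫]

end Spectral

section Avg

variable {α β : Type*} [DecidableEq β]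

/-- The fibre of `a`. -/
abbrev fib (Ω : Finset α) (κ : α → β) (a : α) : Finset α := Ω.filter fun b => κ b = κ a

lemma avg_congr_key (Ω : Finset α) (κ : α → β) (f : α → ℝ) {a b : α} (h : κ a = κ b) :
    avg Ω κ f a = avg Ω κ f b := by
  simp only [avg, h]

lemma fib_nonempty {Ω : Finset α} (κ : α → β) {a : α} (ha : a ∈ Ω) : (fib Ω κ a).Nonempty :=
  ⟨a, mem_filter.mpr ⟨ha, rfl⟩⟩

lemma card_fib_pos {Ω : Finset α} (κ : α → β) {a : α} (ha : a ∈ Ω) :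
    (0 : ℝ) < ((fib Ω κ a).card : ℝ) := by
  exact_mod_cast card_pos.mpr (fib_nonempty κ ha)

/-- Functions of the key can be moved across the conditional expectation. -/
lemma sum_mul_avg (Ω : Finset α) (κ : α → β) (g f : α → ℝ)
    (hg : ∀ a ∈ Ω, ∀ b ∈ Ω, κ a = κ b → g a = g b) :
    ∑ a ∈ Ω, g a * avg Ω κ f a = ∑ a ∈ Ω, g a * f a := by
  classical
  rw [← sum_fiberwise_of_maps_to (s := Ω) (t := Ω.image κ) (g := κ)
      (fun a ha => mem_image_of_mem κ ha),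
    ← sum_fiberwise_of_maps_to (s := Ω) (t := Ω.image κ) (g := κ)
      (fun a ha => mem_image_of_mem κ ha) (f := fun a => g a * f a)]
  refine sum_congr rfl fun k hk => ?_
  obtain ⟨a0, ha0, rfl⟩ := mem_image.mp hk
  set F := Ω.filter (fun b => κ b = κ a0) with hF
  have hg0 : ∀ a ∈ F, g a = g a0 := fun a ha => by
    rw [hF, mem_filter] at ha
    exact hg a ha.1 a0 ha0 ha.2
  have hav : ∀ a ∈ F, avg Ω κ f a = avg Ω κ f a0 := fun a ha => by
    rw [hF, mem_filter] at ha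
    exact avg_congr_key Ω κ f ha.2
  have h1 : ∑ a ∈ F, g a * avg Ω κ f a = (F.card : ℝ) * (g a0 * avg Ω κ f a0) := by
    rw [sum_congr rfl (fun a ha => by rw [hg0 a ha, hav a ha]), sum_const, nsmul_eq_mul]
  have h2 : ∑ a ∈ F, g a * f a = g a0 * ∑ a ∈ F, f a := by
    rw [mul_sum]
    exact sum_congr rfl fun a ha => by rw [hg0 a ha]
  have hc : (0 : ℝ) < (F.card : ℝ) := card_fib_pos (Ω := Ω) κ ha0
  rw [h1, h2]
  have h3 : avg Ω κ f a0 = (∑ a ∈ F, f a) / (F.card : ℝ) := rfl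
  rw [h3]
  field_simp

lemma avg_add (Ω : Finset α) (κ : α → β) (f g : α → ℝ) (a : α) :
    avg Ω κ (fun x => f x + g x) a = avg Ω κ f a + avg Ω κ g a := by
  simp only [avg, sum_add_distrib, add_div]

lemma avg_smul (Ω : Finset α) (κ : α → β) (c : ℝ) (f : α → ℝ) (a : α) :
    avg Ω κ (fun x => c * f x) a = c * avg Ω κ f a := by
  simp only [avg, ← mul_sum, mul_div_assoc]

lemma avg_const (Ω : Finset α) (κ : α → β) (c : ℝ) {a : α} (ha : a ∈ Ω) :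
    avg Ω κ (fun _ => c) a = c := by
  have hc := card_fib_pos (Ω := Ω) κ ha
  simp only [avg, fib] at hc ⊢
  rw [sum_const, nsmul_eq_mul]
  field_simp

lemma avg_congr_on (Ω : Finset α) (κ : α → β) {f g : α → ℝ} (h : ∀ a ∈ Ω, f a = g a) (a : α) :
    avg Ω κ f a = avg Ω κ g a := by
  simp only [avg]
  congr 1
  exact sum_congr rfl fun b hb => h b (mem_filter.mp hb).1

lemma comp_add (Ω : Finset α) (κ : α → β) (f g : α → ℝ) (a : α) :
    comp Ω κ (fun x => f x + g x) a = comp Ω κ f a + comp Ω κ g a := by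
  simp only [comp, avg_add]; ring

lemma comp_smul (Ω : Finset α) (κ : α → β) (c : ℝ) (f : α → ℝ) (a : α) :
    comp Ω κ (fun x => c * f x) a = c * comp Ω κ f a := by
  simp only [comp, avg_smul]; ring

lemma comp_congr_on (Ω : Finset α) (κ : α → β) {f g : α → ℝ} (h : ∀ a ∈ Ω, f a = g a) {a : α}
    (ha : a ∈ Ω) : comp Ω κ f a = comp Ω κ g a := by
  simp only [comp, avg_congr_on Ω κ h a, h a ha]

lemma comp_const (Ω : Finset α) (κ : α → β) (c : ℝ) {a : α} (ha : a ∈ Ω) :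
    comp Ω κ (fun _ => c) a = 0 := by
  simp only [comp, avg_const Ω κ c ha, sub_self]

/-- `E` is self-adjoint: `⟨g, E f⟩ = ⟨E g, E f⟩ = ⟨E g, f⟩`. -/
lemma sum_avg_mul_avg (Ω : Finset α) (κ : α → β) (g f : α → ℝ) :
    ∑ a ∈ Ω, avg Ω κ g a * avg Ω κ f a = ∑ a ∈ Ω, avg Ω κ g a * f a :=
  sum_mul_avg Ω κ _ f fun _ _ _ _ h => avg_congr_key Ω κ g h

lemma sum_mul_avg_symm (Ω : Finset α) (κ : α → β) (g f : α → ℝ) :
    ∑ a ∈ Ω, g a * avg Ω κ f a = ∑ a ∈ Ω, avg Ω κ g a * f a := by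
  have h1 := sum_avg_mul_avg Ω κ f g
  have h2 := sum_avg_mul_avg Ω κ g f
  rw [← h2, ← sum_congr rfl (fun a _ => mul_comm (avg Ω κ f a) (avg Ω κ g a)), h1]
  exact sum_congr rfl fun a _ => mul_comm _ _

lemma sum_mul_comp_symm (Ω : Finset α) (κ : α → β) (g f : α → ℝ) :
    ∑ a ∈ Ω, g a * comp Ω κ f a = ∑ a ∈ Ω, comp Ω κ g a * f a := by
  have := sum_mul_avg_symm Ω κ g f
  simp only [comp, mul_sub, sub_mul, sum_sub_distrib]
  rw [this]

lemma sum_comp_mul_comp (Ω : Finset α) (κ : α → β) (g f : α → ℝ) :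
    ∑ a ∈ Ω, comp Ω κ g a * comp Ω κ f a = ∑ a ∈ Ω, g a * comp Ω κ f a := by
  have := sum_avg_mul_avg Ω κ g f
  simp only [comp, mul_sub, sub_mul, sum_sub_distrib]
  rw [this]
  ring

end Avg

section Poincare

variable {α β ι : Type*} [DecidableEq β]

/-- `P = ∑_p A_p`. -/
noncomputable def PP (Ω : Finset α) (I : Finset ι) (κ : ι → α → β) (f : α → ℝ) (a : α) : ℝ :=
  ∑ p ∈ I, comp Ω (κ p) f a

lemma sum_mul_PP (Ω : Finset α) (I : Finset ι) (κ : ι → α → β) (g f : α → ℝ) :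
    ∑ a ∈ Ω, g a * PP Ω I κ f a = ∑ p ∈ I, ∑ a ∈ Ω, comp Ω (κ p) g a * comp Ω (κ p) f a := by
  simp only [PP, mul_sum]
  rw [sum_comm]
  exact sum_congr rfl fun p _ => (sum_comp_mul_comp Ω (κ p) g f).symm

/-- Extension by zero of a function on the subtype. -/
noncomputable def extOf [DecidableEq α] (Ω : Finset α) (x : EuclideanSpace ℝ Ω) : α → ℝ :=
  fun a => if h : a ∈ Ω then x ⟨a, h⟩ else 0

variable [DecidableEq α]

lemma extOf_coe (Ω : Finset α) (x : EuclideanSpace ℝ Ω) (a : Ω) : extOf Ω x a.1 = x a := by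
  simp [extOf]

lemma inner_eq_sum_extOf (Ω : Finset α) (x y : EuclideanSpace ℝ Ω) :
    ⟪x, y⟫ = ∑ a ∈ Ω, extOf Ω x a * extOf Ω y a := by
  rw [PiLp.inner_apply, ← sum_coe_sort Ω (fun a => extOf Ω x a * extOf Ω y a)]
  refine sum_congr rfl fun a _ => ?_
  rw [extOf_coe, extOf_coe]
  simp [mul_comm]

/-- The operator `P` on `EuclideanSpace`. -/
noncomputable def PPmap (Ω : Finset α) (I : Finset ι) (κ : ι → α → β) :
    EuclideanSpace ℝ Ω →ₗ[ℝ] EuclideanSpace ℝ Ω where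
  toFun x := WithLp.toLp 2 fun a : Ω => PP Ω I κ (extOf Ω x) a.1
  map_add' x y := by
    ext a
    simp only [PiLp.add_apply, PP, ← sum_add_distrib]
    refine sum_congr rfl fun p _ => ?_
    rw [← comp_add]
    refine comp_congr_on Ω (κ p) (fun b hb => ?_) a.2
    simp [extOf, hb]
  map_smul' c x := by
    ext a
    simp only [PiLp.smul_apply, PP, smul_eq_mul, RingHom.id_apply, mul_sum]
    refine sum_congr rfl fun p _ => ?_
    rw [← comp_smul]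
    refine comp_congr_on Ω (κ p) (fun b hb => ?_) a.2
    simp [extOf, hb]

lemma extOf_PPmap (Ω : Finset α) (I : Finset ι) (κ : ι → α → β) (x : EuclideanSpace ℝ Ω) {a : α}
    (ha : a ∈ Ω) : extOf Ω (PPmap Ω I κ x) a = PP Ω I κ (extOf Ω x) a := by
  simp [extOf, ha, PPmap]

/-- `⟨x, P y⟩` in terms of sums. -/
lemma inner_PPmap (Ω : Finset α) (I : Finset ι) (κ : ι → α → β) (x y : EuclideanSpace ℝ Ω) :
    ⟪x, PPmap Ω I κ y⟫ =
      ∑ p ∈ I, ∑ a ∈ Ω, comp Ω (κ p) (extOf Ω x) a * comp Ω (κ p) (extOf Ω y) a := by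
  rw [inner_eq_sum_extOf, ← sum_mul_PP]
  exact sum_congr rfl fun a ha => by rw [extOf_PPmap Ω I κ y ha]

/-- **Abstract Poincaré inequality** from `P² ≥ 2P` and `Ker P = constants`. -/
theorem poincare_of_P2 (Ω : Finset α) (I : Finset ι) (κ : ι → α → β)
    (H : ∀ f : α → ℝ, 2 * ∑ p ∈ I, ∑ a ∈ Ω, comp Ω (κ p) f a ^ 2 ≤
      ∑ a ∈ Ω, (∑ p ∈ I, comp Ω (κ p) f a) ^ 2)
    (Hker : ∀ f : α → ℝ, (∀ p ∈ I, ∀ a ∈ Ω, comp Ω (κ p) f a = 0) →
      ∀ a ∈ Ω, ∀ b ∈ Ω, f a = f b)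
    (f : α → ℝ) :
    2 * ((Ω.card : ℝ) * ∑ a ∈ Ω, f a ^ 2 - (∑ a ∈ Ω, f a) ^ 2) ≤
      (Ω.card : ℝ) * ∑ p ∈ I, ∑ a ∈ Ω, comp Ω (κ p) f a ^ 2 := by
  classical
  rcases Ω.eq_empty_or_nonempty with rfl | hne
  · simp
  have hN : (0 : ℝ) < (Ω.card : ℝ) := by exact_mod_cast card_pos.mpr hne
  set T := PPmap Ω I κ with hTdef
  have hinner : ∀ x y : EuclideanSpace ℝ Ω, ⟪x, T y⟫ =
      ∑ p ∈ I, ∑ a ∈ Ω, comp Ω (κ p) (extOf Ω x) a * comp Ω (κ p) (extOf Ω y) a :=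
    inner_PPmap Ω I κ
  have hsymm : T.IsSymmetric := by
    intro x y
    rw [real_inner_comm, hinner, hinner]
    refine sum_congr rfl fun p _ => sum_congr rfl fun a _ => mul_comm _ _
  have h0 : ∀ x, 0 ≤ ⟪x, T x⟫ := by
    intro x
    rw [hinner]
    exact sum_nonneg fun p _ => sum_nonneg fun a _ => mul_self_nonneg _
  have h2 : ∀ x, 2 * ⟪x, T x⟫ ≤ ⟪T x, T x⟫ := by
    intro x
    have := H (extOf Ω x)
    rw [hinner, inner_eq_sum_extOf]
    simp only [← pow_two] at this ⊢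
    refine this.trans (le_of_eq ?_)
    refine sum_congr rfl fun a ha => ?_
    rw [extOf_PPmap Ω I κ x ha]
    rfl
  -- the mean-zero vector
  set m : ℝ := (∑ a ∈ Ω, f a) / (Ω.card : ℝ) with hm
  set x : EuclideanSpace ℝ Ω := WithLp.toLp 2 fun a : Ω => f a.1 - m with hx
  have hxext : ∀ a ∈ Ω, extOf Ω x a = f a - m := fun a ha => by
    simp [extOf, ha, hx]
  have hsum0 : ∑ a ∈ Ω, (f a - m) = 0 := by
    rw [sum_sub_distrib, sum_const, nsmul_eq_mul, hm]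
    field_simp
    ring
  have hperp : ∀ y, T y = 0 → ⟪x, y⟫ = 0 := by
    intro y hy
    have h00 : ⟪y, T y⟫ = 0 := by rw [hy, inner_zero_right]
    rw [hinner] at h00
    have h01 := (sum_eq_zero_iff_of_nonneg fun p _ =>
      sum_nonneg fun a _ => mul_self_nonneg _).mp h00
    have hconst : ∀ a ∈ Ω, ∀ b ∈ Ω, extOf Ω y a = extOf Ω y b := by
      apply Hker
      intro p hp a ha
      have h02 := (sum_eq_zero_iff_of_nonneg fun a _ => mul_self_nonneg _).mp (h01 p hp) a ha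
      exact mul_self_eq_zero.mp h02
    obtain ⟨a0, ha0⟩ := hne
    rw [inner_eq_sum_extOf]
    rw [sum_congr rfl (fun a ha => by rw [hxext a ha, hconst a ha a0 ha0]), ← sum_mul, hsum0,
      zero_mul]
  have hmain := spectral_two T hsymm h0 h2 x hperp
  rw [inner_eq_sum_extOf, hinner] at hmain
  have e1 : ∑ a ∈ Ω, extOf Ω x a * extOf Ω x a = ∑ a ∈ Ω, f a ^ 2 - (∑ a ∈ Ω, f a) ^ 2 / Ω.card := by
    rw [sum_congr rfl (fun a ha => by rw [hxext a ha])]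
    have h3 : ∀ a, (f a - m) * (f a - m) = f a ^ 2 - 2 * m * f a + m ^ 2 := fun a => by ring
    simp only [h3]
    rw [sum_add_distrib, sum_sub_distrib, ← mul_sum, sum_const, nsmul_eq_mul, hm]
    field_simp
    ring
  have e2 : ∀ p, ∀ a ∈ Ω, comp Ω (κ p) (extOf Ω x) a = comp Ω (κ p) f a := by
    intro p a ha
    have h3 : comp Ω (κ p) (extOf Ω x) a = comp Ω (κ p) (fun b => f b + (fun _ => -m) b) a :=
      comp_congr_on _ _ (fun b hb => by simp [hxext b hb, sub_eq_add_neg]) ha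
    rw [h3, comp_add, comp_const _ _ _ ha, add_zero]
  have e3 : ∑ p ∈ I, ∑ a ∈ Ω, comp Ω (κ p) (extOf Ω x) a * comp Ω (κ p) (extOf Ω x) a =
      ∑ p ∈ I, ∑ a ∈ Ω, comp Ω (κ p) f a ^ 2 := by
    refine sum_congr rfl fun p _ => sum_congr rfl fun a ha => ?_
    rw [e2 p a ha, pow_two]
  rw [e1, e3] at hmain
  have h4 := mul_le_mul_of_nonneg_left hmain hN.le
  have h5 : (Ω.card : ℝ) * (2 * (∑ a ∈ Ω, f a ^ 2 - (∑ a ∈ Ω, f a) ^ 2 / Ω.card)) =
      2 * ((Ω.card : ℝ) * ∑ a ∈ Ω, f a ^ 2 - (∑ a ∈ Ω, f a) ^ 2) := by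
    field_simp
  rw [h5] at h4
  exact h4

end Poincare

end SpectralAux

/-- From `P² ≥ 2P` and `ker P = const` to Poincaré, for `P = ∑ A_i`, `A_i = comp Ω (κ i)`. -/
theorem poincare_of_square {α ι β : Type*} [DecidableEq β] (Ω : Finset α) (I : Finset ι)
    (κ : ι → α → β)
    (hsq : ∀ f : α → ℝ, 2 * ∑ i ∈ I, ∑ a ∈ Ω, comp Ω (κ i) f a ^ 2 ≤
      ∑ i ∈ I, ∑ j ∈ I, ∑ a ∈ Ω, comp Ω (κ i) f a * comp Ω (κ j) f a)
    (hker : ∀ f : α → ℝ, (∀ i ∈ I, ∀ a ∈ Ω, comp Ω (κ i) f a = 0) → ∀ a ∈ Ω, ∀ b ∈ Ω, f a = f b)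
    (f : α → ℝ) :
    (Ω.card : ℝ) * ∑ a ∈ Ω, f a ^ 2 - (∑ a ∈ Ω, f a) ^ 2 ≤
      (Ω.card : ℝ) / 2 * ∑ i ∈ I, ∑ a ∈ Ω, comp Ω (κ i) f a ^ 2 := by
  classical
  have h := SpectralAux.poincare_of_P2 Ω I κ (fun f => by
    refine (hsq f).trans (le_of_eq ?_)
    have h1 : ∀ a, (∑ i ∈ I, comp Ω (κ i) f a) ^ 2 =
        ∑ i ∈ I, ∑ j ∈ I, comp Ω (κ i) f a * comp Ω (κ j) f a := by
      intro a
      rw [pow_two, sum_mul_sum]
    simp only [h1]
    symm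
    calc ∑ a ∈ Ω, ∑ i ∈ I, ∑ j ∈ I, comp Ω (κ i) f a * comp Ω (κ j) f a
        = ∑ i ∈ I, ∑ a ∈ Ω, ∑ j ∈ I, comp Ω (κ i) f a * comp Ω (κ j) f a := Finset.sum_comm
      _ = ∑ i ∈ I, ∑ j ∈ I, ∑ a ∈ Ω, comp Ω (κ i) f a * comp Ω (κ j) f a :=
          sum_congr rfl fun i _ => Finset.sum_comm) hker f
  linarith

end Crest.Agent.Lib.Switch
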