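import Crest.Agent.Lib.Switch.Matchings

/-!
From the Poincaré inequality of the template to the total variation bound; and the Laplacian form of
the Dirichlet form.
-/

set_option autoImplicit false

namespace Crest.Agent.Lib.Switch

open Finset Crest.SwitchChain
open scoped Matrix

variable {n : ℕ}

theorem card_realizations_le (d : Fin n → ℕ) :
    ((realizations d).card : ℝ) ≤ 2 ^ (n ^ 2) := by
  classical
  have h1 : (realizations d).card ≤ Fintype.card (Finset (Edge n)) := Finset.card_le_univ _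
  rw [Fintype.card_finset] at h1
  have h2 : Fintype.card (Edge n) ≤ n ^ 2 := by
    have : Fintype.card (Edge n) ≤ Fintype.card (Sym2 (Fin n)) := Fintype.card_subtype_le _
    rw [Sym2.card, Fintype.card_fin, Nat.choose_two_right] at this
    have h3 : (n + 1) * (n + 1 - 1) / 2 ≤ n ^ 2 := by
      rcases Nat.eq_zero_or_pos n with rfl | h
      · simp
      · have h4 : (n + 1) * (n + 1 - 1) ≤ 2 * n ^ 2 := by
          simp only [Nat.add_sub_cancel]
          nlinarith
        omega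
    omega
  have h3 : (realizations d).card ≤ 2 ^ (n ^ 2) :=
    h1.trans (Nat.pow_le_pow_right (by norm_num) h2)
  exact_mod_cast h3

theorem K_le (n : ℕ) : 24 * (n : ℝ) ^ 2 * (n.choose 4 : ℝ) ≤ (n : ℝ) ^ 6 := by
  have h1 : 24 * n.choose 4 ≤ n ^ 4 := by
    have h2 := Nat.descFactorial_eq_factorial_mul_choose n 4
    have h3 := Nat.descFactorial_le_pow n 4
    have h4 : Nat.factorial 4 = 24 := by decide
    rw [h4] at h2
    omega
  have h2 : (24 : ℝ) * (n.choose 4 : ℝ) ≤ (n : ℝ) ^ 4 := by exact_mod_cast h1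
  have h3 : (0 : ℝ) ≤ (n : ℝ) ^ 2 := by positivity
  nlinarith

theorem numeric (n : ℕ) (hn : 4 ≤ n) (N : ℝ) (hN0 : 0 ≤ N) (hN : N ≤ 2 ^ (n ^ 2)) :
    let K : ℝ := 24 * (n : ℝ) ^ 2 * (n.choose 4 : ℝ)
    1 ≤ K ∧ N * ((1 - 1 / K) ^ (2 * n ^ 8) * 4) ≤ 1 / 4 := by
  intro K
  have hn' : (4 : ℝ) ≤ n := by exact_mod_cast hn
  have hC : (1 : ℝ) ≤ (n.choose 4 : ℝ) := by exact_mod_cast Nat.choose_pos hn
  have hK1 : 1 ≤ K := by
    have : (1 : ℝ) ≤ (n : ℝ) ^ 2 := by nlinarith
    have h3 : (1 : ℝ) ≤ (n : ℝ) ^ 2 * (n.choose 4 : ℝ) := by nlinarith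
    simp only [K]
    nlinarith
  refine ⟨hK1, ?_⟩
  have hK0 : 0 < K := by linarith
  have hKle : K ≤ (n : ℝ) ^ 6 := K_le n
  have hρ0 : 0 ≤ 1 - 1 / K := by
    have : 1 / K ≤ 1 := by rw [div_le_one hK0]; exact hK1
    linarith
  have hexp : 1 - 1 / K ≤ Real.exp (-(1 / K)) := by
    have := Real.add_one_le_exp (-(1 / K))
    linarith
  have hn0 : (0 : ℝ) < n := by linarith
  have hpow : (1 - 1 / K) ^ (2 * n ^ 8) ≤ Real.exp (-(2 * (n : ℝ) ^ 2)) := by
    calc (1 - 1 / K) ^ (2 * n ^ 8) ≤ (Real.exp (-(1 / K))) ^ (2 * n ^ 8) :=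
          pow_le_pow_left₀ hρ0 hexp _
      _ = Real.exp (((2 * n ^ 8 : ℕ) : ℝ) * (-(1 / K))) := by
          rw [← Real.exp_nat_mul]
      _ ≤ Real.exp (-(2 * (n : ℝ) ^ 2)) := by
          apply Real.exp_le_exp.mpr
          have h1 : 1 / (n : ℝ) ^ 6 ≤ 1 / K := one_div_le_one_div_of_le hK0 hKle
          have h2 : (2 * (n : ℝ) ^ 2) = (2 * (n : ℝ) ^ 8) * (1 / (n : ℝ) ^ 6) := by
            field_simp
          push_cast
          rw [h2]
          have h3 : (0 : ℝ) ≤ 2 * (n : ℝ) ^ 8 := by positivity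
          nlinarith [mul_le_mul_of_nonneg_left h1 h3]
  have hE : Real.exp (-(2 * (n : ℝ) ^ 2)) = (Real.exp (-2)) ^ (n ^ 2) := by
    rw [← Real.exp_nat_mul]
    push_cast
    congr 1
    ring
  have hexp2 : Real.exp (-2) ≤ 1 / 4 := by
    have h1 : (2 : ℝ) ≤ Real.exp 1 := by
      have := Real.add_one_le_exp (1 : ℝ); linarith
    have h2 : Real.exp 2 = Real.exp 1 * Real.exp 1 := by
      rw [← Real.exp_add]; norm_num
    have h3 : (4 : ℝ) ≤ Real.exp 2 := by rw [h2]; nlinarith
    rw [Real.exp_neg, ← one_div]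
    exact one_div_le_one_div_of_le (by norm_num) h3
  have hpow2 : (1 - 1 / K) ^ (2 * n ^ 8) ≤ (1 / 4 : ℝ) ^ (n ^ 2) := by
    rw [hE] at hpow
    exact hpow.trans (pow_le_pow_left₀ (Real.exp_pos _).le hexp2 _)
  have hρt : 0 ≤ (1 - 1 / K) ^ (2 * n ^ 8) := pow_nonneg hρ0 _
  calc N * ((1 - 1 / K) ^ (2 * n ^ 8) * 4)
      ≤ 2 ^ (n ^ 2) * ((1 / 4 : ℝ) ^ (n ^ 2) * 4) := by
        have : (1 - 1 / K) ^ (2 * n ^ 8) * 4 ≤ (1 / 4 : ℝ) ^ (n ^ 2) * 4 := by linarith
        exact mul_le_mul hN this (by positivity) (by positivity)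
    _ = (1 / 2 : ℝ) ^ (n ^ 2) * 4 := by
        rw [← mul_assoc, ← mul_pow]; norm_num
    _ ≤ (1 / 2 : ℝ) ^ 4 * 4 := by
        have h16 : 4 ≤ n ^ 2 := by nlinarith
        have := pow_le_pow_of_le_one (by norm_num : (0 : ℝ) ≤ 1 / 2) (by norm_num) h16
        linarith
    _ ≤ 1 / 4 := by norm_num

/-- **The total variation conjunct follows from the Poincaré conjunct.** -/
theorem tv_of_poincare (n : ℕ) (hn : 4 ≤ n) (d : Fin n → ℕ) (hd : (realizations d).Nonempty)
    (H : ∀ f : Finset (Edge n) → ℝ,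
        ((realizations d).card : ℝ) * (∑ G ∈ realizations d, f G ^ 2) -
            (∑ G ∈ realizations d, f G) ^ 2 ≤
          24 * (n : ℝ) ^ 2 * (n.choose 4 : ℝ) * (realizations d).card *
            ∑ G ∈ realizations d,
              f G * (f G - ∑ G' ∈ realizations d, kernel n G G' * f G')) :
    ∃ t : ℕ, t ≤ 2 * n ^ 8 ∧ ∀ G ∈ realizations d,
        tvDist (fun G' => (kernel n ^ t) G G') (unifOn (realizations d)) ≤ 1 / 4 := by
  refine ⟨2 * n ^ 8, le_rfl, fun G hG => ?_⟩
  obtain ⟨hK, hnum⟩ := numeric n hn ((realizations d).card : ℝ) (by positivity)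
    (card_realizations_le d)
  exact tv_of_poincare_abstract (kernel n) (offDiag n) (realizations d) hd _ hK kernel_eq
    offDiag_nonneg offDiag_symm (offDiag_row hn) (offDiag_closed d) H _ hnum G hG

/-! ### The Dirichlet form -/

/-- `proposalCount` vanishes from a realization to a non-realization. -/
theorem offDiag_closed' (d : Fin n → ℕ) {G G' : Finset (Edge n)} (hG : G ∈ realizations d)
    (hG' : G' ∉ realizations d) : offDiag n G G' = 0 := offDiag_closed d G hG G' hG'

/-- Row sum of the off-diagonal part inside the class. -/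
theorem offDiag_row_in (hn : 4 ≤ n) (d : Fin n → ℕ) {G : Finset (Edge n)}
    (hG : G ∈ realizations d) : ∑ G' ∈ realizations d, offDiag n G G' = 1 / 2 := by
  rw [← offDiag_row hn G]
  exact Finset.sum_subset (Finset.subset_univ _) fun G' _ hG' => offDiag_closed' d hG hG'

/-- The form in the template, pointwise: `f G - P f G` as a sum of gradients. -/
theorem one_sub_kernel (hn : 4 ≤ n) (d : Fin n → ℕ) (f : Finset (Edge n) → ℝ)
    {G : Finset (Edge n)} (hG : G ∈ realizations d) :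
    f G - ∑ G' ∈ realizations d, kernel n G G' * f G'
      = ∑ G' ∈ realizations d, offDiag n G G' * (f G - f G') := by
  classical
  have h1 : ∑ G' ∈ realizations d, kernel n G G' * f G'
      = 1 / 2 * f G + ∑ G' ∈ realizations d, offDiag n G G' * f G' := by
    simp only [kernel_eq, add_mul, Finset.sum_add_distrib]
    congr 1
    simp only [ite_mul, zero_mul, Finset.sum_ite_eq, hG, if_true]
  have h2 : ∑ G' ∈ realizations d, offDiag n G G' * (f G - f G')
      = (∑ G' ∈ realizations d, offDiag n G G') * f G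
        - ∑ G' ∈ realizations d, offDiag n G G' * f G' := by
    rw [Finset.sum_mul, ← Finset.sum_sub_distrib]
    exact Finset.sum_congr rfl fun G' _ => by ring
  rw [h1, h2, offDiag_row_in hn d hG]
  ring

/-- **The Dirichlet form of the template as a symmetric sum of squared gradients.** -/
theorem dirichlet_eq (hn : 4 ≤ n) (d : Fin n → ℕ) (f : Finset (Edge n) → ℝ) :
    ∑ G ∈ realizations d, f G * (f G - ∑ G' ∈ realizations d, kernel n G G' * f G')
      = (1 / 2) * ∑ G ∈ realizations d, ∑ G' ∈ realizations d,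
          offDiag n G G' * (f G - f G') ^ 2 := by
  classical
  set Ω := realizations d
  have h1 : ∑ G ∈ Ω, f G * (f G - ∑ G' ∈ Ω, kernel n G G' * f G')
      = ∑ G ∈ Ω, ∑ G' ∈ Ω, offDiag n G G' * (f G * (f G - f G')) := by
    refine Finset.sum_congr rfl fun G hG => ?_
    rw [one_sub_kernel hn d f hG, Finset.mul_sum]
    exact Finset.sum_congr rfl fun G' _ => by ring
  have h2 : ∑ G ∈ Ω, ∑ G' ∈ Ω, offDiag n G G' * (f G * (f G - f G'))
      = ∑ G ∈ Ω, ∑ G' ∈ Ω, offDiag n G G' * (f G' * (f G' - f G)) := by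
    rw [Finset.sum_comm]
    refine Finset.sum_congr rfl fun G _ => Finset.sum_congr rfl fun G' _ => ?_
    rw [offDiag_symm]
  have h3 : ∑ G ∈ Ω, ∑ G' ∈ Ω, offDiag n G G' * (f G - f G') ^ 2
      = ∑ G ∈ Ω, ∑ G' ∈ Ω, offDiag n G G' * (f G * (f G - f G'))
        + ∑ G ∈ Ω, ∑ G' ∈ Ω, offDiag n G G' * (f G' * (f G' - f G)) := by
    rw [← Finset.sum_add_distrib]
    refine Finset.sum_congr rfl fun G _ => ?_
    rw [← Finset.sum_add_distrib]
    exact Finset.sum_congr rfl fun G' _ => by ring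
  rw [h1, h3, ← h2]
  ring

/-- **Reduction of the whole statement** to a Poincaré inequality for the rate-one form
`Σ_{G,G'} proposalCount G G' (f G - f G')²`, up to the constant `4 n²`. (The statement's bound is
`Var f ≤ 2 n² ⟨f, L f⟩`, with `⟨f, L f⟩ = ½ Σ_{G,G'} proposalCount G G' (f G - f G')²`.) -/
theorem poincare_of_laplacian (hn : 4 ≤ n) (d : Fin n → ℕ)
    (H : ∀ f : Finset (Edge n) → ℝ,
      ((realizations d).card : ℝ) * (∑ G ∈ realizations d, f G ^ 2) -
          (∑ G ∈ realizations d, f G) ^ 2 ≤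
        (n : ℝ) ^ 2 * (realizations d).card *
          ∑ G ∈ realizations d, ∑ G' ∈ realizations d,
            (proposalCount G G' : ℝ) * (f G - f G') ^ 2) :
    ∀ f : Finset (Edge n) → ℝ,
      ((realizations d).card : ℝ) * (∑ G ∈ realizations d, f G ^ 2) -
          (∑ G ∈ realizations d, f G) ^ 2 ≤
        24 * (n : ℝ) ^ 2 * (n.choose 4 : ℝ) * (realizations d).card *
          ∑ G ∈ realizations d,
            f G * (f G - ∑ G' ∈ realizations d, kernel n G G' * f G') := by
  intro f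
  refine (H f).trans (le_of_eq ?_)
  rw [dirichlet_eq hn d f]
  have hC := choose_pos_of_four hn
  have : ∑ G ∈ realizations d, ∑ G' ∈ realizations d, offDiag n G G' * (f G - f G') ^ 2
      = (1 / (12 * (n.choose 4 : ℝ))) * ∑ G ∈ realizations d, ∑ G' ∈ realizations d,
          (proposalCount G G' : ℝ) * (f G - f G') ^ 2 := by
    rw [Finset.mul_sum]
    refine Finset.sum_congr rfl fun G _ => ?_
    rw [Finset.mul_sum]
    refine Finset.sum_congr rfl fun G' _ => ?_
    unfold offDiag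
    field_simp
  rw [this]
  field_simp
  ring

end Crest.Agent.Lib.Switch
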