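import Mathlib

/-!
# The pure three-row table lemma (S0453, term X3)

States are labelings `l : C → Fin 3` of a finite column set with a column type `ty : C → Bool`,
subject to: for every row `r`, #(type-true columns with label r) - #(type-false columns with
label r) = δ r.  `Π_r` averages over states with the same set of columns labelled `r`.
Main result: the spectrum of `Q = Π_0 + Π_1 + Π_2` misses `(2,3)`, and so for every `f`
`‖Σ_r A_r f‖² ≥ Σ_r ‖A_r f‖²`, with `A_r = 1 - Π_r`.
-/

set_option autoImplicit false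

open Finset

namespace Crest.Agent.Switch.Table3

/-! ## Averaging over the fibres of a map -/

section Avg

variable {S X : Type*} [Fintype S] [DecidableEq X]

/-- The class of `x` under `ρ`. -/
def cls (ρ : S → X) (x : S) : Finset S := univ.filter fun y => ρ y = ρ x

/-- Average over the class of `x`. -/
noncomputable def avg (ρ : S → X) (f : S → ℝ) (x : S) : ℝ :=
  (∑ y ∈ cls ρ x, f y) / ((cls ρ x).card : ℝ)

lemma mem_cls_self (ρ : S → X) (x : S) : x ∈ cls ρ x := by simp [cls]

lemma cls_card_pos (ρ : S → X) (x : S) : 0 < ((cls ρ x).card : ℝ) := by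
  have : 0 < (cls ρ x).card := Finset.card_pos.mpr ⟨x, mem_cls_self ρ x⟩
  exact_mod_cast this

lemma cls_congr {ρ : S → X} {x y : S} (h : ρ x = ρ y) : cls ρ x = cls ρ y := by
  simp [cls, h]

lemma avg_congr {ρ : S → X} (f : S → ℝ) {x y : S} (h : ρ x = ρ y) : avg ρ f x = avg ρ f y := by
  simp [avg, cls_congr h]

lemma avg_of_const {ρ : S → X} {f : S → ℝ} {x : S} {c : ℝ} (h : ∀ y, ρ y = ρ x → f y = c) :
    avg ρ f x = c := by
  have hpos := cls_card_pos ρ x
  have : ∑ y ∈ cls ρ x, f y = (cls ρ x).card * c := by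
    rw [Finset.sum_congr rfl (g := fun _ => c)]
    · simp
    · intro y hy
      exact h y (by simpa [cls] using hy)
  rw [avg, this]
  field_simp

lemma avg_comp (ρ : S → X) (g : X → ℝ) (x : S) : avg ρ (fun y => g (ρ y)) x = g (ρ x) :=
  avg_of_const (fun y hy => by rw [hy])

lemma avg_avg (ρ : S → X) (f : S → ℝ) (x : S) : avg ρ (avg ρ f) x = avg ρ f x :=
  avg_of_const (fun _ hy => avg_congr f hy)

lemma avg_add (ρ : S → X) (f g : S → ℝ) (x : S) :
    avg ρ (fun y => f y + g y) x = avg ρ f x + avg ρ g x := by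
  simp only [avg, Finset.sum_add_distrib, add_div]

lemma avg_sub (ρ : S → X) (f g : S → ℝ) (x : S) :
    avg ρ (fun y => f y - g y) x = avg ρ f x - avg ρ g x := by
  simp only [avg, Finset.sum_sub_distrib, sub_div]

lemma avg_smul (ρ : S → X) (c : ℝ) (f : S → ℝ) (x : S) :
    avg ρ (fun y => c * f y) x = c * avg ρ f x := by
  simp only [avg, ← Finset.mul_sum, mul_div_assoc]

lemma avg_neg (ρ : S → X) (f : S → ℝ) (x : S) :
    avg ρ (fun y => - f y) x = - avg ρ f x := by
  simp only [avg, Finset.sum_neg_distrib, neg_div]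

lemma avg_congr_on {ρ : S → X} {f f' : S → ℝ} {x : S} (h : ∀ y, ρ y = ρ x → f y = f' y) :
    avg ρ f x = avg ρ f' x := by
  rw [avg, avg]
  congr 1
  refine Finset.sum_congr rfl fun y hy => h y (by simpa [cls] using hy)

/-- Self-adjointness of the average. -/
lemma avg_symm (ρ : S → X) (f h : S → ℝ) :
    ∑ x, avg ρ f x * h x = ∑ x, f x * avg ρ h x := by
  classical
  have key : ∀ (f h : S → ℝ), ∑ x, avg ρ f x * h x =
      ∑ x, ∑ y, if ρ y = ρ x then f y * h x / ((cls ρ x).card : ℝ) else 0 := by
    intro f h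
    refine Finset.sum_congr rfl fun x _ => ?_
    rw [avg, cls, Finset.sum_filter, Finset.sum_div, Finset.sum_mul]
    refine Finset.sum_congr rfl fun y _ => ?_
    split_ifs
    · ring
    · simp
  rw [key]
  have key2 : ∑ x, f x * avg ρ h x =
      ∑ x, ∑ y, if ρ y = ρ x then h y * f x / ((cls ρ x).card : ℝ) else 0 := by
    rw [← key h f]
    refine Finset.sum_congr rfl fun x _ => by ring
  rw [key2, Finset.sum_comm]
  refine Finset.sum_congr rfl fun x _ => Finset.sum_congr rfl fun y _ => ?_
  by_cases hxy : ρ y = ρ x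
  · rw [if_pos hxy, if_pos hxy.symm, cls_congr hxy, mul_comm (h y)]
  · rw [if_neg hxy, if_neg (fun h => hxy h.symm)]

/-- `⟨Π f, Π f⟩ = ⟨Π f, f⟩`. -/
lemma avg_sq (ρ : S → X) (f : S → ℝ) :
    ∑ x, avg ρ f x * avg ρ f x = ∑ x, avg ρ f x * f x := by
  rw [avg_symm]
  refine Finset.sum_congr rfl fun x _ => ?_
  rw [avg_avg]
  ring

/-- Equivariance of the average under a permutation respecting the classes. -/
lemma avg_perm (ρ : S → X) (σ : Equiv.Perm S) (hσ : ∀ x y, ρ (σ x) = ρ (σ y) ↔ ρ x = ρ y)
    (f : S → ℝ) (x : S) : avg ρ (fun y => f (σ y)) x = avg ρ f (σ x) := by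
  classical
  have hcls : cls ρ (σ x) = (cls ρ x).image σ := by
    ext y
    simp only [cls, mem_filter, mem_univ, true_and, mem_image]
    constructor
    · intro hy
      refine ⟨σ.symm y, ?_, by simp⟩
      rw [← hσ]
      simpa using hy
    · rintro ⟨z, hz, rfl⟩
      exact (hσ z x).2 hz
  have hinj : Function.Injective σ := σ.injective
  rw [avg, avg, hcls, Finset.sum_image (fun a _ b _ h => hinj h),
    Finset.card_image_of_injective _ hinj]

end Avg

/-! ## Spectral lemma -/

section Spectral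

variable {S : Type*} [Fintype S] [DecidableEq S]

/-- If every eigenvalue `τ` of the symmetric operator `T` has `(τ-a)(τ-b) ≥ 0`, then the quadratic
form of `(T-a)(T-b)` is nonnegative. -/
theorem form_nonneg_of_eigen (T : (S → ℝ) →ₗ[ℝ] (S → ℝ))
    (hT : ∀ f g : S → ℝ, ∑ x, T f x * g x = ∑ x, f x * T g x) (a b' : ℝ)
    (h : ∀ (τ : ℝ) (v : S → ℝ), v ≠ 0 → T v = τ • v → 0 ≤ (τ - a) * (τ - b')) (f : S → ℝ) :
    0 ≤ ∑ x, (T f x - a * f x) * (T f x - b' * f x) := by
  classical
  set M : Matrix S S ℝ := LinearMap.toMatrix' T with hM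
  have hMapp : ∀ v, M.mulVec v = T v := fun v => by
    rw [hM, ← LinearMap.toMatrix'_mulVec] 
  have hherm : M.IsHermitian := by
    ext i j
    simp only [Matrix.conjTranspose_apply, star_trivial]
    have h1 := hT (Pi.single i 1) (Pi.single j 1)
    simp only [Pi.single_apply, mul_ite, mul_one, mul_zero, ite_mul, one_mul, zero_mul,
      Finset.sum_ite_eq', Finset.mem_univ, if_true] at h1
    simpa [hM, LinearMap.toMatrix'_apply, Pi.single_apply] using h1
  set b := hherm.eigenvectorBasis with hb
  -- eigenfunctions as plain functions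
  let e : S → S → ℝ := fun j x => b j x
  have he : ∀ j, T (e j) = hherm.eigenvalues j • e j := by
    intro j
    rw [← hMapp]
    exact hherm.mulVec_eigenvectorBasis j
  have hne : ∀ j, e j ≠ 0 := by
    intro j h0
    have h1 : ‖b j‖ = 1 := b.orthonormal.1 j
    have h2 : b j = 0 := by
      ext x
      exact congrFun h0 x
    rw [h2] at h1
    simp at h1
  -- Parseval
  let c : (S → ℝ) → S → ℝ := fun u j => ∑ x, e j x * u x
  have parseval : ∀ u v : S → ℝ, ∑ x, u x * v x = ∑ j, c u j * c v j := by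
    intro u v
    have := b.sum_inner_mul_inner (WithLp.toLp 2 u) (WithLp.toLp 2 v)
    simp only [PiLp.inner_apply, RCLike.inner_apply, conj_trivial] at this
    rw [show ∑ x, u x * v x = ∑ x, v x * u x from Finset.sum_congr rfl fun _ _ => mul_comm _ _,
      ← this]
    refine Finset.sum_congr rfl fun j _ => ?_
    simp only [c, e]
    congr 1
    exact Finset.sum_congr rfl fun _ _ => by ring
  have hcT : ∀ (d : ℝ) (j : S), c (fun x => T f x - d * f x) j =
      (hherm.eigenvalues j - d) * c f j := by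
    intro d j
    have h1 : ∑ x, e j x * T f x = ∑ x, T (e j) x * f x := (hT (e j) f).symm
    simp only [c, mul_sub, Finset.sum_sub_distrib, h1, he j, Pi.smul_apply, smul_eq_mul]
    rw [sub_mul, Finset.mul_sum, Finset.mul_sum]
    congr 1
    · exact Finset.sum_congr rfl fun _ _ => by ring
    · exact Finset.sum_congr rfl fun _ _ => by ring
  rw [parseval (fun x => T f x - a * f x) (fun x => T f x - b' * f x)]
  refine Finset.sum_nonneg fun j _ => ?_
  rw [hcT, hcT]
  have h1 := h (hherm.eigenvalues j) (e j) (hne j) (he j)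
  nlinarith [mul_nonneg h1 (mul_self_nonneg (c f j))]

/-- If all eigenfunctions of `T` with eigenvalue above `a` are orthogonal to `h`, then
`⟨T h, h⟩ ≤ a ‖h‖²`. -/
theorem form_le_of_eigen (T : (S → ℝ) →ₗ[ℝ] (S → ℝ))
    (hT : ∀ f g : S → ℝ, ∑ x, T f x * g x = ∑ x, f x * T g x) (a : ℝ) (h : S → ℝ)
    (hh : ∀ (τ : ℝ) (v : S → ℝ), v ≠ 0 → T v = τ • v → a < τ → ∑ x, v x * h x = 0) :
    ∑ x, T h x * h x ≤ a * ∑ x, h x ^ 2 := by
  classical
  set M : Matrix S S ℝ := LinearMap.toMatrix' T with hM
  have hMapp : ∀ v, M.mulVec v = T v := fun v => by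
    rw [hM, ← LinearMap.toMatrix'_mulVec]
  have hherm : M.IsHermitian := by
    ext i j
    simp only [Matrix.conjTranspose_apply, star_trivial]
    have h1 := hT (Pi.single i 1) (Pi.single j 1)
    simp only [Pi.single_apply, mul_ite, mul_one, mul_zero, ite_mul, one_mul, zero_mul,
      Finset.sum_ite_eq', Finset.mem_univ, if_true] at h1
    simpa [hM, LinearMap.toMatrix'_apply, Pi.single_apply] using h1
  set b := hherm.eigenvectorBasis with hb
  let e : S → S → ℝ := fun j x => b j x
  have he : ∀ j, T (e j) = hherm.eigenvalues j • e j := by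
    intro j
    rw [← hMapp]
    exact hherm.mulVec_eigenvectorBasis j
  have hne : ∀ j, e j ≠ 0 := by
    intro j h0
    have h1 : ‖b j‖ = 1 := b.orthonormal.1 j
    have h2 : b j = 0 := by
      ext x
      exact congrFun h0 x
    rw [h2] at h1
    simp at h1
  let c : (S → ℝ) → S → ℝ := fun u j => ∑ x, e j x * u x
  have parseval : ∀ u v : S → ℝ, ∑ x, u x * v x = ∑ j, c u j * c v j := by
    intro u v
    have := b.sum_inner_mul_inner (WithLp.toLp 2 u) (WithLp.toLp 2 v)
    simp only [PiLp.inner_apply, RCLike.inner_apply, conj_trivial] at this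
    rw [show ∑ x, u x * v x = ∑ x, v x * u x from Finset.sum_congr rfl fun _ _ => mul_comm _ _,
      ← this]
    refine Finset.sum_congr rfl fun j _ => ?_
    simp only [c, e]
    congr 1
    exact Finset.sum_congr rfl fun _ _ => by ring
  have hcT : ∀ j, c (T h) j = hherm.eigenvalues j * c h j := by
    intro j
    have h1 : ∑ x, e j x * T h x = ∑ x, T (e j) x * h x := (hT (e j) h).symm
    simp only [c, h1, he j, Pi.smul_apply, smul_eq_mul]
    rw [Finset.mul_sum]
    exact Finset.sum_congr rfl fun _ _ => by ring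
  rw [parseval (T h) h]
  have hsq : ∑ x, h x ^ 2 = ∑ j, c h j * c h j := by
    rw [← parseval h h]
    exact Finset.sum_congr rfl fun _ _ => by ring
  rw [hsq, Finset.mul_sum]
  refine Finset.sum_le_sum fun j _ => ?_
  rw [hcT]
  by_cases hj : a < hherm.eigenvalues j
  · have h0 : c h j = 0 := hh _ (e j) (hne j) (he j) hj
    rw [h0]
    simp
  · have : hherm.eigenvalues j ≤ a := not_lt.mp hj
    nlinarith [mul_self_nonneg (c h j)]

end Spectral

/-! ## Three row maps: operator `Q`, antisymmetric sector -/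

section Rows

variable {S X : Type*} [Fintype S] [DecidableEq X] (ρ : Fin 3 → S → X)

/-- `Q = Π_0 + Π_1 + Π_2`. -/
noncomputable def Q (f : S → ℝ) (x : S) : ℝ := ∑ r, avg (ρ r) f x

/-- `Q` as a linear map. -/
noncomputable def Qlin : (S → ℝ) →ₗ[ℝ] (S → ℝ) where
  toFun := Q ρ
  map_add' f g := by
    funext x
    simp only [Q, Pi.add_apply, ← Finset.sum_add_distrib]
    exact Finset.sum_congr rfl fun r _ => avg_add (ρ r) f g x
  map_smul' c f := by
    funext x
    simp only [Q, Pi.smul_apply, smul_eq_mul, RingHom.id_apply, Finset.mul_sum]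
    exact Finset.sum_congr rfl fun r _ => avg_smul (ρ r) c f x

lemma Q_symm (f g : S → ℝ) : ∑ x, Q ρ f x * g x = ∑ x, f x * Q ρ g x := by
  simp only [Q, Finset.sum_mul, Finset.mul_sum]
  rw [Finset.sum_comm]
  conv_rhs => rw [Finset.sum_comm]
  exact Finset.sum_congr rfl fun r _ => avg_symm (ρ r) f g

/-- Antisymmetric sector: an eigenfunction of `Q` with eigenvalue `τ > 2` is invariant under every
class-respecting involution `σ` such that each state keeps at least one of its rows. -/
theorem eigen_invariant (σ : Equiv.Perm S) (hinv : ∀ x, σ (σ x) = x)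
    (hσ : ∀ r x y, ρ r (σ x) = ρ r (σ y) ↔ ρ r x = ρ r y)
    (hfix : ∀ x, ∃ r, ρ r (σ x) = ρ r x) {τ : ℝ} (hτ : 2 < τ) {f : S → ℝ}
    (hf : ∀ x, Q ρ f x = τ * f x) (x : S) : f (σ x) = f x := by
  set h : S → ℝ := fun y => f y - f (σ y) with hh
  have hhσ : ∀ y, h (σ y) = - h y := fun y => by simp [hh, hinv]
  have hQh : ∀ y, Q ρ h y = τ * h y := by
    intro y
    have h1 : ∀ r, avg (ρ r) h y = avg (ρ r) f y - avg (ρ r) f (σ y) := fun r => by
      rw [hh, avg_sub, avg_perm (ρ r) σ (hσ r)]
    simp only [Q, h1, Finset.sum_sub_distrib]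
    have h2 := hf y
    have h3 := hf (σ y)
    simp only [Q] at h2 h3
    rw [h2, h3, hh]
    ring
  set g : Fin 3 → S → ℝ := fun r => avg (ρ r) h with hg
  have hgσ : ∀ r y, g r (σ y) = - g r y := by
    intro r y
    simp only [hg]
    rw [← avg_perm (ρ r) σ (hσ r)]
    have : (fun y => h (σ y)) = fun y => - h y := funext hhσ
    rw [this, avg_neg]
  have hpt : ∀ y, (∑ r, g r y) ^ 2 ≤ 2 * ∑ r, (g r y) ^ 2 := by
    intro y
    obtain ⟨r0, hr0⟩ := hfix y
    have hz : g r0 y = 0 := by
      have h1 : g r0 (σ y) = g r0 y := avg_congr _ hr0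
      have h2 := hgσ r0 y
      linarith
    simp only [Fin.sum_univ_three]
    fin_cases r0
    · simp only [Fin.zero_eta] at hz
      rw [hz]
      nlinarith [sq_nonneg (g 1 y - g 2 y)]
    · simp only [Fin.mk_one] at hz
      rw [hz]
      nlinarith [sq_nonneg (g 0 y - g 2 y)]
    · simp only [Fin.reduceFinMk] at hz
      rw [hz]
      nlinarith [sq_nonneg (g 0 y - g 1 y)]
  have hsum : ∑ y, (Q ρ h y) ^ 2 ≤ 2 * ∑ y, Q ρ h y * h y := by
    have h1 : ∑ y, (Q ρ h y) ^ 2 ≤ ∑ y, 2 * ∑ r, (g r y) ^ 2 :=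
      Finset.sum_le_sum fun y _ => hpt y
    have h2 : ∑ y, 2 * ∑ r, (g r y) ^ 2 = 2 * ∑ y, Q ρ h y * h y := by
      rw [← Finset.mul_sum]
      congr 1
      simp only [Q, Finset.sum_mul]
      rw [Finset.sum_comm]
      conv_rhs => rw [Finset.sum_comm]
      refine Finset.sum_congr rfl fun r _ => ?_
      have := avg_sq (ρ r) h
      simp only [hg, sq]
      exact this
    linarith
  have hnorm : ∑ y, (h y) ^ 2 ≤ 0 := by
    have h1 : ∑ y, (Q ρ h y) ^ 2 = τ ^ 2 * ∑ y, (h y) ^ 2 := by
      rw [Finset.mul_sum]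
      exact Finset.sum_congr rfl fun y _ => by rw [hQh]; ring
    have h2 : ∑ y, Q ρ h y * h y = τ * ∑ y, (h y) ^ 2 := by
      rw [Finset.mul_sum]
      exact Finset.sum_congr rfl fun y _ => by rw [hQh]; ring
    rw [h1, h2] at hsum
    have h3 : 0 ≤ ∑ y, (h y) ^ 2 := Finset.sum_nonneg fun _ _ => sq_nonneg _
    by_contra hcon
    have hcon' := not_le.mp hcon
    nlinarith [mul_pos (mul_pos (by linarith : 0 < τ) (by linarith : 0 < τ - 2)) hcon']
  have hzero : h x = 0 := by
    have h1 : ∑ y, (h y) ^ 2 = 0 :=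
      le_antisymm hnorm (Finset.sum_nonneg fun _ _ => sq_nonneg _)
    have h2 := (Finset.sum_eq_zero_iff_of_nonneg (fun _ _ => sq_nonneg _)).1 h1 x (Finset.mem_univ _)
    exact pow_eq_zero_iff (two_ne_zero) |>.1 h2
  simp only [hh] at hzero
  linarith

end Rows

/-! ## The hypergeometric transport -/

section Transport

/-- The weighted sum over `n₁ + n₂ = k` with weights `C(A,n₁) C(B,n₂)`. -/
noncomputable def W (A B k : ℕ) (F : ℕ → ℕ → ℝ) : ℝ :=
  ∑ p ∈ Finset.HasAntidiagonal.antidiagonal k, (A.choose p.1 : ℝ) * (B.choose p.2 : ℝ) * F p.1 p.2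

lemma choose_succ_real (N i : ℕ) :
    (N.choose (i + 1) : ℝ) * ((i : ℝ) + 1) = (N.choose i : ℝ) * ((N : ℝ) - i) := by
  by_cases h : i ≤ N
  · have h1 := Nat.choose_succ_right_eq N i
    have h2 : ((N - i : ℕ) : ℝ) = (N : ℝ) - i := by
      rw [Nat.cast_sub h]
    rw [← h2]
    exact_mod_cast h1
  · have h := not_le.mp h
    rw [Nat.choose_eq_zero_of_lt h, Nat.choose_eq_zero_of_lt (by omega : N < i + 1)]
    simp

lemma choose_pascal_real (N i : ℕ) :
    ((N + 1).choose (i + 1) : ℝ) = (N.choose i : ℝ) + (N.choose (i + 1) : ℝ) := by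
  rw [Nat.choose_succ_succ]
  push_cast
  ring

lemma choose_top_real (N j : ℕ) :
    ((j : ℝ) + 1) * ((N + 1).choose (j + 1) : ℝ) = ((N : ℝ) + 1) * (N.choose j : ℝ) := by
  have := Nat.add_one_mul_choose_eq N j
  have h2 : ((N + 1) * N.choose j : ℝ) = (((N + 1).choose (j + 1) * (j + 1) : ℕ) : ℝ) := by
    rw [← this]
    push_cast
    ring
  rw [h2]
  push_cast
  ring

/-- The transport identity. -/
theorem transport_identity (A' B' k' : ℕ) (h : ℕ → ℕ → ℝ) :
    let K : ℝ := (k' : ℝ) + 1
    let M : ℝ := (A' : ℝ) + B' + 1 - k'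
    K * M * W (A' + 1) (B' + 1) (k' + 1) h =
      W A' B' k' (fun m₁ m₂ =>
        (K * M + K * m₁ + M * ((B' : ℝ) - m₂)) * h m₁ (m₂ + 1) +
        (K * M + K * m₂ + M * ((A' : ℝ) - m₁)) * h (m₁ + 1) m₂) := by
  intro K M
  set U : ℕ → ℕ → ℝ := fun m₁ m₂ => K * M + K * m₁ + M * ((B' : ℝ) - m₂) with hU
  set T : ℕ → ℕ → ℝ := fun m₁ m₂ => K * M + K * m₂ + M * ((A' : ℝ) - m₁) with hT
  -- the two pieces, extended to the next antidiagonal
  let φa : ℕ × ℕ → ℝ := fun p => match p.2 with
    | 0 => 0
    | j + 1 => (A'.choose p.1 : ℝ) * (B'.choose j : ℝ) * (U p.1 j * h p.1 (j + 1))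
  let φb : ℕ × ℕ → ℝ := fun p => match p.1 with
    | 0 => 0
    | i + 1 => (A'.choose i : ℝ) * (B'.choose p.2 : ℝ) * (T i p.2 * h (i + 1) p.2)
  have h1 : ∑ p ∈ Finset.HasAntidiagonal.antidiagonal (k' + 1), φa p =
      ∑ p ∈ Finset.HasAntidiagonal.antidiagonal k', (A'.choose p.1 : ℝ) * (B'.choose p.2 : ℝ) *
        (U p.1 p.2 * h p.1 (p.2 + 1)) := by
    rw [Finset.Nat.sum_antidiagonal_succ']
    simp [φa]
  have h2 : ∑ p ∈ Finset.HasAntidiagonal.antidiagonal (k' + 1), φb p =
      ∑ p ∈ Finset.HasAntidiagonal.antidiagonal k', (A'.choose p.1 : ℝ) * (B'.choose p.2 : ℝ) *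
        (T p.1 p.2 * h (p.1 + 1) p.2) := by
    rw [Finset.Nat.sum_antidiagonal_succ]
    simp [φb]
  have h3 : W A' B' k' (fun m₁ m₂ => U m₁ m₂ * h m₁ (m₂ + 1) + T m₁ m₂ * h (m₁ + 1) m₂) =
      ∑ p ∈ Finset.HasAntidiagonal.antidiagonal (k' + 1), φa p + ∑ p ∈ Finset.HasAntidiagonal.antidiagonal (k' + 1), φb p := by
    rw [h1, h2, W, ← Finset.sum_add_distrib]
    exact Finset.sum_congr rfl fun p _ => by ring
  rw [h3, W, Finset.mul_sum, ← Finset.sum_add_distrib]
  refine Finset.sum_congr rfl fun p hp => ?_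
  obtain ⟨n₁, n₂⟩ := p
  have hsum : n₁ + n₂ = k' + 1 := by simpa using hp
  have hK : K = (n₁ : ℝ) + n₂ := by
    have : ((n₁ + n₂ : ℕ) : ℝ) = ((k' + 1 : ℕ) : ℝ) := by rw [hsum]
    push_cast at this
    simp only [K]
    linarith
  have hM : M = (A' : ℝ) + B' + 2 - n₁ - n₂ := by
    have : ((n₁ + n₂ : ℕ) : ℝ) = ((k' + 1 : ℕ) : ℝ) := by rw [hsum]
    push_cast at this
    simp only [M]
    linarith
  rcases n₁ with _ | i
  · rcases n₂ with _ | j
    · omega
    · -- n₁ = 0
      simp only [φa, φb, Nat.choose_zero_right, Nat.cast_one, one_mul, add_zero, mul_one]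
      have hc := choose_top_real B' j
      simp only [hU]
      simp only [Nat.cast_zero, zero_add, Nat.cast_add, Nat.cast_one] at hK hM
      rw [hK]
      push_cast
      linear_combination (M * h 0 (j + 1)) * hc
  · rcases n₂ with _ | j
    · -- n₂ = 0
      simp only [φa, φb, Nat.choose_zero_right, Nat.cast_one, mul_one, zero_add, add_zero]
      have hc := choose_top_real A' i
      simp only [hT]
      simp only [Nat.cast_zero, add_zero, Nat.cast_add, Nat.cast_one] at hK hM
      rw [hK]
      push_cast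
      linear_combination (M * h (i + 1) 0) * hc
    · -- both positive
      simp only [φa, φb]
      have hx := choose_succ_real A' i
      have hy := choose_succ_real B' j
      rw [choose_pascal_real, choose_pascal_real]
      set x := (A'.choose i : ℝ)
      set x' := (A'.choose (i + 1) : ℝ)
      set y := (B'.choose j : ℝ)
      set y' := (B'.choose (j + 1) : ℝ)
      simp only [hU, hT]
      push_cast at hK hM ⊢
      have hi : (0 : ℝ) < (i : ℝ) + 1 := by positivity
      have hj : (0 : ℝ) < (j : ℝ) + 1 := by positivity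
      have hx' : x' = x * ((A' : ℝ) - i) / ((i : ℝ) + 1) := by
        field_simp
        linarith
      have hy' : y' = y * ((B' : ℝ) - j) / ((j : ℝ) + 1) := by
        field_simp
        linarith
      have : K * M * ((x + x') * (y + y')) = x' * y * (K * M + K * ((i : ℝ) + 1) + M * ((B' : ℝ) - j))
          + x * y' * (K * M + K * ((j : ℝ) + 1) + M * ((A' : ℝ) - i)) := by
        rw [hx', hy', hK, hM]
        field_simp
        ring
      rw [show K * M * ((x + x') * (y + y') * h (i + 1) (j + 1)) =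
        (K * M * ((x + x') * (y + y'))) * h (i + 1) (j + 1) by ring, this]
      ring

/-- The number-theoretic Lipschitz step. -/
theorem transport_bound (A' B' k' : ℕ) (hk' : k' ≤ A' + B') (hZ : 0 < W A' B' k' fun _ _ => 1)
    (h h' : ℕ → ℕ → ℝ) (L : ℝ)
    (hu : ∀ m₁ m₂, m₁ ≤ A' → m₂ ≤ B' → m₁ + m₂ = k' → |h m₁ (m₂ + 1) - h' m₁ m₂| ≤ L)
    (hs : ∀ m₁ m₂, m₁ ≤ A' → m₂ ≤ B' → m₁ + m₂ = k' → |h (m₁ + 1) m₂ - h' m₁ m₂| ≤ L) :
    |W (A' + 1) (B' + 1) (k' + 1) h / W (A' + 1) (B' + 1) (k' + 1) (fun _ _ => 1) -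
      W A' B' k' h' / W A' B' k' (fun _ _ => 1)| ≤ L := by
  set K : ℝ := (k' : ℝ) + 1 with hK
  set M : ℝ := (A' : ℝ) + B' + 1 - k' with hM
  have hKpos : 0 < K := by positivity
  have hMpos : 0 < M := by
    have : (k' : ℝ) ≤ (A' : ℝ) + B' := by exact_mod_cast hk'
    rw [hM]
    linarith
  set U : ℕ → ℕ → ℝ := fun m₁ m₂ => K * M + K * m₁ + M * ((B' : ℝ) - m₂) with hU
  set T : ℕ → ℕ → ℝ := fun m₁ m₂ => K * M + K * m₂ + M * ((A' : ℝ) - m₁) with hT
  set Dd : ℝ := (K + M) * (K + M - 1) with hDd
  have hDdpos : 0 < Dd := by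
    have h1 : (1 : ℝ) ≤ K := by rw [hK]; linarith [(Nat.cast_nonneg k' : (0 : ℝ) ≤ (k' : ℝ))]
    have : 0 < K + M := by linarith
    have : 0 < K + M - 1 := by linarith
    positivity
  have hUT : ∀ p ∈ Finset.HasAntidiagonal.antidiagonal k', U p.1 p.2 + T p.1 p.2 = Dd := by
    intro p hp
    have hp' : p.1 + p.2 = k' := by simpa using hp
    have hc : (p.1 : ℝ) + p.2 = k' := by exact_mod_cast hp'
    simp only [hU, hT, hDd]
    have hk : (k' : ℝ) = K - 1 := by rw [hK]; ring
    have hAB : (A' : ℝ) + B' = M + k' - 1 := by rw [hM]; ring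
    have e1 : K * (p.1 : ℝ) + K * (p.2 : ℝ) = K * (K - 1) := by
      rw [← mul_add, hc, hk]
    have e2 : M * ((B' : ℝ) - p.2) + M * ((A' : ℝ) - p.1) = M * (M - 1) := by
      have : ((B' : ℝ) - p.2) + ((A' : ℝ) - p.1) = M - 1 := by
        rw [hM]
        linarith
      rw [← mul_add, this]
    nlinarith
  have hti := transport_identity A' B' k'
  simp only at hti
  have hZ1 : K * M * W (A' + 1) (B' + 1) (k' + 1) (fun _ _ => 1) =
      Dd * W A' B' k' (fun _ _ => 1) := by
    rw [hti]
    simp only [W]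
    rw [Finset.mul_sum]
    refine Finset.sum_congr rfl fun p hp => ?_
    have := hUT p hp
    simp only [hU, hT] at this
    rw [mul_one, mul_one, mul_one]
    calc _ = (A'.choose p.1 : ℝ) * (B'.choose p.2 : ℝ) *
        ((K * M + K * (p.1 : ℝ) + M * ((B' : ℝ) - p.2)) +
          (K * M + K * (p.2 : ℝ) + M * ((A' : ℝ) - p.1))) := by ring
      _ = _ := by rw [this]; ring
  set Z' := W A' B' k' (fun _ _ => 1) with hZ'
  set Z := W (A' + 1) (B' + 1) (k' + 1) (fun _ _ => 1) with hZdef
  have hZpos : 0 < Z := by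
    have : 0 < K * M * Z := by rw [hZ1]; positivity
    exact (mul_pos_iff_of_pos_left (by positivity)).1 this
  have hmain : W (A' + 1) (B' + 1) (k' + 1) h / Z - W A' B' k' h' / Z' =
      (∑ p ∈ Finset.HasAntidiagonal.antidiagonal k', (A'.choose p.1 : ℝ) * (B'.choose p.2 : ℝ) *
        (U p.1 p.2 * (h p.1 (p.2 + 1) - h' p.1 p.2) +
          T p.1 p.2 * (h (p.1 + 1) p.2 - h' p.1 p.2))) / (Dd * Z') := by
    have h1 := hti h
    have hzz : Z = Dd * Z' / (K * M) := by
      field_simp
      linarith
    rw [hzz]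
    have h2 : ∑ p ∈ Finset.HasAntidiagonal.antidiagonal k', (A'.choose p.1 : ℝ) * (B'.choose p.2 : ℝ) *
        (U p.1 p.2 * (h p.1 (p.2 + 1) - h' p.1 p.2) +
          T p.1 p.2 * (h (p.1 + 1) p.2 - h' p.1 p.2)) =
        K * M * W (A' + 1) (B' + 1) (k' + 1) h - Dd * W A' B' k' h' := by
      rw [h1]
      simp only [W]
      rw [Finset.mul_sum, ← Finset.sum_sub_distrib]
      refine Finset.sum_congr rfl fun p hp => ?_
      have := hUT p hp
      simp only [hU, hT] at this ⊢
      rw [← this]
      ring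
    rw [h2]
    have hZ'0 : Z' ≠ 0 := hZ.ne'
    have hD0 : Dd ≠ 0 := hDdpos.ne'
    have hK0 : K ≠ 0 := hKpos.ne'
    have hM0 : M ≠ 0 := hMpos.ne'
    field_simp
  rw [hmain, abs_div, abs_of_pos (by positivity : 0 < Dd * Z'), div_le_iff₀ (by positivity)]
  have hUnn : ∀ p ∈ Finset.HasAntidiagonal.antidiagonal k', p.1 ≤ A' → p.2 ≤ B' →
      0 ≤ U p.1 p.2 ∧ 0 ≤ T p.1 p.2 := by
    intro p _ h1 h2
    have h1' : (p.1 : ℝ) ≤ A' := by exact_mod_cast h1
    have h2' : (p.2 : ℝ) ≤ B' := by exact_mod_cast h2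
    have h3 : (0 : ℝ) ≤ p.1 := Nat.cast_nonneg _
    have h4 : (0 : ℝ) ≤ p.2 := Nat.cast_nonneg _
    constructor
    · simp only [hU]
      have := mul_nonneg hMpos.le (sub_nonneg.2 h2')
      have := mul_nonneg hKpos.le h3
      have := mul_pos hKpos hMpos
      linarith
    · simp only [hT]
      have := mul_nonneg hMpos.le (sub_nonneg.2 h1')
      have := mul_nonneg hKpos.le h4
      have := mul_pos hKpos hMpos
      linarith
  calc |∑ p ∈ Finset.HasAntidiagonal.antidiagonal k', (A'.choose p.1 : ℝ) * (B'.choose p.2 : ℝ) *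
        (U p.1 p.2 * (h p.1 (p.2 + 1) - h' p.1 p.2) +
          T p.1 p.2 * (h (p.1 + 1) p.2 - h' p.1 p.2))|
      ≤ ∑ p ∈ Finset.HasAntidiagonal.antidiagonal k', |(A'.choose p.1 : ℝ) * (B'.choose p.2 : ℝ) *
        (U p.1 p.2 * (h p.1 (p.2 + 1) - h' p.1 p.2) +
          T p.1 p.2 * (h (p.1 + 1) p.2 - h' p.1 p.2))| := Finset.abs_sum_le_sum_abs _ _
    _ ≤ ∑ p ∈ Finset.HasAntidiagonal.antidiagonal k', (A'.choose p.1 : ℝ) * (B'.choose p.2 : ℝ) *
        (Dd * L) := by
      refine Finset.sum_le_sum fun p hp => ?_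
      have hc0 : (0 : ℝ) ≤ (A'.choose p.1 : ℝ) * (B'.choose p.2 : ℝ) := by positivity
      rw [abs_mul, abs_of_nonneg hc0]
      by_cases h1 : p.1 ≤ A'
      · by_cases h2 : p.2 ≤ B'
        · refine mul_le_mul_of_nonneg_left ?_ hc0
          have hp' : p.1 + p.2 = k' := by simpa using hp
          obtain ⟨hU0, hT0⟩ := hUnn p hp h1 h2
          have h3 := hu p.1 p.2 h1 h2 hp'
          have h4 := hs p.1 p.2 h1 h2 hp'
          calc |U p.1 p.2 * (h p.1 (p.2 + 1) - h' p.1 p.2) +
                T p.1 p.2 * (h (p.1 + 1) p.2 - h' p.1 p.2)|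
              ≤ |U p.1 p.2 * (h p.1 (p.2 + 1) - h' p.1 p.2)| +
                |T p.1 p.2 * (h (p.1 + 1) p.2 - h' p.1 p.2)| := abs_add_le _ _
            _ ≤ U p.1 p.2 * L + T p.1 p.2 * L := by
                rw [abs_mul, abs_mul, abs_of_nonneg hU0, abs_of_nonneg hT0]
                exact add_le_add (mul_le_mul_of_nonneg_left h3 hU0)
                  (mul_le_mul_of_nonneg_left h4 hT0)
            _ = Dd * L := by rw [← add_mul, hUT p hp]
        · rw [Nat.choose_eq_zero_of_lt (not_le.mp h2)]
          simp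
      · rw [Nat.choose_eq_zero_of_lt (not_le.mp h1)]
        simp
    _ = L * (Dd * Z') := by
      rw [hZ', W, Finset.mul_sum, Finset.mul_sum]
      refine Finset.sum_congr rfl fun p _ => by ring

end Transport

/-! ## The table -/

section Table

variable {C : Type*} [Fintype C] [DecidableEq C] (ty : C → Bool) (δ : Fin 3 → ℤ)

/-- Number of type-true columns with label `r`. -/
def al (l : C → Fin 3) (r : Fin 3) : ℕ := (univ.filter fun c => ty c = true ∧ l c = r).card

/-- Number of type-false columns with label `r`. -/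
def be (l : C → Fin 3) (r : Fin 3) : ℕ := (univ.filter fun c => ty c = false ∧ l c = r).card

/-- The row constraint. -/
def IsState (l : C → Fin 3) : Prop := ∀ r, ((al ty l r : ℤ) - be ty l r) = δ r

instance : DecidablePred (IsState ty δ) := fun _ => inferInstanceAs (Decidable (∀ _, _))

/-- The states. -/
abbrev St := {l : C → Fin 3 // IsState ty δ l}

variable {ty δ}

/-- The set of columns labelled `r`. -/
def row (r : Fin 3) (x : St ty δ) : Finset C := univ.filter fun c => x.1 c = r

lemma mem_row {r : Fin 3} {x : St ty δ} {c : C} : c ∈ row r x ↔ x.1 c = r := by simp [row]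

lemma al_comp (π : Equiv.Perm C) (hπ : ∀ c, ty (π c) = ty c) (l : C → Fin 3) (r : Fin 3) :
    al ty (fun c => l (π c)) r = al ty l r := by
  refine Finset.card_equiv π fun c => ?_
  simp [hπ]

lemma be_comp (π : Equiv.Perm C) (hπ : ∀ c, ty (π c) = ty c) (l : C → Fin 3) (r : Fin 3) :
    be ty (fun c => l (π c)) r = be ty l r := by
  refine Finset.card_equiv π fun c => ?_
  simp [hπ]

lemma swap_ty {i j : C} (h : ty i = ty j) (c : C) : ty (Equiv.swap i j c) = ty c := by
  rcases eq_or_ne c i with rfl | hi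
  · simp [h]
  · rcases eq_or_ne c j with rfl | hj
    · simp [h]
    · rw [Equiv.swap_apply_of_ne_of_ne hi hj]

/-- Swapping two columns of the same type, acting on states. -/
def swapSt (i j : C) (h : ty i = ty j) : Equiv.Perm (St ty δ) where
  toFun x := ⟨fun c => x.1 (Equiv.swap i j c), fun r => by
    rw [al_comp _ (swap_ty h), be_comp _ (swap_ty h)]
    exact x.2 r⟩
  invFun x := ⟨fun c => x.1 (Equiv.swap i j c), fun r => by
    rw [al_comp _ (swap_ty h), be_comp _ (swap_ty h)]
    exact x.2 r⟩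
  left_inv x := by
    ext c
    simp
  right_inv x := by
    ext c
    simp

lemma swapSt_apply (i j : C) (h : ty i = ty j) (x : St ty δ) (c : C) :
    (swapSt i j h x).1 c = x.1 (Equiv.swap i j c) := rfl

lemma swapSt_invol (i j : C) (h : ty i = ty j) (x : St ty δ) : swapSt i j h (swapSt i j h x) = x := by
  ext c
  simp [swapSt_apply]

lemma row_swapSt_iff (i j : C) (h : ty i = ty j) (r : Fin 3) (x y : St ty δ) :
    row r (swapSt i j h x) = row r (swapSt i j h y) ↔ row r x = row r y := by
  constructor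
  · intro hxy
    ext c
    have := Finset.ext_iff.1 hxy (Equiv.swap i j c)
    simpa [mem_row, swapSt_apply] using this
  · intro hxy
    ext c
    have := Finset.ext_iff.1 hxy (Equiv.swap i j c)
    simpa [mem_row, swapSt_apply] using this

lemma exists_row_ne (a b : Fin 3) : ∃ r, r ≠ a ∧ r ≠ b := by
  revert a b
  decide

lemma row_swapSt_fix (i j : C) (h : ty i = ty j) (x : St ty δ) :
    ∃ r, row r (swapSt i j h x) = row r x := by
  obtain ⟨r, hr1, hr2⟩ := exists_row_ne (x.1 i) (x.1 j)
  refine ⟨r, ?_⟩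
  ext c
  simp only [mem_row, swapSt_apply]
  rcases eq_or_ne c i with rfl | hi
  · simp only [Equiv.swap_apply_left]
    constructor
    · intro h'
      exact absurd h'.symm hr2
    · intro h'
      exact absurd h'.symm hr1
  · rcases eq_or_ne c j with rfl | hj
    · simp only [Equiv.swap_apply_right]
      constructor
      · intro h'
        exact absurd h'.symm hr1
      · intro h'
        exact absurd h'.symm hr2
    · rw [Equiv.swap_apply_of_ne_of_ne hi hj]

/-- A function invariant under column swaps and measurable with respect to row `r` is a function of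
the level `be · r`. -/
theorem orbit (r : Fin 3) (g : St ty δ → ℝ)
    (hinv : ∀ i j (h : ty i = ty j) x, g (swapSt i j h x) = g x)
    (hmeas : ∀ x y, row r x = row r y → g x = g y) :
    ∀ (n : ℕ) (x y : St ty δ), (row r x \ row r y).card = n → be ty x.1 r = be ty y.1 r →
      g x = g y := by
  intro n
  induction n with
  | zero =>
    intro x y hcard hbe
    have hsub : row r x ⊆ row r y := by
      rw [← Finset.sdiff_eq_empty_iff_subset]
      exact Finset.card_eq_zero.1 hcard
    have hal : al ty x.1 r = al ty y.1 r := by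
      have h1 := x.2 r
      have h2 := y.2 r
      omega
    have hc : ∀ z : St ty δ, (row r z).card = al ty z.1 r + be ty z.1 r := by
      intro z
      rw [al, be, ← Finset.card_union_of_disjoint]
      · congr 1
        ext c
        simp only [mem_row, Finset.mem_union, Finset.mem_filter, Finset.mem_univ, true_and]
        cases ty c <;> simp
      · rw [Finset.disjoint_left]
        intro c hc1 hc2
        simp only [Finset.mem_filter, Finset.mem_univ, true_and] at hc1 hc2
        rw [hc1.1] at hc2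
        simp at hc2
    have heq : row r x = row r y :=
      Finset.eq_of_subset_of_card_le hsub (by rw [hc, hc, hal, hbe])
    exact hmeas x y heq
  | succ n ih =>
    intro x y hcard hbe
    have hal : al ty x.1 r = al ty y.1 r := by
      have h1 := x.2 r
      have h2 := y.2 r
      omega
    obtain ⟨i, hi⟩ : (row r x \ row r y).Nonempty := by
      rw [← Finset.card_pos]
      omega
    have hi1 : x.1 i = r := mem_row.1 (Finset.mem_sdiff.1 hi).1
    have hi2 : y.1 i ≠ r := fun h => (Finset.mem_sdiff.1 hi).2 (mem_row.2 h)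
    -- find j
    obtain ⟨j, hj1, hj2, hj3⟩ : ∃ j, y.1 j = r ∧ x.1 j ≠ r ∧ ty j = ty i := by
      by_contra hcon
      have hcon' : ∀ j, y.1 j = r → ty j = ty i → x.1 j = r := by
        intro j h1 h2
        by_contra h3
        exact hcon ⟨j, h1, h3, h2⟩
      have hlt : (univ.filter fun c => ty c = ty i ∧ y.1 c = r).card <
          (univ.filter fun c => ty c = ty i ∧ x.1 c = r).card := by
        refine Finset.card_lt_card ?_
        rw [Finset.ssubset_iff_of_subset]
        · exact ⟨i, by simp [hi1], by simp [hi2]⟩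
        · intro c hc
          simp only [Finset.mem_filter, Finset.mem_univ, true_and] at hc ⊢
          exact ⟨hc.1, hcon' c hc.2 hc.1⟩
      rcases hty : ty i with _ | _
      · simp only [hty] at hlt
        change be ty y.1 r < be ty x.1 r at hlt
        omega
      · simp only [hty] at hlt
        change al ty y.1 r < al ty x.1 r at hlt
        omega
    set x' := swapSt j i hj3 x with hx'
    have hrow' : row r x' \ row r y = (row r x \ row r y).erase i := by
      ext c
      simp only [Finset.mem_sdiff, mem_row, Finset.mem_erase, hx', swapSt_apply]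
      rcases eq_or_ne c i with rfl | hci
      · simp only [Equiv.swap_apply_right]
        simp [hj2]
      · rcases eq_or_ne c j with rfl | hcj
        · simp only [Equiv.swap_apply_left]
          simp [hj1]
        · rw [Equiv.swap_apply_of_ne_of_ne hcj hci]
          simp [hci]
    have hbe' : be ty x'.1 r = be ty x.1 r := be_comp _ (swap_ty hj3) _ _
    have h1 : g x' = g y := by
      refine ih x' y ?_ (by rw [hbe', hbe])
      rw [hrow', Finset.card_erase_of_mem hi, hcard]
      rfl
    rw [← h1, hx', hinv]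

/-! ### Counting states over a fixed row -/

lemma exists_other (r : Fin 3) : ∃ s u : Fin 3, r ≠ s ∧ r ≠ u ∧ s ≠ u := by
  revert r
  decide

lemma fin3_cases {r s u : Fin 3} (hrs : r ≠ s) (hru : r ≠ u) (hsu : s ≠ u) (a : Fin 3) :
    a = r ∨ a = s ∨ a = u := by
  revert a r s u
  decide

variable (ty) in
/-- Remaining type-true columns. -/
def T1 (l : C → Fin 3) (r : Fin 3) : Finset C := univ.filter fun c => ty c = true ∧ l c ≠ r

variable (ty) in
/-- Remaining type-false columns. -/
def T2 (l : C → Fin 3) (r : Fin 3) : Finset C := univ.filter fun c => ty c = false ∧ l c ≠ r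

lemma ne_iff_or {r s u : Fin 3} (hrs : r ≠ s) (hru : r ≠ u) (hsu : s ≠ u) (a : Fin 3) :
    a ≠ r ↔ a = s ∨ a = u := by
  revert a r s u
  decide

lemma card_T1 {r s u : Fin 3} (hrs : r ≠ s) (hru : r ≠ u) (hsu : s ≠ u) (l : C → Fin 3) :
    (T1 ty l r).card = al ty l s + al ty l u := by
  rw [al, al, ← Finset.card_union_of_disjoint]
  · congr 1
    ext c
    simp only [T1, Finset.mem_filter, Finset.mem_univ, true_and, Finset.mem_union,
      ne_iff_or hrs hru hsu, and_or_left]
  · rw [Finset.disjoint_left]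
    intro c h1 h2
    simp only [Finset.mem_filter, Finset.mem_univ, true_and] at h1 h2
    exact hsu (h1.2.symm.trans h2.2)

lemma card_T2 {r s u : Fin 3} (hrs : r ≠ s) (hru : r ≠ u) (hsu : s ≠ u) (l : C → Fin 3) :
    (T2 ty l r).card = be ty l s + be ty l u := by
  rw [be, be, ← Finset.card_union_of_disjoint]
  · congr 1
    ext c
    simp only [T2, Finset.mem_filter, Finset.mem_univ, true_and, Finset.mem_union,
      ne_iff_or hrs hru hsu, and_or_left]
  · rw [Finset.disjoint_left]
    intro c h1 h2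
    simp only [Finset.mem_filter, Finset.mem_univ, true_and] at h1 h2
    exact hsu (h1.2.symm.trans h2.2)

lemma T1_eq_of_row {r : Fin 3} {x y : St ty δ} (h : row r x = row r y) :
    T1 ty x.1 r = T1 ty y.1 r := by
  ext c
  have := Finset.ext_iff.1 h c
  simp only [mem_row] at this
  simp only [T1, Finset.mem_filter, Finset.mem_univ, true_and, ne_eq, this]

lemma T2_eq_of_row {r : Fin 3} {x y : St ty δ} (h : row r x = row r y) :
    T2 ty x.1 r = T2 ty y.1 r := by
  ext c
  have := Finset.ext_iff.1 h c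
  simp only [mem_row] at this
  simp only [T2, Finset.mem_filter, Finset.mem_univ, true_and, ne_eq, this]

/-- The quantity `k` is constant above a row. -/
lemma k_const {r s u : Fin 3} (hrs : r ≠ s) (hru : r ≠ u) (hsu : s ≠ u) {x y : St ty δ}
    (h : row r x = row r y) : al ty y.1 s + be ty y.1 u = al ty x.1 s + be ty x.1 u := by
  have h1 := card_T2 (ty := ty) hrs hru hsu x.1
  have h2 := card_T2 (ty := ty) hrs hru hsu y.1
  rw [T2_eq_of_row h] at h1
  have h3 := x.2 s
  have h4 := y.2 s
  omega

/-- The labeling of the pair `(S₁, S₂)` above the row `r` of `x`. -/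
def mk (ty : C → Bool) (l : C → Fin 3) (r s u : Fin 3) (S₁ S₂ : Finset C) (c : C) : Fin 3 :=
  if l c = r then r else if ty c = true then (if c ∈ S₁ then s else u) else (if c ∈ S₂ then u else s)

section mkLemmas

variable {l : C → Fin 3} {r s u : Fin 3} {S₁ S₂ : Finset C}

lemma mk_eq_r (hrs : r ≠ s) (hru : r ≠ u) (c : C) : mk ty l r s u S₁ S₂ c = r ↔ l c = r := by
  by_cases h : l c = r
  · simp [mk, h]
  · simp only [mk, if_neg h]
    split_ifs <;> simp [h, hrs.symm, hru.symm]

lemma al_mk_r (hrs : r ≠ s) (hru : r ≠ u) : al ty (mk ty l r s u S₁ S₂) r = al ty l r := by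
  simp only [al, mk_eq_r hrs hru]

lemma be_mk_r (hrs : r ≠ s) (hru : r ≠ u) : be ty (mk ty l r s u S₁ S₂) r = be ty l r := by
  simp only [be, mk_eq_r hrs hru]

lemma filter_mk_s (hrs : r ≠ s) (hsu : s ≠ u) (h₁ : S₁ ⊆ T1 ty l r) :
    (univ.filter fun c => ty c = true ∧ mk ty l r s u S₁ S₂ c = s) = S₁ := by
  ext c
  simp only [Finset.mem_filter, Finset.mem_univ, true_and]
  constructor
  · rintro ⟨h1, h2⟩
    by_contra hc
    by_cases hl : l c = r
    · simp [mk, hl] at h2
      exact hrs h2
    · simp [mk, hl, h1, hc] at h2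
      exact hsu h2.symm
  · intro hc
    have h3 := h₁ hc
    simp only [T1, Finset.mem_filter, Finset.mem_univ, true_and] at h3
    exact ⟨h3.1, by simp [mk, h3.1, h3.2, hc]⟩

lemma filter_mk_u (hru : r ≠ u) (hsu : s ≠ u) (h₂ : S₂ ⊆ T2 ty l r) :
    (univ.filter fun c => ty c = false ∧ mk ty l r s u S₁ S₂ c = u) = S₂ := by
  ext c
  simp only [Finset.mem_filter, Finset.mem_univ, true_and]
  constructor
  · rintro ⟨h1, h2⟩
    by_contra hc
    by_cases hl : l c = r
    · simp [mk, hl] at h2
      exact hru h2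
    · simp [mk, hl, h1, hc] at h2
      exact hsu h2
  · intro hc
    have h3 := h₂ hc
    simp only [T2, Finset.mem_filter, Finset.mem_univ, true_and] at h3
    exact ⟨h3.1, by simp [mk, h3.1, h3.2, hc]⟩

lemma filter_mk_u' (hru : r ≠ u) (hsu : s ≠ u) :
    (univ.filter fun c => ty c = true ∧ mk ty l r s u S₁ S₂ c = u) = T1 ty l r \ S₁ := by
  ext c
  simp only [Finset.mem_filter, Finset.mem_univ, true_and, Finset.mem_sdiff, T1]
  constructor
  · rintro ⟨h1, h2⟩
    by_cases hl : l c = r
    · simp [mk, hl] at h2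
      exact absurd h2 hru
    · refine ⟨⟨h1, hl⟩, fun hc => ?_⟩
      simp [mk, hl, h1, hc] at h2
      exact hsu h2
  · rintro ⟨⟨h1, h2⟩, h3⟩
    exact ⟨h1, by simp [mk, h1, h2, h3]⟩

lemma filter_mk_s' (hrs : r ≠ s) (hsu : s ≠ u) :
    (univ.filter fun c => ty c = false ∧ mk ty l r s u S₁ S₂ c = s) = T2 ty l r \ S₂ := by
  ext c
  simp only [Finset.mem_filter, Finset.mem_univ, true_and, Finset.mem_sdiff, T2]
  constructor
  · rintro ⟨h1, h2⟩
    by_cases hl : l c = r
    · simp [mk, hl] at h2
      exact absurd h2 hrs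
    · refine ⟨⟨h1, hl⟩, fun hc => ?_⟩
      simp [mk, hl, h1, hc] at h2
      exact hsu h2.symm
  · rintro ⟨⟨h1, h2⟩, h3⟩
    exact ⟨h1, by simp [mk, h1, h2, h3]⟩

end mkLemmas

/-- The fibre count. -/
theorem count_fiber {r s u : Fin 3} (hrs : r ≠ s) (hru : r ≠ u) (hsu : s ≠ u) (x : St ty δ)
    (n₁ n₂ : ℕ) (hn : n₁ + n₂ = al ty x.1 s + be ty x.1 u) :
    (univ.filter fun y : St ty δ => row r y = row r x ∧ al ty y.1 s = n₁ ∧ be ty y.1 u = n₂).card =
      (T1 ty x.1 r).card.choose n₁ * (T2 ty x.1 r).card.choose n₂ := by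
  classical
  rw [← Finset.card_powersetCard, ← Finset.card_powersetCard, ← Finset.card_product]
  symm
  have hstate : ∀ p ∈ (T1 ty x.1 r).powersetCard n₁ ×ˢ (T2 ty x.1 r).powersetCard n₂,
      IsState ty δ (mk ty x.1 r s u p.1 p.2) := by
    intro p hp
    obtain ⟨hp1, hp2⟩ := Finset.mem_product.1 hp
    obtain ⟨h1s, h1c⟩ := Finset.mem_powersetCard.1 hp1
    obtain ⟨h2s, h2c⟩ := Finset.mem_powersetCard.1 hp2
    have hT1 := card_T1 (ty := ty) hrs hru hsu x.1
    have hT2 := card_T2 (ty := ty) hrs hru hsu x.1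
    have ealr := al_mk_r (ty := ty) (l := x.1) (S₁ := p.1) (S₂ := p.2) hrs hru
    have eber := be_mk_r (ty := ty) (l := x.1) (S₁ := p.1) (S₂ := p.2) hrs hru
    have eals : al ty (mk ty x.1 r s u p.1 p.2) s = n₁ := by
      rw [al, filter_mk_s hrs hsu h1s, h1c]
    have ebeu : be ty (mk ty x.1 r s u p.1 p.2) u = n₂ := by
      rw [be, filter_mk_u hru hsu h2s, h2c]
    have ealu : al ty (mk ty x.1 r s u p.1 p.2) u = (T1 ty x.1 r).card - n₁ := by
      rw [al, filter_mk_u' hru hsu, Finset.card_sdiff_of_subset h1s, h1c]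
    have ebes : be ty (mk ty x.1 r s u p.1 p.2) s = (T2 ty x.1 r).card - n₂ := by
      rw [be, filter_mk_s' hrs hsu, Finset.card_sdiff_of_subset h2s, h2c]
    have hn1 : n₁ ≤ (T1 ty x.1 r).card := h1c ▸ Finset.card_le_card h1s
    have hn2 : n₂ ≤ (T2 ty x.1 r).card := h2c ▸ Finset.card_le_card h2s
    intro t
    have hx := x.2 t
    rcases fin3_cases hrs hru hsu t with rfl | rfl | rfl
    · rw [ealr, eber]
      exact hx
    · rw [eals, ebes]
      omega
    · rw [ealu, ebeu]
      omega
  refine Finset.card_bij (fun p hp => ⟨mk ty x.1 r s u p.1 p.2, hstate p hp⟩) ?_ ?_ ?_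
  · intro p hp
    obtain ⟨hp1, hp2⟩ := Finset.mem_product.1 hp
    obtain ⟨h1s, h1c⟩ := Finset.mem_powersetCard.1 hp1
    obtain ⟨h2s, h2c⟩ := Finset.mem_powersetCard.1 hp2
    simp only [Finset.mem_filter, Finset.mem_univ, true_and]
    refine ⟨?_, ?_, ?_⟩
    · ext c
      simp only [mem_row]
      exact mk_eq_r hrs hru c
    · rw [al, filter_mk_s hrs hsu h1s, h1c]
    · rw [be, filter_mk_u hru hsu h2s, h2c]
  · intro p hp q hq hpq
    obtain ⟨hp1, hp2⟩ := Finset.mem_product.1 hp
    obtain ⟨h1s, -⟩ := Finset.mem_powersetCard.1 hp1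
    obtain ⟨h2s, -⟩ := Finset.mem_powersetCard.1 hp2
    obtain ⟨hq1, hq2⟩ := Finset.mem_product.1 hq
    obtain ⟨k1s, -⟩ := Finset.mem_powersetCard.1 hq1
    obtain ⟨k2s, -⟩ := Finset.mem_powersetCard.1 hq2
    have hfun : mk ty x.1 r s u p.1 p.2 = mk ty x.1 r s u q.1 q.2 := congrArg Subtype.val hpq
    have e1 := filter_mk_s (ty := ty) (l := x.1) (S₁ := p.1) (S₂ := p.2) hrs hsu h1s
    have e2 := filter_mk_s (ty := ty) (l := x.1) (S₁ := q.1) (S₂ := q.2) hrs hsu k1s
    have e3 := filter_mk_u (ty := ty) (l := x.1) (S₁ := p.1) (S₂ := p.2) hru hsu h2s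
    have e4 := filter_mk_u (ty := ty) (l := x.1) (S₁ := q.1) (S₂ := q.2) hru hsu k2s
    rw [hfun] at e1 e3
    exact Prod.ext (e1.symm.trans e2) (e3.symm.trans e4)
  · intro y hy
    simp only [Finset.mem_filter, Finset.mem_univ, true_and] at hy
    obtain ⟨hy1, hy2, hy3⟩ := hy
    have hmemrow : ∀ c, y.1 c = r ↔ x.1 c = r := fun c => by
      have := Finset.ext_iff.1 hy1 c
      simpa [mem_row] using this
    refine ⟨((univ.filter fun c => ty c = true ∧ y.1 c = s),
      (univ.filter fun c => ty c = false ∧ y.1 c = u)), ?_, ?_⟩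
    · refine Finset.mem_product.2 ⟨Finset.mem_powersetCard.2 ⟨?_, hy2⟩,
        Finset.mem_powersetCard.2 ⟨?_, hy3⟩⟩
      · intro c hc
        simp only [Finset.mem_filter, Finset.mem_univ, true_and, T1] at hc ⊢
        refine ⟨hc.1, fun h => ?_⟩
        have := (hmemrow c).2 h
        rw [hc.2] at this
        exact hrs this.symm
      · intro c hc
        simp only [Finset.mem_filter, Finset.mem_univ, true_and, T2] at hc ⊢
        refine ⟨hc.1, fun h => ?_⟩
        have := (hmemrow c).2 h
        rw [hc.2] at this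
        exact hru this.symm
    · apply Subtype.ext
      funext c
      simp only [mk, Finset.mem_filter, Finset.mem_univ, true_and]
      by_cases hc : x.1 c = r
      · rw [if_pos hc]
        exact ((hmemrow c).2 hc).symm
      · rw [if_neg hc]
        have hne : y.1 c ≠ r := fun h => hc ((hmemrow c).1 h)
        rcases hty : ty c with _ | _
        · simp only [Bool.false_eq_true, false_and, if_false, true_and]
          by_cases hu : y.1 c = u
          · simp [hu]
          · rw [if_neg hu]
            rcases fin3_cases hrs hru hsu (y.1 c) with h | h | h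
            · exact absurd h hne
            · exact h.symm
            · exact absurd h hu
        · simp only [if_true, true_and]
          by_cases hs : y.1 c = s
          · simp [hs]
          · rw [if_neg hs]
            rcases fin3_cases hrs hru hsu (y.1 c) with h | h | h
            · exact absurd h hne
            · exact absurd h hs
            · exact h.symm

/-- The sum over the states above a row. -/
theorem sum_cls {r s u : Fin 3} (hrs : r ≠ s) (hru : r ≠ u) (hsu : s ≠ u) (x : St ty δ)
    (F : ℕ → ℕ → ℝ) :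
    ∑ y ∈ cls (row r) x, F (al ty y.1 s) (be ty y.1 u) =
      W (T1 ty x.1 r).card (T2 ty x.1 r).card (al ty x.1 s + be ty x.1 u) F := by
  classical
  set k := al ty x.1 s + be ty x.1 u with hk
  have hmaps : ∀ y ∈ cls (row r) x, (al ty y.1 s, be ty y.1 u) ∈
      Finset.HasAntidiagonal.antidiagonal k := by
    intro y hy
    have hy' : row r y = row r x := by simpa [cls] using hy
    simp only [Finset.HasAntidiagonal.mem_antidiagonal]
    exact k_const hrs hru hsu hy'.symm
  rw [← Finset.sum_fiberwise_of_maps_to hmaps, W]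
  refine Finset.sum_congr rfl fun p hp => ?_
  have hp' : p.1 + p.2 = k := by simpa using hp
  have h1 : (cls (row r) x).filter (fun y => (al ty y.1 s, be ty y.1 u) = p) =
      univ.filter fun y : St ty δ => row r y = row r x ∧ al ty y.1 s = p.1 ∧ be ty y.1 u = p.2 := by
    ext y
    simp only [cls, Finset.mem_filter, Finset.mem_univ, true_and]
    constructor
    · rintro ⟨h1, rfl⟩
      exact ⟨h1, rfl, rfl⟩
    · rintro ⟨h1, h2, h3⟩
      exact ⟨h1, Prod.ext h2 h3⟩
  rw [h1, Finset.sum_congr rfl (g := fun _ => F p.1 p.2)]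
  · rw [Finset.sum_const, count_fiber hrs hru hsu x p.1 p.2 hp', nsmul_eq_mul]
    push_cast
    ring
  · intro y hy
    simp only [Finset.mem_filter, Finset.mem_univ, true_and] at hy
    rw [hy.2.1, hy.2.2]

lemma card_cls {r s u : Fin 3} (hrs : r ≠ s) (hru : r ≠ u) (hsu : s ≠ u) (x : St ty δ) :
    ((cls (row r) x).card : ℝ) =
      W (T1 ty x.1 r).card (T2 ty x.1 r).card (al ty x.1 s + be ty x.1 u) (fun _ _ => 1) := by
  rw [← sum_cls hrs hru hsu x (fun _ _ => 1)]
  simp

/-- The average over the states above a row, in numbers. -/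
theorem avg_eq_W {r s u : Fin 3} (hrs : r ≠ s) (hru : r ≠ u) (hsu : s ≠ u) (x : St ty δ)
    (F : ℕ → ℕ → ℝ) :
    avg (row r) (fun y => F (al ty y.1 s) (be ty y.1 u)) x =
      W (T1 ty x.1 r).card (T2 ty x.1 r).card (al ty x.1 s + be ty x.1 u) F /
        W (T1 ty x.1 r).card (T2 ty x.1 r).card (al ty x.1 s + be ty x.1 u) (fun _ _ => 1) := by
  rw [avg, sum_cls hrs hru hsu, card_cls hrs hru hsu]

/-- Existence of a state above a row with prescribed counts. -/
theorem exists_state {r s u : Fin 3} (hrs : r ≠ s) (hru : r ≠ u) (hsu : s ≠ u) (x : St ty δ)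
    (n₁ n₂ : ℕ) (hn : n₁ + n₂ = al ty x.1 s + be ty x.1 u) (h1 : n₁ ≤ (T1 ty x.1 r).card)
    (h2 : n₂ ≤ (T2 ty x.1 r).card) :
    ∃ y : St ty δ, row r y = row r x ∧ al ty y.1 s = n₁ ∧ be ty y.1 u = n₂ := by
  have hc := count_fiber hrs hru hsu x n₁ n₂ hn
  have hpos : 0 < (T1 ty x.1 r).card.choose n₁ * (T2 ty x.1 r).card.choose n₂ :=
    Nat.mul_pos (Nat.choose_pos h1) (Nat.choose_pos h2)
  rw [← hc, Finset.card_pos] at hpos
  obtain ⟨y, hy⟩ := hpos
  simp only [Finset.mem_filter, Finset.mem_univ, true_and] at hy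
  exact ⟨y, hy⟩

lemma card_T1_add (l : C → Fin 3) (r : Fin 3) :
    (T1 ty l r).card + al ty l r = (univ.filter fun c => ty c = true).card := by
  rw [T1, al, ← Finset.card_union_of_disjoint]
  · congr 1
    ext c
    simp only [Finset.mem_union, Finset.mem_filter, Finset.mem_univ, true_and]
    tauto
  · rw [Finset.disjoint_left]
    intro c h1 h2
    simp only [Finset.mem_filter, Finset.mem_univ, true_and] at h1 h2
    exact h1.2 h2.2

lemma card_T2_add (l : C → Fin 3) (r : Fin 3) :
    (T2 ty l r).card + be ty l r = (univ.filter fun c => ty c = false).card := by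
  rw [T2, be, ← Finset.card_union_of_disjoint]
  · congr 1
    ext c
    simp only [Finset.mem_union, Finset.mem_filter, Finset.mem_univ, true_and]
    tauto
  · rw [Finset.disjoint_left]
    intro c h1 h2
    simp only [Finset.mem_filter, Finset.mem_univ, true_and] at h1 h2
    exact h1.2 h2.2

/-- Moving a same-row pair of columns into row `t` raises the level of `t` by one. -/
theorem exists_up {t s u : Fin 3} (hts : t ≠ s) (htu : t ≠ u) (hsu : s ≠ u) (x y : St ty δ)
    (h : be ty y.1 s < be ty x.1 s) : ∃ x' : St ty δ, be ty x'.1 t = be ty x.1 t + 1 := by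
  have hxs := x.2 s
  have hys := y.2 s
  have hal : al ty y.1 s < al ty x.1 s := by omega
  obtain ⟨i, hi⟩ : (univ.filter fun c => ty c = true ∧ x.1 c = s).Nonempty := by
    rw [← Finset.card_pos]
    change 0 < al ty x.1 s
    omega
  obtain ⟨j, hj⟩ : (univ.filter fun c => ty c = false ∧ x.1 c = s).Nonempty := by
    rw [← Finset.card_pos]
    change 0 < be ty x.1 s
    omega
  simp only [Finset.mem_filter, Finset.mem_univ, true_and] at hi hj
  set l : C → Fin 3 := fun c => if c = i ∨ c = j then t else x.1 c with hl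
  have hij : i ≠ j := by
    rintro rfl
    rw [hi.1] at hj
    simp at hj
  have hli : l i = t := by simp [hl]
  have hlj : l j = t := by simp [hl]
  have hlo : ∀ c, c ≠ i → c ≠ j → l c = x.1 c := fun c h1 h2 => by simp [hl, h1, h2]
  have alt : al ty l t = al ty x.1 t + 1 := by
    have : (univ.filter fun c => ty c = true ∧ l c = t) =
        insert i (univ.filter fun c => ty c = true ∧ x.1 c = t) := by
      ext c
      simp only [Finset.mem_filter, Finset.mem_univ, true_and, Finset.mem_insert]
      rcases eq_or_ne c i with rfl | h1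
      · simp [hli, hi.1]
      · rcases eq_or_ne c j with rfl | h2
        · simp [hj.1, h1]
        · simp [hlo c h1 h2, h1]
    rw [al, this, Finset.card_insert_of_notMem (by simp [hi.2, hts.symm]), al]
  have bet : be ty l t = be ty x.1 t + 1 := by
    have : (univ.filter fun c => ty c = false ∧ l c = t) =
        insert j (univ.filter fun c => ty c = false ∧ x.1 c = t) := by
      ext c
      simp only [Finset.mem_filter, Finset.mem_univ, true_and, Finset.mem_insert]
      rcases eq_or_ne c j with rfl | h1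
      · simp [hlj, hj.1]
      · rcases eq_or_ne c i with rfl | h2
        · simp [hi.1, h1]
        · simp [hlo c h2 h1, h1]
    rw [be, this, Finset.card_insert_of_notMem (by simp [hj.2, hts.symm]), be]
  have als : al ty l s + 1 = al ty x.1 s := by
    have : (univ.filter fun c => ty c = true ∧ x.1 c = s) =
        insert i (univ.filter fun c => ty c = true ∧ l c = s) := by
      ext c
      simp only [Finset.mem_filter, Finset.mem_univ, true_and, Finset.mem_insert]
      rcases eq_or_ne c i with rfl | h1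
      · simp [hi.1, hi.2]
      · rcases eq_or_ne c j with rfl | h2
        · simp [hj.1, hlj, h1]
        · simp [hlo c h1 h2, h1]
    rw [al, al, this, Finset.card_insert_of_notMem (by simp [hli, hts])]
  have bes : be ty l s + 1 = be ty x.1 s := by
    have : (univ.filter fun c => ty c = false ∧ x.1 c = s) =
        insert j (univ.filter fun c => ty c = false ∧ l c = s) := by
      ext c
      simp only [Finset.mem_filter, Finset.mem_univ, true_and, Finset.mem_insert]
      rcases eq_or_ne c j with rfl | h1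
      · simp [hj.1, hj.2]
      · rcases eq_or_ne c i with rfl | h2
        · simp [hi.1, hli, h1]
        · simp [hlo c h2 h1, h1]
    rw [be, be, this, Finset.card_insert_of_notMem (by simp [hlj, hts])]
  have alu : al ty l u = al ty x.1 u := by
    rw [al, al]
    congr 1
    ext c
    simp only [Finset.mem_filter, Finset.mem_univ, true_and]
    rcases eq_or_ne c i with rfl | h1
    · simp [hli, hi.2, htu, hsu]
    · rcases eq_or_ne c j with rfl | h2
      · simp [hlj, hj.2, htu, hsu]
      · rw [hlo c h1 h2]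
  have beu : be ty l u = be ty x.1 u := by
    rw [be, be]
    congr 1
    ext c
    simp only [Finset.mem_filter, Finset.mem_univ, true_and]
    rcases eq_or_ne c i with rfl | h1
    · simp [hli, hi.2, htu, hsu]
    · rcases eq_or_ne c j with rfl | h2
      · simp [hlj, hj.2, htu, hsu]
      · rw [hlo c h1 h2]
  refine ⟨⟨l, fun r => ?_⟩, bet⟩
  have hx := x.2 r
  rcases fin3_cases hts htu hsu r with rfl | rfl | rfl
  · rw [alt, bet]
    push_cast
    linarith
  · have h1 : (al ty l r : ℤ) + 1 = al ty x.1 r := by exact_mod_cast als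
    have h2 : (be ty l r : ℤ) + 1 = be ty x.1 r := by exact_mod_cast bes
    linarith
  · rw [alu, beu]
    exact hx

/-- The main spectral statement: the eigenfunctions of `Q` with eigenvalue above `2` are constant. -/
theorem eigen_const {τ : ℝ} (hτ : 2 < τ) {f : St ty δ → ℝ} (hf : ∀ x, Q row f x = τ * f x) :
    ∀ x y, f x = f y := by
  classical
  have hfinv : ∀ i j (h : ty i = ty j) x, f (swapSt i j h x) = f x := fun i j h x =>
    eigen_invariant row (swapSt i j h) (swapSt_invol i j h)
      (fun r x y => row_swapSt_iff i j h r x y) (row_swapSt_fix i j h) hτ hf x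
  set g : Fin 3 → St ty δ → ℝ := fun r => avg (row r) f with hg
  have hginv : ∀ r i j (h : ty i = ty j) x, g r (swapSt i j h x) = g r x := by
    intro r i j h x
    simp only [hg]
    rw [← avg_perm (row r) (swapSt i j h) (fun x y => row_swapSt_iff i j h r x y)]
    congr 1
    funext y
    exact hfinv i j h y
  have hgmeas : ∀ r x y, row r x = row r y → g r x = g r y := fun r x y h => avg_congr f h
  have hgfun : ∀ r x y, be ty (x : St ty δ).1 r = be ty (y : St ty δ).1 r → g r x = g r y :=
    fun r x y h => orbit r (g r) (hginv r) (hgmeas r) _ x y rfl h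
  have hsum3 : ∀ {r s u : Fin 3}, r ≠ s → r ≠ u → s ≠ u → ∀ F : Fin 3 → ℝ,
      ∑ t, F t = F r + (F s + F u) := by
    intro r s u hrs hru hsu F
    have : (univ : Finset (Fin 3)) = {r, s, u} := by
      revert r s u
      decide
    rw [this, Finset.sum_insert (by simp [hrs, hru]), Finset.sum_insert (by simp [hsu]),
      Finset.sum_singleton]
  have hheq : ∀ {r s u : Fin 3}, r ≠ s → r ≠ u → s ≠ u → ∀ x,
      (τ - 1) * g r x = avg (row r) (fun y => g s y + g u y) x := by
    intro r s u hrs hru hsu x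
    have h1 : τ * g r x = avg (row r) (fun y => g r y + (g s y + g u y)) x := by
      simp only [hg]
      rw [← avg_smul]
      refine avg_congr_on fun y _ => ?_
      rw [← hf y, Q, hsum3 hrs hru hsu]
    rw [avg_add] at h1
    have h2 : avg (row r) (g r) x = g r x := avg_avg _ _ _
    rw [h2] at h1
    linarith
  -- the profile functions
  let γ : Fin 3 → ℕ → ℝ := fun t v =>
    if h : ∃ y : St ty δ, be ty y.1 t = v then g t h.choose else 0
  have hγ : ∀ t (y : St ty δ), γ t (be ty y.1 t) = g t y := by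
    intro t y
    have hex : ∃ y' : St ty δ, be ty y'.1 t = be ty y.1 t := ⟨y, rfl⟩
    simp only [γ, dif_pos hex]
    exact hgfun t _ _ hex.choose_spec
  -- the increments vanish
  let P : Finset (Fin 3 × St ty δ × St ty δ) :=
    univ.filter fun p => be ty p.2.2.1 p.1 = be ty p.2.1.1 p.1 + 1
  let val : Fin 3 × St ty δ × St ty δ → ℝ := fun p => |g p.1 p.2.2 - g p.1 p.2.1|
  have hzero : ∀ p ∈ P, val p = 0 := by
    by_contra hcon
    simp only [not_forall] at hcon
    obtain ⟨p0, hp0, hval0⟩ := hcon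
    obtain ⟨p, hp, hmax⟩ := Finset.exists_max_image P val ⟨p0, hp0⟩
    have hLpos : 0 < val p := lt_of_lt_of_le (lt_of_le_of_ne (abs_nonneg _) (Ne.symm hval0))
      (hmax p0 hp0)
    obtain ⟨r, x, x'⟩ := p
    simp only [P, Finset.mem_filter, Finset.mem_univ, true_and] at hp
    obtain ⟨s, u, hrs, hru, hsu⟩ := exists_other r
    set L := val (r, x, x') with hL
    -- numbers
    have hal : al ty x'.1 r = al ty x.1 r + 1 := by
      have h1 := x.2 r
      have h2 := x'.2 r
      omega
    have hT1 : (T1 ty x.1 r).card = (T1 ty x'.1 r).card + 1 := by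
      have h1 := card_T1_add (ty := ty) x.1 r
      have h2 := card_T1_add (ty := ty) x'.1 r
      omega
    have hT2 : (T2 ty x.1 r).card = (T2 ty x'.1 r).card + 1 := by
      have h1 := card_T2_add (ty := ty) x.1 r
      have h2 := card_T2_add (ty := ty) x'.1 r
      omega
    have hk : al ty x.1 s + be ty x.1 u = (al ty x'.1 s + be ty x'.1 u) + 1 := by
      have h1 := x.2 s
      have h2 := x'.2 s
      have h3 := card_T2 (ty := ty) hrs hru hsu x.1
      have h4 := card_T2 (ty := ty) hrs hru hsu x'.1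
      omega
    set A' := (T1 ty x'.1 r).card with hA'
    set B' := (T2 ty x'.1 r).card with hB'
    set k' := al ty x'.1 s + be ty x'.1 u with hk'
    let h : ℕ → ℕ → ℝ := fun _ n₂ => γ s (B' + 1 - n₂) + γ u n₂
    let h' : ℕ → ℕ → ℝ := fun _ n₂ => γ s (B' - n₂) + γ u n₂
    have hbes : ∀ y : St ty δ, row r y = row r x →
        be ty y.1 s = B' + 1 - be ty y.1 u := by
      intro y hy
      have h1 := card_T2 (ty := ty) hrs hru hsu y.1
      rw [T2_eq_of_row hy, hT2] at h1
      omega
    have hbes' : ∀ y : St ty δ, row r y = row r x' →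
        be ty y.1 s = B' - be ty y.1 u := by
      intro y hy
      have h1 := card_T2 (ty := ty) hrs hru hsu y.1
      rw [T2_eq_of_row hy] at h1
      omega
    have h1 : (τ - 1) * g r x = W (A' + 1) (B' + 1) (k' + 1) h /
        W (A' + 1) (B' + 1) (k' + 1) (fun _ _ => 1) := by
      rw [hheq hrs hru hsu x, ← hT1, ← hT2, ← hk, ← avg_eq_W hrs hru hsu x h]
      refine avg_congr_on fun y hy => ?_
      simp only [h]
      rw [← hbes y hy, hγ, hγ]
    have h2 : (τ - 1) * g r x' = W A' B' k' h' / W A' B' k' (fun _ _ => 1) := by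
      rw [hheq hrs hru hsu x', ← avg_eq_W hrs hru hsu x' h']
      refine avg_congr_on fun y hy => ?_
      simp only [h']
      rw [← hbes' y hy, hγ, hγ]
    have hk'le : k' ≤ A' + B' := by
      have h3 := card_T1 (ty := ty) hrs hru hsu x'.1
      have h4 := card_T2 (ty := ty) hrs hru hsu x'.1
      omega
    have hZ : 0 < W A' B' k' (fun _ _ => 1) := by
      rw [← card_cls hrs hru hsu x']
      exact cls_card_pos _ _
    have hbound := transport_bound A' B' k' hk'le hZ h h' L
      (by
        intro m₁ m₂ hm₁ hm₂ hm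
        obtain ⟨y₀, hy₀, hy₀1, hy₀2⟩ := exists_state hrs hru hsu x' m₁ m₂ hm hm₁ hm₂
        obtain ⟨y₁, hy₁, hy₁1, hy₁2⟩ := exists_state hrs hru hsu x m₁ (m₂ + 1)
          (by omega) (by omega) (by omega)
        have hP : (u, y₀, y₁) ∈ P := by
          simp only [P, Finset.mem_filter, Finset.mem_univ, true_and]
          omega
        have := hmax _ hP
        simp only [val] at this
        simp only [h, h']
        rw [Nat.add_sub_add_right]
        have e1 : γ u (m₂ + 1) = g u y₁ := by rw [← hy₁2]; exact hγ u y₁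
        have e2 : γ u m₂ = g u y₀ := by rw [← hy₀2]; exact hγ u y₀
        rw [e1, e2]
        calc _ = |g u y₁ - g u y₀| := by congr 1; ring
          _ ≤ L := this)
      (by
        intro m₁ m₂ hm₁ hm₂ hm
        obtain ⟨y₀, hy₀, hy₀1, hy₀2⟩ := exists_state hrs hru hsu x' m₁ m₂ hm hm₁ hm₂
        obtain ⟨y₂, hy₂, hy₂1, hy₂2⟩ := exists_state hrs hru hsu x (m₁ + 1) m₂
          (by omega) (by omega) (by omega)
        have hs0 := hbes' y₀ hy₀
        have hs2 := hbes y₂ hy₂
        rw [hy₀2] at hs0
        rw [hy₂2] at hs2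
        have hP : (s, y₀, y₂) ∈ P := by
          simp only [P, Finset.mem_filter, Finset.mem_univ, true_and]
          omega
        have := hmax _ hP
        simp only [val] at this
        simp only [h, h']
        have e1 : γ s (B' + 1 - m₂) = g s y₂ := by rw [← hs2]; exact hγ s y₂
        have e2 : γ s (B' - m₂) = g s y₀ := by rw [← hs0]; exact hγ s y₀
        rw [e1, e2]
        calc _ = |g s y₂ - g s y₀| := by congr 1; ring
          _ ≤ L := this)
    rw [← h1, ← h2, ← mul_sub, abs_mul, abs_of_pos (by linarith : 0 < τ - 1)] at hbound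
    have hLval : |g r x - g r x'| = L := by
      rw [hL, abs_sub_comm]
    rw [hLval] at hbound
    nlinarith
  have hup : ∀ t (x x' : St ty δ), be ty x'.1 t = be ty x.1 t + 1 → g t x' = g t x := by
    intro t x x' hxx
    have hP : (t, x, x') ∈ P := by
      simp only [P, Finset.mem_filter, Finset.mem_univ, true_and]
      exact hxx
    have := hzero _ hP
    simp only [val] at this
    exact sub_eq_zero.1 (abs_eq_zero.1 this)
  have hconn : ∀ t (n : ℕ) (x y : St ty δ), be ty y.1 t = be ty x.1 t + n → g t x = g t y := by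
    intro t n
    obtain ⟨s, u, hts, htu, hsu⟩ := exists_other t
    induction n with
    | zero =>
      intro x y h
      exact hgfun t x y (by omega)
    | succ n ih =>
      intro x y h
      have h1 := card_T2_add (ty := ty) x.1 t
      have h2 := card_T2_add (ty := ty) y.1 t
      have h3 := card_T2 (ty := ty) hts htu hsu x.1
      have h4 := card_T2 (ty := ty) hts htu hsu y.1
      have hor : be ty y.1 s < be ty x.1 s ∨ be ty y.1 u < be ty x.1 u := by omega
      obtain ⟨x'', hx''⟩ : ∃ x'' : St ty δ, be ty x''.1 t = be ty x.1 t + 1 := by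
        rcases hor with h5 | h5
        · exact exists_up hts htu hsu x y h5
        · exact exists_up htu hts hsu.symm x y h5
      rw [← hup t x x'' hx'']
      exact ih x'' y (by omega)
  have hconst : ∀ t (x y : St ty δ), g t x = g t y := by
    intro t x y
    rcases le_total (be ty x.1 t) (be ty y.1 t) with h | h
    · exact hconn t (be ty y.1 t - be ty x.1 t) x y (by omega)
    · exact (hconn t (be ty x.1 t - be ty y.1 t) y x (by omega)).symm
  intro x y
  have h1 := hf x
  have h2 := hf y
  simp only [Q] at h1 h2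
  have h3 : ∑ r, avg (row r) f x = ∑ r, avg (row r) f y :=
    Finset.sum_congr rfl fun r _ => hconst r x y
  have h4 : τ * f x = τ * f y := by rw [← h1, ← h2, h3]
  exact mul_left_cancel₀ (by linarith : τ ≠ 0) h4

/-- The eigenvalues of `Q` above `2` are equal to `3`. -/
theorem eigen_table {τ : ℝ} (hτ : 2 < τ) {f : St ty δ → ℝ} (hf : ∀ x, Q row f x = τ * f x)
    (hne : f ≠ 0) : τ = 3 := by
  have hfconst := eigen_const hτ hf
  obtain ⟨x, hx⟩ : ∃ x, f x ≠ 0 := by
    by_contra hcon
    simp only [not_exists, not_not] at hcon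
    exact hne (funext hcon)
  have h3 : Q row f x = 3 * f x := by
    simp only [Q]
    have : ∀ r, avg (row r) f x = f x := fun r => avg_of_const fun y _ => hfconst y x
    simp [this]
  rw [hf x] at h3
  exact mul_right_cancel₀ hx h3

/-- The form version: `(Q-3)(Q-2) ≥ 0`. -/
theorem table3_form (f : St ty δ → ℝ) :
    0 ≤ ∑ x, (Q row f x - 3 * f x) * (Q row f x - 2 * f x) := by
  refine form_nonneg_of_eigen (Qlin row) (Q_symm row) 3 2 ?_ f
  intro τ v hv hτv
  by_cases hτ : τ ≤ 2
  · nlinarith
  · have h3 : τ = 3 := eigen_table (not_le.mp hτ) (f := v)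
      (fun x => by
        have h := congrFun hτv x
        simp only [Pi.smul_apply, smul_eq_mul] at h
        exact h) hv
    rw [h3]
    norm_num

end Table

/-! ## The final form -/

section Final

variable {S X : Type*} [Fintype S] [DecidableEq X] (ρ : Fin 3 → S → X)

/-- From the `Q`-form to the statement about the `A_r = 1 - Π_r`. -/
lemma A_form_of_Q_form (f : S → ℝ) (h : 0 ≤ ∑ x, (Q ρ f x - 3 * f x) * (Q ρ f x - 2 * f x)) :
    ∑ r, ∑ x, (f x - avg (ρ r) f x) ^ 2 ≤ ∑ x, (∑ r, (f x - avg (ρ r) f x)) ^ 2 := by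
  have h1 : ∀ r, ∑ x, (f x - avg (ρ r) f x) ^ 2 = ∑ x, (f x - avg (ρ r) f x) * f x := by
    intro r
    have := avg_sq (ρ r) f
    have e : ∑ x, (f x - avg (ρ r) f x) ^ 2 - ∑ x, (f x - avg (ρ r) f x) * f x =
        ∑ x, avg (ρ r) f x * avg (ρ r) f x - ∑ x, avg (ρ r) f x * f x := by
      rw [← Finset.sum_sub_distrib, ← Finset.sum_sub_distrib]
      exact Finset.sum_congr rfl fun _ _ => by ring
    linarith
  simp only [h1]
  rw [Finset.sum_comm]
  have h2 : ∀ x, ∑ r, (f x - avg (ρ r) f x) = 3 * f x - Q ρ f x := by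
    intro x
    simp [Q, Finset.sum_sub_distrib]
  have h3 : ∀ x, ∑ r, (f x - avg (ρ r) f x) * f x = (3 * f x - Q ρ f x) * f x := by
    intro x
    rw [← h2, Finset.sum_mul]
  simp only [h2, h3]
  rw [← sub_nonneg, ← Finset.sum_sub_distrib]
  refine le_of_le_of_eq h (Finset.sum_congr rfl fun _ _ => by ring)

end Final

/-- Transfer of averages along an equivalence. -/
lemma avg_equiv {F S X Y : Type*} [Fintype F] [Fintype S] [DecidableEq X] [DecidableEq Y]
    (e : F ≃ S) (ρ' : F → Y) (ρ : S → X) (h : ∀ a b, ρ' a = ρ' b ↔ ρ (e a) = ρ (e b))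
    (f : S → ℝ) (a : F) : avg ρ' (fun b => f (e b)) a = avg ρ f (e a) := by
  classical
  have hcls : cls ρ (e a) = (cls ρ' a).image e := by
    ext y
    simp only [cls, Finset.mem_filter, Finset.mem_univ, true_and, Finset.mem_image]
    constructor
    · intro hy
      refine ⟨e.symm y, ?_, by simp⟩
      rw [h]
      simpa using hy
    · rintro ⟨z, hz, rfl⟩
      exact (h z a).1 hz
  rw [avg, avg, hcls, Finset.sum_image (fun a _ b _ hab => e.injective hab),
    Finset.card_image_of_injective _ e.injective]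

/-- **The pure table lemma, final abstract form.**  Any three partitions of a finite set that are
isomorphic to the three rows of a table of labelings satisfy `‖Σ A_r f‖² ≥ Σ ‖A_r f‖²`. -/
theorem table3 {C F Y : Type*} [Fintype C] [DecidableEq C] [Fintype F] [DecidableEq Y]
    (ty : C → Bool) (δ : Fin 3 → ℤ) (e : F ≃ St ty δ) (ρ' : Fin 3 → F → Y)
    (h : ∀ r a b, ρ' r a = ρ' r b ↔ row r (e a) = row r (e b)) (f : F → ℝ) :
    ∑ r, ∑ x, (f x - avg (ρ' r) f x) ^ 2 ≤ ∑ x, (∑ r, (f x - avg (ρ' r) f x)) ^ 2 := by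
  refine A_form_of_Q_form ρ' f ?_
  have key := table3_form (ty := ty) (δ := δ) (fun x => f (e.symm x))
  have h1 : ∀ a, Q row (fun x => f (e.symm x)) (e a) = Q ρ' f a := by
    intro a
    simp only [Q]
    refine Finset.sum_congr rfl fun r _ => ?_
    have := avg_equiv e (ρ' r) (row r) (h r) (fun x => f (e.symm x)) a
    simp only [Equiv.symm_apply_apply] at this
    exact this.symm
  rw [← Equiv.sum_comp e] at key
  simpa [h1] using key

end Crest.Agent.Switch.Table3
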