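/-
S0453 library, T10 (helper8): `X₃ ≥ 0` from the three-row Gram bound (`triple_gram`).
-/
import Crest.Agent.Lib.Switch.Defs

set_option autoImplicit false

namespace Crest.Agent.Lib.Switch

open Finset Crest.SwitchChain

section AvgLocal
variable {α β : Type*} [DecidableEq β]

/-- restriction of the averages to a union of fibres. -/
private theorem avg_restrict' {Ω F : Finset α} {κ : α → β} (hF : F ⊆ Ω)
    (hcl : ∀ a ∈ F, ∀ b ∈ Ω, κ b = κ a → b ∈ F) (f : α → ℝ) {a : α} (ha : a ∈ F) :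
    avg F κ f a = avg Ω κ f a := by
  unfold avg
  have : F.filter (fun b => κ b = κ a) = Ω.filter (fun b => κ b = κ a) := by
    ext b
    simp only [mem_filter]
    exact ⟨fun ⟨h1, h2⟩ => ⟨hF h1, h2⟩, fun ⟨h1, h2⟩ => ⟨hcl a ha b h1 h2, h2⟩⟩
  rw [this]

/-- Averages of `f - m`. -/
private theorem comp_sub_const (F : Finset α) (κ : α → β) (f : α → ℝ) (m : ℝ) {a : α} (ha : a ∈ F) :
    comp F κ (fun x => f x - m) a = comp F κ f a := by
  unfold comp avg
  have hne : ((F.filter (fun b => κ b = κ a)).card : ℝ) ≠ 0 := by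
    have : 0 < (F.filter (fun b => κ b = κ a)).card :=
      Finset.card_pos.mpr ⟨a, mem_filter.mpr ⟨ha, rfl⟩⟩
    positivity
  rw [Finset.sum_sub_distrib, Finset.sum_const, nsmul_eq_mul]
  field_simp
  ring

/-- The Gram computation for three projections: a sum of squares plus `2‖h‖² - ∑‖E_i h‖²`. -/
theorem three_gram {ι : Type*} [DecidableEq ι] (F : Finset α) (I : Finset ι) (κ : ι → α → β)
    (hI : I.card = 3) (h : α → ℝ)
    (hg : ∑ i ∈ I, ∑ a ∈ F, avg F (κ i) h a ^ 2 ≤ 2 * ∑ a ∈ F, h a ^ 2) :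
    0 ≤ ∑ i ∈ I, ∑ j ∈ I.erase i, ∑ a ∈ F, comp F (κ i) h a * comp F (κ j) h a := by
  classical
  -- the pointwise identity
  have hpt : ∀ (a : α) (e : ι → ℝ), ∑ i ∈ I, ∑ j ∈ I.erase i, (h a - e i) * (h a - e j) =
      (2 * h a - ∑ i ∈ I, e i) ^ 2 + 2 * h a ^ 2 - ∑ i ∈ I, e i ^ 2 := by
    intro a e
    have h1 : ∀ i ∈ I, ∑ j ∈ I.erase i, (h a - e i) * (h a - e j) =
        (h a - e i) * (3 * h a - ∑ j ∈ I, e j) - (h a - e i) ^ 2 := by
      intro i hi
      have h2 : ∑ j ∈ I, (h a - e i) * (h a - e j) = (h a - e i) * (3 * h a - ∑ j ∈ I, e j) := by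
        rw [← Finset.mul_sum, Finset.sum_sub_distrib, Finset.sum_const, hI, nsmul_eq_mul]
        norm_num
      rw [← h2, ← Finset.add_sum_erase I _ hi]
      ring
    rw [Finset.sum_congr rfl h1, Finset.sum_sub_distrib, ← Finset.sum_mul,
      Finset.sum_sub_distrib, Finset.sum_const, hI, nsmul_eq_mul]
    have h3 : ∑ i ∈ I, (h a - e i) ^ 2 =
        3 * h a ^ 2 - 2 * h a * (∑ i ∈ I, e i) + ∑ i ∈ I, e i ^ 2 := by
      have : ∀ i ∈ I, (h a - e i) ^ 2 = h a ^ 2 - 2 * h a * e i + e i ^ 2 :=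
        fun i _ => by ring
      rw [Finset.sum_congr rfl this, Finset.sum_add_distrib, Finset.sum_sub_distrib,
        Finset.sum_const, hI, nsmul_eq_mul, ← Finset.mul_sum]
      norm_num
    rw [h3]
    push_cast
    ring
  have hLHS : ∑ i ∈ I, ∑ j ∈ I.erase i, ∑ a ∈ F, comp F (κ i) h a * comp F (κ j) h a =
      ∑ a ∈ F, ((2 * h a - ∑ i ∈ I, avg F (κ i) h a) ^ 2 + 2 * h a ^ 2 -
        ∑ i ∈ I, avg F (κ i) h a ^ 2) := by
    rw [← Finset.sum_congr rfl (fun a _ => hpt a (fun i => avg F (κ i) h a))]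
    calc ∑ i ∈ I, ∑ j ∈ I.erase i, ∑ a ∈ F, comp F (κ i) h a * comp F (κ j) h a
        = ∑ i ∈ I, ∑ a ∈ F, ∑ j ∈ I.erase i, comp F (κ i) h a * comp F (κ j) h a :=
          Finset.sum_congr rfl fun i _ => Finset.sum_comm
      _ = ∑ a ∈ F, ∑ i ∈ I, ∑ j ∈ I.erase i, comp F (κ i) h a * comp F (κ j) h a :=
          Finset.sum_comm
      _ = _ := rfl
  rw [hLHS, Finset.sum_sub_distrib, Finset.sum_add_distrib, ← Finset.mul_sum]
  have h4 : ∑ a ∈ F, ∑ i ∈ I, avg F (κ i) h a ^ 2 = ∑ i ∈ I, ∑ a ∈ F, avg F (κ i) h a ^ 2 :=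
    Finset.sum_comm
  rw [h4]
  have h5 : 0 ≤ ∑ a ∈ F, (2 * h a - ∑ i ∈ I, avg F (κ i) h a) ^ 2 :=
    Finset.sum_nonneg fun _ _ => sq_nonneg _
  linarith

end AvgLocal

variable {n : ℕ}

/-- If `p ⊆ t`, agreeing off `p` implies agreeing off `t`. -/
theorem keyOf_of_subset {p t : Finset (Fin n)} (h : p ⊆ t) {G G' : Finset (Edge n)}
    (hk : keyOf p G = keyOf p G') : keyOf t G = keyOf t G' := by
  have key : ∀ H : Finset (Edge n), keyOf t H = (keyOf p H).filter fun e => ∀ v ∈ t, v ∉ e.1 := by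
    intro H
    ext e
    simp only [keyOf, mem_filter]
    constructor
    · rintro ⟨h1, h2⟩
      exact ⟨⟨h1, fun v hv => h2 v (h hv)⟩, h2⟩
    · rintro ⟨⟨h1, _⟩, h2⟩
      exact ⟨h1, h2⟩
  rw [key G, key G', hk]

/-- Ordered pairs meeting in one point are the ordered pairs of distinct 2-subsets of triples. -/
theorem sum_pairs_meet_eq {M : Type*} [AddCommMonoid M]
    (F : Finset (Fin n) → Finset (Fin n) → M) :
    ∑ p ∈ pairs n, ∑ q ∈ (pairs n).filter (fun q => (p ∩ q).card = 1), F p q =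
      ∑ t ∈ triples n, ∑ p ∈ t.powersetCard 2, ∑ q ∈ (t.powersetCard 2).erase p, F p q := by
  classical
  have hL : ∑ p ∈ pairs n, ∑ q ∈ (pairs n).filter (fun q => (p ∩ q).card = 1), F p q =
      ∑ x ∈ (pairs n).sigma (fun p => (pairs n).filter (fun q => (p ∩ q).card = 1)), F x.1 x.2 :=
    Finset.sum_sigma' _ _ _
  have hR : ∑ t ∈ triples n, ∑ p ∈ t.powersetCard 2, ∑ q ∈ (t.powersetCard 2).erase p, F p q =
      ∑ y ∈ (triples n).sigma (fun t => (t.powersetCard 2).sigma
        (fun p => (t.powersetCard 2).erase p)), F y.2.1 y.2.2 := by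
    rw [← Finset.sum_sigma' (triples n)
      (fun t => (t.powersetCard 2).sigma (fun p => (t.powersetCard 2).erase p))
      (fun _ y => F y.1 y.2)]
    exact Finset.sum_congr rfl fun t _ => Finset.sum_sigma' _ _ _
  rw [hL, hR]
  refine Finset.sum_bij'
    (i := fun x _ => (⟨x.1 ∪ x.2, ⟨x.1, x.2⟩⟩ :
      (_ : Finset (Fin n)) × (_ : Finset (Fin n)) × Finset (Fin n)))
    (j := fun x _ => (⟨x.2.1, x.2.2⟩ : (_ : Finset (Fin n)) × Finset (Fin n))) ?_ ?_ ?_ ?_ ?_
  · rintro ⟨p, q⟩ hx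
    simp only [mem_sigma, mem_filter, pairs, mem_powersetCard, subset_univ, true_and] at hx
    obtain ⟨hp, hq, hpq⟩ := hx
    have hc : (p ∪ q).card = 3 := by
      have := Finset.card_union_add_card_inter p q
      omega
    simp only [mem_sigma, triples, mem_powersetCard, subset_univ, true_and, mem_erase]
    refine ⟨hc, ⟨Finset.subset_union_left, hp⟩, ?_, Finset.subset_union_right, hq⟩
    rintro rfl
    rw [Finset.inter_self, hp] at hpq
    omega
  · rintro ⟨t, ⟨p, q⟩⟩ hx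
    simp only [mem_sigma, triples, mem_powersetCard, subset_univ, true_and, mem_erase] at hx
    obtain ⟨ht, ⟨hpt, hp⟩, hne, hqt, hq⟩ := hx
    simp only [mem_sigma, mem_filter, pairs, mem_powersetCard, subset_univ, true_and]
    refine ⟨hp, hq, ?_⟩
    have h1 := Finset.card_union_add_card_inter p q
    have h2 : (p ∪ q).card ≤ 3 := ht ▸ Finset.card_le_card (Finset.union_subset hpt hqt)
    have h3 : (p ∩ q).card ≠ 2 := by
      intro h
      have h4 : p ∩ q = p := Finset.eq_of_subset_of_card_le Finset.inter_subset_left (by omega)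
      have h5 : p ∩ q = q := Finset.eq_of_subset_of_card_le Finset.inter_subset_right (by omega)
      exact hne (h5.symm.trans h4)
    have h6 : (p ∩ q).card ≤ 2 := hp ▸ Finset.card_le_card Finset.inter_subset_left
    omega
  · rintro ⟨p, q⟩ _
    rfl
  · rintro ⟨t, ⟨p, q⟩⟩ hx
    simp only [mem_sigma, triples, mem_powersetCard, subset_univ, true_and, mem_erase] at hx
    obtain ⟨ht, ⟨hpt, hp⟩, hne, hqt, hq⟩ := hx
    have h1 := Finset.card_union_add_card_inter p q
    have h3 : (p ∩ q).card ≠ 2 := by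
      intro h
      have h4 : p ∩ q = p := Finset.eq_of_subset_of_card_le Finset.inter_subset_left (by omega)
      have h5 : p ∩ q = q := Finset.eq_of_subset_of_card_le Finset.inter_subset_right (by omega)
      exact hne (h5.symm.trans h4)
    have h6 : (p ∩ q).card ≤ 2 := hp ▸ Finset.card_le_card Finset.inter_subset_left
    have h7 : p ∪ q = t := Finset.eq_of_subset_of_card_le (Finset.union_subset hpt hqt) (by omega)
    simp only [h7]
  · rintro ⟨p, q⟩ _
    rfl

/-- The form of `triple_gram` used here. -/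
def TripleGram (d : Fin n → ℕ) : Prop :=
  ∀ (t : Finset (Fin n)), t.card = 3 → ∀ (K : Finset (Edge n)) (h : Finset (Edge n) → ℝ),
    ∑ G ∈ (realizations d).filter (fun G => keyOf t G = K), h G = 0 →
    ∑ p ∈ t.powersetCard 2, ∑ G ∈ (realizations d).filter (fun G => keyOf t G = K),
        avg ((realizations d).filter (fun G => keyOf t G = K)) (keyOf p) h G ^ 2 ≤
      2 * ∑ G ∈ (realizations d).filter (fun G => keyOf t G = K), h G ^ 2

/-- T10, from the three-row Gram bound. -/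
theorem x3_nonneg_of (d : Fin n → ℕ) (htg : TripleGram d) (f : Finset (Edge n) → ℝ) :
    0 ≤ ∑ p ∈ pairs n, ∑ q ∈ (pairs n).filter (fun q => (p ∩ q).card = 1),
      ∑ G ∈ realizations d, Ap d p f G * Ap d q f G := by
  classical
  rw [sum_pairs_meet_eq]
  refine Finset.sum_nonneg fun t ht => ?_
  have htc : t.card = 3 := (mem_powersetCard.mp ht).2
  have hI : (t.powersetCard 2).card = 3 := by
    rw [Finset.card_powersetCard, htc]; rfl
  set Ω := realizations d with hΩ
  -- the fibres of `t`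
  set Fb : Finset (Edge n) → Finset (Finset (Edge n)) := fun K => Ω.filter (fun G => keyOf t G = K)
    with hFb
  -- split each inner sum by the key of `t`
  have hsplit : ∀ p ∈ t.powersetCard 2, ∀ q ∈ t.powersetCard 2,
      ∑ G ∈ Ω, Ap d p f G * Ap d q f G =
        ∑ K ∈ Ω.image (keyOf t), ∑ G ∈ Fb K, Ap d p f G * Ap d q f G := by
    intro p _ q _
    rw [Finset.sum_fiberwise_of_maps_to (fun G hG => Finset.mem_image_of_mem _ hG)]
  -- on a fibre, replace `f` by `h`
  have hloc : ∀ K ∈ Ω.image (keyOf t), ∀ p ∈ t.powersetCard 2, ∀ G ∈ Fb K,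
      Ap d p f G = comp (Fb K) (keyOf p)
        (fun x => f x - (∑ y ∈ Fb K, f y) / ((Fb K).card : ℝ)) G := by
    intro K _ p hp G hG
    rw [comp_sub_const _ _ _ _ hG]
    have hpt : p ⊆ t := (mem_powersetCard.mp hp).1
    unfold Ap comp
    rw [avg_restrict' (Finset.filter_subset _ _) _ f hG]
    intro a ha b hb hk
    refine mem_filter.mpr ⟨hb, ?_⟩
    rw [keyOf_of_subset hpt hk]
    exact (mem_filter.mp ha).2
  have hrw : ∑ p ∈ t.powersetCard 2, ∑ q ∈ (t.powersetCard 2).erase p,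
      ∑ G ∈ Ω, Ap d p f G * Ap d q f G =
      ∑ K ∈ Ω.image (keyOf t), ∑ p ∈ t.powersetCard 2, ∑ q ∈ (t.powersetCard 2).erase p,
        ∑ G ∈ Fb K, Ap d p f G * Ap d q f G := by
    calc ∑ p ∈ t.powersetCard 2, ∑ q ∈ (t.powersetCard 2).erase p,
          ∑ G ∈ Ω, Ap d p f G * Ap d q f G
        = ∑ p ∈ t.powersetCard 2, ∑ q ∈ (t.powersetCard 2).erase p,
            ∑ K ∈ Ω.image (keyOf t), ∑ G ∈ Fb K, Ap d p f G * Ap d q f G :=
          Finset.sum_congr rfl fun p hp => Finset.sum_congr rfl fun q hq =>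
            hsplit p hp q (Finset.mem_of_mem_erase hq)
      _ = ∑ p ∈ t.powersetCard 2, ∑ K ∈ Ω.image (keyOf t), ∑ q ∈ (t.powersetCard 2).erase p,
            ∑ G ∈ Fb K, Ap d p f G * Ap d q f G :=
          Finset.sum_congr rfl fun p _ => Finset.sum_comm
      _ = _ := Finset.sum_comm
  rw [hrw]
  refine Finset.sum_nonneg fun K hK => ?_
  set m : ℝ := (∑ y ∈ Fb K, f y) / ((Fb K).card : ℝ) with hm
  have hne : ((Fb K).card : ℝ) ≠ 0 := by
    obtain ⟨G, hG, rfl⟩ := Finset.mem_image.mp hK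
    have : 0 < (Fb (keyOf t G)).card :=
      Finset.card_pos.mpr ⟨G, mem_filter.mpr ⟨hG, rfl⟩⟩
    positivity
  have h0 : ∑ G ∈ Fb K, (f G - m) = 0 := by
    rw [Finset.sum_sub_distrib, Finset.sum_const, nsmul_eq_mul, hm]
    field_simp
    ring
  have h3 := three_gram (Fb K) (t.powersetCard 2) (fun p => keyOf p) hI (fun x => f x - m)
    (htg t htc K (fun x => f x - m) h0)
  refine h3.trans_eq ?_
  refine Finset.sum_congr rfl fun p hp => Finset.sum_congr rfl fun q hq =>
    Finset.sum_congr rfl fun G hG => ?_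
  rw [hloc K hK p hp G hG, hloc K hK q (Finset.mem_of_mem_erase hq) G hG]

end Crest.Agent.Lib.Switch
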