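/-
S0453, task T9 (helper3): the fibre of a vertex triple is a three-row table.
-/
import Crest.Agent.Lib.Switch.Conn
import Crest.Agent.Lib.Switch.Defs
import Crest.Agent.Lib.Switch.Table3
import Crest.Agent.Lib.Switch.X3

set_option autoImplicit false

namespace Crest.Agent.Lib.Switch

open Finset Crest.SwitchChain Crest.Agent.SwitchConn

namespace Triple

variable {n : ℕ}

section TableDefs
variable {α : Type*} [Fintype α] [DecidableEq α]

/-- Labelings of the columns `α` by the three rows: a column with `σ w = 1` has its single `1`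
in row `ℓ w`, a column with `σ w = -1` has its single `0` in row `ℓ w`. -/
def tableSet (σ : α → ℤ) (δ : Fin 3 → ℤ) : Finset (α → Fin 3) :=
  univ.filter fun ℓ => ∀ r, ∑ w, (if ℓ w = r then σ w else 0) = δ r

/-- The content of row `r` of `ℓ`. -/
def rowKey (r : Fin 3) (ℓ : α → Fin 3) : Finset α := univ.filter fun w => ℓ w = r

end TableDefs

/-! ### Graphs via neighbourhoods -/

lemma graph_ext {G H : Finset (Edge n)} (h : ∀ a, nbr G a = nbr H a) : G = H := by
  ext ⟨e, he⟩
  induction e using Sym2.ind with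
  | _ a b =>
    have hab : a ≠ b := by simpa using he
    have h1 : ∀ K : Finset (Edge n), (⟨s(a, b), he⟩ : Edge n) ∈ K ↔ b ∈ nbr K a := by
      intro K
      rw [mem_nbr]
      constructor
      · intro hK; exact ⟨hab, hK⟩
      · rintro ⟨_, hK⟩; exact hK
    rw [h1, h1, h a]

lemma mem_nbr_keyOf {p : Finset (Fin n)} {G : Finset (Edge n)} {a b : Fin n} :
    b ∈ nbr (keyOf p G) a ↔ b ∈ nbr G a ∧ a ∉ p ∧ b ∉ p := by
  rw [mem_nbr, mem_nbr]
  unfold keyOf
  simp only [mem_filter]
  constructor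
  · rintro ⟨h, hG, hv⟩
    refine ⟨⟨h, hG⟩, ?_, ?_⟩
    · intro ha; exact hv a ha (mem_edg.mpr (Or.inl rfl))
    · intro hb; exact hv b hb (mem_edg.mpr (Or.inr rfl))
  · rintro ⟨⟨h, hG⟩, ha, hb⟩
    refine ⟨h, hG, ?_⟩
    intro v hv hve
    rcases mem_edg.mp hve with rfl | rfl
    · exact ha hv
    · exact hb hv

open Classical in
/-- The graph of a relation. -/
noncomputable def ofRel (R : Fin n → Fin n → Prop) : Finset (Edge n) :=
  univ.filter fun e => ∃ a b, e.1 = s(a, b) ∧ R a b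

lemma mem_nbr_ofRel {R : Fin n → Fin n → Prop} (hR : ∀ a b, R a b → R b a) {a b : Fin n} :
    b ∈ nbr (ofRel R) a ↔ a ≠ b ∧ R a b := by
  rw [mem_nbr]
  unfold ofRel
  simp only [mem_filter, mem_univ, true_and]
  constructor
  · rintro ⟨h, x, y, hxy, hR'⟩
    refine ⟨h, ?_⟩
    have : s(a, b) = s(x, y) := hxy
    rw [Sym2.eq_iff] at this
    rcases this with ⟨rfl, rfl⟩ | ⟨rfl, rfl⟩
    · exact hR'
    · exact hR _ _ hR'
  · rintro ⟨h, hR'⟩
    exact ⟨h, a, b, rfl, hR'⟩

lemma not_mem_nbr_self (G : Finset (Edge n)) (a : Fin n) : a ∉ nbr G a := by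
  intro h
  obtain ⟨h', _⟩ := mem_nbr.mp h
  exact h' rfl

/-! ### Fin 3 facts -/

/-- a symmetric irreflexive relation on `Fin 3` is given by three bits -/
lemma fin3_one (P : Fin 3 → Bool) (h : (univ.filter fun r => P r = true).card = 1) :
    ∃ r, ∀ r', P r' = true ↔ r' = r := by
  revert P; decide

lemma fin3_two (P : Fin 3 → Bool) (h : (univ.filter fun r => P r = true).card = 2) :
    ∃ r, ∀ r', P r' = false ↔ r' = r := by
  revert P; decide


def vv (a b c : Bool) : Fin 3 → ℕ := ![a.toNat + b.toNat, a.toNat + c.toNat, b.toNat + c.toNat]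

lemma vv_m_le : ∀ (a b c : Bool) (m : ℕ), ∑ r, vv a b c r = 2 * m → m ≤ 3 := by
  intro a b c m h
  cases a <;> cases b <;> cases c <;> simp [vv, Fin.sum_univ_three] at h <;> omega

lemma vv_dec : ∀ (a b c : Bool) (m : Fin 4), ∑ r, vv a b c r = 2 * m.1 →
    ∀ r, vv a b c r = (m.1 - 1) + (if (m.1 = 1 ∨ m.1 = 2) ∧ vv a b c r = m.1 then 1 else 0) := by
  decide

lemma vv_label : ∀ (a b c : Bool) (m : Fin 4), ∑ r, vv a b c r = 2 * m.1 → (m.1 = 1 ∨ m.1 = 2) →
    ∃ L, ∀ r', ((vv a b c r' = m.1 ↔ m.1 = 2) ↔ r' = L) := by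
  decide

lemma vv_inj : ∀ (a b c a' b' c' : Bool), vv a b c = vv a' b' c' → a = a' ∧ b = b' ∧ c = c' := by
  decide

/-- the internal graph built from the label of the extra column -/
def JJ (m : ℕ) (L r r' : Fin 3) : Prop :=
  r ≠ r' ∧ (m = 3 ∨ (m = 1 ∧ L ≠ r ∧ L ≠ r') ∨ (m = 2 ∧ (L = r ∨ L = r')))

instance (m : ℕ) (L r r' : Fin 3) : Decidable (JJ m L r r') := by unfold JJ; infer_instance

lemma JJ_symm (m : ℕ) (L r r' : Fin 3) (h : JJ m L r r') : JJ m L r' r := by
  unfold JJ at *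
  obtain ⟨h1, h2⟩ := h
  refine ⟨h1.symm, ?_⟩
  rcases h2 with h | ⟨h, h3, h4⟩ | ⟨h, h3⟩
  · exact Or.inl h
  · exact Or.inr (Or.inl ⟨h, h4, h3⟩)
  · exact Or.inr (Or.inr ⟨h, h3.symm⟩)

lemma JJ_card : ∀ (m : Fin 4) (L r : Fin 3),
    (univ.filter fun r' => JJ m.1 L r r').card =
      (m.1 - 1) + (if (m.1 = 1 ∨ m.1 = 2) ∧ (L = r ↔ m.1 = 2) then 1 else 0) := by
  decide

section Main

variable (d : Fin n → ℕ) (z : Fin 3 → Fin n) (K : Finset (Edge n))

/-- the triple -/
def tt : Finset (Fin n) := univ.image z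

variable {z} in
lemma mem_tt {v : Fin n} : v ∈ tt z ↔ ∃ r, z r = v := by simp [tt]

/-- number of neighbours of `w` in the triple -/
def cw (w : Fin n) : ℕ := d w - deg K w

/-- the fibre -/
def FF : Finset (Finset (Edge n)) := (realizations d).filter fun G => keyOf (tt z) G = K

/-- internal degree -/
def idg (G : Finset (Edge n)) (r : Fin 3) : ℕ := (univ.filter fun r' => z r' ∈ nbr G (z r)).card

/-- number of neighbours outside of the triple of `z r` -/
def rowc (G : Finset (Edge n)) (r : Fin 3) : ℕ :=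
  (univ.filter fun w => w ∉ tt z ∧ w ∈ nbr G (z r)).card

/-- number of neighbours in the triple of `w` -/
def colc (G : Finset (Edge n)) (w : Fin n) : ℕ := (univ.filter fun r => z r ∈ nbr G w).card

variable {z}

lemma deg_triple (hz : Function.Injective z) (G : Finset (Edge n)) (r : Fin 3) :
    deg G (z r) = rowc z G r + idg z G r := by
  rw [← card_nbr]
  have h1 : nbr G (z r) = (univ.filter fun w => w ∉ tt z ∧ w ∈ nbr G (z r)) ∪
      (univ.filter fun r' => z r' ∈ nbr G (z r)).image z := by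
    ext w
    simp only [mem_union, mem_filter, mem_univ, true_and, mem_image]
    constructor
    · intro hw
      by_cases hwt : w ∈ tt z
      · obtain ⟨r', rfl⟩ := mem_tt.mp hwt
        exact Or.inr ⟨r', hw, rfl⟩
      · exact Or.inl ⟨hwt, hw⟩
    · rintro (⟨_, hw⟩ | ⟨r', hr', rfl⟩)
      · exact hw
      · exact hr'
  rw [h1, card_union_of_disjoint, card_image_of_injective _ hz]
  · rfl
  · rw [disjoint_left]
    intro w hw hw'
    simp only [mem_filter, mem_univ, true_and, mem_image] at hw hw'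
    obtain ⟨r', _, rfl⟩ := hw'
    exact hw.1 (mem_tt.mpr ⟨r', rfl⟩)

lemma nbr_keyOf_out {G : Finset (Edge n)} {w : Fin n} (hw : w ∉ tt z) :
    nbr (keyOf (tt z) G) w = (nbr G w).filter fun b => b ∉ tt z := by
  ext b
  rw [mem_nbr_keyOf, mem_filter]
  tauto

lemma deg_out (hz : Function.Injective z) (G : Finset (Edge n)) {w : Fin n} (hw : w ∉ tt z) :
    deg G w = deg (keyOf (tt z) G) w + colc z G w := by
  rw [← card_nbr, ← card_nbr, nbr_keyOf_out hw]
  have h1 : nbr G w = ((nbr G w).filter fun b => b ∉ tt z) ∪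
      (univ.filter fun r => z r ∈ nbr G w).image z := by
    ext b
    simp only [mem_union, mem_filter, mem_univ, true_and, mem_image]
    constructor
    · intro hb
      by_cases hbt : b ∈ tt z
      · obtain ⟨r', rfl⟩ := mem_tt.mp hbt
        exact Or.inr ⟨r', hb, rfl⟩
      · exact Or.inl ⟨hb, hbt⟩
    · rintro (⟨hb, _⟩ | ⟨r', hr', rfl⟩)
      · exact hb
      · exact hr'
  conv_lhs => rw [h1]
  rw [card_union_of_disjoint, card_image_of_injective _ hz]
  · rfl
  · rw [disjoint_left]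
    intro b hb hb'
    simp only [mem_filter, mem_univ, true_and, mem_image] at hb hb'
    obtain ⟨r', _, rfl⟩ := hb'
    exact hb.2 (mem_tt.mpr ⟨r', rfl⟩)

lemma mem_FF_iff (hz : Function.Injective z) (G : Finset (Edge n)) :
    G ∈ FF d z K ↔ keyOf (tt z) G = K ∧ (∀ w, w ∉ tt z → deg K w + colc z G w = d w) ∧
      ∀ r, rowc z G r + idg z G r = d (z r) := by
  unfold FF realizations
  simp only [mem_filter, mem_univ, true_and]
  constructor
  · rintro ⟨hd, hK⟩
    refine ⟨hK, fun w hw => ?_, fun r => ?_⟩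
    · rw [← hd w, deg_out hz G hw, hK]
    · rw [← hd (z r), deg_triple hz]
  · rintro ⟨hK, h1, h2⟩
    refine ⟨fun v => ?_, hK⟩
    by_cases hv : v ∈ tt z
    · obtain ⟨r, rfl⟩ := mem_tt.mp hv
      rw [deg_triple hz, h2]
    · rw [deg_out hz G hv, hK, h1 v hv]

lemma colc_eq (hz : Function.Injective z) {G : Finset (Edge n)} (hG : G ∈ FF d z K) {w : Fin n}
    (hw : w ∉ tt z) : colc z G w = cw d K w := by
  have := ((mem_FF_iff d K hz G).mp hG).2.1 w hw
  unfold cw
  omega

/-- the internal bits -/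
def ib (z : Fin 3 → Fin n) (G : Finset (Edge n)) (r r' : Fin 3) : Bool := decide (z r' ∈ nbr G (z r))

lemma idg_eq_vv (G : Finset (Edge n)) :
    idg z G = vv (ib z G 0 1) (ib z G 0 2) (ib z G 1 2) := by
  have hs : ∀ r r', ib z G r r' = ib z G r' r := by
    intro r r'
    unfold ib
    simp only [decide_eq_decide]
    exact mem_nbr_comm
  have hd : ∀ r, ib z G r r = false := by
    intro r
    unfold ib
    simp [not_mem_nbr_self]
  have hc : ∀ r, idg z G r = ∑ r', (ib z G r r').toNat := by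
    intro r
    unfold idg ib
    rw [card_filter]
    refine sum_congr rfl fun r' _ => ?_
    by_cases h : z r' ∈ nbr G (z r) <;> simp [h]
  funext r
  rw [hc, Fin.sum_univ_three]
  fin_cases r
  · simp only [vv, Fin.zero_eta, Fin.isValue, Matrix.cons_val_zero, hd]
    simp
  · simp only [vv, Fin.mk_one, Fin.isValue, Matrix.cons_val_one, hd, hs 1 0]
    simp
  · simp only [vv, Fin.reduceFinMk, Fin.isValue, Matrix.cons_val, hd, hs 2 0, hs 2 1]
    simp

/-- the number of internal edges -/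
def mm (d : Fin n → ℕ) (z : Fin 3 → Fin n) (K : Finset (Edge n)) : ℕ :=
  (∑ r, d (z r) - ∑ w ∈ univ.filter (fun w => w ∉ tt z), cw d K w) / 2

lemma sum_rowc (hz : Function.Injective z) {G : Finset (Edge n)} (hG : G ∈ FF d z K) :
    ∑ r, rowc z G r = ∑ w ∈ univ.filter (fun w => w ∉ tt z), cw d K w := by
  have h1 : ∀ r, rowc z G r = ∑ w ∈ univ.filter (fun w => w ∉ tt z),
      if z r ∈ nbr G w then 1 else 0 := by
    intro r
    unfold rowc
    rw [← card_filter, filter_filter]
    congr 1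
    ext w
    simp only [mem_filter, mem_univ, true_and]
    rw [mem_nbr_comm]
  simp only [h1]
  rw [sum_comm]
  refine sum_congr rfl fun w hw => ?_
  rw [← colc_eq d K hz hG (mem_filter.mp hw).2]
  unfold colc
  rw [card_filter]

lemma sum_idg (hz : Function.Injective z) {G : Finset (Edge n)} (hG : G ∈ FF d z K) :
    ∑ r, idg z G r = 2 * mm d z K := by
  have h1 : ∑ r, d (z r) = ∑ w ∈ univ.filter (fun w => w ∉ tt z), cw d K w + ∑ r, idg z G r := by
    rw [← sum_rowc d K hz hG, ← sum_add_distrib]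
    exact sum_congr rfl fun r _ => (((mem_FF_iff d K hz G).mp hG).2.2 r).symm
  have h2 : ∃ k, ∑ r, idg z G r = 2 * k := by
    refine ⟨(ib z G 0 1).toNat + (ib z G 0 2).toNat + (ib z G 1 2).toNat, ?_⟩
    rw [idg_eq_vv]
    simp only [vv, Fin.sum_univ_three]
    simp
    ring
  obtain ⟨k, hk⟩ := h2
  unfold mm
  rw [h1, hk]
  omega

lemma mm_le (hz : Function.Injective z) {G : Finset (Edge n)} (hG : G ∈ FF d z K) :
    mm d z K ≤ 3 := by
  have h := sum_idg d K hz hG
  rw [idg_eq_vv] at h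
  exact vv_m_le _ _ _ _ h

variable (z) in
/-- which columns occur in the table -/
def ColP : Option (Fin n) → Prop
  | some w => w ∉ tt z ∧ (cw d K w = 1 ∨ cw d K w = 2)
  | none => mm d z K = 1 ∨ mm d z K = 2

variable (z) in
/-- the columns of the table -/
abbrev Col := {o : Option (Fin n) // ColP d z K o}

variable (z) in
/-- the columns with a single one -/
def sP : Option (Fin n) → Prop
  | some w => cw d K w = 1
  | none => mm d z K = 2

variable (z) in
/-- incidence of a column and a row -/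
def incS (G : Finset (Edge n)) : Option (Fin n) → Fin 3 → Prop
  | some w, r => w ∈ nbr G (z r)
  | none, r => idg z G r = mm d z K

open Classical in
variable (z) in
/-- The label of a column in a graph -/
noncomputable def lab (G : Finset (Edge n)) (o : Col d z K) : Fin 3 :=
  if h : ∃ r, ∀ r', (incS d z K G o.1 r' ↔ sP d z K o.1) ↔ r' = r then h.choose else 0

lemma label_exists (hz : Function.Injective z) {G : Finset (Edge n)} (hG : G ∈ FF d z K)
    (o : Col d z K) : ∃ r, ∀ r', (incS d z K G o.1 r' ↔ sP d z K o.1) ↔ r' = r := by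
  obtain ⟨o, ho⟩ := o
  cases o with
  | some w =>
    obtain ⟨hw, hc⟩ := ho
    have h1 := colc_eq d K hz hG hw
    have h2 : (univ.filter fun r => (decide (z r ∈ nbr G w)) = true).card = cw d K w := by
      rw [← h1]; unfold colc; simp
    rcases hc with hc | hc
    · rw [hc] at h2
      obtain ⟨r, hr⟩ := fin3_one _ h2
      refine ⟨r, fun r' => ?_⟩
      rw [← hr r']
      simp only [incS, sP, hc, decide_eq_true_eq, iff_true]
      rw [mem_nbr_comm]
    · rw [hc] at h2
      obtain ⟨r, hr⟩ := fin3_two _ h2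
      refine ⟨r, fun r' => ?_⟩
      rw [← hr r']
      simp only [incS, sP, hc, decide_eq_false_iff_not, iff_false, OfNat.ofNat_ne_one]
      rw [mem_nbr_comm]
  | none =>
    have h1 := sum_idg d K hz hG
    have hm := mm_le d K hz hG
    rw [idg_eq_vv] at h1
    obtain ⟨r, hr⟩ := vv_label _ _ _ ⟨mm d z K, by omega⟩ h1 ho
    refine ⟨r, fun r' => ?_⟩
    rw [← hr r']
    simp only [incS, sP, idg_eq_vv]

lemma lab_spec (hz : Function.Injective z) {G : Finset (Edge n)} (hG : G ∈ FF d z K)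
    (o : Col d z K) (r : Fin 3) :
    (incS d z K G o.1 r ↔ sP d z K o.1) ↔ lab d z K G o = r := by
  have h := label_exists d K hz hG o
  unfold lab
  rw [dif_pos h, eq_comm]
  exact h.choose_spec r

lemma inc_iff_lab (hz : Function.Injective z) {G : Finset (Edge n)} (hG : G ∈ FF d z K)
    (o : Col d z K) (r : Fin 3) :
    incS d z K G o.1 r ↔ (lab d z K G o = r ↔ sP d z K o.1) := by
  have h := lab_spec d K hz hG o r
  tauto

open Classical in
variable (z) in
/-- the sign of a column -/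
noncomputable def sgn (o : Col d z K) : ℤ := if sP d z K o.1 then 1 else -1

open Classical in
variable (z) in
/-- number of columns with two ones -/
noncomputable def bb : ℕ := (univ.filter fun o : Col d z K => ¬ sP d z K o.1).card

open Classical in
variable (z) in
/-- number of vertices outside joined to the whole triple -/
noncomputable def c3 : ℕ := (univ.filter fun w => w ∉ tt z ∧ cw d K w = 3).card

variable (z) in
/-- the row sums of the table -/
noncomputable def dlt (r : Fin 3) : ℤ :=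
  (d (z r) : ℤ) - c3 d z K - ((mm d z K - 1 : ℕ) : ℤ) - bb d z K

open Classical in
lemma count_sgn (ℓ : Col d z K → Fin 3) (r : Fin 3) (P : Col d z K → Prop)
    (hP : ∀ o, P o ↔ (ℓ o = r ↔ sP d z K o.1)) :
    ∑ o, (if ℓ o = r then sgn d z K o else 0) = ((univ.filter P).card : ℤ) - bb d z K := by
  unfold bb
  rw [card_filter, card_filter]
  push_cast
  rw [← sum_sub_distrib]
  refine sum_congr rfl fun o _ => ?_
  unfold sgn
  have := hP o
  by_cases h1 : ℓ o = r <;> by_cases h2 : sP d z K o.1 <;> simp_all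

open Classical in
lemma count_col (Q : Option (Fin n) → Prop) :
    (univ.filter fun o : Col d z K => Q o.1).card =
      (univ.filter fun w => ColP d z K (some w) ∧ Q (some w)).card +
        (if ColP d z K none ∧ Q none then 1 else 0) := by
  have h1 : (univ.filter fun o : Col d z K => Q o.1).card =
      (univ.filter fun o : Option (Fin n) => ColP d z K o ∧ Q o).card := by
    rw [← card_map (Function.Embedding.subtype _)]
    congr 1
    ext o
    simp only [mem_map, mem_filter, mem_univ, true_and, Function.Embedding.subtype_apply]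
    constructor
    · rintro ⟨o', hQ, rfl⟩; exact ⟨o'.2, hQ⟩
    · rintro ⟨h, hQ⟩; exact ⟨⟨o, h⟩, hQ, rfl⟩
  rw [h1, card_filter, Fintype.sum_option, card_filter, add_comm]

lemma card_colc_univ (hz : Function.Injective z) {G : Finset (Edge n)} (hG : G ∈ FF d z K)
    {w : Fin n} (hw : w ∉ tt z) : cw d K w ≤ 3 := by
  rw [← colc_eq d K hz hG hw]
  unfold colc
  exact (card_filter_le _ _).trans (by simp)

lemma col_three (hz : Function.Injective z) {G : Finset (Edge n)} (hG : G ∈ FF d z K)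
    {w : Fin n} (hw : w ∉ tt z) (h3 : cw d K w = 3) (r : Fin 3) : w ∈ nbr G (z r) := by
  have h1 := colc_eq d K hz hG hw
  rw [h3] at h1
  unfold colc at h1
  have h2 : (univ.filter fun r => z r ∈ nbr G w) = univ := by
    apply eq_univ_of_card
    rw [h1]; simp
  have h4 : r ∈ (univ.filter fun r => z r ∈ nbr G w) := by rw [h2]; exact mem_univ _
  rw [mem_nbr_comm]
  exact (mem_filter.mp h4).2

lemma col_zero (hz : Function.Injective z) {G : Finset (Edge n)} (hG : G ∈ FF d z K)
    {w : Fin n} (hw : w ∉ tt z) (h0 : cw d K w = 0) (r : Fin 3) : w ∉ nbr G (z r) := by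
  have h1 := colc_eq d K hz hG hw
  rw [h0] at h1
  unfold colc at h1
  rw [card_eq_zero, filter_eq_empty_iff] at h1
  rw [mem_nbr_comm]
  exact h1 (mem_univ r)

open Classical in
lemma rowc_eq (hz : Function.Injective z) {G : Finset (Edge n)} (hG : G ∈ FF d z K) (r : Fin 3) :
    rowc z G r = c3 d z K +
      (univ.filter fun w => ColP d z K (some w) ∧ w ∈ nbr G (z r)).card := by
  unfold rowc c3
  rw [← card_union_of_disjoint]
  · congr 1
    ext w
    simp only [mem_filter, mem_univ, true_and, mem_union]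
    constructor
    · rintro ⟨hw, hn⟩
      have hc := card_colc_univ d K hz hG hw
      have h1 : cw d K w ≠ 0 := fun h0 => col_zero d K hz hG hw h0 r hn
      have h2 : cw d K w = 1 ∨ cw d K w = 2 ∨ cw d K w = 3 := by omega
      rcases h2 with h2 | h2 | h2
      · exact Or.inr ⟨⟨hw, Or.inl h2⟩, hn⟩
      · exact Or.inr ⟨⟨hw, Or.inr h2⟩, hn⟩
      · exact Or.inl ⟨hw, h2⟩
    · rintro (⟨hw, h3⟩ | ⟨⟨hw, _⟩, hn⟩)
      · exact ⟨hw, col_three d K hz hG hw h3 r⟩
      · exact ⟨hw, hn⟩
  · rw [disjoint_left]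
    intro w hw hw'
    simp only [mem_filter, mem_univ, true_and] at hw hw'
    have h1 := hw.2
    have h2 : cw d K w = 1 ∨ cw d K w = 2 := hw'.1.2
    omega

lemma idg_dec (hz : Function.Injective z) {G : Finset (Edge n)} (hG : G ∈ FF d z K) (r : Fin 3) :
    idg z G r = (mm d z K - 1) + (if (mm d z K = 1 ∨ mm d z K = 2) ∧ idg z G r = mm d z K
      then 1 else 0) := by
  have h1 := sum_idg d K hz hG
  have hm := mm_le d K hz hG
  rw [idg_eq_vv] at h1 ⊢
  exact vv_dec _ _ _ ⟨mm d z K, by omega⟩ h1 r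

open Classical in
lemma lab_mem (hz : Function.Injective z) {G : Finset (Edge n)} (hG : G ∈ FF d z K) :
    lab d z K G ∈ tableSet (sgn d z K) (dlt d z K) := by
  unfold tableSet
  rw [mem_filter]
  refine ⟨mem_univ _, fun r => ?_⟩
  rw [count_sgn d K (lab d z K G) r (fun o => incS d z K G o.1 r)
    (fun o => inc_iff_lab d K hz hG o r)]
  rw [count_col d K (fun o => incS d z K G o r)]
  have h1 := ((mem_FF_iff d K hz G).mp hG).2.2 r
  rw [rowc_eq d K hz hG, idg_dec d K hz hG r] at h1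
  unfold dlt
  rw [← h1]
  have h2 : (univ.filter fun w => ColP d z K (some w) ∧ incS d z K G (some w) r) =
      (univ.filter fun w => ColP d z K (some w) ∧ w ∈ nbr G (z r)) :=
    filter_congr fun _ _ => Iff.rfl
  rw [h2]
  have h3 : (if ColP d z K none ∧ incS d z K G none r then 1 else 0) =
      (if (mm d z K = 1 ∨ mm d z K = 2) ∧ idg z G r = mm d z K then 1 else 0) :=
    if_congr Iff.rfl rfl rfl
  rw [h3]
  push_cast
  ring

/-! ### The converse construction -/

variable (z) in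
/-- label of the extra column -/
noncomputable def LL (ℓ : Col d z K → Fin 3) : Fin 3 :=
  open Classical in if h : ColP d z K none then ℓ ⟨none, h⟩ else 0

variable (z) in
/-- row-column incidence from a labeling -/
def BB (ℓ : Col d z K → Fin 3) (r : Fin 3) (w : Fin n) : Prop :=
  cw d K w = 3 ∨ ∃ h : ColP d z K (some w), (ℓ ⟨some w, h⟩ = r ↔ sP d z K (some w))

variable (z) in
/-- the relation defining the graph of a labeling -/
def RR (ℓ : Col d z K → Fin 3) (a b : Fin n) : Prop :=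
  (a ∉ tt z ∧ b ∉ tt z ∧ b ∈ nbr K a) ∨ (∃ r, a = z r ∧ b ∉ tt z ∧ BB d z K ℓ r b) ∨
    (∃ r, b = z r ∧ a ∉ tt z ∧ BB d z K ℓ r a) ∨
    (∃ r r', a = z r ∧ b = z r' ∧ JJ (mm d z K) (LL d z K ℓ) r r')

lemma RR_symm (ℓ : Col d z K → Fin 3) (a b : Fin n) (h : RR d z K ℓ a b) : RR d z K ℓ b a := by
  rcases h with ⟨h1, h2, h3⟩ | h | h | ⟨r, r', h1, h2, h3⟩
  · exact Or.inl ⟨h2, h1, mem_nbr_comm.mp h3⟩
  · exact Or.inr (Or.inr (Or.inl h))
  · exact Or.inr (Or.inl h)
  · exact Or.inr (Or.inr (Or.inr ⟨r', r, h2, h1, JJ_symm _ _ _ _ h3⟩))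

variable (z) in
/-- the graph of a labeling -/
noncomputable def GG (ℓ : Col d z K → Fin 3) : Finset (Edge n) := ofRel (RR d z K ℓ)

lemma nbr_GG_out (ℓ : Col d z K → Fin 3) {a b : Fin n} (ha : a ∉ tt z) (hb : b ∉ tt z) :
    b ∈ nbr (GG d z K ℓ) a ↔ b ∈ nbr K a := by
  unfold GG
  rw [mem_nbr_ofRel (RR_symm d K ℓ)]
  constructor
  · rintro ⟨_, ⟨_, _, h⟩ | ⟨r, h, _⟩ | ⟨r, h, _⟩ | ⟨r, r', h, _⟩⟩
    · exact h
    · exact absurd (mem_tt.mpr ⟨r, h.symm⟩) ha
    · exact absurd (mem_tt.mpr ⟨r, h.symm⟩) hb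
    · exact absurd (mem_tt.mpr ⟨r, h.symm⟩) ha
  · intro h
    exact ⟨(mem_nbr.mp h).1, Or.inl ⟨ha, hb, h⟩⟩

lemma nbr_GG_row (hz : Function.Injective z) (ℓ : Col d z K → Fin 3) (r : Fin 3) {w : Fin n}
    (hw : w ∉ tt z) : w ∈ nbr (GG d z K ℓ) (z r) ↔ BB d z K ℓ r w := by
  unfold GG
  rw [mem_nbr_ofRel (RR_symm d K ℓ)]
  constructor
  · rintro ⟨_, ⟨h, _, _⟩ | ⟨r', h, _, h2⟩ | ⟨r', h, _⟩ | ⟨r1, r2, _, h, _⟩⟩
    · exact absurd (mem_tt.mpr ⟨r, rfl⟩) h
    · rw [hz h]; exact h2
    · exact absurd (mem_tt.mpr ⟨r', h.symm⟩) hw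
    · exact absurd (mem_tt.mpr ⟨r2, h.symm⟩) hw
  · intro h
    refine ⟨?_, Or.inr (Or.inl ⟨r, rfl, hw, h⟩)⟩
    rintro rfl
    exact hw (mem_tt.mpr ⟨r, rfl⟩)

lemma nbr_GG_int (hz : Function.Injective z) (ℓ : Col d z K → Fin 3) (r r' : Fin 3) :
    z r' ∈ nbr (GG d z K ℓ) (z r) ↔ JJ (mm d z K) (LL d z K ℓ) r r' := by
  unfold GG
  rw [mem_nbr_ofRel (RR_symm d K ℓ)]
  constructor
  · rintro ⟨_, ⟨h, _, _⟩ | ⟨r1, _, h, _⟩ | ⟨r1, _, h, _⟩ | ⟨r1, r2, h1, h2, h3⟩⟩
    · exact absurd (mem_tt.mpr ⟨r, rfl⟩) h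
    · exact absurd (mem_tt.mpr ⟨r', rfl⟩) h
    · exact absurd (mem_tt.mpr ⟨r, rfl⟩) h
    · rw [hz h1, hz h2]; exact h3
  · intro h
    refine ⟨fun h' => h.1 (hz h'), Or.inr (Or.inr (Or.inr ⟨r, r', rfl, rfl, h⟩))⟩

lemma nbr_K_of_mem {G : Finset (Edge n)} (hG : G ∈ FF d z K) {a b : Fin n} :
    b ∈ nbr K a ↔ b ∈ nbr G a ∧ a ∉ tt z ∧ b ∉ tt z := by
  have h : keyOf (tt z) G = K := (mem_filter.mp hG).2
  rw [← h, mem_nbr_keyOf]

lemma keyOf_GG {G : Finset (Edge n)} (hG : G ∈ FF d z K) (ℓ : Col d z K → Fin 3) :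
    keyOf (tt z) (GG d z K ℓ) = K := by
  refine graph_ext fun a => ?_
  ext b
  rw [mem_nbr_keyOf, nbr_K_of_mem d K hG]
  constructor
  · rintro ⟨h, ha, hb⟩
    rw [nbr_GG_out d K ℓ ha hb, nbr_K_of_mem d K hG] at h
    exact ⟨h.1, ha, hb⟩
  · rintro ⟨h, ha, hb⟩
    refine ⟨?_, ha, hb⟩
    rw [nbr_GG_out d K ℓ ha hb, nbr_K_of_mem d K hG]
    exact ⟨h, ha, hb⟩

lemma fin3_ne_card (L : Fin 3) : (univ.filter fun r => L ≠ r).card = 2 := by
  revert L; decide

open Classical in
lemma colc_GG (hz : Function.Injective z) {G : Finset (Edge n)} (hG : G ∈ FF d z K)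
    (ℓ : Col d z K → Fin 3) {w : Fin n} (hw : w ∉ tt z) :
    colc z (GG d z K ℓ) w = cw d K w := by
  have h1 : colc z (GG d z K ℓ) w = (univ.filter fun r => BB d z K ℓ r w).card := by
    unfold colc
    congr 1
    ext r
    simp only [mem_filter, mem_univ, true_and]
    rw [mem_nbr_comm, nbr_GG_row d K hz ℓ r hw]
  rw [h1]
  have hc := card_colc_univ d K hz hG hw
  have h2 : cw d K w = 0 ∨ cw d K w = 1 ∨ cw d K w = 2 ∨ cw d K w = 3 := by omega
  rcases h2 with h2 | h2 | h2 | h2
  · rw [h2, card_eq_zero, filter_eq_empty_iff]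
    rintro r - (h | ⟨⟨_, h⟩, _⟩)
    · omega
    · omega
  · have hcol : ColP d z K (some w) := ⟨hw, Or.inl h2⟩
    have hs : sP d z K (some w) := h2
    have : (univ.filter fun r => BB d z K ℓ r w) = {ℓ ⟨some w, hcol⟩} := by
      ext r
      simp only [mem_filter, mem_univ, true_and, mem_singleton]
      constructor
      · rintro (h | ⟨_, h⟩)
        · omega
        · exact (h.mpr hs).symm
      · rintro rfl
        exact Or.inr ⟨hcol, by simp [hs]⟩
    rw [this, h2]; simp
  · have hcol : ColP d z K (some w) := ⟨hw, Or.inr h2⟩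
    have hs : ¬ sP d z K (some w) := by
      show ¬ cw d K w = 1
      omega
    have : (univ.filter fun r => BB d z K ℓ r w) = univ.filter fun r => ℓ ⟨some w, hcol⟩ ≠ r := by
      ext r
      simp only [mem_filter, mem_univ, true_and]
      constructor
      · rintro (h | ⟨_, h⟩)
        · omega
        · intro h'; exact hs (h.mp h')
      · intro h
        exact Or.inr ⟨hcol, by simp [hs, h]⟩
    rw [this, fin3_ne_card, h2]
  · have : (univ.filter fun r => BB d z K ℓ r w) = univ := by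
      ext r
      simp only [mem_filter, mem_univ, true_and, iff_true]
      exact Or.inl h2
    rw [this, h2]; simp


variable (z) in
/-- the incidence read from a labeling -/
def QQ (ℓ : Col d z K → Fin 3) (r : Fin 3) (o : Option (Fin n)) : Prop :=
  ∃ h : ColP d z K o, (ℓ ⟨o, h⟩ = r ↔ sP d z K o)

lemma QQ_iff (ℓ : Col d z K → Fin 3) (r : Fin 3) (o : Col d z K) :
    QQ d z K ℓ r o.1 ↔ (ℓ o = r ↔ sP d z K o.1) := by
  constructor
  · rintro ⟨_, h⟩; exact h
  · intro h; exact ⟨o.2, h⟩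

open Classical in
lemma rowc_GG (hz : Function.Injective z) (ℓ : Col d z K → Fin 3) (r : Fin 3) :
    rowc z (GG d z K ℓ) r = c3 d z K +
      (univ.filter fun w => ColP d z K (some w) ∧ QQ d z K ℓ r (some w)).card := by
  unfold rowc c3
  rw [← card_union_of_disjoint]
  · congr 1
    ext w
    simp only [mem_filter, mem_univ, true_and, mem_union]
    constructor
    · rintro ⟨hw, hn⟩
      rw [nbr_GG_row d K hz ℓ r hw] at hn
      rcases hn with h | ⟨h1, h2⟩
      · exact Or.inl ⟨hw, h⟩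
      · exact Or.inr ⟨h1, h1, h2⟩
    · rintro (⟨hw, h3⟩ | ⟨h1, _, h2⟩)
      · exact ⟨hw, (nbr_GG_row d K hz ℓ r hw).mpr (Or.inl h3)⟩
      · exact ⟨h1.1, (nbr_GG_row d K hz ℓ r h1.1).mpr (Or.inr ⟨h1, h2⟩)⟩
  · rw [disjoint_left]
    intro w hw hw'
    simp only [mem_filter, mem_univ, true_and] at hw hw'
    have h1 := hw.2
    have h2 : cw d K w = 1 ∨ cw d K w = 2 := hw'.1.2
    omega

lemma idg_GG (hz : Function.Injective z) {G : Finset (Edge n)} (hG : G ∈ FF d z K)
    (ℓ : Col d z K → Fin 3) (r : Fin 3) :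
    idg z (GG d z K ℓ) r = (mm d z K - 1) +
      (if (mm d z K = 1 ∨ mm d z K = 2) ∧ (LL d z K ℓ = r ↔ mm d z K = 2) then 1 else 0) := by
  have hm := mm_le d K hz hG
  have h1 : idg z (GG d z K ℓ) r =
      (univ.filter fun r' => JJ (mm d z K) (LL d z K ℓ) r r').card := by
    unfold idg
    congr 1
    ext r'
    simp only [mem_filter, mem_univ, true_and]
    exact nbr_GG_int d K hz ℓ r r'
  rw [h1]
  exact JJ_card ⟨mm d z K, by omega⟩ (LL d z K ℓ) r

open Classical in
lemma GG_mem (hz : Function.Injective z) {G : Finset (Edge n)} (hG : G ∈ FF d z K)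
    {ℓ : Col d z K → Fin 3} (hℓ : ℓ ∈ tableSet (sgn d z K) (dlt d z K)) :
    GG d z K ℓ ∈ FF d z K := by
  rw [mem_FF_iff d K hz]
  refine ⟨keyOf_GG d K hG ℓ, fun w hw => ?_, fun r => ?_⟩
  · rw [colc_GG d K hz hG ℓ hw, ← colc_eq d K hz hG hw]
    exact ((mem_FF_iff d K hz G).mp hG).2.1 w hw
  · rw [rowc_GG d K hz ℓ r, idg_GG d K hz hG ℓ r]
    have h1 := (mem_filter.mp hℓ).2 r
    rw [count_sgn d K ℓ r (fun o => QQ d z K ℓ r o.1) (fun o => QQ_iff d K ℓ r o),
      count_col d K (QQ d z K ℓ r)] at h1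
    have h2 : (if ColP d z K none ∧ QQ d z K ℓ r none then 1 else 0) =
        (if (mm d z K = 1 ∨ mm d z K = 2) ∧ (LL d z K ℓ = r ↔ mm d z K = 2) then 1 else 0) := by
      refine if_congr ?_ rfl rfl
      constructor
      · rintro ⟨h, _, h3⟩
        have h' : ColP d z K none := h
        refine ⟨h, ?_⟩
        unfold LL
        rw [dif_pos h']
        exact h3
      · rintro ⟨h, h3⟩
        have h' : ColP d z K none := h
        refine ⟨h, h, ?_⟩
        unfold LL at h3
        rw [dif_pos h'] at h3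
        exact h3
    rw [h2] at h1
    unfold dlt at h1
    have h3 : ((c3 d z K + (univ.filter fun w => ColP d z K (some w) ∧ QQ d z K ℓ r (some w)).card +
        ((mm d z K - 1) + (if (mm d z K = 1 ∨ mm d z K = 2) ∧ (LL d z K ℓ = r ↔ mm d z K = 2)
          then 1 else 0)) : ℕ) : ℤ) = (d (z r) : ℤ) := by
      push_cast
      push_cast at h1
      linarith
    exact_mod_cast h3

open Classical in
lemma lab_GG (hz : Function.Injective z) {G : Finset (Edge n)} (hG : G ∈ FF d z K)
    {ℓ : Col d z K → Fin 3} (hℓ : ℓ ∈ tableSet (sgn d z K) (dlt d z K)) :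
    lab d z K (GG d z K ℓ) = ℓ := by
  funext o
  have hmem := GG_mem d K hz hG hℓ
  rw [← lab_spec d K hz hmem o (ℓ o)]
  obtain ⟨o, ho⟩ := o
  cases o with
  | some w =>
    have hw : w ∉ tt z := ho.1
    have h1 : cw d K w = 1 ∨ cw d K w = 2 := ho.2
    show w ∈ nbr (GG d z K ℓ) (z (ℓ ⟨some w, ho⟩)) ↔ sP d z K (some w)
    rw [nbr_GG_row d K hz ℓ _ hw]
    constructor
    · rintro (h | ⟨_, h⟩)
      · omega
      · exact h.mp rfl
    · intro h
      exact Or.inr ⟨ho, by simp [h]⟩
  | none =>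
    have h1 : mm d z K = 1 ∨ mm d z K = 2 := ho
    show idg z (GG d z K ℓ) (ℓ ⟨none, ho⟩) = mm d z K ↔ mm d z K = 2
    rw [idg_GG d K hz hG ℓ]
    have h2 : LL d z K ℓ = ℓ ⟨none, ho⟩ := by
      unfold LL; rw [dif_pos ho]
    rw [h2]
    rcases h1 with h1 | h1 <;> simp [h1]

/-- Two fibre graphs have the same row `r`. -/
def rowEq (z : Fin 3 → Fin n) (r : Fin 3) (G G' : Finset (Edge n)) : Prop :=
  ∀ w, w ∉ tt z → (w ∈ nbr G (z r) ↔ w ∈ nbr G' (z r))

lemma idg_of_rowEq (hz : Function.Injective z) {G G' : Finset (Edge n)} (hG : G ∈ FF d z K)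
    (hG' : G' ∈ FF d z K) {r : Fin 3} (h : rowEq z r G G') : idg z G r = idg z G' r := by
  have h1 := ((mem_FF_iff d K hz G).mp hG).2.2 r
  have h2 := ((mem_FF_iff d K hz G').mp hG').2.2 r
  have h3 : rowc z G r = rowc z G' r := by
    unfold rowc
    congr 1
    ext w
    simp only [mem_filter, mem_univ, true_and]
    constructor
    · rintro ⟨hw, hn⟩; exact ⟨hw, (h w hw).mp hn⟩
    · rintro ⟨hw, hn⟩; exact ⟨hw, (h w hw).mpr hn⟩
  omega

lemma key_iff (hz : Function.Injective z) {G G' : Finset (Edge n)} (hG : G ∈ FF d z K)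
    (hG' : G' ∈ FF d z K) (r : Fin 3) :
    keyOf ((tt z).erase (z r)) G = keyOf ((tt z).erase (z r)) G' ↔ rowEq z r G G' := by
  constructor
  · intro h w hw
    have h1 : ∀ H : Finset (Edge n), w ∈ nbr (keyOf ((tt z).erase (z r)) H) (z r) ↔
        w ∈ nbr H (z r) := by
      intro H
      rw [mem_nbr_keyOf]
      constructor
      · exact fun h => h.1
      · intro h
        refine ⟨h, ?_, fun hw' => hw (mem_of_mem_erase hw')⟩
        simp
    rw [← h1 G, ← h1 G', h]
  · intro h
    refine graph_ext fun a => ?_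
    ext b
    rw [mem_nbr_keyOf, mem_nbr_keyOf]
    have h1 : b ∉ (tt z).erase (z r) → a ∉ (tt z).erase (z r) →
        (b ∈ nbr G a ↔ b ∈ nbr G' a) := by
      intro hb ha
      have ha' : a = z r ∨ a ∉ tt z := by
        by_cases h2 : a = z r
        · exact Or.inl h2
        · right
          intro h3
          exact ha (mem_erase.mpr ⟨h2, h3⟩)
      have hb' : b = z r ∨ b ∉ tt z := by
        by_cases h2 : b = z r
        · exact Or.inl h2
        · right
          intro h3
          exact hb (mem_erase.mpr ⟨h2, h3⟩)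
      rcases ha' with rfl | ha'
      · rcases hb' with rfl | hb'
        · simp [not_mem_nbr_self]
        · exact h b hb'
      · rcases hb' with rfl | hb'
        · rw [mem_nbr_comm, mem_nbr_comm (G := G')]
          exact h a ha'
        · have h2 : ∀ H ∈ FF d z K, b ∈ nbr H a ↔ b ∈ nbr K a := by
            intro H hH
            rw [nbr_K_of_mem d K hH]
            tauto
          rw [h2 G hG, h2 G' hG']
    constructor
    · rintro ⟨h2, ha, hb⟩; exact ⟨(h1 hb ha).mp h2, ha, hb⟩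
    · rintro ⟨h2, ha, hb⟩; exact ⟨(h1 hb ha).mpr h2, ha, hb⟩

open Classical in
lemma rowKey_iff (hz : Function.Injective z) {G G' : Finset (Edge n)} (hG : G ∈ FF d z K)
    (hG' : G' ∈ FF d z K) (r : Fin 3) :
    rowKey r (lab d z K G) = rowKey r (lab d z K G') ↔ rowEq z r G G' := by
  have key : rowKey r (lab d z K G) = rowKey r (lab d z K G') ↔
      ∀ o : Col d z K, incS d z K G o.1 r ↔ incS d z K G' o.1 r := by
    unfold rowKey
    rw [Finset.ext_iff]
    simp only [mem_filter, mem_univ, true_and]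
    refine forall_congr' fun o => ?_
    rw [inc_iff_lab d K hz hG, inc_iff_lab d K hz hG']
    tauto
  rw [key]
  constructor
  · intro h w hw
    have hc := card_colc_univ d K hz hG hw
    have h2 : cw d K w = 0 ∨ cw d K w = 1 ∨ cw d K w = 2 ∨ cw d K w = 3 := by omega
    rcases h2 with h2 | h2 | h2 | h2
    · simp [col_zero d K hz hG hw h2 r, col_zero d K hz hG' hw h2 r]
    · exact h ⟨some w, hw, Or.inl h2⟩
    · exact h ⟨some w, hw, Or.inr h2⟩
    · simp [col_three d K hz hG hw h2 r, col_three d K hz hG' hw h2 r]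
  · rintro h ⟨o, ho⟩
    cases o with
    | some w => exact h w ho.1
    | none =>
      show idg z G r = mm d z K ↔ idg z G' r = mm d z K
      rw [idg_of_rowEq d K hz hG hG' h]

lemma ib_eq_of (G G' : Finset (Edge n)) (h : idg z G = idg z G') (r r' : Fin 3) :
    ib z G r r' = ib z G' r r' := by
  rw [idg_eq_vv, idg_eq_vv] at h
  obtain ⟨h1, h2, h3⟩ := vv_inj _ _ _ _ _ _ h
  have hs : ∀ (H : Finset (Edge n)) (r r' : Fin 3), ib z H r r' = ib z H r' r := by
    intro H r r'
    unfold ib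
    simp only [decide_eq_decide]
    exact mem_nbr_comm
  have hd : ∀ (H : Finset (Edge n)) (r : Fin 3), ib z H r r = false := by
    intro H r
    unfold ib
    simp [not_mem_nbr_self]
  fin_cases r <;> fin_cases r' <;>
    simp only [Fin.zero_eta, Fin.mk_one, Fin.reduceFinMk, Fin.isValue, hd]
  · exact h1
  · exact h2
  · rw [hs G 1 0, hs G' 1 0]; exact h1
  · exact h3
  · rw [hs G 2 0, hs G' 2 0]; exact h2
  · rw [hs G 2 1, hs G' 2 1]; exact h3

open Classical in
lemma lab_inj (hz : Function.Injective z) {G G' : Finset (Edge n)} (hG : G ∈ FF d z K)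
    (hG' : G' ∈ FF d z K) (h : lab d z K G = lab d z K G') : G = G' := by
  have hrow : ∀ r, rowEq z r G G' := fun r => (rowKey_iff d K hz hG hG' r).mp (by rw [h])
  have hidg : idg z G = idg z G' := funext fun r => idg_of_rowEq d K hz hG hG' (hrow r)
  refine graph_ext fun a => ?_
  ext b
  by_cases ha : a ∈ tt z
  · obtain ⟨r, rfl⟩ := mem_tt.mp ha
    by_cases hb : b ∈ tt z
    · obtain ⟨r', rfl⟩ := mem_tt.mp hb
      have := ib_eq_of G G' hidg r r'
      unfold ib at this
      simpa only [decide_eq_decide] using this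
    · exact hrow r b hb
  · by_cases hb : b ∈ tt z
    · obtain ⟨r', rfl⟩ := mem_tt.mp hb
      rw [mem_nbr_comm, mem_nbr_comm (G := G')]
      exact hrow r' a ha
    · have h2 : ∀ H ∈ FF d z K, b ∈ nbr H a ↔ b ∈ nbr K a := by
        intro H hH
        rw [nbr_K_of_mem d K hH]
        tauto
      rw [h2 G hG, h2 G' hG']

open Classical in
/-- **The fibre of a triple is a table.** -/
theorem lab_bijOn (hz : Function.Injective z) {G : Finset (Edge n)} (hG : G ∈ FF d z K) :
    Set.BijOn (lab d z K) (FF d z K : Set (Finset (Edge n)))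
      (tableSet (sgn d z K) (dlt d z K) : Set (Col d z K → Fin 3)) := by
  refine ⟨fun H hH => lab_mem d K hz hH, fun H hH H' hH' h => lab_inj d K hz hH hH' h,
    fun ℓ hℓ => ⟨GG d z K ℓ, GG_mem d K hz hG hℓ, lab_GG d K hz hG hℓ⟩⟩

end Main

/-! ### Sums over the three 2-subsets of the triple -/

lemma sum_powersetCard_erase {z : Fin 3 → Fin n} (hz : Function.Injective z)
    {M : Type*} [AddCommMonoid M] (X : Finset (Fin n) → M) :
    ∑ p ∈ (tt z).powersetCard 2, X p = ∑ r, X ((tt z).erase (z r)) := by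
  have hcard : (tt z).card = 3 := by
    unfold tt; rw [card_image_of_injective _ hz]; simp
  have himg : (tt z).powersetCard 2 = univ.image fun r => (tt z).erase (z r) := by
    ext p
    simp only [mem_powersetCard, mem_image, mem_univ, true_and]
    constructor
    · rintro ⟨hp, hc⟩
      have h1 : ((tt z) \ p).card = 1 := by
        rw [card_sdiff_of_subset hp, hcard, hc]
      obtain ⟨v, hv⟩ := card_eq_one.mp h1
      have hv' : v ∈ (tt z) \ p := by rw [hv]; exact mem_singleton_self v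
      obtain ⟨r, rfl⟩ := mem_tt.mp (mem_sdiff.mp hv').1
      refine ⟨r, ?_⟩
      ext u
      simp only [mem_erase]
      constructor
      · rintro ⟨h1, h2⟩
        by_contra h3
        have : u ∈ (tt z) \ p := mem_sdiff.mpr ⟨h2, h3⟩
        rw [hv] at this
        exact h1 (mem_singleton.mp this)
      · intro h2
        refine ⟨?_, hp h2⟩
        rintro rfl
        exact (mem_sdiff.mp hv').2 h2
    · rintro ⟨r, rfl⟩
      refine ⟨erase_subset _ _, ?_⟩
      rw [card_erase_of_mem (mem_tt.mpr ⟨r, rfl⟩), hcard]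
  rw [himg, sum_image]
  intro r _ r' _ h
  have h1 : z r' ∉ (tt z).erase (z r) := by
    have : (fun r => (tt z).erase (z r)) r = (fun r => (tt z).erase (z r)) r' := h
    simp only at this
    rw [this]; simp
  have h2 : z r' = z r := by
    by_contra h3
    exact h1 (mem_erase.mpr ⟨h3, mem_tt.mpr ⟨r', rfl⟩⟩)
  exact (hz h2).symm

/-! ### Passing to helper11's table lemma -/

open Classical in
lemma isState_iff {C : Type*} [Fintype C] [DecidableEq C] (P : C → Prop)
    (sg : C → ℤ) (hsg : ∀ c, sg c = if P c then 1 else -1) (δ : Fin 3 → ℤ) (ℓ : C → Fin 3) :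
    Crest.Agent.Switch.Table3.IsState (fun c => decide (P c)) δ ℓ ↔
      ∀ r, ∑ w, (if ℓ w = r then sg w else 0) = δ r := by
  unfold Crest.Agent.Switch.Table3.IsState
  refine forall_congr' fun r => ?_
  have key : ((Crest.Agent.Switch.Table3.al (fun c => decide (P c)) ℓ r : ℤ) -
      Crest.Agent.Switch.Table3.be (fun c => decide (P c)) ℓ r) =
      ∑ w, (if ℓ w = r then sg w else 0) := by
    unfold Crest.Agent.Switch.Table3.al Crest.Agent.Switch.Table3.be
    rw [card_filter, card_filter]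
    push_cast
    rw [← sum_sub_distrib]
    refine sum_congr rfl fun w _ => ?_
    rw [hsg w]
    by_cases h1 : ℓ w = r <;> by_cases h2 : P w <;> simp [h1, h2]
  rw [key]

/-- `Defs.avg` on a finset is helper11's `avg` on its coe-sort. -/
lemma avg_coe {β γ : Type*} [DecidableEq γ] (F : Finset β) (κ : β → γ) (f : β → ℝ) (a : β)
    (ha : a ∈ F) :
    avg F κ f a = Crest.Agent.Switch.Table3.avg (fun x : F => κ x.1) (fun x : F => f x.1) ⟨a, ha⟩ := by
  classical
  unfold avg Crest.Agent.Switch.Table3.avg Crest.Agent.Switch.Table3.cls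
  have h : ((univ : Finset F).filter fun y => κ y.1 = κ a).map (Function.Embedding.subtype _) =
      F.filter fun b => κ b = κ a := by
    ext b
    simp only [mem_map, mem_filter, mem_univ, true_and, Function.Embedding.subtype_apply]
    constructor
    · rintro ⟨y, hy, rfl⟩; exact ⟨y.2, hy⟩
    · rintro ⟨hb, hy⟩; exact ⟨⟨b, hb⟩, hy, rfl⟩
  rw [← h, sum_map, card_map]
  rfl

end Triple

open Triple in
open Classical in
/-- The form of the three-row lemma on a fibre of the triple `t`: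
`∑_p ‖A_p f‖² ≤ ‖∑_p A_p f‖²` where `A_p = comp F (keyOf p)`. -/
theorem triple_form {n : ℕ} (d : Fin n → ℕ) (t : Finset (Fin n)) (ht : t.card = 3)
    (K : Finset (Edge n)) (f : Finset (Edge n) → ℝ) :
    ∑ p ∈ t.powersetCard 2, ∑ G ∈ (realizations d).filter (fun G => keyOf t G = K),
        comp ((realizations d).filter (fun G => keyOf t G = K)) (keyOf p) f G ^ 2 ≤
      ∑ G ∈ (realizations d).filter (fun G => keyOf t G = K),
        (∑ p ∈ t.powersetCard 2,
          comp ((realizations d).filter (fun G => keyOf t G = K)) (keyOf p) f G) ^ 2 := by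
  -- the labelling of the triple
  obtain ⟨z, hz, rfl⟩ : ∃ z : Fin 3 → Fin n, Function.Injective z ∧ tt z = t := by
    refine ⟨t.orderEmbOfFin ht, (t.orderEmbOfFin ht).injective, ?_⟩
    unfold tt
    ext v
    simp only [mem_image, mem_univ, true_and]
    constructor
    · rintro ⟨r, rfl⟩
      exact orderEmbOfFin_mem t ht r
    · intro hv
      have : v ∈ Set.range (t.orderEmbOfFin ht) := by
        rw [range_orderEmbOfFin]; exact hv
      exact this
  change ∑ p ∈ (tt z).powersetCard 2, ∑ G ∈ FF d z K, comp (FF d z K) (keyOf p) f G ^ 2 ≤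
    ∑ G ∈ FF d z K, (∑ p ∈ (tt z).powersetCard 2, comp (FF d z K) (keyOf p) f G) ^ 2
  rcases (FF d z K).eq_empty_or_nonempty with hF | ⟨G0, hG0⟩
  · rw [hF]; simp
  have hbij := lab_bijOn d K hz hG0
  let ty : Col d z K → Bool := fun c => decide (sP d z K c.1)
  have hstate : ∀ ℓ : Col d z K → Fin 3,
      ℓ ∈ tableSet (sgn d z K) (dlt d z K) ↔ Crest.Agent.Switch.Table3.IsState ty (dlt d z K) ℓ := by
    intro ℓ
    have := isState_iff (fun c : Col d z K => sP d z K c.1) (sgn d z K) (fun c => rfl)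
      (dlt d z K) ℓ
    rw [this]
    unfold tableSet
    simp
  -- the equivalence
  let e0 : FF d z K → Crest.Agent.Switch.Table3.St ty (dlt d z K) := fun G =>
    ⟨lab d z K G.1, (hstate _).mp (hbij.1 (mem_coe.mpr G.2))⟩
  have he0 : Function.Bijective e0 := by
    constructor
    · intro a b hab
      have : lab d z K a.1 = lab d z K b.1 := congrArg Subtype.val hab
      exact Subtype.ext (hbij.2.1 (mem_coe.mpr a.2) (mem_coe.mpr b.2) this)
    · rintro ⟨ℓ, hℓ⟩
      obtain ⟨G, hG, hGℓ⟩ := hbij.2.2 (mem_coe.mpr ((hstate ℓ).mpr hℓ))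
      exact ⟨⟨G, mem_coe.mp hG⟩, Subtype.ext hGℓ⟩
  let e : FF d z K ≃ Crest.Agent.Switch.Table3.St ty (dlt d z K) := Equiv.ofBijective e0 he0
  let ρ' : Fin 3 → FF d z K → Finset (Edge n) := fun r G => keyOf ((tt z).erase (z r)) G.1
  have hρ : ∀ r a b, ρ' r a = ρ' r b ↔
      Crest.Agent.Switch.Table3.row r (e a) = Crest.Agent.Switch.Table3.row r (e b) := by
    intro r a b
    have h1 : ∀ c : FF d z K, Crest.Agent.Switch.Table3.row r (e c) = rowKey r (lab d z K c.1) := by
      intro c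
      unfold Crest.Agent.Switch.Table3.row rowKey
      rfl
    rw [h1, h1]
    show keyOf _ a.1 = keyOf _ b.1 ↔ _
    rw [key_iff d K hz a.2 b.2, rowKey_iff d K hz a.2 b.2]
  have hT := Crest.Agent.Switch.Table3.table3 ty (dlt d z K) e ρ' hρ (fun x : FF d z K => f x.1)
  -- translate
  have hcomp : ∀ r (x : FF d z K), f x.1 - Crest.Agent.Switch.Table3.avg (ρ' r)
      (fun x : FF d z K => f x.1) x = comp (FF d z K) (keyOf ((tt z).erase (z r))) f x.1 := by
    intro r x
    unfold comp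
    rw [avg_coe (FF d z K) (keyOf ((tt z).erase (z r))) f x.1 x.2]
  simp only [hcomp] at hT
  rw [sum_powersetCard_erase hz]
  simp only [sum_powersetCard_erase hz]
  rw [← sum_coe_sort (FF d z K) (fun G => (∑ r, comp (FF d z K) (keyOf ((tt z).erase (z r))) f G) ^ 2)]
  have h2 : ∀ r : Fin 3, ∑ G ∈ FF d z K, comp (FF d z K) (keyOf ((tt z).erase (z r))) f G ^ 2 =
      ∑ x : FF d z K, comp (FF d z K) (keyOf ((tt z).erase (z r))) f x.1 ^ 2 := by
    intro r
    exact (sum_coe_sort (FF d z K) (fun G => comp (FF d z K) (keyOf ((tt z).erase (z r))) f G ^ 2)).symm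
  simp only [h2]
  exact hT

/-- **T10, without the mean-zero form of the Gram bound**: `X₃ ≥ 0`. -/
theorem x3_nonneg {n : ℕ} (d : Fin n → ℕ) (f : Finset (Edge n) → ℝ) :
    0 ≤ ∑ p ∈ pairs n, ∑ q ∈ (pairs n).filter (fun q => (p ∩ q).card = 1),
      ∑ G ∈ realizations d, Ap d p f G * Ap d q f G := by
  classical
  rw [sum_pairs_meet_eq]
  refine Finset.sum_nonneg fun t ht => ?_
  have htc : t.card = 3 := (mem_powersetCard.mp ht).2
  set Ω := realizations d with hΩ
  set Fb : Finset (Edge n) → Finset (Finset (Edge n)) := fun K => Ω.filter (fun G => keyOf t G = K)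
    with hFb
  have hsplit : ∀ p ∈ t.powersetCard 2, ∀ q ∈ t.powersetCard 2,
      ∑ G ∈ Ω, Ap d p f G * Ap d q f G =
        ∑ K ∈ Ω.image (keyOf t), ∑ G ∈ Fb K, Ap d p f G * Ap d q f G := by
    intro p _ q _
    rw [Finset.sum_fiberwise_of_maps_to (fun G hG => Finset.mem_image_of_mem _ hG)]
  have hloc : ∀ K, ∀ p ∈ t.powersetCard 2, ∀ G ∈ Fb K,
      Ap d p f G = comp (Fb K) (keyOf p) f G := by
    intro K p hp G hG
    have hpt : p ⊆ t := (mem_powersetCard.mp hp).1
    unfold Ap comp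
    congr 1
    unfold avg
    have : (Fb K).filter (fun b => keyOf p b = keyOf p G) = Ω.filter (fun b => keyOf p b = keyOf p G) := by
      ext b
      simp only [mem_filter, hFb]
      constructor
      · rintro ⟨⟨h1, _⟩, h2⟩; exact ⟨h1, h2⟩
      · rintro ⟨h1, h2⟩
        refine ⟨⟨h1, ?_⟩, h2⟩
        rw [keyOf_of_subset hpt h2]
        exact (mem_filter.mp hG).2
    rw [this]
  have hrw : ∑ p ∈ t.powersetCard 2, ∑ q ∈ (t.powersetCard 2).erase p,
      ∑ G ∈ Ω, Ap d p f G * Ap d q f G =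
      ∑ K ∈ Ω.image (keyOf t), ∑ p ∈ t.powersetCard 2, ∑ q ∈ (t.powersetCard 2).erase p,
        ∑ G ∈ Fb K, Ap d p f G * Ap d q f G := by
    calc ∑ p ∈ t.powersetCard 2, ∑ q ∈ (t.powersetCard 2).erase p,
          ∑ G ∈ Ω, Ap d p f G * Ap d q f G
        = ∑ p ∈ t.powersetCard 2, ∑ q ∈ (t.powersetCard 2).erase p,
            ∑ K ∈ Ω.image (keyOf t), ∑ G ∈ Fb K, Ap d p f G * Ap d q f G :=
          Finset.sum_congr rfl fun p hp => Finset.sum_congr rfl fun q hq =>
            hsplit p hp q (Finset.mem_of_mem_erase hq)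
      _ = ∑ p ∈ t.powersetCard 2, ∑ K ∈ Ω.image (keyOf t), ∑ q ∈ (t.powersetCard 2).erase p,
            ∑ G ∈ Fb K, Ap d p f G * Ap d q f G :=
          Finset.sum_congr rfl fun p _ => Finset.sum_comm
      _ = _ := Finset.sum_comm
  rw [hrw]
  refine Finset.sum_nonneg fun K _ => ?_
  -- on the fibre
  have hform := triple_form d t htc K f
  change ∑ p ∈ t.powersetCard 2, ∑ G ∈ Fb K, comp (Fb K) (keyOf p) f G ^ 2 ≤
    ∑ G ∈ Fb K, (∑ p ∈ t.powersetCard 2, comp (Fb K) (keyOf p) f G) ^ 2 at hform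
  have hexp : ∀ G, (∑ p ∈ t.powersetCard 2, comp (Fb K) (keyOf p) f G) ^ 2 =
      ∑ p ∈ t.powersetCard 2, comp (Fb K) (keyOf p) f G ^ 2 +
        ∑ p ∈ t.powersetCard 2, ∑ q ∈ (t.powersetCard 2).erase p,
          comp (Fb K) (keyOf p) f G * comp (Fb K) (keyOf q) f G := by
    intro G
    rw [sq, Finset.sum_mul_sum, ← Finset.sum_add_distrib]
    refine Finset.sum_congr rfl fun p hp => ?_
    rw [← Finset.add_sum_erase _ _ hp, sq]
  have h1 : ∑ p ∈ t.powersetCard 2, ∑ q ∈ (t.powersetCard 2).erase p,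
        ∑ G ∈ Fb K, Ap d p f G * Ap d q f G =
      ∑ p ∈ t.powersetCard 2, ∑ q ∈ (t.powersetCard 2).erase p,
        ∑ G ∈ Fb K, comp (Fb K) (keyOf p) f G * comp (Fb K) (keyOf q) f G := by
    refine Finset.sum_congr rfl fun p hp => Finset.sum_congr rfl fun q hq =>
      Finset.sum_congr rfl fun G hG => ?_
    rw [hloc K p hp G hG, hloc K q (Finset.mem_of_mem_erase hq) G hG]
  rw [h1]
  have h2 : ∑ G ∈ Fb K, (∑ p ∈ t.powersetCard 2, comp (Fb K) (keyOf p) f G) ^ 2 =
      ∑ p ∈ t.powersetCard 2, ∑ G ∈ Fb K, comp (Fb K) (keyOf p) f G ^ 2 +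
        ∑ p ∈ t.powersetCard 2, ∑ q ∈ (t.powersetCard 2).erase p,
          ∑ G ∈ Fb K, comp (Fb K) (keyOf p) f G * comp (Fb K) (keyOf q) f G := by
    simp only [hexp]
    rw [Finset.sum_add_distrib]
    congr 1
    · exact Finset.sum_comm
    · rw [Finset.sum_comm]
      refine Finset.sum_congr rfl fun p _ => ?_
      rw [Finset.sum_comm]
  linarith

end Crest.Agent.Lib.Switch
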