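/-
S0453 library: T13, assembly (helper23).
-/
import Crest.Agent.Lib.Switch.TV
import Crest.Agent.Lib.Switch.Spectral
import Crest.Agent.Lib.Switch.BlockBridge
import Crest.Agent.Lib.Switch.TripleBridge
import Crest.Agent.Lib.Switch.PQBridge
import Crest.Agent.Lib.Switch.Connect
import Crest.Agent.Lib.Switch.EnergyKernel

set_option autoImplicit false

namespace Crest.Agent.Lib.Switch

open Finset Crest.SwitchChain

variable {n : ℕ}

theorem sum_pairs_split (d : Fin n → ℕ) (f : Finset (Edge n) → ℝ) :
    ∑ p ∈ pairs n, ∑ q ∈ pairs n, ∑ G ∈ realizations d, Ap d p f G * Ap d q f G =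
      ∑ p ∈ pairs n, ∑ G ∈ realizations d, Ap d p f G ^ 2 +
      ∑ p ∈ pairs n, ∑ q ∈ (pairs n).filter (fun q => (p ∩ q).card = 1),
        ∑ G ∈ realizations d, Ap d p f G * Ap d q f G +
      ∑ p ∈ pairs n, ∑ q ∈ (pairs n).filter (fun q => Disjoint p q),
        ∑ G ∈ realizations d, Ap d p f G * Ap d q f G := by
  classical
  rw [← Finset.sum_add_distrib, ← Finset.sum_add_distrib]
  refine Finset.sum_congr rfl fun p hp => ?_
  have hpc : p.card = 2 := (Finset.mem_powersetCard.mp hp).2
  -- split `pairs n` into `{p}`, `|p ∩ q| = 1`, disjoint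
  have hsplit : pairs n = {p} ∪ ((pairs n).filter (fun q => (p ∩ q).card = 1) ∪
      (pairs n).filter (fun q => Disjoint p q)) := by
    ext q
    simp only [Finset.mem_union, Finset.mem_singleton, Finset.mem_filter]
    constructor
    · intro hq
      have hqc : q.card = 2 := (Finset.mem_powersetCard.mp hq).2
      have hle : (p ∩ q).card ≤ 2 := by
        calc (p ∩ q).card ≤ p.card := Finset.card_le_card Finset.inter_subset_left
          _ = 2 := hpc
      have h3 : (p ∩ q).card = 0 ∨ (p ∩ q).card = 1 ∨ (p ∩ q).card = 2 := by omega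
      rcases h3 with h | h | h
      · right; right
        exact ⟨hq, Finset.disjoint_iff_inter_eq_empty.mpr (Finset.card_eq_zero.mp h)⟩
      · right; left; exact ⟨hq, h⟩
      · left
        have h1 : p ∩ q = p := Finset.eq_of_subset_of_card_le Finset.inter_subset_left (by omega)
        have h2 : p ∩ q = q := Finset.eq_of_subset_of_card_le Finset.inter_subset_right (by omega)
        rw [← h2, h1]
    · rintro (rfl | ⟨h, _⟩ | ⟨h, _⟩)
      · exact hp
      · exact h
      · exact h
  have hd1 : Disjoint ({p} : Finset (Finset (Fin n)))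
      ((pairs n).filter (fun q => (p ∩ q).card = 1) ∪ (pairs n).filter (fun q => Disjoint p q)) := by
    rw [Finset.disjoint_singleton_left]
    simp only [Finset.mem_union, Finset.mem_filter, not_or, not_and]
    constructor
    · intro _; rw [Finset.inter_self, hpc]; norm_num
    · intro _ h
      rw [Finset.disjoint_self_iff_empty] at h
      rw [h] at hpc; simp at hpc
  have hd2 : Disjoint ((pairs n).filter (fun q => (p ∩ q).card = 1))
      ((pairs n).filter (fun q => Disjoint p q)) := by
    rw [Finset.disjoint_left]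
    intro q hq hq'
    have h1 := (Finset.mem_filter.mp hq).2
    have h2 := (Finset.mem_filter.mp hq').2
    rw [Finset.disjoint_iff_inter_eq_empty.mp h2] at h1
    simp at h1
  conv_lhs => rw [hsplit]
  rw [Finset.sum_union hd1, Finset.sum_union hd2, Finset.sum_singleton]
  have : ∑ G ∈ realizations d, Ap d p f G * Ap d p f G = ∑ G ∈ realizations d, Ap d p f G ^ 2 :=
    Finset.sum_congr rfl fun G _ => by ring
  rw [this]
  ring

theorem zTerm_nonneg (d : Fin n → ℕ) (p q : Finset (Fin n)) (f : Finset (Edge n) → ℝ) :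
    0 ≤ zTerm d p q f := by
  unfold zTerm
  exact Finset.sum_nonneg fun _ _ => by positivity

theorem sum_P_le_energy (d : Fin n → ℕ) (f : Finset (Edge n) → ℝ) :
    ∑ p ∈ pairs n, ∑ G ∈ realizations d, Ap d p f G ^ 2 ≤ energy d f := by
  unfold energy
  rw [Finset.mul_sum]
  refine Finset.sum_le_sum fun p hp => ?_
  have h1 := block_bound d p hp f
  have h2 : 0 ≤ ∑ q ∈ (pairs n).filter (fun q => Disjoint p q), zTerm d p q f :=
    Finset.sum_nonneg fun q _ => zTerm_nonneg d p q f
  linarith

/-- `X₄ ≥ P`. -/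
theorem x4_ge (d : Fin n → ℕ) (f : Finset (Edge n) → ℝ) :
    ∑ p ∈ pairs n, ∑ G ∈ realizations d, Ap d p f G ^ 2 ≤
      ∑ p ∈ pairs n, ∑ q ∈ (pairs n).filter (fun q => Disjoint p q),
        ∑ G ∈ realizations d, Ap d p f G * Ap d q f G := by
  classical
  have h1 : ∑ p ∈ pairs n, ∑ q ∈ (pairs n).filter (fun q => Disjoint p q),
        ((1 / 4) * eTerm d p q f - (1 / 2) * zTerm d p q f - (1 / 2) * zTerm d q p f) ≤
      ∑ p ∈ pairs n, ∑ q ∈ (pairs n).filter (fun q => Disjoint p q),
        ∑ G ∈ realizations d, Ap d p f G * Ap d q f G := by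
    refine Finset.sum_le_sum fun p hp => Finset.sum_le_sum fun q hq => ?_
    exact pq_bound d p q hp (Finset.mem_filter.mp hq).1 (Finset.mem_filter.mp hq).2 f
  -- symmetry of the z-sum over ordered pairs
  have hsymm : ∑ p ∈ pairs n, ∑ q ∈ (pairs n).filter (fun q => Disjoint p q), zTerm d q p f =
      ∑ p ∈ pairs n, ∑ q ∈ (pairs n).filter (fun q => Disjoint p q), zTerm d p q f := by
    simp only [Finset.sum_filter]
    rw [Finset.sum_comm]
    refine Finset.sum_congr rfl fun p _ => Finset.sum_congr rfl fun q _ => ?_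
    by_cases h : Disjoint p q
    · rw [if_pos h, if_pos h.symm]
    · rw [if_neg h, if_neg (fun h' => h h'.symm)]
  have h2 : ∑ p ∈ pairs n, ∑ q ∈ (pairs n).filter (fun q => Disjoint p q),
        ((1 / 4) * eTerm d p q f - (1 / 2) * zTerm d p q f - (1 / 2) * zTerm d q p f) =
      ∑ p ∈ pairs n, ((1 / 4) * ∑ q ∈ (pairs n).filter (fun q => Disjoint p q), eTerm d p q f -
        ∑ q ∈ (pairs n).filter (fun q => Disjoint p q), zTerm d p q f) := by
    have e1 : ∀ p ∈ pairs n, ∑ q ∈ (pairs n).filter (fun q => Disjoint p q),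
        ((1 / 4) * eTerm d p q f - (1 / 2) * zTerm d p q f - (1 / 2) * zTerm d q p f) =
        (1 / 4) * ∑ q ∈ (pairs n).filter (fun q => Disjoint p q), eTerm d p q f -
        (1 / 2) * ∑ q ∈ (pairs n).filter (fun q => Disjoint p q), zTerm d p q f -
        (1 / 2) * ∑ q ∈ (pairs n).filter (fun q => Disjoint p q), zTerm d q p f := by
      intro p _
      rw [Finset.sum_sub_distrib, Finset.sum_sub_distrib, Finset.mul_sum, Finset.mul_sum,
        Finset.mul_sum]
    rw [Finset.sum_congr rfl e1, Finset.sum_sub_distrib, Finset.sum_sub_distrib,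
      Finset.sum_sub_distrib, ← Finset.mul_sum (a := (1 / 2 : ℝ)), ← Finset.mul_sum (a := (1 / 2 : ℝ)), hsymm]
    ring
  have h3 : ∑ p ∈ pairs n, ∑ G ∈ realizations d, Ap d p f G ^ 2 ≤
      ∑ p ∈ pairs n, ((1 / 4) * ∑ q ∈ (pairs n).filter (fun q => Disjoint p q), eTerm d p q f -
        ∑ q ∈ (pairs n).filter (fun q => Disjoint p q), zTerm d p q f) := by
    refine Finset.sum_le_sum fun p hp => ?_
    have := block_bound d p hp f
    linarith
  linarith [h2 ▸ h1]

theorem P_sq (d : Fin n → ℕ) (f : Finset (Edge n) → ℝ) :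
    2 * ∑ p ∈ pairs n, ∑ G ∈ realizations d, Ap d p f G ^ 2 ≤
      ∑ p ∈ pairs n, ∑ q ∈ pairs n, ∑ G ∈ realizations d, Ap d p f G * Ap d q f G := by
  rw [sum_pairs_split]
  have := x3_nonneg d f
  have := x4_ge d f
  linarith

/-- **The Poincaré inequality with constant 1/2.** -/
theorem poincare_half (d : Fin n → ℕ) (f : Finset (Edge n) → ℝ) :
    ((realizations d).card : ℝ) * ∑ G ∈ realizations d, f G ^ 2 -
        (∑ G ∈ realizations d, f G) ^ 2 ≤
      ((realizations d).card : ℝ) / 2 * energy d f := by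
  have h := poincare_of_square (realizations d) (pairs n) (fun p => keyOf p)
    (fun f => P_sq d f) (fun f hf => const_of_Ap_zero d f hf) f
  refine h.trans ?_
  exact mul_le_mul_of_nonneg_left (sum_P_le_energy d f) (by positivity)

theorem main_poincare (hn : 4 ≤ n) (d : Fin n → ℕ) (f : Finset (Edge n) → ℝ) :
    ((realizations d).card : ℝ) * (∑ G ∈ realizations d, f G ^ 2) -
        (∑ G ∈ realizations d, f G) ^ 2 ≤
      24 * (n : ℝ) ^ 2 * (n.choose 4 : ℝ) * (realizations d).card *
        ∑ G ∈ realizations d,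
          f G * (f G - ∑ G' ∈ realizations d, kernel n G G' * f G') := by
  refine poincare_of_laplacian hn d (fun f => ?_) f
  refine (poincare_half d f).trans ?_
  have h := energy_le_proposal d f
  have hc : (0 : ℝ) ≤ ((realizations d).card : ℝ) := by positivity
  nlinarith [mul_le_mul_of_nonneg_left h hc]

theorem main_result (n : ℕ) (hn : 4 ≤ n) (d : Fin n → ℕ) (hd : (realizations d).Nonempty) :
    (∃ t : ℕ, t ≤ 2 * n ^ 8 ∧ ∀ G ∈ realizations d,
        tvDist (fun G' => (kernel n ^ t) G G') (unifOn (realizations d)) ≤ 1 / 4) ∧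
      ∀ f : Finset (Edge n) → ℝ,
        ((realizations d).card : ℝ) * (∑ G ∈ realizations d, f G ^ 2) -
            (∑ G ∈ realizations d, f G) ^ 2 ≤
          24 * (n : ℝ) ^ 2 * (n.choose 4 : ℝ) * (realizations d).card *
            ∑ G ∈ realizations d,
              f G * (f G - ∑ G' ∈ realizations d, kernel n G G' * f G') :=
  ⟨tv_of_poincare n hn d hd (main_poincare hn d), main_poincare hn d⟩

end Crest.Agent.Lib.Switch
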