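/-
S0453 library: T4, the abstract disjoint pair lemma (helper23).
-/
import Crest.Agent.Lib.Switch.LShape

set_option autoImplicit false

namespace Crest.Agent.Lib.Switch

open Finset

/-- cells `(xu, xv, yu, yv)` of the `2×2` cross matrix. -/
abbrev Mat := Bool × Bool × Bool × Bool
def rowM (m : Mat) : ℕ × ℕ := (m.1.toNat + m.2.1.toNat, m.2.2.1.toNat + m.2.2.2.toNat)
def colM (m : Mat) : ℕ × ℕ := (m.1.toNat + m.2.2.1.toNat, m.2.1.toNat + m.2.2.2.toNat)
def flipM (m : Mat) : Mat := (!m.1, !m.2.1, !m.2.2.1, !m.2.2.2)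
/-- both margins `(1,1)`: a perfect matching -/
def centreM (m : Mat) : Prop := rowM m = (1, 1) ∧ colM m = (1, 1)
instance (m : Mat) : Decidable (centreM m) := by unfold centreM; infer_instance

variable {A B : Type*} [DecidableEq A] [DecidableEq B]

/-- States `(X, Y, m)`: `X ∈ 𝒳`, `Y ∈ 𝒴`, `m` with row margins `a X`, column margins `b Y`. -/
def stateSet (𝒳 : Finset A) (𝒴 : Finset B) (a : A → ℕ × ℕ) (b : B → ℕ × ℕ) :
    Finset (A × B × Mat) :=
  (𝒳 ×ˢ 𝒴 ×ˢ (univ : Finset Mat)).filter fun τ => rowM τ.2.2 = a τ.1 ∧ colM τ.2.2 = b τ.2.1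

def flipS (τ : A × B × Mat) : A × B × Mat := (τ.1, τ.2.1, flipM τ.2.2)

/-- Matrices with prescribed margins. -/
def mats (r c : ℕ × ℕ) : Finset Mat := univ.filter fun m => rowM m = r ∧ colM m = c

theorem sum_state (𝒳 : Finset A) (𝒴 : Finset B) (a : A → ℕ × ℕ) (b : B → ℕ × ℕ)
    (F : A × B × Mat → ℝ) :
    ∑ τ ∈ stateSet 𝒳 𝒴 a b, F τ = ∑ X ∈ 𝒳, ∑ Y ∈ 𝒴, ∑ m ∈ mats (a X) (b Y), F (X, Y, m) := by
  unfold stateSet mats
  rw [Finset.sum_filter, Finset.sum_product]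
  refine Finset.sum_congr rfl fun X _ => ?_
  rw [Finset.sum_product]
  refine Finset.sum_congr rfl fun Y _ => ?_
  rw [Finset.sum_filter]

def md : Mat := (true, false, false, true)
def me : Mat := (false, true, true, false)
def mx (r : ℕ × ℕ) : Mat := if r = (2, 0) then (true, true, false, false) else (false, false, true, true)
def my (c : ℕ × ℕ) : Mat := if c = (2, 0) then (true, false, true, false) else (false, true, false, true)

theorem mats_cc : mats (1, 1) (1, 1) = {md, me} := by decide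
theorem mats_xc (r : ℕ × ℕ) (hr : r = (2, 0) ∨ r = (0, 2)) : mats r (1, 1) = {mx r} := by
  rcases hr with rfl | rfl <;> decide
theorem mats_cy (c : ℕ × ℕ) (hc : c = (2, 0) ∨ c = (0, 2)) : mats (1, 1) c = {my c} := by
  rcases hc with rfl | rfl <;> decide
theorem mats_xy (r c : ℕ × ℕ) (hr : r = (2, 0) ∨ r = (0, 2)) (hc : c = (2, 0) ∨ c = (0, 2)) :
    mats r c = ∅ := by
  rcases hr with rfl | rfl <;> rcases hc with rfl | rfl <;> decide

theorem margin_row_two (m : Mat) (h : (rowM m).1 + (rowM m).2 = 2) :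
    rowM m = (2, 0) ∨ rowM m = (1, 1) ∨ rowM m = (0, 2) := by
  revert m; decide
theorem margin_col_two (m : Mat) (h : (colM m).1 + (colM m).2 = 2) :
    colM m = (2, 0) ∨ colM m = (1, 1) ∨ colM m = (0, 2) := by
  revert m; decide

/-- Unique matrix away from `s = 2`. -/
theorem unique_mat : ∀ (m₁ m₂ : Mat), (rowM m₁).1 + (rowM m₁).2 = (colM m₂).1 + (colM m₂).2 →
    (rowM m₁).1 + (rowM m₁).2 ≠ 2 →
    (mats (rowM m₁) (colM m₂)).card = 1 := by
  decide

theorem centre_row_two (m : Mat) (h : centreM m) : (rowM m).1 + (rowM m).2 = 2 := by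
  revert m; decide

theorem centreM_md : centreM md := by decide
theorem centreM_me : centreM me := by decide
theorem not_centreM_mx (r : ℕ × ℕ) : ¬ centreM (mx r) := by
  unfold mx; split_ifs <;> decide
theorem not_centreM_my (c : ℕ × ℕ) : ¬ centreM (my c) := by
  unfold my; split_ifs <;> decide
theorem flipM_md : flipM md = me := by decide
theorem flipM_me : flipM me = md := by decide

section Two
variable (𝒳 : Finset A) (𝒴 : Finset B) (a : A → ℕ × ℕ) (b : B → ℕ × ℕ)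

/-- The `s = 2` decomposition of a sum over states. -/
theorem sum_state_two (ha : ∀ X ∈ 𝒳, a X = (2, 0) ∨ a X = (1, 1) ∨ a X = (0, 2))
    (hb : ∀ Y ∈ 𝒴, b Y = (2, 0) ∨ b Y = (1, 1) ∨ b Y = (0, 2)) (F : A × B × Mat → ℝ) :
    ∑ τ ∈ stateSet 𝒳 𝒴 a b, F τ =
      ∑ X ∈ 𝒳.filter (fun X => a X = (1, 1)), ∑ Y ∈ 𝒴.filter (fun Y => b Y = (1, 1)),
          (F (X, Y, md) + F (X, Y, me))
      + ∑ X ∈ 𝒳.filter (fun X => ¬ a X = (1, 1)), ∑ Y ∈ 𝒴.filter (fun Y => b Y = (1, 1)),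
          F (X, Y, mx (a X))
      + ∑ X ∈ 𝒳.filter (fun X => a X = (1, 1)), ∑ Y ∈ 𝒴.filter (fun Y => ¬ b Y = (1, 1)),
          F (X, Y, my (b Y)) := by
  rw [sum_state]
  have hsplit : ∀ G : A → ℝ, ∑ X ∈ 𝒳, G X = ∑ X ∈ 𝒳.filter (fun X => a X = (1, 1)), G X +
      ∑ X ∈ 𝒳.filter (fun X => ¬ a X = (1, 1)), G X :=
    fun G => (Finset.sum_filter_add_sum_filter_not _ _ _).symm
  have hsplitY : ∀ G : B → ℝ, ∑ Y ∈ 𝒴, G Y = ∑ Y ∈ 𝒴.filter (fun Y => b Y = (1, 1)), G Y +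
      ∑ Y ∈ 𝒴.filter (fun Y => ¬ b Y = (1, 1)), G Y :=
    fun G => (Finset.sum_filter_add_sum_filter_not _ _ _).symm
  rw [hsplit]
  have h0 : ∑ X ∈ 𝒳.filter (fun X => a X = (1, 1)), ∑ Y ∈ 𝒴, ∑ m ∈ mats (a X) (b Y), F (X, Y, m) =
      ∑ X ∈ 𝒳.filter (fun X => a X = (1, 1)), ∑ Y ∈ 𝒴.filter (fun Y => b Y = (1, 1)),
          (F (X, Y, md) + F (X, Y, me))
      + ∑ X ∈ 𝒳.filter (fun X => a X = (1, 1)), ∑ Y ∈ 𝒴.filter (fun Y => ¬ b Y = (1, 1)),
          F (X, Y, my (b Y)) := by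
    rw [← Finset.sum_add_distrib]
    refine Finset.sum_congr rfl fun X hX => ?_
    have hX' := (mem_filter.mp hX).2
    rw [hsplitY]
    congr 1
    · refine Finset.sum_congr rfl fun Y hY => ?_
      rw [hX', (mem_filter.mp hY).2, mats_cc, Finset.sum_pair (by decide)]
    · refine Finset.sum_congr rfl fun Y hY => ?_
      obtain ⟨hY1, hY2⟩ := mem_filter.mp hY
      have hc : b Y = (2, 0) ∨ b Y = (0, 2) := by
        rcases hb Y hY1 with h | h | h
        · exact Or.inl h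
        · exact absurd h hY2
        · exact Or.inr h
      rw [hX', mats_cy _ hc, Finset.sum_singleton]
  have h1 : ∑ X ∈ 𝒳.filter (fun X => ¬ a X = (1, 1)), ∑ Y ∈ 𝒴, ∑ m ∈ mats (a X) (b Y), F (X, Y, m) =
      ∑ X ∈ 𝒳.filter (fun X => ¬ a X = (1, 1)), ∑ Y ∈ 𝒴.filter (fun Y => b Y = (1, 1)),
          F (X, Y, mx (a X)) := by
    refine Finset.sum_congr rfl fun X hX => ?_
    obtain ⟨hX1, hX2⟩ := mem_filter.mp hX
    have hr : a X = (2, 0) ∨ a X = (0, 2) := by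
      rcases ha X hX1 with h | h | h
      · exact Or.inl h
      · exact absurd h hX2
      · exact Or.inr h
    rw [hsplitY]
    have hzero : ∑ Y ∈ 𝒴.filter (fun Y => ¬ b Y = (1, 1)), ∑ m ∈ mats (a X) (b Y), F (X, Y, m) = 0 := by
      refine Finset.sum_eq_zero fun Y hY => ?_
      obtain ⟨hY1, hY2⟩ := mem_filter.mp hY
      have hc : b Y = (2, 0) ∨ b Y = (0, 2) := by
        rcases hb Y hY1 with h | h | h
        · exact Or.inl h
        · exact absurd h hY2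
        · exact Or.inr h
      rw [mats_xy _ _ hr hc, Finset.sum_empty]
    rw [hzero, add_zero]
    refine Finset.sum_congr rfl fun Y hY => ?_
    rw [(mem_filter.mp hY).2, mats_xc _ hr, Finset.sum_singleton]
  rw [h0, h1]
  ring

end Two

/-- `c * (s / c) = s` for a sum over a finset and its cardinality. -/
theorem card_mul_sum_div {ι : Type*} (S : Finset ι) (g : ι → ℝ) :
    (S.card : ℝ) * ((∑ i ∈ S, g i) / (S.card : ℝ)) = ∑ i ∈ S, g i := by
  rcases S.eq_empty_or_nonempty with rfl | h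
  · simp
  · have : (S.card : ℝ) ≠ 0 := by exact_mod_cast h.card_pos.ne'
    field_simp

/-- The abstract disjoint-pair lemma. `E_p = avg (key Y)`, `E_q = avg (key X)`. -/
theorem pq_abstract (𝒳 : Finset A) (𝒴 : Finset B) (a : A → ℕ × ℕ) (b : B → ℕ × ℕ) (s : ℕ)
    (ha : ∀ X ∈ 𝒳, ∃ m, rowM m = a X) (hb : ∀ Y ∈ 𝒴, ∃ m, colM m = b Y)
    (has : ∀ X ∈ 𝒳, (a X).1 + (a X).2 = s) (hbs : ∀ Y ∈ 𝒴, (b Y).1 + (b Y).2 = s)
    (f : A × B × Mat → ℝ) :
    let T := stateSet 𝒳 𝒴 a b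
    let C := T.filter fun τ => centreM τ.2.2
    (1 / 4) * ∑ τ ∈ C, (f τ - f (flipS τ)) ^ 2 +
        (∑ τ ∈ C, comp T (fun τ => τ.2.1) f τ) * (∑ τ ∈ C, comp T (fun τ => τ.1) f τ) / (C.card : ℝ)
      ≤ ∑ τ ∈ T, comp T (fun τ => τ.2.1) f τ * comp T (fun τ => τ.1) f τ := by
  intro T C
  set α : B → ℝ := fun Y => (∑ τ ∈ T.filter (fun τ => τ.2.1 = Y), f τ) /
    ((T.filter (fun τ => τ.2.1 = Y)).card : ℝ) with hα
  set γ : A → ℝ := fun X => (∑ τ ∈ T.filter (fun τ => τ.1 = X), f τ) /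
    ((T.filter (fun τ => τ.1 = X)).card : ℝ) with hγ
  have hc1 : ∀ τ, comp T (fun τ => τ.2.1) f τ = f τ - α τ.2.1 := fun τ => rfl
  have hc2 : ∀ τ, comp T (fun τ => τ.1) f τ = f τ - γ τ.1 := fun τ => rfl
  simp only [hc1, hc2]
  by_cases hs : s = 2
  · subst hs
    have ha' : ∀ X ∈ 𝒳, a X = (2, 0) ∨ a X = (1, 1) ∨ a X = (0, 2) := by
      intro X hX
      obtain ⟨m, hm⟩ := ha X hX
      rw [← hm]
      exact margin_row_two m (by rw [hm]; exact has X hX)
    have hb' : ∀ Y ∈ 𝒴, b Y = (2, 0) ∨ b Y = (1, 1) ∨ b Y = (0, 2) := by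
      intro Y hY
      obtain ⟨m, hm⟩ := hb Y hY
      rw [← hm]
      exact margin_col_two m (by rw [hm]; exact hbs Y hY)
    set X0 := 𝒳.filter (fun X => a X = (1, 1)) with hX0
    set X1 := 𝒳.filter (fun X => ¬ a X = (1, 1)) with hX1
    set Y0 := 𝒴.filter (fun Y => b Y = (1, 1)) with hY0
    set Y1 := 𝒴.filter (fun Y => ¬ b Y = (1, 1)) with hY1
    have hst := fun F => sum_state_two 𝒳 𝒴 a b ha' hb' F
    simp only [← hX0, ← hX1, ← hY0, ← hY1] at hst
    have hdisX : ∀ {X}, X ∈ X0 → X ∉ X1 := by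
      intro X h h'
      exact (mem_filter.mp h').2 (mem_filter.mp h).2
    have hdisY : ∀ {Y}, Y ∈ Y0 → Y ∉ Y1 := by
      intro Y h h'
      exact (mem_filter.mp h').2 (mem_filter.mp h).2
    have outer : ∀ (S : Finset A) (R : Finset B) (g : A → B → ℝ) (X : A),
        ∑ x ∈ S, ∑ y ∈ R, (if x = X then g x y else 0) = if X ∈ S then ∑ y ∈ R, g X y else 0 := by
      intro S R g X
      rw [← Finset.sum_ite_eq' S X (fun x => ∑ y ∈ R, g x y)]
      refine Finset.sum_congr rfl fun x _ => ?_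
      split_ifs
      · rfl
      · simp
    -- fibres of `Y`
    have fibY0 : ∀ (G : A × B × Mat → ℝ), ∀ Y ∈ Y0, ∑ τ ∈ T.filter (fun τ => τ.2.1 = Y), G τ =
        ∑ X ∈ X0, (G (X, Y, md) + G (X, Y, me)) + ∑ X ∈ X1, G (X, Y, mx (a X)) := by
      intro G Y hY
      rw [Finset.sum_filter, hst]
      have hY' := hdisY hY
      simp [Finset.sum_add_distrib, Finset.sum_ite_eq', hY, hY']
    have fibY1 : ∀ (G : A × B × Mat → ℝ), ∀ Y ∈ Y1, ∑ τ ∈ T.filter (fun τ => τ.2.1 = Y), G τ =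
        ∑ X ∈ X0, G (X, Y, my (b Y)) := by
      intro G Y hY
      rw [Finset.sum_filter, hst]
      have hY' : Y ∉ Y0 := fun h => hdisY h hY
      simp [Finset.sum_add_distrib, Finset.sum_ite_eq', hY, hY']
    have fibX0 : ∀ (G : A × B × Mat → ℝ), ∀ X ∈ X0, ∑ τ ∈ T.filter (fun τ => τ.1 = X), G τ =
        ∑ Y ∈ Y0, (G (X, Y, md) + G (X, Y, me)) + ∑ Y ∈ Y1, G (X, Y, my (b Y)) := by
      intro G X hX
      rw [Finset.sum_filter, hst]
      have hX' := hdisX hX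
      simp [Finset.sum_add_distrib, outer, hX, hX']
    have fibX1 : ∀ (G : A × B × Mat → ℝ), ∀ X ∈ X1, ∑ τ ∈ T.filter (fun τ => τ.1 = X), G τ =
        ∑ Y ∈ Y0, G (X, Y, mx (a X)) := by
      intro G X hX
      rw [Finset.sum_filter, hst]
      have hX' : X ∉ X0 := fun h => hdisX h hX
      simp [Finset.sum_add_distrib, outer, hX, hX']
    -- cardinalities
    have cardOf : ∀ (S : Finset (A × B × Mat)), (S.card : ℝ) = ∑ τ ∈ S, (1 : ℝ) := by
      intro S; simp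
    have cY0 : ∀ Y ∈ Y0, ((T.filter (fun τ => τ.2.1 = Y)).card : ℝ) =
        2 * (X0.card : ℝ) + (X1.card : ℝ) := by
      intro Y hY
      rw [cardOf, fibY0 _ Y hY]
      simp; ring
    have cY1 : ∀ Y ∈ Y1, ((T.filter (fun τ => τ.2.1 = Y)).card : ℝ) = (X0.card : ℝ) := by
      intro Y hY
      rw [cardOf, fibY1 _ Y hY]
      simp
    have cX0 : ∀ X ∈ X0, ((T.filter (fun τ => τ.1 = X)).card : ℝ) =
        2 * (Y0.card : ℝ) + (Y1.card : ℝ) := by
      intro X hX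
      rw [cardOf, fibX0 _ X hX]
      simp; ring
    have cX1 : ∀ X ∈ X1, ((T.filter (fun τ => τ.1 = X)).card : ℝ) = (Y0.card : ℝ) := by
      intro X hX
      rw [cardOf, fibX1 _ X hX]
      simp
    -- normal equations
    set t : A → B → ℝ := fun X Y => (f (X, Y, md) + f (X, Y, me)) / 2 with ht
    set u : A → B → ℝ := fun X Y => f (X, Y, mx (a X)) with hu
    set v : A → B → ℝ := fun X Y => f (X, Y, my (b Y)) with hv
    have nα : ∀ y ∈ Y0, (2 * (X0.card : ℝ) + (X1.card : ℝ)) * α y =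
        2 * ∑ x ∈ X0, t x y + ∑ x ∈ X1, u x y := by
      intro y hy
      rw [← cY0 y hy, hα]
      simp only
      rw [card_mul_sum_div, fibY0 _ y hy, Finset.mul_sum]
      congr 1
      refine Finset.sum_congr rfl fun x _ => ?_
      simp only [ht]; ring
    have nβ : ∀ y ∈ Y1, (X0.card : ℝ) * α y = ∑ x ∈ X0, v x y := by
      intro y hy
      rw [← cY1 y hy, hα]
      simp only
      rw [card_mul_sum_div, fibY1 _ y hy]
    have nγ : ∀ x ∈ X0, (2 * (Y0.card : ℝ) + (Y1.card : ℝ)) * γ x =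
        2 * ∑ y ∈ Y0, t x y + ∑ y ∈ Y1, v x y := by
      intro x hx
      rw [← cX0 x hx, hγ]
      simp only
      rw [card_mul_sum_div, fibX0 _ x hx, Finset.mul_sum]
      congr 1
      refine Finset.sum_congr rfl fun y _ => ?_
      simp only [ht]; ring
    have nη : ∀ x ∈ X1, (Y0.card : ℝ) * γ x = ∑ y ∈ Y0, u x y := by
      intro x hx
      rw [← cX1 x hx, hγ]
      simp only
      rw [card_mul_sum_div, fibX1 _ x hx]
    have main := lshape X0 X1 Y0 Y1 t u v α α γ γ nα nβ nγ nη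
    -- sums over `C`
    have sumC : ∀ G : A × B × Mat → ℝ, ∑ τ ∈ C, G τ = ∑ X ∈ X0, ∑ Y ∈ Y0, (G (X, Y, md) + G (X, Y, me)) := by
      intro G
      show ∑ τ ∈ T.filter (fun τ => centreM τ.2.2), G τ = _
      rw [Finset.sum_filter, hst]
      simp [centreM_md, centreM_me, not_centreM_mx, not_centreM_my]
    have cardC : (C.card : ℝ) = 2 * ((X0.card : ℝ) * (Y0.card : ℝ)) := by
      rw [cardOf, sumC]
      simp; ring
    -- the three pieces
    have p1 : ∑ τ ∈ C, (f τ - f (flipS τ)) ^ 2 =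
        ∑ X ∈ X0, ∑ Y ∈ Y0, 2 * (f (X, Y, md) - f (X, Y, me)) ^ 2 := by
      rw [sumC]
      refine Finset.sum_congr rfl fun X _ => Finset.sum_congr rfl fun Y _ => ?_
      have e1 : flipS (X, Y, md) = (X, Y, me) := by
        unfold flipS; simp [flipM_md]
      have e2 : flipS (X, Y, me) = (X, Y, md) := by
        unfold flipS; simp [flipM_me]
      rw [e1, e2]; ring
    have p2 : ∑ τ ∈ C, (f τ - α τ.2.1) = 2 * ∑ X ∈ X0, ∑ Y ∈ Y0, (t X Y - α Y) := by
      rw [sumC, Finset.mul_sum]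
      refine Finset.sum_congr rfl fun X _ => ?_
      rw [Finset.mul_sum]
      refine Finset.sum_congr rfl fun Y _ => ?_
      simp only [ht]; ring
    have p3 : ∑ τ ∈ C, (f τ - γ τ.1) = 2 * ∑ X ∈ X0, ∑ Y ∈ Y0, (t X Y - γ X) := by
      rw [sumC, Finset.mul_sum]
      refine Finset.sum_congr rfl fun X _ => ?_
      rw [Finset.mul_sum]
      refine Finset.sum_congr rfl fun Y _ => ?_
      simp only [ht]; ring
    have p4 : ∑ τ ∈ T, (f τ - α τ.2.1) * (f τ - γ τ.1) =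
        ∑ X ∈ X0, ∑ Y ∈ Y0, (2 * ((t X Y - α Y) * (t X Y - γ X)) + (1 / 2) * (f (X, Y, md) - f (X, Y, me)) ^ 2)
        + ∑ X ∈ X1, ∑ Y ∈ Y0, (u X Y - α Y) * (u X Y - γ X)
        + ∑ X ∈ X0, ∑ Y ∈ Y1, (v X Y - α Y) * (v X Y - γ X) := by
      rw [hst]
      congr 2
      refine Finset.sum_congr rfl fun X _ => Finset.sum_congr rfl fun Y _ => ?_
      simp only [ht]; ring
    have p5 : ∑ X ∈ X0, ∑ Y ∈ Y0, (2 * ((t X Y - α Y) * (t X Y - γ X)) + (1 / 2) * (f (X, Y, md) - f (X, Y, me)) ^ 2) =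
        2 * ∑ X ∈ X0, ∑ Y ∈ Y0, (t X Y - α Y) * (t X Y - γ X) +
          (1 / 4) * ∑ X ∈ X0, ∑ Y ∈ Y0, 2 * (f (X, Y, md) - f (X, Y, me)) ^ 2 := by
      simp only [Finset.mul_sum, ← Finset.sum_add_distrib]
      refine Finset.sum_congr rfl fun X _ => Finset.sum_congr rfl fun Y _ => ?_
      ring
    rw [p1, p2, p3, p4, p5, cardC]
    linarith
  · -- the product case
    have hCempty : C = ∅ := by
      apply Finset.filter_eq_empty_iff.mpr
      intro τ hτ hc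
      have hτ' := (mem_filter.mp hτ)
      have h1 := (mem_product.mp hτ'.1).1
      have h2 := has τ.1 h1
      rw [← hτ'.2.1, centre_row_two _ hc] at h2
      exact hs h2.symm
    have hU : ∀ X ∈ 𝒳, ∀ Y ∈ 𝒴, ∃ m, mats (a X) (b Y) = {m} := by
      intro X hX Y hY
      obtain ⟨m₁, hm₁⟩ := ha X hX
      obtain ⟨m₂, hm₂⟩ := hb Y hY
      have := unique_mat m₁ m₂ (by rw [hm₁, hm₂, has X hX, hbs Y hY])
        (by rw [hm₁, has X hX]; exact hs)
      rw [hm₁, hm₂] at this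
      exact Finset.card_eq_one.mp this
    choose! mU hmU using hU
    have hst : ∀ F : A × B × Mat → ℝ, ∑ τ ∈ T, F τ = ∑ X ∈ 𝒳, ∑ Y ∈ 𝒴, F (X, Y, mU X Y) := by
      intro F
      show ∑ τ ∈ stateSet 𝒳 𝒴 a b, F τ = _
      rw [sum_state]
      refine Finset.sum_congr rfl fun X hX => Finset.sum_congr rfl fun Y hY => ?_
      rw [hmU X hX Y hY, Finset.sum_singleton]
    have cardOf : ∀ (S : Finset (A × B × Mat)), (S.card : ℝ) = ∑ τ ∈ S, (1 : ℝ) := by
      intro S; simp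
    have fibY : ∀ (G : A × B × Mat → ℝ), ∀ Y ∈ 𝒴, ∑ τ ∈ T.filter (fun τ => τ.2.1 = Y), G τ =
        ∑ X ∈ 𝒳, G (X, Y, mU X Y) := by
      intro G Y hY
      rw [Finset.sum_filter, hst]
      simp [Finset.sum_ite_eq', hY]
    have outer : ∀ (S : Finset A) (R : Finset B) (g : A → B → ℝ) (X : A),
        ∑ x ∈ S, ∑ y ∈ R, (if x = X then g x y else 0) = if X ∈ S then ∑ y ∈ R, g X y else 0 := by
      intro S R g X
      rw [← Finset.sum_ite_eq' S X (fun x => ∑ y ∈ R, g x y)]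
      refine Finset.sum_congr rfl fun x _ => ?_
      split_ifs
      · rfl
      · simp
    have fibX : ∀ (G : A × B × Mat → ℝ), ∀ X ∈ 𝒳, ∑ τ ∈ T.filter (fun τ => τ.1 = X), G τ =
        ∑ Y ∈ 𝒴, G (X, Y, mU X Y) := by
      intro G X hX
      rw [Finset.sum_filter, hst]
      simp [outer, hX]
    have nα : ∀ y ∈ 𝒴, (𝒳.card : ℝ) * α y = ∑ x ∈ 𝒳, f (x, y, mU x y) := by
      intro y hy
      have hc : ((T.filter (fun τ => τ.2.1 = y)).card : ℝ) = (𝒳.card : ℝ) := by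
        rw [cardOf, fibY _ y hy]; simp
      rw [← hc, hα]
      simp only
      rw [card_mul_sum_div, fibY _ y hy]
    have nγ : ∀ x ∈ 𝒳, (𝒴.card : ℝ) * γ x = ∑ y ∈ 𝒴, f (x, y, mU x y) := by
      intro x hx
      have hc : ((T.filter (fun τ => τ.1 = x)).card : ℝ) = (𝒴.card : ℝ) := by
        rw [cardOf, fibX _ x hx]; simp
      rw [← hc, hγ]
      simp only
      rw [card_mul_sum_div, fibX _ x hx]
    have main := prod_nonneg 𝒳 𝒴 (fun x y => f (x, y, mU x y)) α γ nα nγ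
    rw [hCempty, hst]
    simpa using main

end Crest.Agent.Lib.Switch
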