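import Crest.Prelude.Def_SwitchChain

/-!
Abstract L²-mixing for a lazy symmetric kernel: from a Poincaré inequality on a closed class `Ω`
to a total-variation bound.
-/

set_option autoImplicit false

namespace Crest.Agent.Lib.Switch

open Finset Crest.SwitchChain
open scoped Matrix

variable {α : Type*} [Fintype α] [DecidableEq α]

section Abstract

variable (P : Matrix α α ℝ) (A : α → α → ℝ)

/-- `‖P g‖² ≤ ⟨g, P g⟩` for a lazy symmetric stochastic kernel. -/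
theorem sum_sq_mulVec_le
    (hP : ∀ x y, P x y = (if x = y then 1 / 2 else 0) + A x y)
    (hA0 : ∀ x y, 0 ≤ A x y) (hAs : ∀ x y, A x y = A y x) (hAr : ∀ x, ∑ y, A x y = 1 / 2)
    (g : α → ℝ) :
    ∑ x, (P *ᵥ g) x ^ 2 ≤ ∑ x, g x * (P *ᵥ g) x := by
  classical
  set Ag : α → ℝ := fun x => ∑ y, A x y * g y with hAg
  have hPg : ∀ x, (P *ᵥ g) x = 1 / 2 * g x + Ag x := by
    intro x
    simp only [Matrix.mulVec, dotProduct, hP, add_mul, Finset.sum_add_distrib, hAg]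
    congr 1
    simp
  have hCS : ∀ x, Ag x ^ 2 ≤ (1 / 2) * ∑ y, A x y * g y ^ 2 := by
    intro x
    have := Finset.sum_sq_le_sum_mul_sum_of_sq_le_mul (s := univ) (r := fun y => A x y * g y)
      (f := fun y => A x y) (g := fun y => A x y * g y ^ 2)
      (fun y _ => hA0 x y) (fun y _ => mul_nonneg (hA0 x y) (sq_nonneg _))
      (fun y _ => le_of_eq (by ring))
    simpa [hAg, hAr x] using this
  have hsum : ∑ x, Ag x ^ 2 ≤ (1 / 4) * ∑ y, g y ^ 2 := by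
    calc ∑ x, Ag x ^ 2 ≤ ∑ x, (1 / 2) * ∑ y, A x y * g y ^ 2 := Finset.sum_le_sum fun x _ => hCS x
      _ = (1 / 2) * ∑ y, ∑ x, A x y * g y ^ 2 := by rw [← Finset.mul_sum, Finset.sum_comm]
      _ = (1 / 2) * ∑ y, (1 / 2) * g y ^ 2 := by
          congr 1
          refine Finset.sum_congr rfl fun y _ => ?_
          rw [← Finset.sum_mul]
          have : ∑ x, A x y = 1 / 2 := by
            rw [← hAr y]; exact Finset.sum_congr rfl fun x _ => hAs x y
          rw [this]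
      _ = (1 / 4) * ∑ y, g y ^ 2 := by rw [← Finset.mul_sum]; ring
  have h1 : ∑ x, (P *ᵥ g) x ^ 2
      = (1 / 4) * ∑ x, g x ^ 2 + ∑ x, g x * Ag x + ∑ x, Ag x ^ 2 := by
    rw [Finset.mul_sum, ← Finset.sum_add_distrib, ← Finset.sum_add_distrib]
    refine Finset.sum_congr rfl fun x _ => ?_
    rw [hPg]; ring
  have h2 : ∑ x, g x * (P *ᵥ g) x = (1 / 2) * ∑ x, g x ^ 2 + ∑ x, g x * Ag x := by
    rw [Finset.mul_sum, ← Finset.sum_add_distrib]
    refine Finset.sum_congr rfl fun x _ => ?_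
    rw [hPg]; ring
  rw [h1, h2]
  have : 0 ≤ ∑ x, g x ^ 2 := Finset.sum_nonneg fun x _ => sq_nonneg _
  nlinarith

theorem isSymm_of_lazy
    (hP : ∀ x y, P x y = (if x = y then 1 / 2 else 0) + A x y)
    (hAs : ∀ x y, A x y = A y x) : P.IsSymm := by
  ext x y
  rw [Matrix.transpose_apply, hP, hP, hAs y x]
  by_cases h : x = y
  · subst h; rfl
  · rw [if_neg h, if_neg (Ne.symm h)]

/-- The kernel maps functions supported on a closed class to functions supported on it. -/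
theorem mulVec_supp (Ω : Finset α)
    (hP : ∀ x y, P x y = (if x = y then 1 / 2 else 0) + A x y)
    (hAs : ∀ x y, A x y = A y x)
    (hΩ : ∀ x ∈ Ω, ∀ y, y ∉ Ω → A x y = 0)
    (g : α → ℝ) (hg : ∀ x, x ∉ Ω → g x = 0) : ∀ x, x ∉ Ω → (P *ᵥ g) x = 0 := by
  intro x hx
  refine Finset.sum_eq_zero fun y _ => ?_
  by_cases hy : y ∈ Ω
  · have hxy : x ≠ y := fun h => hx (h ▸ hy)
    have : P x y = 0 := by rw [hP, if_neg hxy, hAs, hΩ y hy x hx]; simp
    simp [this]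
  · simp [hg y hy]

/-- The kernel preserves the total mass. -/
theorem sum_mulVec
    (hP : ∀ x y, P x y = (if x = y then 1 / 2 else 0) + A x y)
    (hAs : ∀ x y, A x y = A y x) (hAr : ∀ x, ∑ y, A x y = 1 / 2)
    (g : α → ℝ) : ∑ x, (P *ᵥ g) x = ∑ x, g x := by
  classical
  have hcol : ∀ y, ∑ x, P x y = 1 := by
    intro y
    simp only [hP, Finset.sum_add_distrib]
    have : ∑ x, A x y = 1 / 2 := by
      rw [← hAr y]; exact Finset.sum_congr rfl fun x _ => hAs x y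
    rw [this]
    simp
    norm_num
  simp only [Matrix.mulVec, dotProduct]
  rw [Finset.sum_comm]
  refine Finset.sum_congr rfl fun y _ => ?_
  rw [← Finset.sum_mul, hcol, one_mul]

/-- Contraction on mean-zero functions supported on the class `Ω`. -/
theorem contraction (Ω : Finset α) (hne : Ω.Nonempty) (K : ℝ) (hK : 0 < K)
    (hP : ∀ x y, P x y = (if x = y then 1 / 2 else 0) + A x y)
    (hA0 : ∀ x y, 0 ≤ A x y) (hAs : ∀ x y, A x y = A y x) (hAr : ∀ x, ∑ y, A x y = 1 / 2)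
    (hΩ : ∀ x ∈ Ω, ∀ y, y ∉ Ω → A x y = 0)
    (H : ∀ f : α → ℝ,
      (Ω.card : ℝ) * (∑ G ∈ Ω, f G ^ 2) - (∑ G ∈ Ω, f G) ^ 2 ≤
        K * Ω.card * ∑ G ∈ Ω, f G * (f G - ∑ G' ∈ Ω, P G G' * f G'))
    (g : α → ℝ) (hg : ∀ x, x ∉ Ω → g x = 0) (hg0 : ∑ x, g x = 0) :
    ∑ x, (P *ᵥ g) x ^ 2 ≤ (1 - 1 / K) * ∑ x, g x ^ 2 := by
  classical
  have hN : (0 : ℝ) < Ω.card := by exact_mod_cast hne.card_pos
  have hsum : ∀ F : α → ℝ, (∀ x, x ∉ Ω → F x = 0) → ∑ G ∈ Ω, F G = ∑ x, F x := fun F hF =>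
    Finset.sum_subset (Finset.subset_univ _) fun x _ hx => hF x hx
  have hinner : ∀ G, ∑ G' ∈ Ω, P G G' * g G' = (P *ᵥ g) G := by
    intro G
    simp only [Matrix.mulVec, dotProduct]
    exact hsum _ fun x hx => by simp [hg x hx]
  have h := H g
  rw [hsum (fun x => g x ^ 2) (fun x hx => by simp [hg x hx]), hsum g hg, hg0] at h
  have h3 : ∑ G ∈ Ω, g G * (g G - ∑ G' ∈ Ω, P G G' * g G')
      = ∑ x, g x ^ 2 - ∑ x, g x * (P *ᵥ g) x := by
    rw [hsum (fun G => g G * (g G - ∑ G' ∈ Ω, P G G' * g G')) (fun x hx => by simp [hg x hx]),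
      ← Finset.sum_sub_distrib]
    refine Finset.sum_congr rfl fun x _ => ?_
    rw [hinner]; ring
  rw [h3] at h
  set S := ∑ x, g x ^ 2
  set T := ∑ x, g x * (P *ᵥ g) x
  have h4 : S ≤ K * (S - T) := by
    have : (Ω.card : ℝ) * S ≤ (Ω.card : ℝ) * (K * (S - T)) := by nlinarith
    exact le_of_mul_le_mul_left this hN
  have h5 : T ≤ (1 - 1 / K) * S := by
    have : S / K ≤ S - T := by
      rw [div_le_iff₀ hK]; linarith
    have e : (1 - 1 / K) * S = S - S / K := by ring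
    rw [e]; linarith
  exact (sum_sq_mulVec_le P A hP hA0 hAs hAr g).trans h5

theorem mulVec_unif (Ω : Finset α) (hne : Ω.Nonempty)
    (hP : ∀ x y, P x y = (if x = y then 1 / 2 else 0) + A x y)
    (hAs : ∀ x y, A x y = A y x) (hAr : ∀ x, ∑ y, A x y = 1 / 2)
    (hΩ : ∀ x ∈ Ω, ∀ y, y ∉ Ω → A x y = 0) :
    P *ᵥ unifOn Ω = unifOn Ω := by
  classical
  funext x
  by_cases hx : x ∈ Ω
  · have hrow : ∑ y, P x y = 1 := by
      simp only [hP, Finset.sum_add_distrib, hAr x]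
      simp
      norm_num
    have hz : ∀ y, y ∉ Ω → P x y = 0 := by
      intro y hy
      have hxy : x ≠ y := fun h => hy (h ▸ hx)
      rw [hP, if_neg hxy, hΩ x hx y hy]; simp
    have : (P *ᵥ unifOn Ω) x = ∑ y, P x y * (1 / (Ω.card : ℝ)) := by
      simp only [Matrix.mulVec, dotProduct, unifOn]
      refine Finset.sum_congr rfl fun y _ => ?_
      by_cases hy : y ∈ Ω
      · simp [hy]
      · simp [hy, hz y hy]
    rw [this, ← Finset.sum_mul, hrow, one_mul]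
    simp [unifOn, hx]
  · have hg : ∀ x, x ∉ Ω → unifOn Ω x = 0 := fun x hx => by simp [unifOn, hx]
    rw [mulVec_supp P A Ω hP hAs hΩ _ hg x hx, hg x hx]

theorem sum_unif (Ω : Finset α) (hne : Ω.Nonempty) : ∑ x, unifOn Ω x = 1 := by
  classical
  have hN : (Ω.card : ℝ) ≠ 0 := by
    have := hne.card_pos
    positivity
  rw [← Finset.sum_subset (Finset.subset_univ Ω)
    (fun x _ hx => by simp [unifOn, hx])]
  rw [Finset.sum_congr rfl (fun x hx => by simp [unifOn, hx] : ∀ x ∈ Ω, unifOn Ω x = (Ω.card : ℝ)⁻¹)]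
  simp [hN]

/-- **Abstract L² mixing.** -/
theorem tv_of_poincare_abstract (Ω : Finset α) (hne : Ω.Nonempty) (K : ℝ) (hK : 1 ≤ K)
    (hP : ∀ x y, P x y = (if x = y then 1 / 2 else 0) + A x y)
    (hA0 : ∀ x y, 0 ≤ A x y) (hAs : ∀ x y, A x y = A y x) (hAr : ∀ x, ∑ y, A x y = 1 / 2)
    (hΩ : ∀ x ∈ Ω, ∀ y, y ∉ Ω → A x y = 0)
    (H : ∀ f : α → ℝ,
      (Ω.card : ℝ) * (∑ G ∈ Ω, f G ^ 2) - (∑ G ∈ Ω, f G) ^ 2 ≤
        K * Ω.card * ∑ G ∈ Ω, f G * (f G - ∑ G' ∈ Ω, P G G' * f G'))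
    (t : ℕ) (ht : (Ω.card : ℝ) * ((1 - 1 / K) ^ t * 4) ≤ 1 / 4) (G : α) (hG : G ∈ Ω) :
    tvDist (fun G' => (P ^ t) G G') (unifOn Ω) ≤ 1 / 4 := by
  classical
  have hK0 : 0 < K := by linarith
  have hρ : 0 ≤ 1 - 1 / K := by
    have : 1 / K ≤ 1 := by rw [div_le_one hK0]; exact hK
    linarith
  have hsymm : P.IsSymm := isSymm_of_lazy P A hP hAs
  have hsymmt : (P ^ t).IsSymm := hsymm.pow t
  -- the test function
  set e : α → ℝ := fun x => if x = G then 1 else 0 with he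
  set π := unifOn Ω with hπ
  set h : α → ℝ := fun x => e x - π x with hh
  have hπs : ∀ x, x ∉ Ω → π x = 0 := fun x hx => by simp [hπ, unifOn, hx]
  have hes : ∀ x, x ∉ Ω → e x = 0 := fun x hx => by
    have : x ≠ G := fun h => hx (h ▸ hG)
    simp [he, this]
  have hhs : ∀ x, x ∉ Ω → h x = 0 := fun x hx => by simp [hh, hπs x hx, hes x hx]
  have hsume : ∑ x, e x = 1 := by simp [he]
  have hh0 : ∑ x, h x = 0 := by
    simp only [hh, Finset.sum_sub_distrib, hsume, hπ, sum_unif Ω hne]; norm_num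
  have hPπ : P *ᵥ π = π := mulVec_unif P A Ω hne hP hAs hAr hΩ
  -- iterates
  have hiter : ∀ s : ℕ, (∀ x, x ∉ Ω → ((P ^ s) *ᵥ h) x = 0) ∧ ∑ x, ((P ^ s) *ᵥ h) x = 0 ∧
      ∑ x, ((P ^ s) *ᵥ h) x ^ 2 ≤ (1 - 1 / K) ^ s * ∑ x, h x ^ 2 := by
    intro s
    induction s with
    | zero =>
      refine ⟨fun x hx => by simpa using hhs x hx, by simpa using hh0, by simp⟩
    | succ s ih =>
      obtain ⟨h1, h2, h3⟩ := ih
      have e1 : (P ^ (s + 1)) *ᵥ h = P *ᵥ ((P ^ s) *ᵥ h) := by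
        rw [pow_succ', Matrix.mulVec_mulVec]
      rw [e1]
      refine ⟨mulVec_supp P A Ω hP hAs hΩ _ h1, ?_, ?_⟩
      · rw [sum_mulVec P A hP hAs hAr, h2]
      · calc _ ≤ (1 - 1 / K) * ∑ x, ((P ^ s) *ᵥ h) x ^ 2 :=
              contraction P A Ω hne K hK0 hP hA0 hAs hAr hΩ H _ h1 h2
          _ ≤ (1 - 1 / K) * ((1 - 1 / K) ^ s * ∑ x, h x ^ 2) :=
              mul_le_mul_of_nonneg_left h3 hρ
          _ = _ := by rw [pow_succ]; ring
  -- identification of the iterate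
  have hPtπ : ∀ s : ℕ, (P ^ s) *ᵥ π = π := by
    intro s
    induction s with
    | zero => simp
    | succ s ih => rw [pow_succ', ← Matrix.mulVec_mulVec, ih, hPπ]
  set u := (P ^ t) *ᵥ h with hu
  have hue : ∀ y, u y = (P ^ t) G y - π y := by
    intro y
    have : h = e - π := rfl
    rw [hu, this, Matrix.mulVec_sub, hPtπ]
    simp only [Pi.sub_apply, Matrix.mulVec, dotProduct, he]
    congr 1
    simp only [mul_ite, mul_one, mul_zero, Finset.sum_ite_eq', Finset.mem_univ, if_true]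
    exact hsymmt.apply G y
  -- bound on `‖h‖²`
  have hh2 : ∑ x, h x ^ 2 ≤ 4 := by
    have h1 : ∑ x, e x ^ 2 = 1 := by simp [he]
    have h2 : ∑ x, π x ^ 2 ≤ 1 := by
      have hle : ∀ x, π x ^ 2 ≤ π x := by
        intro x
        by_cases hx : x ∈ Ω
        · have hc : (1 : ℝ) ≤ Ω.card := by exact_mod_cast hne.card_pos
          have h01 : 0 ≤ π x ∧ π x ≤ 1 := by
            simp only [hπ, unifOn, hx, if_true]
            refine ⟨by positivity, ?_⟩
            rw [div_le_one (by linarith)]; exact hc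
          nlinarith
        · simp [hπs x hx]
      calc _ ≤ ∑ x, π x := Finset.sum_le_sum fun x _ => hle x
        _ = 1 := sum_unif Ω hne
    calc ∑ x, h x ^ 2 ≤ ∑ x, (2 * e x ^ 2 + 2 * π x ^ 2) :=
          Finset.sum_le_sum fun x _ => by
            simp only [hh]; nlinarith [sq_nonneg (e x + π x)]
      _ = 2 * ∑ x, e x ^ 2 + 2 * ∑ x, π x ^ 2 := by
          rw [Finset.sum_add_distrib, Finset.mul_sum, Finset.mul_sum]
      _ ≤ 4 := by rw [h1]; linarith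
  obtain ⟨hus, -, hu2⟩ := hiter t
  have hu2' : ∑ x, u x ^ 2 ≤ (1 - 1 / K) ^ t * 4 :=
    hu2.trans (mul_le_mul_of_nonneg_left hh2 (pow_nonneg hρ t))
  -- Cauchy–Schwarz
  have hCS : (∑ y ∈ Ω, |u y|) ^ 2 ≤ Ω.card * ∑ y ∈ Ω, |u y| ^ 2 := sq_sum_le_card_mul_sum_sq
  have hsub : ∑ y ∈ Ω, |u y| ^ 2 ≤ ∑ x, u x ^ 2 := by
    calc ∑ y ∈ Ω, |u y| ^ 2 = ∑ y ∈ Ω, u y ^ 2 := by simp
      _ ≤ ∑ x, u x ^ 2 :=
        Finset.sum_le_sum_of_subset_of_nonneg (Finset.subset_univ _) fun _ _ _ => sq_nonneg _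
  have hCard : (0 : ℝ) ≤ Ω.card := by positivity
  have hfinal : (∑ y ∈ Ω, |u y|) ^ 2 ≤ (1 / 2) ^ 2 := by
    calc _ ≤ (Ω.card : ℝ) * ∑ y ∈ Ω, |u y| ^ 2 := hCS
      _ ≤ (Ω.card : ℝ) * ((1 - 1 / K) ^ t * 4) :=
        mul_le_mul_of_nonneg_left (hsub.trans hu2') hCard
      _ ≤ 1 / 4 := ht
      _ = (1 / 2) ^ 2 := by norm_num
  have hle : ∑ y ∈ Ω, |u y| ≤ 1 / 2 := by
    have h0 : 0 ≤ ∑ y ∈ Ω, |u y| := Finset.sum_nonneg fun _ _ => abs_nonneg _
    exact abs_le_of_sq_le_sq' hfinal (by norm_num) |>.2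
  have hsumU : ∑ y, |(P ^ t) G y - π y| = ∑ y ∈ Ω, |u y| := by
    rw [← Finset.sum_subset (Finset.subset_univ Ω)]
    · exact Finset.sum_congr rfl fun y _ => by rw [hue]
    · intro y _ hy
      have h0 : u y = 0 := hus y hy
      rw [hue] at h0
      simp [h0]
  unfold tvDist
  rw [hsumU]
  linarith

end Abstract

end Crest.Agent.Lib.Switch
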